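import Mathlib

open Filter Topology

namespace Vale.Agent.P043

/-! Invariant means on bounded sequences and the averaging operators they induce. -/

/-- Bounded real sequences. -/
def BddSeq : Submodule ℝ (ℕ → ℝ) where
  carrier := {a | ∃ C, ∀ n, |a n| ≤ C}
  zero_mem' := ⟨0, fun n => by simp⟩
  add_mem' := by
    rintro a b ⟨A, hA⟩ ⟨B, hB⟩
    refine ⟨A + B, fun n => ?_⟩
    exact (abs_add_le _ _).trans (add_le_add (hA n) (hB n))
  smul_mem' := by
    rintro c a ⟨A, hA⟩
    refine ⟨|c| * A, fun n => ?_⟩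
    simp only [Pi.smul_apply, smul_eq_mul, abs_mul]
    exact mul_le_mul_of_nonneg_left (hA n) (abs_nonneg _)

/-- The Cesàro averages of a sequence. -/
noncomputable def ces (a : ℕ → ℝ) (N : ℕ) : ℝ := (∑ i ∈ Finset.range (N + 1), a i) / ((N : ℝ) + 1)

lemma ces_abs_le {a : ℕ → ℝ} {C : ℝ} (h : ∀ n, |a n| ≤ C) (N : ℕ) : |ces a N| ≤ C := by
  have hpos : (0 : ℝ) < (N : ℝ) + 1 := by positivity
  rw [ces, abs_div, abs_of_pos hpos, div_le_iff₀ hpos]
  calc |∑ i ∈ Finset.range (N + 1), a i| ≤ ∑ i ∈ Finset.range (N + 1), |a i| :=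
        Finset.abs_sum_le_sum_abs _ _
    _ ≤ ∑ _i ∈ Finset.range (N + 1), C := Finset.sum_le_sum fun i _ => h i
    _ = C * ((N : ℝ) + 1) := by
        simp [mul_comm]

lemma exists_ces_lim (a : BddSeq) :
    ∃ L : ℝ, Tendsto (ces a.1) (hyperfilter ℕ : Filter ℕ) (𝓝 L) := by
  obtain ⟨C, hC⟩ := a.2
  have hmem : ((hyperfilter ℕ).map (ces a.1) : Filter ℝ) ≤ 𝓟 (Set.Icc (-C) C) := by
    have : ∀ N, ces a.1 N ∈ Set.Icc (-C) C := fun N => abs_le.mp (ces_abs_le hC N)
    rw [Filter.le_principal_iff, Ultrafilter.coe_map, Filter.mem_map]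
    exact Filter.univ_mem' this
  obtain ⟨L, _, hL⟩ := isCompact_Icc.ultrafilter_le_nhds ((hyperfilter ℕ).map (ces a.1)) hmem
  exact ⟨L, hL⟩

/-- The value of the mean, as a function. -/
noncomputable def bmeanFun (a : BddSeq) : ℝ := Classical.choose (exists_ces_lim a)

lemma bmeanFun_spec (a : BddSeq) :
    Tendsto (ces a.1) (hyperfilter ℕ : Filter ℕ) (𝓝 (bmeanFun a)) :=
  Classical.choose_spec (exists_ces_lim a)

lemma ces_add (a b : ℕ → ℝ) (N : ℕ) : ces (a + b) N = ces a N + ces b N := by
  simp only [ces, Pi.add_apply, Finset.sum_add_distrib, add_div]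

lemma ces_smul (c : ℝ) (a : ℕ → ℝ) (N : ℕ) : ces (c • a) N = c * ces a N := by
  simp only [ces, Pi.smul_apply, smul_eq_mul, ← Finset.mul_sum, mul_div_assoc]

/-- The Banach mean on bounded sequences. -/
noncomputable def bmean : BddSeq →ₗ[ℝ] ℝ where
  toFun := bmeanFun
  map_add' := by
    intro a b
    have h1 := (bmeanFun_spec a).add (bmeanFun_spec b)
    have h2 := bmeanFun_spec (a + b)
    have h3 : ces (a + b : BddSeq).1 = fun N => ces a.1 N + ces b.1 N := by
      funext N
      exact ces_add a.1 b.1 N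
    rw [h3] at h2
    exact tendsto_nhds_unique h2 h1
  map_smul' := by
    intro c a
    have h1 := (bmeanFun_spec a).const_mul c
    have h2 := bmeanFun_spec (c • a)
    have h3 : ces (c • a : BddSeq).1 = fun N => c * ces a.1 N := by
      funext N
      exact ces_smul c a.1 N
    rw [h3] at h2
    exact tendsto_nhds_unique h2 h1

lemma bmean_spec (a : BddSeq) :
    Tendsto (ces a.1) (hyperfilter ℕ : Filter ℕ) (𝓝 (bmean a)) := bmeanFun_spec a

lemma bmean_mono {a b : BddSeq} (h : ∀ n, a.1 n ≤ b.1 n) : bmean a ≤ bmean b := by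
  refine le_of_tendsto_of_tendsto' (bmean_spec a) (bmean_spec b) fun N => ?_
  have hpos : (0 : ℝ) < (N : ℝ) + 1 := by positivity
  rw [ces, ces]
  exact div_le_div_of_nonneg_right (Finset.sum_le_sum fun i _ => h i) hpos.le

lemma ces_const (c : ℝ) (N : ℕ) : ces (fun _ => c) N = c := by
  have hpos : (N : ℝ) + 1 ≠ 0 := by positivity
  simp only [ces, Finset.sum_const, Finset.card_range, nsmul_eq_mul]
  push_cast
  field_simp

lemma const_mem (c : ℝ) : (fun _ => c : ℕ → ℝ) ∈ BddSeq := ⟨|c|, fun _ => le_rfl⟩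

lemma bmean_const (c : ℝ) : bmean ⟨fun _ => c, const_mem c⟩ = c := by
  have h1 := bmean_spec ⟨fun _ => c, const_mem c⟩
  have h2 : ces (fun _ => c) = fun _ => c := by
    funext N
    exact ces_const c N
  simp only [h2] at h1
  exact tendsto_nhds_unique h1 tendsto_const_nhds

/-- The shift of a bounded sequence. -/
def shiftSeq (a : BddSeq) : BddSeq :=
  ⟨fun n => a.1 (n + 1), by
    obtain ⟨C, hC⟩ := a.2
    exact ⟨C, fun n => hC _⟩⟩

lemma ces_shift_sub (a : ℕ → ℝ) (N : ℕ) :
    ces (fun n => a (n + 1)) N - ces a N = (a (N + 1) - a 0) / ((N : ℝ) + 1) := by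
  have h1 : ∑ i ∈ Finset.range (N + 1), a (i + 1)
      = ∑ i ∈ Finset.range (N + 1), a i + (a (N + 1) - a 0) := by
    have h2 := Finset.sum_range_succ' a (N + 1)
    have h3 := Finset.sum_range_succ a (N + 1)
    linarith
  simp only [ces]
  rw [h1, add_div]
  ring

lemma bmean_shift (a : BddSeq) : bmean (shiftSeq a) = bmean a := by
  obtain ⟨C, hC⟩ := a.2
  have h0 : Tendsto (fun N : ℕ => (a.1 (N + 1) - a.1 0) / ((N : ℝ) + 1)) atTop (𝓝 0) := by
    have hC0 : 0 ≤ C := (abs_nonneg _).trans (hC 0)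
    refine squeeze_zero_norm (a := fun N : ℕ => (2 * C) * (1 / ((N : ℝ) + 1))) ?_ ?_
    · intro N
      have hpos : (0 : ℝ) < (N : ℝ) + 1 := by positivity
      rw [Real.norm_eq_abs, abs_div, abs_of_pos hpos, mul_one_div]
      refine div_le_div_of_nonneg_right ?_ hpos.le
      have h1 := abs_sub (a.1 (N + 1)) (a.1 0)
      have h2 := hC (N + 1)
      have h3 := hC 0
      linarith
    · have := (tendsto_one_div_add_atTop_nhds_zero_nat (𝕜 := ℝ)).const_mul (2 * C)
      simpa using this
  have h1 : Tendsto (fun N : ℕ => (a.1 (N + 1) - a.1 0) / ((N : ℝ) + 1))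
      (hyperfilter ℕ : Filter ℕ) (𝓝 0) := by
    refine h0.mono_left ?_
    rw [← Nat.cofinite_eq_atTop]
    exact Filter.hyperfilter_le_cofinite
  have h2 := bmean_spec (shiftSeq a)
  have h3 := bmean_spec a
  have h4 := h2.sub h3
  have h5 : (fun N => ces (shiftSeq a).1 N - ces a.1 N)
      = fun N : ℕ => (a.1 (N + 1) - a.1 0) / ((N : ℝ) + 1) := by
    funext N
    exact ces_shift_sub a.1 N
  have h6 : Tendsto (fun N : ℕ => (a.1 (N + 1) - a.1 0) / ((N : ℝ) + 1))
      (hyperfilter ℕ : Filter ℕ) (𝓝 (bmean (shiftSeq a) - bmean a)) := by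
    rw [← h5]
    exact h4
  have h7 := tendsto_nhds_unique h6 h1
  linarith

lemma le_bmean {a : BddSeq} {c : ℝ} (h : ∀ n, c ≤ a.1 n) : c ≤ bmean a := by
  have := bmean_mono (a := ⟨fun _ => c, const_mem c⟩) (b := a) h
  rwa [bmean_const] at this

lemma bmean_le {a : BddSeq} {c : ℝ} (h : ∀ n, a.1 n ≤ c) : bmean a ≤ c := by
  have := bmean_mono (a := a) (b := ⟨fun _ => c, const_mem c⟩) h
  rwa [bmean_const] at this

section group

variable {G : Type*} [AddCommGroup G]

/-- Bounded real functions on an abelian group. -/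
def Bd (G : Type*) : Submodule ℝ (G → ℝ) where
  carrier := {a | ∃ C, ∀ n, |a n| ≤ C}
  zero_mem' := ⟨0, fun n => by simp⟩
  add_mem' := by
    rintro a b ⟨A, hA⟩ ⟨B, hB⟩
    refine ⟨A + B, fun n => ?_⟩
    exact (abs_add_le _ _).trans (add_le_add (hA n) (hB n))
  smul_mem' := by
    rintro c a ⟨A, hA⟩
    refine ⟨|c| * A, fun n => ?_⟩
    simp only [Pi.smul_apply, smul_eq_mul, abs_mul]
    exact mul_le_mul_of_nonneg_left (hA n) (abs_nonneg _)

/-- Translation of bounded functions. -/
def Tr (y : G) : Bd G →ₗ[ℝ] Bd G where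
  toFun h := ⟨fun x => h.1 (x + y), by
    obtain ⟨C, hC⟩ := h.2
    exact ⟨C, fun x => hC _⟩⟩
  map_add' := by
    intro a b
    rfl
  map_smul' := by
    intro c a
    rfl

@[simp] lemma Tr_apply (y : G) (h : Bd G) (x : G) : (Tr y h).1 x = h.1 (x + y) := rfl

lemma Tr_add (a b : G) (h : Bd G) : Tr (a + b) h = Tr a (Tr b h) := by
  apply Subtype.ext
  funext x
  simp only [Tr_apply]
  rw [add_assoc, add_comm a b]

lemma Tr_zero (h : Bd G) : Tr (0 : G) h = h := by
  apply Subtype.ext
  funext x
  simp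

lemma Tr_comm (a b : G) (h : Bd G) : Tr a (Tr b h) = Tr b (Tr a h) := by
  rw [← Tr_add, ← Tr_add, add_comm]

/-- The sequence of values of a bounded function along a ray. -/
def ray (h : Bd G) (x v : G) : BddSeq :=
  ⟨fun t => h.1 (x + t • v), by
    obtain ⟨C, hC⟩ := h.2
    exact ⟨C, fun t => hC _⟩⟩

/-- The mean of a bounded function along the direction `v`. -/
noncomputable def Em (v : G) : Bd G →ₗ[ℝ] Bd G where
  toFun h := ⟨fun x => bmean (ray h x v), by
    obtain ⟨C, hC⟩ := h.2
    refine ⟨C, fun x => abs_le.mpr ⟨?_, ?_⟩⟩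
    · exact le_bmean fun n => (abs_le.mp (hC _)).1
    · exact bmean_le fun n => (abs_le.mp (hC _)).2⟩
  map_add' := by
    intro a b
    apply Subtype.ext
    funext x
    have : ray (a + b) x v = ray a x v + ray b x v := rfl
    change bmean (ray (a + b) x v) = bmean (ray a x v) + bmean (ray b x v)
    rw [this, map_add]
  map_smul' := by
    intro c a
    apply Subtype.ext
    funext x
    have : ray (c • a) x v = c • ray a x v := rfl
    change bmean (ray (c • a) x v) = c * bmean (ray a x v)
    rw [this, map_smul, smul_eq_mul]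

lemma Em_apply (v : G) (h : Bd G) (x : G) : (Em v h).1 x = bmean (ray h x v) := rfl

lemma Em_Tr (v y : G) (h : Bd G) : Em v (Tr y h) = Tr y (Em v h) := by
  apply Subtype.ext
  funext x
  simp only [Em_apply, Tr_apply]
  have : ray (Tr y h) x v = ray h (x + y) v := by
    apply Subtype.ext
    funext t
    simp only [ray, Tr_apply]
    rw [add_right_comm]
  rw [this]

lemma Tr_Em_self (v : G) (h : Bd G) : Tr v (Em v h) = Em v h := by
  apply Subtype.ext
  funext x
  simp only [Em_apply, Tr_apply]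
  have : ray h (x + v) v = shiftSeq (ray h x v) := by
    apply Subtype.ext
    funext t
    simp only [ray, shiftSeq]
    rw [add_assoc, succ_nsmul, add_comm v]
  rw [this, bmean_shift]

lemma nsmul_fix {v : G} {h : Bd G} (hv : Tr v h = h) (x : G) (t : ℕ) : h.1 (x + t • v) = h.1 x := by
  induction t with
  | zero => simp
  | succ t ih =>
    rw [succ_nsmul, ← add_assoc]
    have := congrArg (fun k : Bd G => k.1 (x + t • v)) hv
    simp only [Tr_apply] at this
    rw [this, ih]

lemma Em_fix {v : G} {h : Bd G} (hv : Tr v h = h) : Em v h = h := by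
  apply Subtype.ext
  funext x
  simp only [Em_apply]
  have : ray h x v = ⟨fun _ => h.1 x, const_mem _⟩ := by
    apply Subtype.ext
    funext t
    exact nsmul_fix hv x t
  rw [this, bmean_const]

/-- Iterated means along a list of directions. -/
noncomputable def EL : List G → (Bd G →ₗ[ℝ] Bd G)
  | [] => LinearMap.id
  | v :: vs => (Em v).comp (EL vs)

@[simp] lemma EL_nil (h : Bd G) : EL [] h = h := rfl

@[simp] lemma EL_cons (v : G) (vs : List G) (h : Bd G) : EL (v :: vs) h = Em v (EL vs h) := rfl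

lemma EL_Tr (vs : List G) (y : G) (h : Bd G) : EL vs (Tr y h) = Tr y (EL vs h) := by
  induction vs with
  | nil => rfl
  | cons v vs ih => simp only [EL_cons, ih, Em_Tr]

lemma EL_inv {vs : List G} {v : G} (hv : v ∈ vs) (h : Bd G) : Tr v (EL vs h) = EL vs h := by
  induction vs with
  | nil => simp at hv
  | cons w vs ih =>
    simp only [EL_cons]
    rcases List.mem_cons.mp hv with rfl | hm
    · exact Tr_Em_self _ _
    · rw [← Em_Tr, ih hm]

lemma EL_fix {vs : List G} {h : Bd G} (hv : ∀ v ∈ vs, Tr v h = h) : EL vs h = h := by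
  induction vs with
  | nil => rfl
  | cons w vs ih =>
    simp only [EL_cons]
    rw [ih fun v hm => hv v (List.mem_cons_of_mem _ hm)]
    exact Em_fix (hv w List.mem_cons_self)

/-- Invariance under generators gives invariance under the generated subgroup. -/
lemma inv_closure {S : Set G} {h : Bd G} (hS : ∀ v ∈ S, Tr v h = h) {y : G}
    (hy : y ∈ AddSubgroup.closure S) : Tr y h = h := by
  induction hy using AddSubgroup.closure_induction with
  | mem x hx => exact hS x hx
  | zero => exact Tr_zero h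
  | add a b _ _ ha hb => rw [Tr_add, hb, ha]
  | neg a _ ha =>
    have h1 := Tr_add (-a) a h
    rw [neg_add_cancel, Tr_zero, ha] at h1
    exact h1.symm

lemma EL_inv_closure (vs : List G) {y : G} (hy : y ∈ AddSubgroup.closure {v | v ∈ vs}) (h : Bd G) :
    Tr y (EL vs h) = EL vs h :=
  inv_closure (fun _ hv => EL_inv hv h) hy

lemma Em_le {v x : G} {h : Bd G} {c : ℝ} (hc : ∀ t : ℕ, c ≤ h.1 (x + t • v)) : c ≤ (Em v h).1 x :=
  le_bmean hc

lemma Em_ge {v x : G} {h : Bd G} {c : ℝ} (hc : ∀ t : ℕ, h.1 (x + t • v) ≤ c) : (Em v h).1 x ≤ c :=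
  bmean_le hc

lemma EL_le {vs : List G} {x : G} {h : Bd G} {c : ℝ}
    (hc : ∀ l ∈ AddSubgroup.closure {v | v ∈ vs}, c ≤ h.1 (x + l)) : c ≤ (EL vs h).1 x := by
  induction vs generalizing x with
  | nil =>
    have := hc 0 (AddSubgroup.zero_mem _)
    simpa using this
  | cons w vs ih =>
    simp only [EL_cons]
    refine Em_le fun t => ?_
    refine ih fun l hl => ?_
    have h1 : l + t • w ∈ AddSubgroup.closure {v : G | v ∈ w :: vs} := by
      refine AddSubgroup.add_mem _ ?_ ?_
      · refine (AddSubgroup.closure_le _).mpr (fun v hv => ?_) hl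
        have hv' : v ∈ {v : G | v ∈ w :: vs} := List.mem_cons_of_mem _ hv
        exact AddSubgroup.subset_closure hv'
      · have hw : w ∈ {v : G | v ∈ w :: vs} := List.mem_cons_self
        exact AddSubgroup.nsmul_mem _ (AddSubgroup.subset_closure hw) _
    have h2 := hc _ h1
    rw [add_right_comm, add_assoc, add_comm l] at *
    exact h2

lemma EL_ge {vs : List G} {x : G} {h : Bd G} {c : ℝ}
    (hc : ∀ l ∈ AddSubgroup.closure {v | v ∈ vs}, h.1 (x + l) ≤ c) : (EL vs h).1 x ≤ c := by
  induction vs generalizing x with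
  | nil =>
    have := hc 0 (AddSubgroup.zero_mem _)
    simpa using this
  | cons w vs ih =>
    simp only [EL_cons]
    refine Em_ge fun t => ?_
    refine ih fun l hl => ?_
    have h1 : l + t • w ∈ AddSubgroup.closure {v : G | v ∈ w :: vs} := by
      refine AddSubgroup.add_mem _ ?_ ?_
      · refine (AddSubgroup.closure_le _).mpr (fun v hv => ?_) hl
        have hv' : v ∈ {v : G | v ∈ w :: vs} := List.mem_cons_of_mem _ hv
        exact AddSubgroup.subset_closure hv'
      · have hw : w ∈ {v : G | v ∈ w :: vs} := List.mem_cons_self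
        exact AddSubgroup.nsmul_mem _ (AddSubgroup.subset_closure hw) _
    have h2 := hc _ h1
    rw [add_right_comm, add_assoc, add_comm l] at *
    exact h2

/-- Multiple differences. -/
def mD : List G → (Bd G →ₗ[ℝ] Bd G)
  | [] => LinearMap.id
  | y :: ys => (Tr y - LinearMap.id).comp (mD ys)

@[simp] lemma mD_nil (h : Bd G) : mD [] h = h := rfl

@[simp] lemma mD_cons (y : G) (ys : List G) (h : Bd G) : mD (y :: ys) h = Tr y (mD ys h) - mD ys h :=
  rfl

lemma mD_Tr (ys : List G) (y : G) (h : Bd G) : mD ys (Tr y h) = Tr y (mD ys h) := by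
  induction ys with
  | nil => rfl
  | cons w ys ih =>
    simp only [mD_cons, ih, map_sub]
    rw [Tr_comm]

lemma mD_EL (ys : List G) (vs : List G) (h : Bd G) : mD ys (EL vs h) = EL vs (mD ys h) := by
  induction ys with
  | nil => rfl
  | cons w ys ih =>
    simp only [mD_cons, ih, map_sub, EL_Tr]

/-- Decomposition of a function annihilated by products of differences into
pieces invariant along the given lattices, up to a periodic term. -/
theorem decomp (𝓛 : AddSubgroup G) (zs : List G) (hz : 𝓛 ≤ AddSubgroup.closure {v | v ∈ zs})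
    (L : List (List G))
    (hL : L.Pairwise fun vs vs' => 𝓛 ≤ AddSubgroup.closure {v | v ∈ vs ∨ v ∈ vs'})
    (h : Bd G)
    (hann : ∀ ys : List G, List.Forall₂ (fun y vs => y ∈ vs) ys (L ++ [zs]) → mD ys h = 0) :
    ∃ P : Bd G, (∀ y ∈ 𝓛, Tr y P = P) ∧ h = (L.map fun vs => EL vs h).sum + P := by
  induction L generalizing h with
  | nil =>
    refine ⟨h, fun y hy => ?_, by simp⟩
    refine inv_closure (S := {v | v ∈ zs}) (fun v hv => ?_) (hz hy)
    have := hann [v] (List.Forall₂.cons hv List.Forall₂.nil)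
    simp only [mD_cons, mD_nil] at this
    exact sub_eq_zero.mp this
  | cons vs L ih =>
    have hL' := (List.pairwise_cons.mp hL)
    have hann' : ∀ ys : List G, List.Forall₂ (fun y vs => y ∈ vs) ys (L ++ [zs]) →
        mD ys (h - EL vs h) = 0 := by
      intro ys hys
      have hfix : ∀ v ∈ vs, Tr v (mD ys h) = mD ys h := by
        intro v hv
        have := hann (v :: ys) (List.Forall₂.cons hv hys)
        simp only [mD_cons] at this
        exact sub_eq_zero.mp this
      rw [map_sub, mD_EL, EL_fix hfix, sub_self]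
    obtain ⟨P', hP', hdec⟩ := ih hL'.2 (h - EL vs h) hann'
    refine ⟨P' - (L.map fun vs' => EL vs' (EL vs h)).sum, ?_, ?_⟩
    · intro y hy
      rw [map_sub, hP' y hy, map_list_sum]
      congr 1
      rw [List.map_map]
      congr 1
      refine List.map_congr_left fun vs' hvs' => ?_
      have hy' := hL'.1 vs' hvs' hy
      refine inv_closure (S := {v | v ∈ vs ∨ v ∈ vs'}) ?_ hy'
      rintro v (hv | hv)
      · rw [← EL_Tr, EL_inv hv]
      · exact EL_inv hv _
    · have h1 : ∀ g : Bd G, (L.map fun vs' => EL vs' (h - g)).sum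
          = (L.map fun vs' => EL vs' h).sum - (L.map fun vs' => EL vs' g).sum := by
        intro g
        clear hL hL' hann hann' hdec hP' ih
        induction L with
        | nil => simp
        | cons w L ih =>
          simp only [List.map_cons, List.sum_cons]
          rw [ih, map_sub]
          abel
      rw [h1] at hdec
      have h2 := sub_eq_iff_eq_add.mp hdec
      simp only [List.map_cons, List.sum_cons]
      calc h = (L.map fun vs' => EL vs' h).sum - (L.map fun vs' => EL vs' (EL vs h)).sum + P' + EL vs h := h2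
        _ = _ := by abel

end group

end Vale.Agent.P043
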