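import Vale.Agent.Lib.P043Tiling
import Vale.Agent.Lib.P043Mean

open MvPolynomial

namespace Vale.Agent.P043

variable {d : ℕ}

/-- A vector all of whose integer functional constraints follow from a subgroup has a multiple
in the subgroup. -/
lemma exists_mul_mem (L : AddSubgroup (Fin d → ℤ)) (y : Fin d → ℤ)
    (hL : ∀ ψ : (Fin d → ℤ) →+ ℤ, (∀ z ∈ L, ψ z = 0) → ψ y = 0) :
    ∃ D : ℕ, 0 < D ∧ D • y ∈ L := by
  classical
  let cast : (Fin d → ℤ) → (Fin d → ℚ) := fun y j => (y j : ℚ)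
  let V : Submodule ℚ (Fin d → ℚ) := Submodule.span ℚ (cast '' (L : Set (Fin d → ℤ)))
  have hV : cast y ∈ V := by
    by_contra hne
    obtain ⟨lam, hlam, hle⟩ := Submodule.exists_le_ker_of_notMem hne
    let c : Fin d → ℚ := fun j => lam (Pi.single j 1)
    let D' : ℕ := ∏ j, (c j).den
    have hD' : ∀ j, ∃ z : ℤ, (z : ℚ) = D' * c j := by
      intro j
      have hdvd : (c j).den ∣ D' := Finset.dvd_prod_of_mem _ (Finset.mem_univ j)
      obtain ⟨e, he⟩ := hdvd
      refine ⟨e * (c j).num, ?_⟩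
      rw [he]
      have hden : ((c j).den : ℚ) ≠ 0 := by exact_mod_cast (c j).den_ne_zero
      push_cast
      have := Rat.num_div_den (c j)
      field_simp at this ⊢
      nlinarith [this]
    choose z hz using hD'
    let ψ : (Fin d → ℤ) →+ ℤ :=
      { toFun := fun y => ∑ j, z j * y j
        map_zero' := by simp
        map_add' := fun a b => by
          simp only [Pi.add_apply, mul_add, Finset.sum_add_distrib] }
    have hlamcast : ∀ y : Fin d → ℤ, lam (cast y) = ∑ j, c j * (y j : ℚ) := by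
      intro y
      have : cast y = ∑ j, (y j : ℚ) • (Pi.single j 1 : Fin d → ℚ) := by
        ext j
        simp [cast, Finset.sum_apply, Pi.single_apply]
      rw [this, map_sum]
      refine Finset.sum_congr rfl fun j _ => ?_
      rw [map_smul, smul_eq_mul, mul_comm]
    have hψcast : ∀ y : Fin d → ℤ, ((ψ y : ℤ) : ℚ) = D' * lam (cast y) := by
      intro y
      rw [hlamcast, Finset.mul_sum]
      simp only [ψ]
      change (((∑ j, z j * y j : ℤ)) : ℚ) = _
      push_cast
      refine Finset.sum_congr rfl fun j _ => ?_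
      rw [hz j]
      ring
    have hD'pos : (D' : ℚ) ≠ 0 := by
      have : D' ≠ 0 := Finset.prod_ne_zero_iff.mpr fun j _ => (c j).den_ne_zero
      exact_mod_cast this
    have hψy : ψ y = 0 := by
      apply hL
      intro w hw
      have h1 : cast w ∈ V := Submodule.subset_span ⟨w, hw, rfl⟩
      have h2 : lam (cast w) = 0 := hle h1
      have := hψcast w
      rw [h2, mul_zero] at this
      exact_mod_cast this
    apply hlam
    have h3 := hψcast y
    rw [hψy] at h3
    have h4 : (D' : ℚ) * lam (cast y) = 0 := by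
      simpa using h3.symm
    exact (mul_eq_zero.mp h4).resolve_left hD'pos
  have hmem : ∀ v ∈ V, ∃ D : ℕ, 0 < D ∧ ∃ y ∈ L, (D : ℚ) • v = cast y := by
    intro v hv
    induction hv using Submodule.span_induction with
    | mem x hx =>
      obtain ⟨y, hy, rfl⟩ := hx
      exact ⟨1, one_pos, y, hy, by simp⟩
    | zero =>
      refine ⟨1, one_pos, 0, L.zero_mem, ?_⟩
      ext j
      simp [cast]
    | add x y _ _ hx hy =>
      obtain ⟨D1, hD1, y1, hy1, h1⟩ := hx
      obtain ⟨D2, hD2, y2, hy2, h2⟩ := hy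
      refine ⟨D1 * D2, Nat.mul_pos hD1 hD2, D2 • y1 + D1 • y2,
        L.add_mem (L.nsmul_mem hy1 _) (L.nsmul_mem hy2 _), ?_⟩
      ext j
      have h1j := congrFun h1 j
      have h2j := congrFun h2 j
      simp only [cast, Pi.smul_apply, smul_eq_mul, Pi.add_apply] at h1j h2j ⊢
      simp only [nsmul_eq_mul]
      push_cast
      rw [← h1j, ← h2j]
      ring
    | smul a x _ hx =>
      obtain ⟨D1, hD1, y1, hy1, h1⟩ := hx
      refine ⟨D1 * a.den, Nat.mul_pos hD1 a.den_pos, a.num • y1, L.zsmul_mem hy1 _, ?_⟩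
      ext j
      have h1j := congrFun h1 j
      simp only [cast, Pi.smul_apply, smul_eq_mul] at h1j ⊢
      push_cast
      rw [← h1j]
      have hden : (a.den : ℚ) ≠ 0 := by exact_mod_cast a.den_ne_zero
      have := Rat.num_div_den a
      calc (D1 : ℚ) * a.den * (a * x j) = (a * a.den) * (D1 * x j) := by ring
        _ = a.num * (D1 * x j) := by
          congr 1
          field_simp at this
          linarith [this]
  obtain ⟨D, hD, w, hw, hweq⟩ := hmem _ hV
  refine ⟨D, hD, ?_⟩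
  have : D • y = w := by
    ext j
    have := congrFun hweq j
    simp only [cast, Pi.smul_apply, smul_eq_mul] at this
    simp only [Pi.smul_apply, nsmul_eq_mul]
    exact_mod_cast this
  rw [this]
  exact hw

open Classical in
/-- `ω` is a set of translations of the `r`-dilate of the tile. -/
def Tile (F : Finset (Fin d → ℤ)) (ω : Set (Fin d → ℤ)) (r : ℕ) : Prop :=
  ∀ x : Fin d → ℤ, (F.filter (fun g => x - r • g ∈ ω)).card = 1

/-- All the dilates of the tile by the residue class one modulo the factorial of its size. -/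
def InOm (F : Finset (Fin d → ℤ)) (ω : Set (Fin d → ℤ)) : Prop :=
  ∀ s : ℕ, Tile F ω (1 + F.card.factorial * s)

lemma toM_injOn (F : Finset (Fin d → ℤ)) : Set.InjOn (toM F) (F : Set (Fin d → ℤ)) := by
  intro f hf g hg hfg
  have := congrArg toG hfg
  rw [toG_toM hf, toG_toM hg] at this
  exact sub_left_inj.mp this

lemma tileR_iff (F : Finset (Fin d → ℤ)) (ω : Set (Fin d → ℤ)) (r : ℕ) :
    TileR ω (F.image (toM F)) r ↔ Tile F ω r := by
  classical
  have key : ∀ x : Fin d → ℤ, ((F.image (toM F)).filter (fun f => x - r • toG f ∈ ω)).card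
      = (F.filter (fun g => (x + r • baseShift F) - r • g ∈ ω)).card := by
    intro x
    rw [Finset.filter_image, Finset.card_image_of_injOn]
    · congr 1
      refine Finset.filter_congr fun g hg => ?_
      rw [toG_toM hg, smul_sub]
      have : x - (r • g - r • baseShift F) = x + r • baseShift F - r • g := by abel
      rw [this]
    · exact (toM_injOn F).mono (fun g hg => by simpa using (Finset.mem_filter.mp hg).1)
  constructor
  · intro h x
    have h1 := h (x - r • baseShift F)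
    rw [key, sub_add_cancel] at h1
    exact h1
  · intro h x
    rw [key]
    exact h (x + r • baseShift F)

/-- The standard basis vector. -/
def eV (i : Fin d) : Fin d → ℤ := Pi.single i 1

lemma eq_sum_eV (y : Fin d → ℤ) : y = ∑ l, y l • eV l := by
  ext j
  simp [eV, Finset.sum_apply, Pi.single_apply]

lemma functional_apply (ψ : (Fin d → ℤ) →+ ℤ) (y : Fin d → ℤ) : ψ y = ∑ l, y l * ψ (eV l) := by
  conv_lhs => rw [eq_sum_eV y]
  rw [map_sum]
  refine Finset.sum_congr rfl fun l _ => ?_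
  rw [map_zsmul, smul_eq_mul]

/-- Generators of a full rank sublattice of the kernel of a functional. -/
def gens (ψ : (Fin d → ℤ) →+ ℤ) : List (Fin d → ℤ) :=
  ((List.finRange d).product (List.finRange d)).map
    fun p => ψ (eV p.1) • eV p.2 - ψ (eV p.2) • eV p.1

lemma gens_ker {ψ : (Fin d → ℤ) →+ ℤ} {v : Fin d → ℤ} (hv : v ∈ gens ψ) : ψ v = 0 := by
  obtain ⟨p, _, rfl⟩ := List.mem_map.mp hv
  rw [map_sub, map_zsmul, map_zsmul, smul_eq_mul, smul_eq_mul]
  ring

lemma ker_mul_mem_closure (ψ : (Fin d → ℤ) →+ ℤ) {y : Fin d → ℤ} (hy : ψ y = 0) (i : Fin d) :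
    ψ (eV i) • y ∈ AddSubgroup.closure {v | v ∈ gens ψ} := by
  have h1 : ψ (eV i) • y = ∑ l, y l • (ψ (eV i) • eV l - ψ (eV l) • eV i) := by
    have h2 : ∑ l, y l • (ψ (eV i) • eV l - ψ (eV l) • eV i)
        = ψ (eV i) • (∑ l, y l • eV l) - (∑ l, y l * ψ (eV l)) • eV i := by
      rw [Finset.sum_smul, Finset.smul_sum, ← Finset.sum_sub_distrib]
      refine Finset.sum_congr rfl fun l _ => ?_
      rw [smul_sub, smul_smul, smul_smul, smul_smul, mul_comm (y l)]
    rw [h2, ← functional_apply, hy, ← eq_sum_eV]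
    simp
  rw [h1]
  refine AddSubgroup.sum_mem _ fun l _ => AddSubgroup.zsmul_mem _ (AddSubgroup.subset_closure ?_) _
  refine List.mem_map.mpr ⟨(i, l), ?_, rfl⟩
  simp

/-- Independence of two functionals. -/
def Indep (ψ φ : (Fin d → ℤ) →+ ℤ) : Prop := ∀ a b : ℤ, a • ψ + b • φ = 0 → a = 0 ∧ b = 0

lemma zsmul_functional_eq_zero {ψ : (Fin d → ℤ) →+ ℤ} (hψ : ψ ≠ 0) {a : ℤ} (h : a • ψ = 0) : a = 0 := by
  obtain ⟨y, hy⟩ : ∃ y, ψ y ≠ 0 := by
    by_contra hcon
    push Not at hcon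
    exact hψ (AddMonoidHom.ext hcon)
  have := DFunLike.congr_fun h y
  simp only [AddMonoidHom.smul_apply, AddMonoidHom.zero_apply, smul_eq_mul] at this
  exact (mul_eq_zero.mp this).resolve_right hy

/-- The partner property of a relation on a finite set. -/
def Partner (F : Finset (Fin d →₀ ℕ)) (S : Finset ((Fin d →₀ ℕ) × (Fin d →₀ ℕ))) : Prop :=
  ∀ f ∈ F, ∃ g ∈ F, g ≠ f ∧ (f, g) ∈ S

lemma exists_Psi (F : Finset (Fin d →₀ ℕ)) (𝒮 : Finset (Finset ((Fin d →₀ ℕ) × (Fin d →₀ ℕ)))) :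
    ∃ Ψ : List ((Fin d → ℤ) →+ ℤ), Ψ.Pairwise Indep ∧ (∀ ψ ∈ Ψ, ψ ≠ 0) ∧
      ∀ S ∈ 𝒮, Partner F S → (∃ φ : (Fin d → ℤ) →+ ℤ, φ ≠ 0 ∧ ∀ z ∈ diffs S, φ z = 0) →
        ∃ ψ ∈ Ψ, ∀ z ∈ diffs S, ψ z = 0 := by
  classical
  induction 𝒮 using Finset.induction_on with
  | empty => exact ⟨[], List.Pairwise.nil, by simp, by simp⟩
  | insert S₀ 𝒮 _ ih =>
    obtain ⟨Ψ, h1, h2, h3⟩ := ih
    by_cases hS : Partner F S₀ ∧ (∃ φ : (Fin d → ℤ) →+ ℤ, φ ≠ 0 ∧ ∀ z ∈ diffs S₀, φ z = 0) ∧
        ¬ ∃ ψ ∈ Ψ, ∀ z ∈ diffs S₀, ψ z = 0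
    · obtain ⟨_, ⟨φ, hφ, hφz⟩, hno⟩ := hS
      refine ⟨φ :: Ψ, ?_, ?_, ?_⟩
      · refine List.pairwise_cons.mpr ⟨fun ψ hψ a b hab => ?_, h1⟩
        have hb : b = 0 := by
          by_contra hb
          apply hno
          refine ⟨ψ, hψ, fun z hz => ?_⟩
          have := DFunLike.congr_fun hab z
          simp only [AddMonoidHom.add_apply, AddMonoidHom.smul_apply, AddMonoidHom.zero_apply,
            smul_eq_mul, hφz z hz, mul_zero, zero_add] at this
          exact (mul_eq_zero.mp this).resolve_left hb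
        subst hb
        rw [zero_smul, add_zero] at hab
        exact ⟨zsmul_functional_eq_zero hφ hab, rfl⟩
      · intro ψ hψ
        rcases List.mem_cons.mp hψ with rfl | hm
        · exact hφ
        · exact h2 ψ hm
      · intro S hS hP hE
        rcases Finset.mem_insert.mp hS with rfl | hm
        · exact ⟨φ, List.mem_cons_self, hφz⟩
        · obtain ⟨ψ, hψ, hψz⟩ := h3 S hm hP hE
          exact ⟨ψ, List.mem_cons_of_mem _ hψ, hψz⟩
    · refine ⟨Ψ, h1, h2, ?_⟩
      intro S hS' hP hE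
      rcases Finset.mem_insert.mp hS' with rfl | hm
      · by_contra hcon
        exact hS ⟨hP, hE, hcon⟩
      · exact h3 S hm hP hE

lemma exists_D_of_Psi (F : Finset (Fin d →₀ ℕ))
    (hH : ∀ ψ₁ ψ₂ : (Fin d → ℤ) →+ ℤ, Indep ψ₁ ψ₂ →
      ∃ f ∈ F, ∀ g ∈ F, ψ₁ (toG g) = ψ₁ (toG f) → ψ₂ (toG g) = ψ₂ (toG f) → g = f)
    (Ψ : List ((Fin d → ℤ) →+ ℤ)) (hne : ∀ ψ ∈ Ψ, ψ ≠ 0)
    (hΨ : ∀ S ∈ (F ×ˢ F).powerset, Partner F S →
      (∃ φ : (Fin d → ℤ) →+ ℤ, φ ≠ 0 ∧ ∀ z ∈ diffs S, φ z = 0) →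
        ∃ ψ ∈ Ψ, ∀ z ∈ diffs S, ψ z = 0) :
    ∃ D : ℕ, 0 < D ∧ ∀ S ∈ (F ×ˢ F).powerset, Partner F S →
      (∀ i : Fin d, D • eV i ∈ AddSubgroup.closure (diffs S)) ∨
      (∃ ψ ∈ Ψ, ∀ v ∈ gens ψ, D • v ∈ AddSubgroup.closure (diffs S)) := by
  classical
  have hfin : ∀ (T : Finset (Fin d → ℤ)) (C : AddSubgroup (Fin d → ℤ)),
      (∀ v ∈ T, ∃ D : ℕ, 0 < D ∧ D • v ∈ C) → ∃ D : ℕ, 0 < D ∧ ∀ v ∈ T, D • v ∈ C := by
    intro T C h
    choose! E hE hEC using h
    refine ⟨∏ v ∈ T, E v, Finset.prod_pos hE, fun v hv => ?_⟩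
    obtain ⟨e, he⟩ : E v ∣ ∏ v ∈ T, E v := Finset.dvd_prod_of_mem _ hv
    rw [he, mul_comm, mul_smul]
    exact AddSubgroup.nsmul_mem _ (hEC v hv) _
  have hS : ∀ S ∈ (F ×ˢ F).powerset, ∃ D : ℕ, 0 < D ∧ (Partner F S →
      (∀ i : Fin d, D • eV i ∈ AddSubgroup.closure (diffs S)) ∨
      (∃ ψ ∈ Ψ, ∀ v ∈ gens ψ, D • v ∈ AddSubgroup.closure (diffs S))) := by
    intro S hSm
    by_cases hP : Partner F S
    · by_cases hE : ∃ φ : (Fin d → ℤ) →+ ℤ, φ ≠ 0 ∧ ∀ z ∈ diffs S, φ z = 0
      · obtain ⟨ψ, hψ, hψz⟩ := hΨ S hSm hP hE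
        have hv : ∀ v ∈ (gens ψ).toFinset, ∃ D : ℕ, 0 < D ∧ D • v ∈ AddSubgroup.closure (diffs S) := by
          intro v hv
          have hv' := List.mem_toFinset.mp hv
          refine exists_mul_mem _ v fun φ hφ => ?_
          have hφz : ∀ z ∈ diffs S, φ z = 0 := fun z hz => hφ z (AddSubgroup.subset_closure hz)
          have hnotind : ¬ Indep ψ φ := by
            intro hind
            obtain ⟨f, hf, hu⟩ := hH ψ φ hind
            obtain ⟨g, hg, hgne, hfg⟩ := hP f hf
            have hz : toG f - toG g ∈ diffs S := ⟨(f, g), hfg, rfl⟩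
            have h1 := hψz _ hz
            have h2 := hφz _ hz
            rw [map_sub, sub_eq_zero] at h1 h2
            exact hgne (hu g hg h1.symm h2.symm)
          unfold Indep at hnotind
          push Not at hnotind
          obtain ⟨a, b, hab, hne0⟩ := hnotind
          have hb : b ≠ 0 := by
            intro hb
            subst hb
            rw [zero_smul, add_zero] at hab
            exact hne0 (zsmul_functional_eq_zero (hne ψ hψ) hab) rfl
          have := DFunLike.congr_fun hab v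
          simp only [AddMonoidHom.add_apply, AddMonoidHom.smul_apply, AddMonoidHom.zero_apply,
            smul_eq_mul, gens_ker hv', mul_zero, zero_add] at this
          exact (mul_eq_zero.mp this).resolve_left hb
        obtain ⟨D, hD, hDm⟩ := hfin _ _ hv
        exact ⟨D, hD, fun _ => Or.inr ⟨ψ, hψ, fun v hv => hDm v (List.mem_toFinset.mpr hv)⟩⟩
      · have hv : ∀ v ∈ (Finset.univ : Finset (Fin d)).image (eV (d := d)),
            ∃ D : ℕ, 0 < D ∧ D • v ∈ AddSubgroup.closure (diffs S) := by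
          intro v _
          refine exists_mul_mem _ v fun φ hφ => ?_
          have hφ0 : φ = 0 := by
            by_contra h0
            exact hE ⟨φ, h0, fun z hz => hφ z (AddSubgroup.subset_closure hz)⟩
          rw [hφ0]
          rfl
        obtain ⟨D, hD, hDm⟩ := hfin _ _ hv
        exact ⟨D, hD, fun _ => Or.inl fun i => hDm _ (Finset.mem_image_of_mem _ (Finset.mem_univ i))⟩
    · exact ⟨1, one_pos, fun h => absurd h hP⟩
  choose! D hD hDm using hS
  refine ⟨∏ S ∈ (F ×ˢ F).powerset, D S, Finset.prod_pos hD, fun S hSm hP => ?_⟩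
  obtain ⟨e, he⟩ : D S ∣ ∏ S ∈ (F ×ˢ F).powerset, D S := Finset.dvd_prod_of_mem _ hSm
  rcases hDm S hSm hP with h | ⟨ψ, hψ, h⟩
  · left
    intro i
    rw [he, mul_comm, mul_smul]
    exact AddSubgroup.nsmul_mem _ (h i) _
  · right
    refine ⟨ψ, hψ, fun v hv => ?_⟩
    rw [he, mul_comm, mul_smul]
    exact AddSubgroup.nsmul_mem _ (h v hv) _

section polys

/-- Multiple differences of a function on the lattice with values in a ring. -/
def mDf {R : Type*} [Ring R] : List (Fin d → ℤ) → ((Fin d → ℤ) → R) → ((Fin d → ℤ) → R)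
  | [], u => u
  | y :: ys, u => fun x => mDf ys u (x + y) - mDf ys u x

lemma mDf_map {R R' : Type*} [Ring R] [Ring R'] (φ : R →+* R') (ys : List (Fin d → ℤ))
    (u : (Fin d → ℤ) → R) : mDf ys (fun x => φ (u x)) = fun x => φ (mDf ys u x) := by
  induction ys with
  | nil => rfl
  | cons y ys ih =>
    funext x
    simp only [mDf, ih, map_sub]

lemma mDf_const {R : Type*} [Ring R] (ys : List (Fin d → ℤ)) (hys : ys ≠ []) (c : R) :
    mDf ys (fun _ => c) = fun _ => 0 := by
  have haux : ∀ ys : List (Fin d → ℤ), ∃ a : R, mDf ys (fun _ => c) = fun _ => a := by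
    intro ys
    induction ys with
    | nil => exact ⟨c, rfl⟩
    | cons y ys ih =>
      obtain ⟨a, ha⟩ := ih
      refine ⟨0, ?_⟩
      funext x
      simp [mDf, ha]
  cases ys with
  | nil => exact absurd rfl hys
  | cons y ys =>
    obtain ⟨a, ha⟩ := haux ys
    funext x
    simp [mDf, ha]

lemma mDf_sub {R : Type*} [Ring R] (ys : List (Fin d → ℤ)) (u v : (Fin d → ℤ) → R) :
    mDf ys (fun x => u x - v x) = fun x => mDf ys u x - mDf ys v x := by
  induction ys with
  | nil => rfl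
  | cons y ys ih =>
    funext x
    simp only [mDf, ih]
    abel

lemma mDf_bound (ys : List (Fin d → ℤ)) (u : (Fin d → ℤ) → ℤ) (hu : ∀ x, |u x| ≤ 1) (x : Fin d → ℤ) :
    |mDf ys u x| ≤ 2 ^ ys.length := by
  induction ys generalizing x with
  | nil => simpa [mDf] using hu x
  | cons y ys ih =>
    simp only [mDf, List.length_cons, pow_succ]
    have h1 := ih (x + y)
    have h2 := ih x
    have h3 := abs_sub (mDf ys u (x + y)) (mDf ys u x)
    linarith

lemma mD_val {ys : List (Fin d → ℤ)} (h : Bd (Fin d → ℤ)) : (mD ys h).1 = mDf ys h.1 := by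
  induction ys with
  | nil => rfl
  | cons y ys ih =>
    funext x
    simp only [mD_cons]
    change (mD ys h).1 (x + y) - (mD ys h).1 x = _
    rw [ih]
    rfl

/-- The indicator of a set as a bounded function. -/
noncomputable def indB (ω : Set (Fin d → ℤ)) : Bd (Fin d → ℤ) :=
  ⟨ind ℝ ω, ⟨1, fun x => by
    classical
    simp only [ind]
    split_ifs <;> simp⟩⟩

lemma indB_apply (ω : Set (Fin d → ℤ)) (x : Fin d → ℤ) : (indB ω).1 x = ind ℝ ω x := rfl

lemma ind_cast {R : Type*} [CommRing R] (ω : Set (Fin d → ℤ)) :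
    ind R ω = fun x => (Int.castRingHom R) (ind ℤ ω x) := by
  classical
  funext x
  simp only [ind]
  split_ifs <;> simp

variable {k : Type*} [Field k]

lemma chi_nsmul {ξ : Fin d → k} (hξ : ∀ i, ξ i ≠ 0) (n : ℕ) (y : Fin d → ℤ) :
    chi ξ (n • y) = chi ξ y ^ n := by
  induction n with
  | zero => simp [chi_zero]
  | succ n ih => rw [succ_nsmul, chi_add hξ, ih, pow_succ]

lemma key_zero {F : Finset (Fin d →₀ ℕ)} {Ψ : List ((Fin d → ℤ) →+ ℤ)} {W D : ℕ}
    (hD : ∀ S ∈ (F ×ˢ F).powerset, Partner F S →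
      (∀ i : Fin d, D • eV i ∈ AddSubgroup.closure (diffs S)) ∨
      (∃ ψ ∈ Ψ, ∀ v ∈ gens ψ, D • v ∈ AddSubgroup.closure (diffs S)))
    {ξ : Fin d → k} (hξ : ∀ i, ξ i ≠ 0)
    (hz : ∀ s : ℕ, aeval ξ (dil k F (1 + W * s)) = 0) :
    (∀ i : Fin d, chi ξ ((W * D) • eV i) = 1) ∨
      (∃ ψ ∈ Ψ, ∀ v ∈ gens ψ, chi ξ ((W * D) • v) = 1) := by
  classical
  let u : (Fin d →₀ ℕ) → k := fun f => aeval ξ (monomial f (1 : k))
  have hu : ∀ f, u f ≠ 0 := by
    intro f
    show aeval ξ (monomial f (1 : k)) ≠ 0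
    rw [← chi_toG]
    exact chi_ne_zero hξ _
  have hsum : ∀ s : ℕ, ∑ f ∈ F, u f * (u f ^ W) ^ s = 0 := by
    intro s
    have := hz s
    rw [dil, map_sum] at this
    rw [← this]
    refine Finset.sum_congr rfl fun f _ => ?_
    have h1 : (monomial ((1 + W * s) • f) (1 : k)) = (monomial f (1 : k)) ^ (1 + W * s) := by
      rw [MvPolynomial.monomial_pow, one_pow]
    rw [h1, map_pow]
    show u f * (u f ^ W) ^ s = u f ^ (1 + W * s)
    rw [pow_add, pow_one, pow_mul]
  let S : Finset ((Fin d →₀ ℕ) × (Fin d →₀ ℕ)) :=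
    (F ×ˢ F).filter (fun q => u q.1 ^ W = u q.2 ^ W)
  have hSm : S ∈ (F ×ˢ F).powerset := Finset.mem_powerset.mpr (Finset.filter_subset _ _)
  have hpartner : Partner F S := by
    intro f hf
    obtain ⟨g, hg, hne, hw⟩ := exists_repeat F u (fun f => u f ^ W) hsum hf (hu f)
    refine ⟨g, hg, hne, ?_⟩
    simp only [S, Finset.mem_filter, Finset.mem_product]
    exact ⟨⟨hf, hg⟩, hw.symm⟩
  have hle : AddSubgroup.closure (diffs S) ≤ chiKer ξ hξ W := by
    rw [AddSubgroup.closure_le]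
    rintro _ ⟨q, hq, rfl⟩
    have hq' := (Finset.mem_filter.mp hq).2
    show chi ξ (toG q.1 - toG q.2) ^ W = 1
    rw [sub_eq_add_neg, chi_add hξ, chi_neg hξ, mul_pow, inv_pow, chi_toG, chi_toG]
    have h1 : (aeval ξ (monomial q.1 (1 : k))) ^ W = (aeval ξ (monomial q.2 (1 : k))) ^ W := hq'
    rw [h1]
    exact mul_inv_cancel₀ (pow_ne_zero _ (hu q.2))
  have hconv : ∀ y : Fin d → ℤ, D • y ∈ AddSubgroup.closure (diffs S) → chi ξ ((W * D) • y) = 1 := by
    intro y hy
    have h1 : chi ξ (D • y) ^ W = 1 := hle hy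
    rw [mul_smul, chi_nsmul hξ W]
    exact h1
  rcases hD S hSm hpartner with h | ⟨ψ, hψ, h⟩
  · exact Or.inl fun i => hconv _ (h i)
  · exact Or.inr ⟨ψ, hψ, fun v hv => hconv _ (h v hv)⟩

/-- The positive part of a vector as an exponent vector. -/
noncomputable def posM (y : Fin d → ℤ) : Fin d →₀ ℕ :=
  Finsupp.equivFunOnFinite.symm (fun i => (y i).toNat)

/-- The negative part of a vector as an exponent vector. -/
noncomputable def negM (y : Fin d → ℤ) : Fin d →₀ ℕ :=
  Finsupp.equivFunOnFinite.symm (fun i => (-y i).toNat)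

lemma toG_pos_sub_neg (y : Fin d → ℤ) : toG (posM y) - toG (negM y) = y := by
  ext i
  simp only [toG, posM, negM, Finsupp.equivFunOnFinite_symm_apply_apply, Pi.sub_apply]
  exact Int.toNat_sub_toNat_neg (y i)

/-- The binomial attached to a vector. -/
noncomputable def fac (k : Type*) [Field k] (y : Fin d → ℤ) : MvPolynomial (Fin d) k :=
  monomial (negM y) 1 - monomial (posM y) 1

lemma aeval_fac_eq_zero {ξ : Fin d → k} (hξ : ∀ i, ξ i ≠ 0) {y : Fin d → ℤ} (hy : chi ξ y = 1) :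
    aeval ξ (fac k y) = 0 := by
  simp only [fac, map_sub]
  rw [← chi_toG, ← chi_toG, sub_eq_zero]
  have h1 : toG (posM y) = y + toG (negM y) := by
    rw [← toG_pos_sub_neg y]
    simp only [toG_pos_sub_neg]
    rw [eq_add_of_sub_eq (toG_pos_sub_neg y)]
  rw [h1, chi_add hξ, hy, one_mul]

/-- The list of generator lists at a given scale. -/
def levelList (M : ℕ) (Ψ : List ((Fin d → ℤ) →+ ℤ)) : List (List (Fin d → ℤ)) :=
  (Ψ.map fun ψ => (gens ψ).map fun v => M • v) ++ [((List.finRange d).map eV).map fun v => M • v]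

lemma forall₂_exists {ys : List (Fin d → ℤ)} {vss : List (List (Fin d → ℤ))}
    (h : List.Forall₂ (· ∈ ·) ys vss) {vs : List (Fin d → ℤ)} (hvs : vs ∈ vss) :
    ∃ y ∈ ys, y ∈ vs := by
  induction h with
  | nil => simp at hvs
  | @cons a b l₁ l₂ hab _ ih =>
    rcases List.mem_cons.mp hvs with rfl | hm
    · exact ⟨a, List.mem_cons_self, hab⟩
    · obtain ⟨y, hy, hyv⟩ := ih hm
      exact ⟨y, List.mem_cons_of_mem _ hy, hyv⟩

lemma exists_common_pow {R α : Type*} [Semiring R] (I : Ideal R) (L : List α) (g : α → R)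
    (h : ∀ a ∈ L, ∃ N, g a ^ N ∈ I) : ∃ N, ∀ a ∈ L, g a ^ N ∈ I := by
  induction L with
  | nil => exact ⟨0, by simp⟩
  | cons a L ih =>
    obtain ⟨N₁, hN₁⟩ := h a List.mem_cons_self
    obtain ⟨N₂, hN₂⟩ := ih fun b hb => h b (List.mem_cons_of_mem _ hb)
    refine ⟨N₁ + N₂, fun b hb => ?_⟩
    rcases List.mem_cons.mp hb with rfl | hm
    · exact Ideal.pow_mem_of_pow_mem I hN₁ (Nat.le_add_right _ _)
    · exact Ideal.pow_mem_of_pow_mem I (hN₂ b hm) (Nat.le_add_left _ _)

/-- The action of a product of binomials on a function as a multiple difference. -/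
lemma act_list (q : ℕ) (ys : List (Fin d → ℤ)) (u : (Fin d → ℤ) → k) (x : Fin d → ℤ) :
    act (ys.map fun y => (monomial (q • negM y) 1 - monomial (q • posM y) 1 :
        MvPolynomial (Fin d) k)).prod u x
      = mDf (ys.map fun y => q • y) u (x - (ys.map fun y => q • toG (posM y)).sum) := by
  induction ys generalizing x with
  | nil =>
    simp only [List.map_nil, List.prod_nil, List.sum_nil, sub_zero, mDf]
    rw [act_one]
  | cons y ys ih =>
    simp only [List.map_cons, List.prod_cons, List.sum_cons, mDf]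
    rw [act_mul, act_sub]
    simp only [Pi.sub_apply, act_monomial, one_mul]
    rw [ih, ih, toG_smul, toG_smul]
    have h1 : x - q • toG (negM y) - (ys.map fun y => q • toG (posM y)).sum
        = x - (q • toG (posM y) + (ys.map fun y => q • toG (posM y)).sum) + q • y := by
      rw [← toG_pos_sub_neg y, smul_sub]
      simp only [toG_pos_sub_neg]
      abel_nf
    have h2 : x - q • toG (posM y) - (ys.map fun y => q • toG (posM y)).sum
        = x - (q • toG (posM y) + (ys.map fun y => q • toG (posM y)).sum) := by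
      abel
    rw [h1, h2]

/-- The products of binomials attached to selections vanish on the common zeros of the dilates. -/
lemma G_mem_radical {F : Finset (Fin d →₀ ℕ)} {Ψ : List ((Fin d → ℤ) →+ ℤ)} {W D : ℕ} [IsAlgClosed k]
    (hD : ∀ S ∈ (F ×ˢ F).powerset, Partner F S →
      (∀ i : Fin d, D • eV i ∈ AddSubgroup.closure (diffs S)) ∨
      (∃ ψ ∈ Ψ, ∀ v ∈ gens ψ, D • v ∈ AddSubgroup.closure (diffs S)))
    {ys : List (Fin d → ℤ)} (hys : ys ∈ List.sections (levelList (W * D) Ψ)) :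
    monomial (allOnes d) 1 * (ys.map (fac k)).prod ∈
      (Ideal.span (Set.range fun s : ℕ => dil k F (1 + W * s))).radical := by
  rw [← vanishingIdeal_zeroLocus_eq_radical (K := k), mem_vanishingIdeal_iff]
  intro ξ hξ
  have hz : ∀ s : ℕ, aeval ξ (dil k F (1 + W * s)) = 0 := fun s =>
    hξ _ (Ideal.subset_span ⟨s, rfl⟩)
  rw [map_mul]
  by_cases h0 : ∃ j, ξ j = 0
  · obtain ⟨j, hj⟩ := h0
    rw [aeval_allOnes_eq_zero hj, zero_mul]
  · push Not at h0
    have hfor := List.mem_sections.mp hys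
    have hprod : ∀ y ∈ ys, chi ξ y = 1 → aeval ξ (ys.map (fac k)).prod = 0 := by
      intro y hy hchi
      rw [map_list_prod, List.map_map]
      refine List.prod_eq_zero (List.mem_map.mpr ⟨y, hy, ?_⟩)
      exact aeval_fac_eq_zero h0 hchi
    rcases key_zero hD h0 hz with h | ⟨ψ, hψ, h⟩
    · have hvs : ((List.finRange d).map eV).map (fun v => (W * D) • v) ∈ levelList (W * D) Ψ := by
        simp [levelList]
      obtain ⟨y, hy, hyv⟩ := forall₂_exists hfor hvs
      obtain ⟨w, hw, rfl⟩ := List.mem_map.mp hyv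
      obtain ⟨i, _, rfl⟩ := List.mem_map.mp hw
      rw [hprod _ hy (h i), mul_zero]
    · have hvs : (gens ψ).map (fun v => (W * D) • v) ∈ levelList (W * D) Ψ := by
        simp only [levelList, List.mem_append, List.mem_map]
        exact Or.inl ⟨ψ, hψ, rfl⟩
      obtain ⟨y, hy, hyv⟩ := forall₂_exists hfor hvs
      obtain ⟨w, hw, rfl⟩ := List.mem_map.mp hyv
      rw [hprod _ hy (h w hw), mul_zero]

lemma forall₂_map_inv {g : (Fin d → ℤ) → (Fin d → ℤ)} {ys : List (Fin d → ℤ)}
    {vss : List (List (Fin d → ℤ))}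
    (h : List.Forall₂ (· ∈ ·) ys (vss.map (List.map g))) :
    ∃ ys₀, List.Forall₂ (· ∈ ·) ys₀ vss ∧ ys = ys₀.map g := by
  induction vss generalizing ys with
  | nil =>
    cases h
    exact ⟨[], List.Forall₂.nil, rfl⟩
  | cons vs vss ih =>
    cases h with
    | @cons a _ l₁ _ hab hrest =>
      obtain ⟨ys₀, h1, h2⟩ := ih hrest
      obtain ⟨a₀, ha₀, rfl⟩ := List.mem_map.mp hab
      exact ⟨a₀ :: ys₀, List.Forall₂.cons ha₀ h1, by simp [h2]⟩

end polys

/-- The annihilation theorem: all tilings are killed by products of differences along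
a fixed finite family of lattices, each the kernel of a functional. -/
theorem annih (F : Finset (Fin d → ℤ))
    (hH : ∀ ψ₁ ψ₂ : (Fin d → ℤ) →+ ℤ, Indep ψ₁ ψ₂ →
      ∃ f ∈ F, ∀ g ∈ F, ψ₁ g = ψ₁ f → ψ₂ g = ψ₂ f → g = f) :
    ∃ (Ψ : List ((Fin d → ℤ) →+ ℤ)) (M : ℕ), 0 < M ∧ Ψ.Pairwise Indep ∧ (∀ ψ ∈ Ψ, ψ ≠ 0) ∧
      ∀ ω, InOm F ω → ∀ ys ∈ List.sections (levelList M Ψ), mD ys (indB ω) = 0 := by
  classical
  let F' : Finset (Fin d →₀ ℕ) := F.image (toM F)
  have hH' : ∀ ψ₁ ψ₂ : (Fin d → ℤ) →+ ℤ, Indep ψ₁ ψ₂ →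
      ∃ f ∈ F', ∀ g ∈ F', ψ₁ (toG g) = ψ₁ (toG f) → ψ₂ (toG g) = ψ₂ (toG f) → g = f := by
    intro ψ₁ ψ₂ hind
    obtain ⟨f, hf, hu⟩ := hH ψ₁ ψ₂ hind
    refine ⟨toM F f, Finset.mem_image_of_mem _ hf, fun g' hg' h1 h2 => ?_⟩
    obtain ⟨g, hg, rfl⟩ := Finset.mem_image.mp hg'
    rw [toG_toM hg, toG_toM hf, map_sub, map_sub] at h1 h2
    rw [hu g hg (sub_left_inj.mp h1) (sub_left_inj.mp h2)]
  obtain ⟨Ψ, hP1, hP2, hP3⟩ := exists_Psi F' (F' ×ˢ F').powerset
  obtain ⟨D, hD0, hD⟩ := exists_D_of_Psi F' hH' Ψ hP2 hP3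
  let W : ℕ := F.card.factorial
  have hW : 0 < W := Nat.factorial_pos _
  obtain ⟨p, hpge, hpp⟩ := Nat.exists_infinite_primes (F.card + 2 ^ (Ψ.length + 1) + 1)
  have hp : Fact p.Prime := ⟨hpp⟩
  let k := AlgebraicClosure (ZMod p)
  have hchar : CharP k p := inferInstance
  let I : Ideal (MvPolynomial (Fin d) k) := Ideal.span (Set.range fun s : ℕ => dil k F' (1 + W * s))
  let L := List.sections (levelList (W * D) Ψ)
  let Gf : List (Fin d → ℤ) → MvPolynomial (Fin d) k :=
    fun ys => monomial (allOnes d) 1 * (ys.map (fac k)).prod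
  obtain ⟨N, hN⟩ := exists_common_pow I L Gf (fun ys hys => G_mem_radical (k := k) hD hys)
  let q : ℕ := p ^ N
  have hNq : N ≤ q := (Nat.lt_pow_self hpp.one_lt).le
  have hq0 : 0 < q := pow_pos hpp.pos _
  have hexpchar : ExpChar (MvPolynomial (Fin d) k) p := ExpChar.prime hpp
  have hexp : ∀ ys : List (Fin d → ℤ), Gf ys ^ q = monomial (q • allOnes d) 1 *
      (ys.map fun y => (monomial (q • negM y) 1 - monomial (q • posM y) 1 :
        MvPolynomial (Fin d) k)).prod := by
    intro ys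
    simp only [Gf]
    rw [mul_pow, MvPolynomial.monomial_pow, one_pow]
    congr 1
    induction ys with
    | nil => simp
    | cons y ys ih =>
      simp only [List.map_cons, List.prod_cons]
      rw [mul_pow, ih]
      congr 1
      simp only [fac, q]
      rw [sub_pow_expChar_pow, MvPolynomial.monomial_pow, MvPolynomial.monomial_pow, one_pow]
  refine ⟨Ψ, q * (W * D), Nat.mul_pos hq0 (Nat.mul_pos hW hD0), hP1, hP2, fun ω hω ys hys => ?_⟩
  have hlevel : levelList (q * (W * D)) Ψ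
      = (levelList (W * D) Ψ).map (List.map fun v => q • v) := by
    simp only [levelList, List.map_append, List.map_map, List.map_cons, List.map_nil]
    congr 2
    · funext ψ
      simp only [Function.comp_def, List.map_map]
      refine List.map_congr_left fun v _ => ?_
      rw [mul_smul]
    · simp only [Function.comp_def]
      refine List.map_congr_left fun v _ => ?_
      rw [mul_smul]
  rw [hlevel, List.mem_sections] at hys
  obtain ⟨ys₀, hys₀, rfl⟩ := forall₂_map_inv hys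
  have hys₀L : ys₀ ∈ L := List.mem_sections.mpr hys₀
  -- the function modulo p
  have htile : ∀ s : ℕ, TileR ω F' (1 + W * s) := fun s => (tileR_iff F ω _).mpr (hω s)
  have hcard : F'.card = F.card := Finset.card_image_of_injOn (toM_injOn F)
  have hcard0 : 0 < F'.card := (htile 0).card_pos
  have hne : (F.card : k) ≠ 0 := by
    intro h0
    rw [CharP.cast_eq_zero_iff k p] at h0
    have := Nat.le_of_dvd (by rwa [hcard] at hcard0) h0
    have h2 : 0 < 2 ^ (Ψ.length + 1) := by positivity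
    omega
  let c : k := (F.card : k)⁻¹
  let b : (Fin d → ℤ) → k := fun x => ind k ω x - c
  have hb : ∀ s : ℕ, act (dil k F' (1 + W * s)) b = 0 := by
    intro s
    funext x
    rw [act_dil]
    simp only [b, Pi.zero_apply]
    rw [Finset.sum_sub_distrib, sum_ind, htile s x, Finset.sum_const, hcard, nsmul_eq_mul]
    simp only [c]
    rw [mul_inv_cancel₀ hne]
    simp
  have hact : act (Gf ys₀ ^ q) b = 0 := by
    refine act_eq_zero_of_mem_span ?_ (Ideal.pow_mem_of_pow_mem I (hN ys₀ hys₀L) hNq)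
    rintro _ ⟨s, rfl⟩
    exact hb s
  rw [hexp, act_mul] at hact
  have hlen : (ys₀.map fun v => q • v).length = Ψ.length + 1 := by
    rw [List.length_map, List.Forall₂.length_eq hys₀]
    simp [levelList]
  have hnonempty : (ys₀.map fun v => q • v) ≠ [] := by
    intro h0
    rw [h0] at hlen
    simp at hlen
  have hk0 : mDf (ys₀.map fun v => q • v) b = 0 := by
    funext x
    have h1 := congrFun hact (x + (ys₀.map fun y => q • toG (posM y)).sum + toG (q • allOnes d))
    rw [act_monomial, one_mul, add_sub_cancel_right, act_list, add_sub_cancel_right] at h1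
    exact h1
  have hk1 : ∀ x, mDf (ys₀.map fun v => q • v) (ind k ω) x = 0 := by
    intro x
    have h1 := congrFun hk0 x
    simp only [b] at h1
    rw [mDf_sub] at h1
    have h2 := congrFun (mDf_const (ys₀.map fun v => q • v) hnonempty c) x
    simp only at h1
    rw [h2, sub_zero] at h1
    exact h1
  have hz : ∀ x, mDf (ys₀.map fun v => q • v) (ind ℤ ω) x = 0 := by
    intro x
    have h1 := hk1 x
    rw [ind_cast, mDf_map] at h1
    have h2 : ((mDf (ys₀.map fun v => q • v) (ind ℤ ω) x : ℤ) : k) = 0 := h1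
    rw [CharP.intCast_eq_zero_iff k p] at h2
    have h3 := mDf_bound (ys₀.map fun v => q • v) (ind ℤ ω) (fun x => by
      simp only [ind]
      split_ifs <;> simp) x
    rw [hlen] at h3
    refine Int.eq_zero_of_abs_lt_dvd h2 (lt_of_le_of_lt h3 ?_)
    have h4 : (2 : ℤ) ^ (Ψ.length + 1) = ((2 ^ (Ψ.length + 1) : ℕ) : ℤ) := by push_cast; rfl
    rw [h4]
    have : 2 ^ (Ψ.length + 1) < p := by omega
    exact_mod_cast this
  apply Subtype.ext
  rw [mD_val]
  have h5 : (indB ω).1 = fun x => (Int.castRingHom ℝ) (ind ℤ ω x) := ind_cast ω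
  rw [h5, mDf_map]
  funext x
  rw [hz x]
  simp

end Vale.Agent.P043
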