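import Vale.Agent.Lib.P043Iso

namespace Vale.Agent.P043

variable {d : ℕ}

lemma Indep.symm {ψ φ : (Fin d → ℤ) →+ ℤ} (h : Indep ψ φ) : Indep φ ψ := by
  intro a b hab
  have := h b a (by rw [add_comm]; exact hab)
  exact ⟨this.2, this.1⟩

lemma nsmul_mem_of_dvd {S : AddSubgroup (Fin d → ℤ)} {n m : ℕ} {y : Fin d → ℤ} (hd : n ∣ m)
    (h : n • y ∈ S) : m • y ∈ S := by
  obtain ⟨e, rfl⟩ := hd
  rw [mul_comm, mul_smul]
  exact AddSubgroup.nsmul_mem _ h _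

/-- The data attached to a tile: the finite family of directions and the constants. -/
structure Base (F : Finset (Fin d → ℤ)) where
  Ψ : List ((Fin d → ℤ) →+ ℤ)
  M : ℕ
  A : ℕ
  D₂ : ℕ
  hM : 0 < M
  hA : 0 < A
  hD₂ : 0 < D₂
  hP : Ψ.Pairwise Indep
  hne : ∀ ψ ∈ Ψ, ψ ≠ 0
  hΨ : Ψ ≠ []
  hann : ∀ ω, InOm F ω → ∀ ys ∈ List.sections (levelList M Ψ), mD ys (indB ω) = 0
  hAm : ∀ ψ ∈ Ψ, ∀ y, ψ y = 0 → A • y ∈ AddSubgroup.closure {v | v ∈ gens ψ}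
  hD₂m : Ψ.Pairwise fun ψ φ => ∀ y, D₂ • y ∈ AddSubgroup.closure {v | v ∈ gens ψ ∨ v ∈ gens φ}

/-- The coordinate functional. -/
def coordF (i : Fin d) : (Fin d → ℤ) →+ ℤ where
  toFun x := x i
  map_zero' := rfl
  map_add' _ _ := rfl

lemma coordF_ne (i : Fin d) : coordF i ≠ 0 := by
  intro h
  have := DFunLike.congr_fun h (Pi.single i 1)
  simp [coordF] at this

/-- Existence of the data, once the dimension is positive. -/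
lemma exists_base (hd : 0 < d) (F : Finset (Fin d → ℤ))
    (hH : ∀ ψ₁ ψ₂ : (Fin d → ℤ) →+ ℤ, Indep ψ₁ ψ₂ →
      ∃ f ∈ F, ∀ g ∈ F, ψ₁ g = ψ₁ f → ψ₂ g = ψ₂ f → g = f) : Nonempty (Base F) := by
  obtain ⟨Ψ, M, hM, hP, hne, hann⟩ := annih F hH
  have main : ∃ (Ψ' : List ((Fin d → ℤ) →+ ℤ)), Ψ' ≠ [] ∧ Ψ'.Pairwise Indep ∧ (∀ ψ ∈ Ψ', ψ ≠ 0) ∧
      ∀ ω, InOm F ω → ∀ ys ∈ List.sections (levelList M Ψ'), mD ys (indB ω) = 0 := by
    by_cases hΨ : Ψ = []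
    · subst hΨ
      let i : Fin d := ⟨0, hd⟩
      refine ⟨[coordF i], by simp, List.pairwise_singleton _ _, ?_, ?_⟩
      · intro ψ hψ
        rw [List.mem_singleton.mp hψ]
        exact coordF_ne i
      · intro ω hω ys hys
        rw [List.mem_sections] at hys
        simp only [levelList, List.map_cons, List.map_nil, List.cons_append, List.nil_append] at hys
        cases hys with
        | @cons y _ t _ hy ht =>
          cases ht with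
          | @cons z _ u _ hz hu =>
            cases hu
            have h0 := hann ω hω [z] (by
              rw [List.mem_sections]
              simp only [levelList, List.map_nil, List.nil_append]
              exact List.Forall₂.cons hz List.Forall₂.nil)
            simp only [mD_cons] at h0 ⊢
            rw [h0]
            simp
    · exact ⟨Ψ, hΨ, hP, hne, hann⟩
  obtain ⟨Ψ', hΨ', hP', hne', hann'⟩ := main
  obtain ⟨A, hA, hAm⟩ := exists_A Ψ' hne'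
  obtain ⟨D₂, hD₂, hD₂m⟩ := exists_pair_D Ψ' hP' hne'
  exact ⟨⟨Ψ', M, A, D₂, hM, hA, hD₂, hP', hne', hΨ', hann', hAm, hD₂m⟩⟩

namespace Base

variable {F : Finset (Fin d → ℤ)} (B : Base F)

lemma indep {ψ φ : (Fin d → ℤ) →+ ℤ} (hψ : ψ ∈ B.Ψ) (hφ : φ ∈ B.Ψ) (hne : ψ ≠ φ) : Indep ψ φ := by
  haveI : Std.Symm (Indep (d := d)) := ⟨fun _ _ h => Indep.symm h⟩
  exact List.Pairwise.forall B.hP hψ hφ hne

lemma pair_D {ψ φ : (Fin d → ℤ) →+ ℤ} (hψ : ψ ∈ B.Ψ) (hφ : φ ∈ B.Ψ) (hne : ψ ≠ φ) (y : Fin d → ℤ) :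
    B.D₂ • y ∈ AddSubgroup.closure {v | v ∈ gens ψ ∨ v ∈ gens φ} := by
  haveI hsymm : Std.Symm (fun ψ φ : (Fin d → ℤ) →+ ℤ =>
      ∀ y, B.D₂ • y ∈ AddSubgroup.closure {v | v ∈ gens ψ ∨ v ∈ gens φ}) := by
    refine ⟨fun a b h y => ?_⟩
    have hset : {v | v ∈ gens b ∨ v ∈ gens a} = {v | v ∈ gens a ∨ v ∈ gens b} := by
      ext v
      exact or_comm
    rw [hset]
    exact h y
  exact List.Pairwise.forall B.hD₂m hψ hφ hne y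

/-- The dilation constant of the first level. -/
def W₁ (_B : Base F) : ℕ := F.card.factorial * (_B.M * _B.A)

lemma W₁_pos : 0 < B.W₁ := Nat.mul_pos (Nat.factorial_pos _) (Nat.mul_pos B.hM B.hA)

/-- The constant of the level functions. -/
noncomputable def D₃ : ℕ := (B.Ψ.map fun ψ => ∏ g₀ ∈ F, isoD F g₀ ψ B.W₁).prod

lemma D₃_pos : 0 < B.D₃ := by
  refine List.prod_pos fun n hn => ?_
  obtain ⟨ψ, _, rfl⟩ := List.mem_map.mp hn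
  exact Finset.prod_pos fun g _ => isoD_pos _ _ _ B.W₁_pos

lemma isoD_dvd_D₃ {ψ : (Fin d → ℤ) →+ ℤ} (hψ : ψ ∈ B.Ψ) {g₀ : Fin d → ℤ} (hg : g₀ ∈ F) :
    isoD F g₀ ψ B.W₁ ∣ B.D₃ := by
  have h1 : isoD F g₀ ψ B.W₁ ∣ ∏ g ∈ F, isoD F g ψ B.W₁ :=
    Finset.dvd_prod_of_mem (fun g => isoD F g ψ B.W₁) hg
  refine h1.trans (List.dvd_prod ?_)
  exact List.mem_map.mpr ⟨ψ, hψ, rfl⟩

/-- The scale of the transversal vectors. -/
noncomputable def T : ℕ := B.M * B.D₂ * B.D₃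

lemma T_pos : 0 < B.T := Nat.mul_pos (Nat.mul_pos B.hM B.hD₂) B.D₃_pos

/-- The gradient vector of a functional. -/
def grad (ψ : (Fin d → ℤ) →+ ℤ) : Fin d → ℤ := fun l => ψ (eV l)

lemma grad_pos {ψ : (Fin d → ℤ) →+ ℤ} (hψ : ψ ≠ 0) : 0 < ψ (grad ψ) := by
  have h1 : ψ (grad ψ) = ∑ l, ψ (eV l) * ψ (eV l) := functional_apply ψ (grad ψ)
  rw [h1]
  have hnz : ∃ i, ψ (eV i) ≠ 0 := by
    by_contra hcon
    push Not at hcon
    apply hψ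
    refine AddMonoidHom.ext fun y => ?_
    rw [functional_apply, AddMonoidHom.zero_apply]
    exact Finset.sum_eq_zero fun l _ => by rw [hcon l, mul_zero]
  obtain ⟨i, hi⟩ := hnz
  refine Finset.sum_pos' (fun l _ => mul_self_nonneg _) ⟨i, Finset.mem_univ _, ?_⟩
  exact mul_self_pos.mpr hi

/-- The transversal vector of a functional. -/
noncomputable def τ (ψ : (Fin d → ℤ) →+ ℤ) : Fin d → ℤ := B.T • grad ψ

lemma τ_pos {ψ : (Fin d → ℤ) →+ ℤ} (hψ : ψ ≠ 0) : 0 < ψ (B.τ ψ) := by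
  rw [τ, map_nsmul, nsmul_eq_mul]
  exact mul_pos (by exact_mod_cast B.T_pos) (grad_pos hψ)

lemma τ_mem_D₃ (ψ : (Fin d → ℤ) →+ ℤ) : B.τ ψ ∈ scaleS B.D₃ :=
  scaleS_mono (Dvd.intro_left _ rfl) (nsmul_mem_scaleS B.T (grad ψ))

lemma τ_mem_MD₂ (ψ : (Fin d → ℤ) →+ ℤ) : B.τ ψ ∈ scaleS (B.M * 1 * B.D₂) := by
  rw [mul_one]
  exact scaleS_mono (Dvd.intro _ rfl) (nsmul_mem_scaleS B.T (grad ψ))

/-- Splitting a vector along two kernel lattices. -/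
lemma split_of_pair {ψ φ : (Fin d → ℤ) →+ ℤ} (hψ : ψ ∈ B.Ψ) (hφ : φ ∈ B.Ψ) (hne : ψ ≠ φ) (N : ℕ)
    (y : Fin d → ℤ) :
    ∃ κ ∈ AddSubgroup.closure {v | v ∈ lv N φ}, ∃ μ ∈ AddSubgroup.closure {v | v ∈ lv N ψ},
      (N * B.D₂) • y = κ + μ := by
  have h1 := nsmul_mem_closure_of_mem N (B.pair_D hψ hφ hne y)
  have h2 : (fun v => N • v) '' {v | v ∈ gens ψ ∨ v ∈ gens φ}
      ⊆ {v | v ∈ lv N φ} ∪ {v | v ∈ lv N ψ} := by
    rintro _ ⟨w, hw | hw, rfl⟩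
    · exact Or.inr (List.mem_map.mpr ⟨w, hw, rfl⟩)
    · exact Or.inl (List.mem_map.mpr ⟨w, hw, rfl⟩)
  have h3 := AddSubgroup.closure_mono h2 h1
  rw [AddSubgroup.closure_union, AddSubgroup.mem_sup] at h3
  obtain ⟨κ, hκ, μ, hμ, he⟩ := h3
  refine ⟨κ, hκ, μ, hμ, ?_⟩
  rw [he, mul_smul]

lemma τ_split {ψ φ : (Fin d → ℤ) →+ ℤ} (hψ : ψ ∈ B.Ψ) (hφ : φ ∈ B.Ψ) (hne : ψ ≠ φ) :
    ∃ κ ∈ AddSubgroup.closure {v | v ∈ lv B.M φ}, ∃ μ ∈ AddSubgroup.closure {v | v ∈ lv B.M ψ},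
      B.τ ψ = κ + μ := by
  have h := B.split_of_pair hψ hφ hne B.M (B.D₃ • grad ψ)
  simpa only [τ, T, mul_smul] using h

/-- At the scale `W₁`, kernel vectors lie in the lattice of the level. -/
lemma W₁_mem {ψ : (Fin d → ℤ) →+ ℤ} (hψ : ψ ∈ B.Ψ) {y : Fin d → ℤ} (hy : ψ y = 0) :
    B.W₁ • y ∈ AddSubgroup.closure {v | v ∈ lv B.M ψ} :=
  nsmul_mem_of_dvd (Dvd.intro_left _ rfl) (smul_ker_mem_closure_lv (B.hAm ψ hψ y hy))

end Base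

/-- The sum of a bounded function along a fibre of a functional. -/
noncomputable def phiB (ρ : Bd (Fin d → ℤ)) (F : Finset (Fin d → ℤ)) (ψ : (Fin d → ℤ) →+ ℤ)
    (g₀ : Fin d → ℤ) : Bd (Fin d → ℤ) :=
  sumT (F.filter fun h => ψ h = ψ g₀) 1 ρ

lemma phiB_apply (ρ : Bd (Fin d → ℤ)) (F : Finset (Fin d → ℤ)) (ψ : (Fin d → ℤ) →+ ℤ)
    (g₀ x : Fin d → ℤ) : (phiB ρ F ψ g₀).1 x = ∑ h ∈ F.filter (fun h => ψ h = ψ g₀), ρ.1 (x - h) := by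
  rw [phiB, sumT_apply]
  simp

lemma sum_eq_phi {ρ : Bd (Fin d → ℤ)} {F : Finset (Fin d → ℤ)} {ψ : (Fin d → ℤ) →+ ℤ}
    {g₀ x : Fin d → ℤ} :
    ∑ h ∈ F.filter (fun h => ψ h = ψ g₀), ρ.1 (x - h) = (phiB ρ F ψ g₀).1 x :=
  (phiB_apply ρ F ψ g₀ x).symm

namespace Base

variable {F : Finset (Fin d → ℤ)} (B : Base F)

lemma inom_tile {ω : Set (Fin d → ℤ)} (hω : InOm F ω) {W' : ℕ} (hW : F.card.factorial ∣ W') (s : ℕ) :
    Tile F ω (1 + W' * s) := by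
  obtain ⟨e, rfl⟩ := hW
  have := hω (e * s)
  rwa [← mul_assoc] at this

/-- The level function plus a periodic remainder is one. -/
lemma phi_add_isoR {ω : Set (Fin d → ℤ)} (hω : InOm F ω) {ψ : (Fin d → ℤ) →+ ℤ} (hψ : ψ ∈ B.Ψ)
    (g₀ x : Fin d → ℤ) :
    (phiB (rhoN B.M ψ ω) F ψ g₀).1 x + (isoR (rhoN B.M ψ ω) F g₀ ψ B.W₁).1 x = 1 := by
  rw [phiB_apply]
  refine iso_eq (vs := lv B.M ψ) (C := Set.univ) (fun v hv => EL_inv hv _) (fun y hy => B.W₁_mem hψ hy)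
    (fun _ _ _ => Set.mem_univ _) (fun x _ s => ?_) (Set.mem_univ x)
  exact sum_EL_tile (inom_tile hω (Dvd.intro _ rfl) s) _ x

lemma phi_inv_D₃ {ω : Set (Fin d → ℤ)} (hω : InOm F ω) {ψ : (Fin d → ℤ) →+ ℤ} (hψ : ψ ∈ B.Ψ)
    {g₀ : Fin d → ℤ} (hg : g₀ ∈ F) {y : Fin d → ℤ} (hy : y ∈ scaleS B.D₃) (x : Fin d → ℤ) :
    (phiB (rhoN B.M ψ ω) F ψ g₀).1 (x + y) = (phiB (rhoN B.M ψ ω) F ψ g₀).1 x := by
  have h1 := B.phi_add_isoR hω hψ g₀ x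
  have h2 := B.phi_add_isoR hω hψ g₀ (x + y)
  have h3 := isoR_inv (ρ := rhoN B.M ψ ω) (fun v hv => EL_inv hv _) (fun y hy => B.W₁_mem hψ hy) F g₀
    (scaleS_mono (B.isoD_dvd_D₃ hψ hg) hy)
  have h4 := congrArg (fun k : Bd (Fin d → ℤ) => k.1 x) h3
  simp only [Tr_apply] at h4
  linarith

lemma phi_inv_lv {ω : Set (Fin d → ℤ)} {ψ : (Fin d → ℤ) →+ ℤ} (g₀ : Fin d → ℤ) {y : Fin d → ℤ}
    (hy : y ∈ AddSubgroup.closure {v | v ∈ lv B.M ψ}) (x : Fin d → ℤ) :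
    (phiB (rhoN B.M ψ ω) F ψ g₀).1 (x + y) = (phiB (rhoN B.M ψ ω) F ψ g₀).1 x := by
  have h1 : Tr y (rhoN B.M ψ ω) = rhoN B.M ψ ω := EL_inv_closure _ hy _
  have h2 : Tr y (phiB (rhoN B.M ψ ω) F ψ g₀) = phiB (rhoN B.M ψ ω) F ψ g₀ := by
    rw [phiB, Tr_sumT, h1]
  have h3 := congrArg (fun k : Bd (Fin d → ℤ) => k.1 x) h2
  simpa only [Tr_apply] using h3

open Classical in
/-- Upper bound on the number of points in a fibre. -/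
lemma card_fibre_le {ω : Set (Fin d → ℤ)} {r : ℕ} (h : Tile F ω r) (F₀ : Finset (Fin d → ℤ))
    (hF₀ : F₀ ⊆ F) (x : Fin d → ℤ) : (F₀.filter fun g => x - r • g ∈ ω).card ≤ 1 := by
  rw [← h x]
  exact Finset.card_le_card (Finset.filter_subset_filter _ hF₀)

lemma phi_le_one {ω : Set (Fin d → ℤ)} (hω : InOm F ω) (ψ : (Fin d → ℤ) →+ ℤ) (g₀ x : Fin d → ℤ) :
    (phiB (rhoN B.M ψ ω) F ψ g₀).1 x ≤ 1 := by
  classical
  rw [phiB, rhoN, ← EL_sumT]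
  refine EL_ge fun l _ => ?_
  rw [sumT_indB]
  have h1 : Tile F ω 1 := by
    have := hω 0
    simpa using this
  have h2 := card_fibre_le h1 (F.filter fun h => ψ h = ψ g₀) (Finset.filter_subset _ _) (x + l)
  exact_mod_cast h2

end Base

end Vale.Agent.P043
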