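import Vale.Agent.Lib.P043Rigid

namespace Vale.Agent.P043

variable {d : ℕ}

/-- The constant function one. -/
def oneB : Bd (Fin d → ℤ) := ⟨fun _ => 1, ⟨1, fun _ => by simp⟩⟩

@[simp] lemma oneB_apply (x : Fin d → ℤ) : (oneB : Bd (Fin d → ℤ)).1 x = 1 := rfl

lemma Tr_oneB (y : Fin d → ℤ) : Tr y oneB = oneB := rfl

lemma EL_oneB (vs : List (Fin d → ℤ)) : EL vs oneB = oneB := EL_fix fun v _ => Tr_oneB v

lemma bd_sum_apply {ι : Type*} (s : Finset ι) (b : ι → Bd (Fin d → ℤ)) (x : Fin d → ℤ) :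
    (∑ i ∈ s, b i).1 x = ∑ i ∈ s, (b i).1 x := by
  classical
  induction s using Finset.induction_on with
  | empty => simp
  | insert a s ha ih =>
    rw [Finset.sum_insert ha, Finset.sum_insert ha, ← ih]
    rfl

/-- The sum of the translates along a finite set, dilated. -/
noncomputable def sumT (F₀ : Finset (Fin d → ℤ)) (r : ℕ) (h : Bd (Fin d → ℤ)) : Bd (Fin d → ℤ) :=
  ∑ g ∈ F₀, Tr (-(r • g)) h

lemma sumT_apply (F₀ : Finset (Fin d → ℤ)) (r : ℕ) (h : Bd (Fin d → ℤ)) (x : Fin d → ℤ) :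
    (sumT F₀ r h).1 x = ∑ g ∈ F₀, h.1 (x - r • g) := by
  rw [sumT, bd_sum_apply]
  simp only [Tr_apply, sub_eq_add_neg]

lemma EL_sumT (vs : List (Fin d → ℤ)) (F₀ : Finset (Fin d → ℤ)) (r : ℕ) (h : Bd (Fin d → ℤ)) :
    EL vs (sumT F₀ r h) = sumT F₀ r (EL vs h) := by
  simp only [sumT, map_sum, EL_Tr]

lemma Tr_sumT (y : Fin d → ℤ) (F₀ : Finset (Fin d → ℤ)) (r : ℕ) (h : Bd (Fin d → ℤ)) :
    Tr y (sumT F₀ r h) = sumT F₀ r (Tr y h) := by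
  simp only [sumT, map_sum]
  refine Finset.sum_congr rfl fun g _ => ?_
  rw [Tr_comm]

open Classical in
lemma sumT_indB (F₀ : Finset (Fin d → ℤ)) (r : ℕ) (ω : Set (Fin d → ℤ)) (x : Fin d → ℤ) :
    (sumT F₀ r (indB ω)).1 x = ((F₀.filter fun g => x - r • g ∈ ω).card : ℝ) := by
  rw [sumT_apply]
  simp only [indB_apply, ind]
  rw [Finset.sum_boole]

lemma sumT_tile {F : Finset (Fin d → ℤ)} {ω : Set (Fin d → ℤ)} {r : ℕ} (h : Tile F ω r) :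
    sumT F r (indB ω) = oneB := by
  classical
  apply Subtype.ext
  funext x
  rw [sumT_indB]
  have := h x
  simp only [oneB_apply]
  rw [show ((F.filter fun g => x - r • g ∈ ω).card : ℝ) = ((F.filter fun g => x - r • g ∈ ω).card : ℕ) from rfl]
  have h2 : (F.filter fun g => x - r • g ∈ ω).card = 1 := by
    rw [← this]
  rw [h2]
  simp

/-- The mean of the tile relation. -/
lemma sum_EL_tile {F : Finset (Fin d → ℤ)} {ω : Set (Fin d → ℤ)} {r : ℕ} (h : Tile F ω r)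
    (vs : List (Fin d → ℤ)) (x : Fin d → ℤ) :
    ∑ g ∈ F, (EL vs (indB ω)).1 (x - r • g) = 1 := by
  rw [← sumT_apply, ← EL_sumT, sumT_tile h, EL_oneB]
  rfl

/-- A mean only sees the values on the coset. -/
lemma EL_eq_of_const {vs : List (Fin d → ℤ)} {h : Bd (Fin d → ℤ)} {x : Fin d → ℤ} {c : ℝ}
    (hc : ∀ l ∈ AddSubgroup.closure {v | v ∈ vs}, h.1 (x + l) = c) : (EL vs h).1 x = c :=
  le_antisymm (EL_ge fun l hl => (hc l hl).le) (EL_le fun l hl => (hc l hl).ge)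

lemma indB_nonneg (ω : Set (Fin d → ℤ)) (x : Fin d → ℤ) : 0 ≤ (indB ω).1 x := by
  classical
  rw [indB_apply, ind]
  split_ifs <;> simp

lemma indB_le_one (ω : Set (Fin d → ℤ)) (x : Fin d → ℤ) : (indB ω).1 x ≤ 1 := by
  classical
  rw [indB_apply, ind]
  split_ifs <;> simp

lemma rhoN_nonneg (N : ℕ) (ψ : (Fin d → ℤ) →+ ℤ) (ω : Set (Fin d → ℤ)) (x : Fin d → ℤ) :
    0 ≤ (rhoN N ψ ω).1 x :=
  EL_le fun _ _ => indB_nonneg ω _

lemma rhoN_le_one (N : ℕ) (ψ : (Fin d → ℤ) →+ ℤ) (ω : Set (Fin d → ℤ)) (x : Fin d → ℤ) :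
    (rhoN N ψ ω).1 x ≤ 1 :=
  EL_ge fun _ _ => indB_le_one ω _

/-! The isolation lemma. -/

/-- The remainder term of the isolation lemma. -/
noncomputable def isoR (ρ : Bd (Fin d → ℤ)) (F₀ : Finset (Fin d → ℤ)) (g : Fin d → ℤ)
    (ψ : (Fin d → ℤ) →+ ℤ) (W₂ : ℕ) : Bd (Fin d → ℤ) :=
  ∑ h ∈ F₀.filter (fun h => ψ h ≠ ψ g), Tr (-h) (Em (W₂ • (g - h)) ρ)

lemma isoR_apply (ρ : Bd (Fin d → ℤ)) (F₀ : Finset (Fin d → ℤ)) (g : Fin d → ℤ)
    (ψ : (Fin d → ℤ) →+ ℤ) (W₂ : ℕ) (x : Fin d → ℤ) :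
    (isoR ρ F₀ g ψ W₂).1 x
      = ∑ h ∈ F₀.filter (fun h => ψ h ≠ ψ g), (Em (W₂ • (g - h)) ρ).1 (x - h) := by
  rw [isoR, bd_sum_apply]
  simp only [Tr_apply, sub_eq_add_neg]

/-- The constant governing the periodicity of the remainder term. -/
noncomputable def isoD (F₀ : Finset (Fin d → ℤ)) (g : Fin d → ℤ) (ψ : (Fin d → ℤ) →+ ℤ) (W₂ : ℕ) : ℕ :=
  ∏ h ∈ F₀.filter (fun h => ψ h ≠ ψ g), (W₂ * (ψ (W₂ • (g - h))).natAbs)

lemma isoD_pos (F₀ : Finset (Fin d → ℤ)) (g : Fin d → ℤ) (ψ : (Fin d → ℤ) →+ ℤ) {W₂ : ℕ} (hW : 0 < W₂) :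
    0 < isoD F₀ g ψ W₂ := by
  refine Finset.prod_pos fun h hh => Nat.mul_pos hW (Int.natAbs_pos.mpr ?_)
  have h1 := (Finset.mem_filter.mp hh).2
  rw [map_nsmul, map_sub]
  intro h0
  rw [smul_eq_zero] at h0
  rcases h0 with h0 | h0
  · omega
  · exact h1 (sub_eq_zero.mp h0).symm

/-- A function invariant under `vs` and under a transversal vector `v` is periodic. -/
lemma inv_of_transversal {E : Bd (Fin d → ℤ)} {vs : List (Fin d → ℤ)} {ψ : (Fin d → ℤ) →+ ℤ} {W₂ : ℕ}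
    (hb : ∀ y, ψ y = 0 → W₂ • y ∈ AddSubgroup.closure {v | v ∈ vs})
    (hE : ∀ v ∈ vs, Tr v E = E) {v : Fin d → ℤ} (hv : Tr v E = E) (z : Fin d → ℤ) :
    Tr ((W₂ * (ψ v).natAbs) • z) E = E := by
  have h1 : ψ (ψ v • z - ψ z • v) = 0 := by
    rw [map_sub, map_zsmul, map_zsmul, smul_eq_mul, smul_eq_mul]
    ring
  have h2 := hb _ h1
  have h3 : Tr (W₂ • (ψ v • z - ψ z • v)) E = E := inv_closure (S := {v | v ∈ vs}) hE h2
  have h4 : (W₂ • ψ v) • z = W₂ • (ψ v • z - ψ z • v) + (W₂ • ψ z) • v := by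
    module
  have hvmem : v ∈ ({v} : Set (Fin d → ℤ)) := Set.mem_singleton v
  have h5 : Tr ((W₂ • ψ z) • v) E = E :=
    inv_closure (S := {v}) (fun w hw => by rw [Set.mem_singleton_iff.mp hw]; exact hv)
      (AddSubgroup.zsmul_mem _ (AddSubgroup.subset_closure hvmem) _)
  have h6 : Tr ((W₂ • ψ v) • z) E = E := by
    rw [h4, Tr_add, h5, h3]
  rcases Int.natAbs_eq (ψ v) with h7 | h7
  · generalize (ψ v).natAbs = n at h7 ⊢
    rw [h7] at h6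
    have h8 : (W₂ * n) • z = (W₂ • (n : ℤ)) • z := by
      module
    rw [h8, h6]
  · generalize (ψ v).natAbs = n at h7 ⊢
    rw [h7] at h6
    have h8 : (W₂ * n) • z = -((W₂ • (-(n : ℤ))) • z) := by
      module
    rw [h8]
    have h9 := Tr_add (-((W₂ • (-(n : ℤ))) • z)) ((W₂ • (-(n : ℤ))) • z) E
    rw [neg_add_cancel, Tr_zero, h6] at h9
    exact h9.symm

lemma isoR_inv {ρ : Bd (Fin d → ℤ)} {vs : List (Fin d → ℤ)} {ψ : (Fin d → ℤ) →+ ℤ} {W₂ : ℕ}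
    (ha : ∀ v ∈ vs, Tr v ρ = ρ)
    (hb : ∀ y, ψ y = 0 → W₂ • y ∈ AddSubgroup.closure {v | v ∈ vs})
    (F₀ : Finset (Fin d → ℤ)) (g : Fin d → ℤ) {y : Fin d → ℤ}
    (hy : y ∈ scaleS (isoD F₀ g ψ W₂)) : Tr y (isoR ρ F₀ g ψ W₂) = isoR ρ F₀ g ψ W₂ := by
  rw [isoR, map_sum]
  refine Finset.sum_congr rfl fun h hh => ?_
  rw [Tr_comm]
  congr 1
  obtain ⟨z, rfl⟩ := hy
  obtain ⟨e, he⟩ : (W₂ * (ψ (W₂ • (g - h))).natAbs) ∣ isoD F₀ g ψ W₂ :=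
    Finset.dvd_prod_of_mem _ hh
  rw [he, mul_smul]
  refine inv_of_transversal hb (fun v hv => ?_) (Tr_Em_self _ _) _
  rw [← Em_Tr, ha v hv]

/-- The isolation identity. -/
lemma iso_eq {ρ : Bd (Fin d → ℤ)} {vs : List (Fin d → ℤ)} {ψ : (Fin d → ℤ) →+ ℤ}
    {F₀ : Finset (Fin d → ℤ)} {g : Fin d → ℤ} {W₂ : ℕ} {C : Set (Fin d → ℤ)}
    (ha : ∀ v ∈ vs, Tr v ρ = ρ)
    (hb : ∀ y, ψ y = 0 → W₂ • y ∈ AddSubgroup.closure {v | v ∈ vs})
    (hc : ∀ x ∈ C, ∀ s : ℕ, x + (W₂ * s) • g ∈ C)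
    (hd : ∀ x ∈ C, ∀ s : ℕ, ∑ h ∈ F₀, ρ.1 (x - (1 + W₂ * s) • h) = 1)
    {x : Fin d → ℤ} (hx : x ∈ C) :
    ∑ h ∈ F₀.filter (fun h => ψ h = ψ g), ρ.1 (x - h) + (isoR ρ F₀ g ψ W₂).1 x = 1 := by
  classical
  have key : ∀ s : ℕ, ∑ h ∈ F₀, ρ.1 ((x - h) + s • (W₂ • (g - h))) = 1 := by
    intro s
    have h1 := hd _ (hc x hx s) s
    rw [← h1]
    refine Finset.sum_congr rfl fun h _ => ?_
    have h8 : (x - h) + s • (W₂ • (g - h)) = x + (W₂ * s) • g - (1 + W₂ * s) • h := by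
      module
    rw [h8]
  have h2 : ∑ h ∈ F₀, ray ρ (x - h) (W₂ • (g - h)) = ⟨fun _ => 1, const_mem 1⟩ := by
    apply Subtype.ext
    funext s
    have h3 := key s
    rw [← h3]
    have h4 : ∀ (t : Finset (Fin d → ℤ)), ((∑ h ∈ t, ray ρ (x - h) (W₂ • (g - h)) : BddSeq)).1 s
        = ∑ h ∈ t, ρ.1 ((x - h) + s • (W₂ • (g - h))) := by
      intro t
      induction t using Finset.induction_on with
      | empty => simp
      | insert a t ha ih =>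
        rw [Finset.sum_insert ha, Finset.sum_insert ha, ← ih]
        rfl
    exact h4 F₀
  have h5 := congrArg bmean h2
  rw [map_sum, bmean_const] at h5
  rw [isoR_apply, ← h5]
  rw [← Finset.sum_filter_add_sum_filter_not F₀ (fun h => ψ h = ψ g)]
  congr 1
  refine Finset.sum_congr rfl fun h hh => ?_
  have h6 : ψ (g - h) = 0 := by
    rw [map_sub, (Finset.mem_filter.mp hh).2, sub_self]
  have h7 : Tr (W₂ • (g - h)) ρ = ρ := inv_closure (S := {v | v ∈ vs}) ha (hb _ h6)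
  rw [← Em_apply, Em_fix h7]

end Vale.Agent.P043
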