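import Vale.Agent.Lib.P043Poly

open Filter

namespace Vale.Agent.P043

variable {d : ℕ}

/-! Classes modulo an integer. -/

/-- The residue class of a vector. -/
def cl (N : ℕ) (x : Fin d → ℤ) : Fin d → ZMod N := fun i => (x i : ZMod N)

lemma cl_add (N : ℕ) (x y : Fin d → ℤ) : cl N (x + y) = cl N x + cl N y := by
  funext i
  simp [cl]

lemma cl_sub (N : ℕ) (x y : Fin d → ℤ) : cl N (x - y) = cl N x - cl N y := by
  funext i
  simp [cl]

lemma cl_eq_iff {N : ℕ} {x y : Fin d → ℤ} : cl N x = cl N y ↔ x - y ∈ scaleS N := by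
  constructor
  · intro h
    have h1 : ∀ i, (N : ℤ) ∣ x i - y i := by
      intro i
      have h2 : ((x i : ℤ) : ZMod N) = (y i : ℤ) := congrFun h i
      exact (ZMod.intCast_eq_intCast_iff_dvd_sub _ _ _).mp h2.symm |>.trans (by simp)
    choose z hz using h1
    refine ⟨z, ?_⟩
    funext i
    simp only [Pi.sub_apply, Pi.smul_apply, nsmul_eq_mul]
    exact hz i
  · rintro ⟨z, hz⟩
    funext i
    have h1 : x i - y i = N * z i := by
      have := congrFun hz i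
      simpa using this
    have h2 : x i = y i + N * z i := by linarith
    simp [cl, h2]

/-! Limits of translates along an ultrafilter. -/

/-- The limit of the translates of a set along an ultrafilter. -/
def limS {ι : Type*} (U : Ultrafilter ι) (l : ι → Fin d → ℤ) (ω : Set (Fin d → ℤ)) : Set (Fin d → ℤ) :=
  {x | ∀ᶠ i in (U : Filter ι), x + l i ∈ ω}

lemma eventually_mem_limS_iff {ι : Type*} (U : Ultrafilter ι) (l : ι → Fin d → ℤ) (ω : Set (Fin d → ℤ))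
    (x : Fin d → ℤ) : ∀ᶠ i in (U : Filter ι), (x ∈ limS U l ω ↔ x + l i ∈ ω) := by
  by_cases hx : x ∈ limS U l ω
  · have h1 : ∀ᶠ i in (U : Filter ι), x + l i ∈ ω := hx
    filter_upwards [h1] with i hi
    exact iff_of_true hx hi
  · have h1 : ∀ᶠ i in (U : Filter ι), x + l i ∉ ω := Ultrafilter.eventually_not.mpr hx
    filter_upwards [h1] with i hi
    exact iff_of_false hx hi

open Classical in
lemma lim_card {ι : Type*} (U : Ultrafilter ι) (l : ι → Fin d → ℤ) (ω : Set (Fin d → ℤ))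
    (F₁ : Finset (Fin d → ℤ)) (x : Fin d → ℤ) (r : ℕ) :
    ∀ᶠ i in (U : Filter ι), (F₁.filter fun g => x - r • g ∈ limS U l ω).card
      = (F₁.filter fun g => x + l i - r • g ∈ ω).card := by
  have h1 : ∀ᶠ i in (U : Filter ι), ∀ g ∈ F₁, (x - r • g ∈ limS U l ω ↔ x - r • g + l i ∈ ω) := by
    rw [Filter.eventually_all_finset]
    intro g _
    exact eventually_mem_limS_iff U l ω _
  filter_upwards [h1] with i hi
  congr 1
  refine Finset.filter_congr fun g hg => ?_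
  rw [hi g hg]
  rw [show x - r • g + l i = x + l i - r • g by abel]

lemma lim_inOm {ι : Type*} (U : Ultrafilter ι) (l : ι → Fin d → ℤ) {F : Finset (Fin d → ℤ)}
    {ω : Set (Fin d → ℤ)} (hω : InOm F ω) : InOm F (limS U l ω) := by
  classical
  intro s x
  obtain ⟨i, hi⟩ := (lim_card U l ω F x (1 + F.card.factorial * s)).exists
  rw [hi]
  exact hω s (x + l i)

lemma exists_ultra_const {ι α : Type*} [Finite α] (U : Ultrafilter ι) (f : ι → α) :
    ∃ a, ∀ᶠ i in (U : Filter ι), f i = a := by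
  obtain ⟨a, ha⟩ := Ultrafilter.eq_pure_of_finite (U.map f)
  refine ⟨a, ?_⟩
  have h1 : ({a} : Set α) ∈ (U.map f : Filter α) := by
    rw [ha]
    exact Filter.mem_pure.mpr rfl
  exact h1

namespace Base

variable {F : Finset (Fin d → ℤ)} (B : Base F)

instance : NeZero B.NS := ⟨B.NS_pos.ne'⟩

/-- The second scale. -/
noncomputable def M₂ : ℕ := B.M * B.NS

lemma M₂_pos : 0 < B.M₂ := Nat.mul_pos B.hM B.NS_pos

/-- The dilation constant of the exact level. -/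
noncomputable def W₃ : ℕ := F.card.factorial * B.D₃ * (B.M₂ * B.A)

lemma W₃_pos : 0 < B.W₃ :=
  Nat.mul_pos (Nat.mul_pos (Nat.factorial_pos _) B.D₃_pos) (Nat.mul_pos B.M₂_pos B.hA)

lemma fac_dvd_W₃ : F.card.factorial ∣ B.W₃ := Dvd.intro _ (by rw [W₃, mul_assoc])

lemma D₃_dvd_W₃ : B.D₃ ∣ B.W₃ := by
  rw [W₃]
  exact Dvd.dvd.mul_right (Dvd.intro_left _ rfl) _

lemma M₂A_dvd_W₃ : B.M₂ * B.A ∣ B.W₃ := Dvd.intro_left _ rfl

lemma NS_dvd_M₂ : B.NS ∣ B.M₂ := Dvd.intro_left _ rfl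

lemma M_dvd_M₂ : B.M ∣ B.M₂ := Dvd.intro _ rfl

lemma NS_dvd_W₃ : B.NS ∣ B.W₃ :=
  (B.NS_dvd_M₂.trans (Dvd.intro _ rfl)).trans B.M₂A_dvd_W₃

lemma MA_dvd_W₃ : B.M * B.A ∣ B.W₃ :=
  (Nat.mul_dvd_mul_right B.M_dvd_M₂ _).trans B.M₂A_dvd_W₃

/-- At the scale `W₃`, kernel vectors lie in the lattice at level `M₂`. -/
lemma W₃_mem₂ {ψ : (Fin d → ℤ) →+ ℤ} (hψ : ψ ∈ B.Ψ) {y : Fin d → ℤ} (hy : ψ y = 0) :
    B.W₃ • y ∈ AddSubgroup.closure {v | v ∈ lv B.M₂ ψ} :=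
  nsmul_mem_of_dvd B.M₂A_dvd_W₃ (smul_ker_mem_closure_lv (B.hAm ψ hψ y hy))

/-- At the scale `W₃`, kernel vectors lie in the lattice at level `M`. -/
lemma W₃_mem {ψ : (Fin d → ℤ) →+ ℤ} (hψ : ψ ∈ B.Ψ) {y : Fin d → ℤ} (hy : ψ y = 0) :
    B.W₃ • y ∈ AddSubgroup.closure {v | v ∈ lv B.M ψ} :=
  nsmul_mem_of_dvd B.MA_dvd_W₃ (smul_ker_mem_closure_lv (B.hAm ψ hψ y hy))

open Classical in
/-- The fibre condition at a point: every dilate meets the fibre exactly once. -/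
def Ex (ω : Set (Fin d → ℤ)) (ψ : (Fin d → ℤ) →+ ℤ) (g₀ x : Fin d → ℤ) : Prop :=
  ∀ s : ℕ, ((F.filter fun h => ψ h = ψ g₀).filter fun h => x - (1 + B.W₃ * s) • h ∈ ω).card = 1

/-- The values of the level function seen through the dilates. -/
lemma sum_rho_dilate {ω : Set (Fin d → ℤ)} (hω : InOm F ω) {ψ : (Fin d → ℤ) →+ ℤ} (hψ : ψ ∈ B.Ψ)
    {g₀ : Fin d → ℤ} (hg : g₀ ∈ F) (x : Fin d → ℤ) (s : ℕ) :
    ∑ h ∈ F.filter (fun h => ψ h = ψ g₀), (rhoN B.M ψ ω).1 (x - (1 + B.W₃ * s) • h)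
      = (phiB (rhoN B.M ψ ω) F ψ g₀).1 x := by
  have h1 : -((B.W₃ * s) • g₀) ∈ scaleS B.D₃ := by
    refine AddSubgroup.neg_mem _ ?_
    obtain ⟨e, he⟩ := B.D₃_dvd_W₃
    refine ⟨(e * s) • g₀, ?_⟩
    rw [he]
    module
  have h2 := B.phi_inv_D₃ hω hψ hg h1 x
  rw [← h2, phiB_apply]
  refine Finset.sum_congr rfl fun h hh => ?_
  have h3 : ψ (s • (g₀ - h)) = 0 := by
    rw [map_nsmul, map_sub, (Finset.mem_filter.mp hh).2, sub_self, smul_zero]
  have h4 := B.W₃_mem hψ h3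
  have h5 : Tr (B.W₃ • (s • (g₀ - h))) (rhoN B.M ψ ω) = rhoN B.M ψ ω := EL_inv_closure _ h4 _
  have h6 := congrArg (fun k : Bd (Fin d → ℤ) => k.1 (x + -((B.W₃ * s) • g₀) - h)) h5
  simp only [Tr_apply] at h6
  have h7 : x - (1 + B.W₃ * s) • h = x + -((B.W₃ * s) • g₀) - h + B.W₃ • s • (g₀ - h) := by
    module
  rw [h7]
  exact h6

open Classical in
/-- The window lemma. -/
lemma window {ω : Set (Fin d → ℤ)} (hω : InOm F ω) {ψ : (Fin d → ℤ) →+ ℤ} (hψ : ψ ∈ B.Ψ)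
    {g₀ : Fin d → ℤ} (hg : g₀ ∈ F) {C : Set (Fin d → ℤ)}
    (hC : ∀ x ∈ C, (phiB (rhoN B.M ψ ω) F ψ g₀).1 x = 1) (Win : Finset ((Fin d → ℤ) × ℕ)) :
    ∃ l ∈ AddSubgroup.closure {v | v ∈ lv B.M ψ}, ∀ p ∈ Win, p.1 ∈ C →
      ((F.filter fun h => ψ h = ψ g₀).filter fun h => p.1 + l - (1 + B.W₃ * p.2) • h ∈ ω).card = 1 := by
  set F₀ := F.filter fun h => ψ h = ψ g₀ with hF₀
  set Win' := Win.filter fun p => p.1 ∈ C with hWin'
  let H : Bd (Fin d → ℤ) :=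
    ∑ p ∈ Win', (oneB - Tr p.1 (sumT F₀ (1 + B.W₃ * p.2) (indB ω)))
  have hHval : ∀ z, H.1 z = ∑ p ∈ Win', (1 - ((F₀.filter fun h => p.1 + z - (1 + B.W₃ * p.2) • h ∈ ω).card : ℝ)) := by
    intro z
    rw [bd_sum_apply]
    refine Finset.sum_congr rfl fun p _ => ?_
    change (1 : ℝ) - (sumT F₀ (1 + B.W₃ * p.2) (indB ω)).1 (z + p.1) = _
    rw [sumT_indB, add_comm z]
  have hEL : (EL (lv B.M ψ) H).1 0 = 0 := by
    simp only [H, map_sum, map_sub, EL_oneB, EL_Tr, EL_sumT]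
    rw [bd_sum_apply]
    refine Finset.sum_eq_zero fun p hp => ?_
    change (1 : ℝ) - (sumT F₀ (1 + B.W₃ * p.2) (EL (lv B.M ψ) (indB ω))).1 (0 + p.1) = 0
    rw [sumT_apply, zero_add]
    have hpC : p.1 ∈ C := (Finset.mem_filter.mp hp).2
    have h1 := B.sum_rho_dilate hω hψ hg p.1 p.2
    rw [hC _ hpC] at h1
    rw [sub_eq_zero]
    exact h1.symm
  have hex : ∃ l ∈ AddSubgroup.closure {v | v ∈ lv B.M ψ}, H.1 (0 + l) < 1 := by
    by_contra hcon
    push Not at hcon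
    have := EL_le (vs := lv B.M ψ) (x := 0) (h := H) (c := 1) hcon
    rw [hEL] at this
    linarith
  obtain ⟨l, hl, hlt⟩ := hex
  refine ⟨l, hl, fun p hp hpC => ?_⟩
  rw [zero_add, hHval] at hlt
  by_contra hne
  have hle : ∀ q : (Fin d → ℤ) × ℕ, (F₀.filter fun h => q.1 + l - (1 + B.W₃ * q.2) • h ∈ ω).card ≤ 1 := by
    intro q
    exact card_fibre_le (inom_tile hω B.fac_dvd_W₃ q.2) F₀ (Finset.filter_subset _ _) _
  have hp0 : (F₀.filter fun h => p.1 + l - (1 + B.W₃ * p.2) • h ∈ ω).card = 0 := by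
    have := hle p
    omega
  have hmem : p ∈ Win' := Finset.mem_filter.mpr ⟨hp, hpC⟩
  have h3 := Finset.single_le_sum (f := fun q : (Fin d → ℤ) × ℕ =>
    (1 - ((F₀.filter fun h => q.1 + l - (1 + B.W₃ * q.2) • h ∈ ω).card : ℝ)))
    (fun q _ => by
      have : ((F₀.filter fun h => q.1 + l - (1 + B.W₃ * q.2) • h ∈ ω).card : ℝ) ≤ 1 := by
        exact_mod_cast hle q
      simpa using this) hmem
  simp only [hp0] at h3
  simp only [Nat.cast_zero, sub_zero] at h3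
  linarith

open Classical in
/-- The exactness of a fibre on a whole class. -/
def Exact (ω : Set (Fin d → ℤ)) (t : ((Fin d → ℤ) →+ ℤ) × (Fin d → ℤ) × (Fin d → ZMod B.NS)) : Prop :=
  ∀ x, cl B.NS x = t.2.2 → B.Ex ω t.1 t.2.1 x

open Classical in
/-- All the triples. -/
noncomputable def TT : Finset (((Fin d → ℤ) →+ ℤ) × (Fin d → ℤ) × (Fin d → ZMod B.NS)) :=
  B.Ψ.toFinset ×ˢ F ×ˢ Finset.univ

open Classical in
/-- The number of exact triples. -/
noncomputable def Pot (ω : Set (Fin d → ℤ)) : ℕ := (B.TT.filter fun t => B.Exact ω t).card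

open Classical in
/-- The step of the maximality argument. -/
lemma step_up {ω : Set (Fin d → ℤ)} (hω : InOm F ω) {ψ : (Fin d → ℤ) →+ ℤ} (hψ : ψ ∈ B.Ψ)
    {g₀ : Fin d → ℤ} (hg : g₀ ∈ F) {x₁ : Fin d → ℤ}
    (hC : ∀ ℓ ∈ B.Lam ψ, (phiB (rhoN B.M ψ ω) F ψ g₀).1 (x₁ + ℓ) = 1)
    (hnot : ¬ B.Exact ω (ψ, g₀, cl B.NS x₁)) :
    ∃ ω', InOm F ω' ∧ B.Pot ω < B.Pot ω' := by
  set C : Set (Fin d → ℤ) := {x | x - x₁ ∈ B.Lam ψ} with hCdef
  have hC' : ∀ x ∈ C, (phiB (rhoN B.M ψ ω) F ψ g₀).1 x = 1 := by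
    intro x hx
    have := hC _ hx
    rwa [add_sub_cancel] at this
  choose l hl hl' using fun Win => B.window hω hψ hg hC' Win
  let U : Ultrafilter (Finset ((Fin d → ℤ) × ℕ)) := Ultrafilter.of atTop
  have hU : (U : Filter (Finset ((Fin d → ℤ) × ℕ))) ≤ atTop := Ultrafilter.of_le _
  have hev : ∀ p : (Fin d → ℤ) × ℕ, ∀ᶠ Win in (U : Filter (Finset ((Fin d → ℤ) × ℕ))), p ∈ Win := by
    intro p
    have h1 : ∀ᶠ Win : Finset ((Fin d → ℤ) × ℕ) in atTop, {p} ≤ Win := eventually_ge_atTop _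
    have h2 := hU h1
    refine Filter.mem_of_superset h2 fun Win hWin => ?_
    exact Finset.singleton_subset_iff.mp hWin
  obtain ⟨a, ha⟩ := exists_ultra_const U (fun Win => cl B.NS (l Win))
  set ω' := limS U l ω with hω'
  have hω'in : InOm F ω' := lim_inOm U l hω
  refine ⟨ω', hω'in, ?_⟩
  let β : ((Fin d → ℤ) →+ ℤ) × (Fin d → ℤ) × (Fin d → ZMod B.NS) →
      ((Fin d → ℤ) →+ ℤ) × (Fin d → ℤ) × (Fin d → ZMod B.NS) := fun t => (t.1, t.2.1, t.2.2 - a)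
  have hβ : Function.Injective β := by
    rintro ⟨a1, a2, a3⟩ ⟨b1, b2, b3⟩ h
    simp only [β, Prod.mk.injEq] at h
    obtain ⟨rfl, rfl, h3⟩ := h
    rw [sub_left_inj.mp h3]
  have hold : ∀ t, B.Exact ω t → B.Exact ω' (β t) := by
    rintro ⟨ψ', g', a'⟩ ht x hx s
    simp only [β] at hx
    have h1 := lim_card U l ω (F.filter fun h => ψ' h = ψ' g') x (1 + B.W₃ * s)
    obtain ⟨Win, hWin1, hWin2⟩ := (h1.and ha).exists
    rw [hWin1]
    refine ht (x + l Win) ?_ s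
    change cl B.NS (x + l Win) = a'
    rw [cl_add, hx, hWin2]
    simp
  have hnew : B.Exact ω' (β (ψ, g₀, cl B.NS x₁)) := by
    intro x hx s
    simp only [β] at hx
    have hxC : x ∈ C := by
      obtain ⟨Win, hWin⟩ := ha.exists
      have h1 : cl B.NS (x + l Win) = cl B.NS x₁ := by
        rw [cl_add, hx, hWin]
        simp
      have h2 := B.NS_le_Lam hψ (cl_eq_iff.mp h1)
      have h3 := B.lv_le_Lam ψ (hl Win)
      have h4 := AddSubgroup.sub_mem _ h2 h3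
      rw [show x + l Win - x₁ - l Win = x - x₁ by abel] at h4
      exact h4
    have h1 := lim_card U l ω (F.filter fun h => ψ h = ψ g₀) x (1 + B.W₃ * s)
    obtain ⟨Win, hWin1, hWin2⟩ := (h1.and (hev (x, s))).exists
    rw [hWin1]
    exact hl' Win (x, s) hWin2 hxC
  have hsub : ((B.TT.filter fun t => B.Exact ω t).image β) ∪ {β (ψ, g₀, cl B.NS x₁)}
      ⊆ B.TT.filter fun t => B.Exact ω' t := by
    intro t ht
    rcases Finset.mem_union.mp ht with ht | ht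
    · obtain ⟨t', ht', rfl⟩ := Finset.mem_image.mp ht
      obtain ⟨h1, h2⟩ := Finset.mem_filter.mp ht'
      refine Finset.mem_filter.mpr ⟨?_, hold _ h2⟩
      simp only [TT, Finset.mem_product, Finset.mem_univ, and_true, β] at h1 ⊢
      exact h1
    · rw [Finset.mem_singleton.mp ht]
      refine Finset.mem_filter.mpr ⟨?_, hnew⟩
      simp only [TT, Finset.mem_product, Finset.mem_univ, and_true, β, List.mem_toFinset]
      exact ⟨hψ, hg⟩
  have hnotin : β (ψ, g₀, cl B.NS x₁) ∉ (B.TT.filter fun t => B.Exact ω t).image β := by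
    intro hm
    obtain ⟨t', ht', he⟩ := Finset.mem_image.mp hm
    rw [hβ he] at ht'
    exact hnot (Finset.mem_filter.mp ht').2
  have hcard := Finset.card_le_card hsub
  rw [Finset.card_union_of_disjoint (Finset.disjoint_singleton_right.mpr hnotin),
    Finset.card_image_of_injective _ hβ, Finset.card_singleton] at hcard
  exact hcard

/-- There is a tiling with the largest number of exact triples. -/
lemma exists_max {ω₀ : Set (Fin d → ℤ)} (hω₀ : InOm F ω₀) :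
    ∃ ω, InOm F ω ∧ ∀ ω', InOm F ω' → B.Pot ω' ≤ B.Pot ω := by
  classical
  let S : Set ℕ := {n | ∃ ω, InOm F ω ∧ B.Pot ω = n}
  have hS : S.Nonempty := ⟨_, ω₀, hω₀, rfl⟩
  have hbd : BddAbove S := by
    refine ⟨B.TT.card, ?_⟩
    rintro _ ⟨ω, _, rfl⟩
    exact Finset.card_filter_le _ _
  obtain ⟨ω, hω, hωe⟩ := Nat.sSup_mem hS hbd
  refine ⟨ω, hω, fun ω' hω' => ?_⟩
  rw [hωe]
  exact le_csSup hbd ⟨ω', hω', rfl⟩

/-- At a maximal tiling, level function one forces exactness. -/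
lemma exact_of_max {ω : Set (Fin d → ℤ)} (hω : InOm F ω) (hmax : ∀ ω', InOm F ω' → B.Pot ω' ≤ B.Pot ω)
    {ψ : (Fin d → ℤ) →+ ℤ} (hψ : ψ ∈ B.Ψ) {g₀ : Fin d → ℤ} (hg : g₀ ∈ F) {x₁ : Fin d → ℤ}
    (hC : ∀ ℓ ∈ B.Lam ψ, (phiB (rhoN B.M ψ ω) F ψ g₀).1 (x₁ + ℓ) = 1) : B.Ex ω ψ g₀ x₁ := by
  by_contra hne
  have hnot : ¬ B.Exact ω (ψ, g₀, cl B.NS x₁) := fun h => hne (h x₁ rfl)
  obtain ⟨ω', hω', hlt⟩ := B.step_up hω hψ hg hC hnot
  exact absurd (hmax ω' hω') (not_le.mpr hlt)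

end Base

end Vale.Agent.P043
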