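import Vale.Agent.Lib.P043Struct

namespace Vale.Agent.P043

variable {d : ℕ}

lemma zsmul_inv_of_add {α : Type*} {u : (Fin d → ℤ) → α} {τ : Fin d → ℤ}
    (h : ∀ x, u (x + τ) = u x) (m : ℤ) (x : Fin d → ℤ) : u (x + m • τ) = u x := by
  induction m using Int.induction_on with
  | zero => simp
  | succ i ih =>
    have e : x + ((i : ℤ) + 1) • τ = (x + (i : ℤ) • τ) + τ := by module
    rw [e, h, ih]
  | pred i ih =>
    have e : x + (-(i : ℤ)) • τ = (x + (-(i : ℤ) - 1) • τ) + τ := by module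
    rw [e, h] at ih
    exact ih

open Classical in
/-- A set invariant along a kernel lattice and with coverage invariant along a transversal vector
can be replaced by a periodic set with the same coverage. -/
theorem per_lemma (F : Finset (Fin d → ℤ)) (A : Set (Fin d → ℤ)) (ψ : (Fin d → ℤ) →+ ℤ)
    (τ : Fin d → ℤ) (hτ : 0 < ψ τ) (K : AddSubgroup (Fin d → ℤ)) (hK : ∀ l ∈ K, ψ l = 0)
    (hA : ∀ l ∈ K, ∀ x, x + l ∈ A ↔ x ∈ A) {a : ℕ} (ha : 0 < a)
    (hka : ∀ y, ψ y = 0 → a • y ∈ K)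
    (hc : ∀ x, (F.filter fun g => x + τ - g ∈ A).card = (F.filter fun g => x - g ∈ A).card) :
    ∃ (A' : Set (Fin d → ℤ)) (N : ℕ), 0 < N ∧ (∀ y ∈ scaleS N, ∀ x, x + y ∈ A' ↔ x ∈ A') ∧
      ∀ x, (F.filter fun g => x - g ∈ A').card = (F.filter fun g => x - g ∈ A).card := by
  haveI : NeZero a := ⟨ha.ne'⟩
  set S : ℤ := ∑ g ∈ F, |ψ g| with hSdef
  have hS : ∀ g ∈ F, |ψ g| ≤ S := fun g hg =>
    Finset.single_le_sum (f := fun g => |ψ g|) (fun _ _ => abs_nonneg _) hg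
  have hS0 : 0 ≤ S := Finset.sum_nonneg fun _ _ => abs_nonneg _
  obtain ⟨Sn, hSn⟩ := Int.eq_ofNat_of_zero_le hS0
  let L : ℕ := 1 + 2 * Sn
  have hL : 0 < L := by simp [L]
  haveI : NeZero L := ⟨hL.ne'⟩
  let St : ℕ → Set ((Fin d → ZMod a) × Fin L) := fun k =>
    {u | ∃ z : Fin d → ℤ, cl a z = u.1 ∧ ψ z = (u.2.val : ℤ) ∧ z + (L * k) • τ ∈ A}
  have hstep : ∀ k k', St k = St k' → ∀ z, 0 ≤ ψ z → ψ z < L →
      z + (L * k) • τ ∈ A → z + (L * k') • τ ∈ A := by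
    intro k k' hst z hz0 hzL hz
    obtain ⟨n, hn⟩ := Int.eq_ofNat_of_zero_le hz0
    have hnL : n < L := by
      rw [hn] at hzL
      exact_mod_cast hzL
    have hmem : ((cl a z, ⟨n, hnL⟩) : (Fin d → ZMod a) × Fin L) ∈ St k :=
      ⟨z, rfl, by simpa using hn, hz⟩
    rw [hst] at hmem
    obtain ⟨z', h1, h2, h3⟩ := hmem
    simp only at h1 h2
    obtain ⟨w, hw⟩ := cl_eq_iff.mp h1.symm
    have hψw : ψ w = 0 := by
      have h4 : ψ (z - z') = 0 := by
        rw [map_sub, h2, hn, sub_self]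
      rw [hw, map_nsmul, nsmul_eq_mul] at h4
      exact (mul_eq_zero.mp h4).resolve_left (by exact_mod_cast ha.ne')
    have h5 := hka w hψw
    rw [← hw] at h5
    have h6 := (hA _ h5 (z' + (L * k') • τ)).mpr h3
    rwa [show z' + (L * k') • τ + (z - z') = z + (L * k') • τ by abel] at h6
  have main : ∀ k₁ e : ℕ, St k₁ = St (k₁ + e + 1) →
      ∃ (A' : Set (Fin d → ℤ)) (N : ℕ), 0 < N ∧ (∀ y ∈ scaleS N, ∀ x, x + y ∈ A' ↔ x ∈ A') ∧
      ∀ x, (F.filter fun g => x - g ∈ A').card = (F.filter fun g => x - g ∈ A).card := by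
    intro k₁ e hst
    set b : ℤ := ψ τ with hb
    let Q : ℕ := L * (e + 1)
    have hQ : 0 < Q := Nat.mul_pos hL (Nat.succ_pos _)
    set l₁ : ℤ := L * k₁ * b with hl₁
    have hQb : 0 < (Q : ℤ) * b := mul_pos (by exact_mod_cast hQ) hτ
    have hLQb : (L : ℤ) ≤ (Q : ℤ) * b := by
      have h1 : (1 : ℤ) ≤ b := hτ
      have h2 : (1 : ℤ) ≤ (e : ℤ) + 1 := by omega
      have h3 : (0 : ℤ) < L := by exact_mod_cast hL
      have h4 : (Q : ℤ) = L * ((e : ℤ) + 1) := by simp [Q]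
      rw [h4]
      nlinarith [mul_le_mul h2 h1 (by norm_num) (by omega : (0 : ℤ) ≤ (e : ℤ) + 1)]
    have hψτ : ∀ (m : ℕ), ψ (m • τ) = m * b := by
      intro m
      rw [map_nsmul, nsmul_eq_mul]
    have star : ∀ y, l₁ ≤ ψ y → ψ y < l₁ + L → (y ∈ A ↔ y + Q • τ ∈ A) := by
      intro y h1 h2
      have hz : ψ (y - (L * k₁) • τ) = ψ y - l₁ := by
        rw [map_sub, hψτ]
        push_cast
        rfl
      have e1 : y - (L * k₁) • τ + (L * k₁) • τ = y := sub_add_cancel _ _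
      have e2 : y - (L * k₁) • τ + (L * (k₁ + e + 1)) • τ = y + Q • τ := by
        simp only [Q]
        module
      constructor
      · intro hy
        have := hstep k₁ (k₁ + e + 1) hst (y - (L * k₁) • τ) (by rw [hz]; linarith)
          (by rw [hz]; linarith) (by rw [e1]; exact hy)
        rwa [e2] at this
      · intro hy
        have := hstep (k₁ + e + 1) k₁ hst.symm (y - (L * k₁) • τ) (by rw [hz]; linarith)
          (by rw [hz]; linarith) (by rw [e2]; exact hy)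
        rwa [e1] at this
    let t : (Fin d → ℤ) → ℤ := fun z => (ψ z - l₁) / ((Q : ℤ) * b)
    let A' : Set (Fin d → ℤ) := {z | z - t z • (Q • τ) ∈ A}
    have hψQ : ∀ (z : Fin d → ℤ) (c : ℤ), ψ (z + c • (Q • τ)) = ψ z + c * ((Q : ℤ) * b) := by
      intro z c
      rw [map_add, map_zsmul, hψτ, smul_eq_mul]
    have ht : ∀ (z : Fin d → ℤ) (c : ℤ), t (z + c • (Q • τ)) = t z + c := by
      intro z c
      simp only [t]
      rw [hψQ, show ψ z + c * ((Q : ℤ) * b) - l₁ = ψ z - l₁ + c * ((Q : ℤ) * b) by ring,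
        Int.add_mul_ediv_right _ _ hQb.ne']
    have hinv : ∀ (z : Fin d → ℤ) (c : ℤ), z + c • (Q • τ) ∈ A' ↔ z ∈ A' := by
      intro z c
      change z + c • (Q • τ) - t (z + c • (Q • τ)) • (Q • τ) ∈ A ↔ z - t z • (Q • τ) ∈ A
      rw [ht, show z + c • (Q • τ) - (t z + c) • (Q • τ) = z - t z • (Q • τ) by module]
    have hinvK : ∀ l ∈ K, ∀ z, z + l ∈ A' ↔ z ∈ A' := by
      intro l hl z
      have h1 : t (z + l) = t z := by
        simp only [t]
        rw [map_add, hK l hl, add_zero]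
      change z + l - t (z + l) • (Q • τ) ∈ A ↔ z - t z • (Q • τ) ∈ A
      rw [h1, show z + l - t z • (Q • τ) = z - t z • (Q • τ) + l by abel]
      exact hA l hl _
    have hagree : ∀ z, l₁ ≤ ψ z → ψ z < l₁ + (Q : ℤ) * b + L → (z ∈ A' ↔ z ∈ A) := by
      intro z h1 h2
      by_cases h3 : ψ z < l₁ + (Q : ℤ) * b
      · have h4 : t z = 0 := by
          simp only [t]
          exact Int.ediv_eq_zero_of_lt (by linarith) (by linarith)
        change z - t z • (Q • τ) ∈ A ↔ z ∈ A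
        rw [h4, zero_smul, sub_zero]
      · push Not at h3
        have h4 : t z = 1 := by
          simp only [t]
          have h5 : ψ z - l₁ = (ψ z - l₁ - (Q : ℤ) * b) + 1 * ((Q : ℤ) * b) := by ring
          rw [h5, Int.add_mul_ediv_right _ _ hQb.ne',
            Int.ediv_eq_zero_of_lt (by linarith) (by linarith)]
          simp
        change z - t z • (Q • τ) ∈ A ↔ z ∈ A
        rw [h4, one_smul]
        have h6 : ψ (z - Q • τ) = ψ z - (Q : ℤ) * b := by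
          rw [map_sub, hψτ]
        have h7 := star (z - Q • τ) (by rw [h6]; linarith) (by rw [h6]; linarith)
        rw [sub_add_cancel] at h7
        exact h7
    have hcz : ∀ (m : ℤ) (x : Fin d → ℤ), (F.filter fun g => x + m • τ - g ∈ A).card
        = (F.filter fun g => x - g ∈ A).card :=
      fun m x => zsmul_inv_of_add (u := fun x => (F.filter fun g => x - g ∈ A).card) hc m x
    obtain ⟨bn, hbn⟩ := Int.eq_ofNat_of_zero_le hτ.le
    refine ⟨A', a * Q * bn, Nat.mul_pos (Nat.mul_pos ha hQ) ?_, ?_, ?_⟩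
    · have : 0 < (bn : ℤ) := by rw [← hbn]; exact hτ
      exact_mod_cast this
    · rintro _ ⟨z, rfl⟩ x
      have h1 : ψ ((bn : ℤ) • z - ψ z • τ) = 0 := by
        rw [map_sub, map_zsmul, map_zsmul, smul_eq_mul, smul_eq_mul, ← hb, hbn]
        ring
      have h2 := hka _ h1
      have e1 : (a * Q * bn) • z = Q • (a • ((bn : ℤ) • z - ψ z • τ)) + ((a : ℤ) * ψ z) • (Q • τ) := by
        module
      rw [e1, ← add_assoc, hinv, hinvK _ (AddSubgroup.nsmul_mem _ h2 _)]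
    · intro x
      let i : ℤ := (ψ x - S - l₁) / ((Q : ℤ) * b)
      let x' : Fin d → ℤ := x - i • (Q • τ)
      have hxx' : ψ x' = ψ x - i * ((Q : ℤ) * b) := by
        have := hψQ x (-i)
        have e2 : x + (-i) • (Q • τ) = x' := by
          simp only [x']
          module
        rw [e2] at this
        rw [this]
        ring
      have hr0 := Int.emod_nonneg (ψ x - S - l₁) hQb.ne'
      have hr1 := Int.emod_lt_of_pos (ψ x - S - l₁) hQb
      have hr2 := Int.emod_add_mul_ediv (ψ x - S - l₁) ((Q : ℤ) * b)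
      have hL' : (L : ℤ) = 1 + 2 * S := by
        simp only [L]
        push_cast
        rw [hSn]
      have hcongr : (F.filter fun g => x - g ∈ A') = F.filter fun g => x' - g ∈ A := by
        refine Finset.filter_congr fun g hg => ?_
        have e3 : x - g = (x' - g) + i • (Q • τ) := by
          simp only [x']
          abel
        rw [e3, hinv]
        have h8 : ψ (x' - g) = ψ x' - ψ g := map_sub _ _ _
        have h9 := abs_le.mp (hS g hg)
        have h10 : ψ x - i * ((Q : ℤ) * b) = S + l₁ + (ψ x - S - l₁) % ((Q : ℤ) * b) := by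
          have h11 : ((Q : ℤ) * b) * ((ψ x - S - l₁) / ((Q : ℤ) * b)) = ((Q : ℤ) * b) * i := rfl
          rw [h11] at hr2
          linarith
        refine hagree _ ?_ ?_
        · rw [h8, hxx', h10]
          linarith [h9.2]
        · rw [h8, hxx', h10]
          linarith [h9.1]
      rw [hcongr]
      have e4 : x' = x + (-(i * (Q : ℤ))) • τ := by
        simp only [x']
        module
      rw [e4]
      exact hcz _ x
  obtain ⟨k₁, k₂, hne, hst⟩ := Finite.exists_ne_map_eq_of_infinite St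
  rcases lt_or_gt_of_ne hne with h | h
  · obtain ⟨e, rfl⟩ := Nat.exists_eq_add_of_lt h
    exact main k₁ e hst
  · obtain ⟨e, rfl⟩ := Nat.exists_eq_add_of_lt h
    exact main k₂ e hst.symm

namespace Base

variable {F : Finset (Fin d → ℤ)} (B : Base F)

open Classical in
/-- The periodic tiling produced from the structure theorem. -/
theorem assemble {ω : Set (Fin d → ℤ)} {N : ℕ} {j : (Fin d → ℤ) → ((Fin d → ℤ) →+ ℤ)}
    (hω : InOm F ω) (hN : 0 < N) (hj : ∀ x, j x ∈ B.Ψ)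
    (hjinv : ∀ x, ∀ l ∈ scaleS N, j (x + l) = j x)
    (hinv : ∀ x, ∀ l ∈ AddSubgroup.closure {v | v ∈ lv N (j x)}, x + l ∈ ω ↔ x ∈ ω) :
    ∃ (A' : Set (Fin d → ℤ)) (N' : ℕ), 0 < N' ∧
      (∀ x : Fin d → ℤ, ∃! q : (Fin d → ℤ) × (Fin d → ℤ), q.1 ∈ A' ∧ q.2 ∈ F ∧ q.1 + q.2 = x) ∧
      ∀ y ∈ scaleS N', ∀ x, x + y ∈ A' ↔ x ∈ A' := by
  obtain ⟨A, hAmem⟩ : ∃ A : ((Fin d → ℤ) →+ ℤ) → Set (Fin d → ℤ), ∀ ψ x, x ∈ A ψ ↔ x ∈ ω ∧ j x = ψ :=
    ⟨fun ψ => {x | x ∈ ω ∧ j x = ψ}, fun _ _ => Iff.rfl⟩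
  let e : ((Fin d → ℤ) →+ ℤ) → Bd (Fin d → ℤ) := fun ψ => sumT F 1 (indB (A ψ))
  have hAinv : ∀ ψ, ∀ l ∈ AddSubgroup.closure {v | v ∈ lv N ψ}, ∀ x, x + l ∈ A ψ ↔ x ∈ A ψ := by
    intro ψ l hl x
    have hls := closure_lv_le_scaleS _ _ hl
    rw [hAmem, hAmem]
    constructor
    · rintro ⟨h1, h2⟩
      have h3 : j x = ψ := by rw [← hjinv x l hls, h2]
      refine ⟨?_, h3⟩
      refine (hinv x l ?_).mp h1
      rw [h3]
      exact hl
    · rintro ⟨h1, h2⟩
      refine ⟨?_, by rw [hjinv x l hls, h2]⟩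
      refine (hinv x l ?_).mpr h1
      rw [h2]
      exact hl
  have hTrA : ∀ ψ, ∀ l ∈ AddSubgroup.closure {v | v ∈ lv N ψ}, Tr l (indB (A ψ)) = indB (A ψ) := by
    intro ψ l hl
    apply Subtype.ext
    funext x
    rw [Tr_apply, indB_apply, indB_apply, ind, ind]
    by_cases hx : x ∈ A ψ
    · rw [if_pos hx, if_pos ((hAinv ψ l hl x).mpr hx)]
    · rw [if_neg hx, if_neg (fun h => hx ((hAinv ψ l hl x).mp h))]
  have hTre : ∀ ψ, ∀ l ∈ AddSubgroup.closure {v | v ∈ lv N ψ}, Tr l (e ψ) = e ψ := by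
    intro ψ l hl
    simp only [e]
    rw [Tr_sumT, hTrA ψ l hl]
  have hevalc : ∀ ψ x, (e ψ).1 x = ((F.filter fun g => x - g ∈ A ψ).card : ℝ) := by
    intro ψ x
    simp only [e]
    rw [sumT_indB]
    simp only [one_smul]
  have hsumN : ∀ x, ∑ ψ ∈ B.Ψ.toFinset, (F.filter fun g => x - g ∈ A ψ).card = 1 := by
    intro x
    have h1 : Tile F ω 1 := by
      have := hω 0
      simpa using this
    have h2 := h1 x
    simp only [one_smul] at h2
    rw [← h2, Finset.card_eq_sum_card_fiberwise (f := fun g => j (x - g)) (t := B.Ψ.toFinset)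
      (fun g _ => List.mem_toFinset.mpr (hj _))]
    refine Finset.sum_congr rfl fun ψ _ => ?_
    rw [Finset.filter_filter]
    simp only [hAmem]
  have hsumB : ∑ ψ ∈ B.Ψ.toFinset, e ψ = oneB := by
    apply Subtype.ext
    funext x
    rw [bd_sum_apply]
    simp only [hevalc, oneB_apply]
    exact_mod_cast hsumN x
  have heper : ∀ ψ ∈ B.Ψ, ∀ y ∈ scaleS (N * B.D₂), Tr y (e ψ) = e ψ := by
    intro ψ hψ y hy
    have hmemψ : ψ ∈ B.Ψ.toFinset := List.mem_toFinset.mpr hψ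
    have h1 : e ψ = oneB - ∑ φ ∈ B.Ψ.toFinset.erase ψ, EL (lv N ψ) (e φ) := by
      have h2 := congrArg (EL (lv N ψ)) hsumB
      rw [EL_oneB, map_sum, ← Finset.add_sum_erase _ _ hmemψ,
        EL_fix (fun v hv => hTre ψ v (AddSubgroup.subset_closure hv))] at h2
      rw [← h2]
      abel
    rw [h1, map_sub, map_sum, Tr_oneB]
    congr 1
    refine Finset.sum_congr rfl fun φ hφ => ?_
    have hφΨ : φ ∈ B.Ψ := List.mem_toFinset.mp (Finset.mem_of_mem_erase hφ)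
    have hne : ψ ≠ φ := (Finset.ne_of_mem_erase hφ).symm
    obtain ⟨z, rfl⟩ := hy
    obtain ⟨κ, hκ, μ, hμ, he⟩ := B.split_of_pair hψ hφΨ hne N z
    rw [he, Tr_add]
    have h3 : Tr μ (EL (lv N ψ) (e φ)) = EL (lv N ψ) (e φ) := EL_inv_closure _ hμ _
    rw [h3, ← EL_Tr, hTre φ κ hκ]
  have hper : ∀ ψ ∈ B.Ψ, ∃ (A' : Set (Fin d → ℤ)) (N' : ℕ), 0 < N' ∧
      (∀ y ∈ scaleS N', ∀ x, x + y ∈ A' ↔ x ∈ A') ∧
      ∀ x, (F.filter fun g => x - g ∈ A').card = (F.filter fun g => x - g ∈ A ψ).card := by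
    intro ψ hψ
    have hτ : 0 < ψ ((N * B.D₂) • grad ψ) := by
      rw [map_nsmul, nsmul_eq_mul]
      exact mul_pos (by exact_mod_cast Nat.mul_pos hN B.hD₂) (grad_pos (B.hne ψ hψ))
    refine per_lemma F (A ψ) ψ _ hτ (AddSubgroup.closure {v | v ∈ lv N ψ}) ?_ (hAinv ψ)
      (a := N * B.A) (Nat.mul_pos hN B.hA) (fun y hy => smul_ker_mem_closure_lv (B.hAm ψ hψ y hy)) ?_
    · intro l hl
      have h1 : AddSubgroup.closure {v | v ∈ lv N ψ} ≤ ψ.ker := by
        rw [AddSubgroup.closure_le]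
        intro v hv
        obtain ⟨w, hw, rfl⟩ := List.mem_map.mp hv
        change ψ (N • w) = 0
        rw [map_nsmul, gens_ker hw, smul_zero]
      exact h1 hl
    · intro x
      have h1 := congrArg (fun k : Bd (Fin d → ℤ) => k.1 x)
        (heper ψ hψ _ (nsmul_mem_scaleS _ (grad ψ)))
      simp only [Tr_apply, hevalc] at h1
      exact_mod_cast h1
  choose! A' N' hN' hA'inv hA'c using hper
  refine ⟨{x | ∃ ψ ∈ B.Ψ, x ∈ A' ψ}, (B.Ψ.map N').prod, List.prod_pos fun n hn => ?_, ?_, ?_⟩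
  · obtain ⟨ψ, hψ, rfl⟩ := List.mem_map.mp hn
    exact hN' ψ hψ
  · intro x
    have hs : ∑ ψ ∈ B.Ψ.toFinset, (F.filter fun g => x - g ∈ A' ψ).card = 1 := by
      rw [← hsumN x]
      exact Finset.sum_congr rfl fun ψ hψ => hA'c ψ (List.mem_toFinset.mp hψ) x
    obtain ⟨ψ₁, hψ₁, hone⟩ : ∃ ψ ∈ B.Ψ.toFinset, (F.filter fun g => x - g ∈ A' ψ).card ≠ 0 := by
      by_contra hcon
      push Not at hcon
      rw [Finset.sum_eq_zero hcon] at hs
      exact zero_ne_one hs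
    have hle : ∀ ψ ∈ B.Ψ.toFinset, (F.filter fun g => x - g ∈ A' ψ).card ≤ 1 := by
      intro ψ hψ
      rw [← hs]
      exact Finset.single_le_sum (f := fun ψ => (F.filter fun g => x - g ∈ A' ψ).card)
        (fun _ _ => Nat.zero_le _) hψ
    have hcard1 : (F.filter fun g => x - g ∈ A' ψ₁).card = 1 := by
      have := hle ψ₁ hψ₁
      omega
    have hother : ∀ ψ ∈ B.Ψ.toFinset, ψ ≠ ψ₁ → (F.filter fun g => x - g ∈ A' ψ).card = 0 := by
      intro ψ hψ hne
      have h2 := Finset.add_sum_erase _ (fun ψ => (F.filter fun g => x - g ∈ A' ψ).card) hψ₁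
      have h3 := Finset.single_le_sum (s := B.Ψ.toFinset.erase ψ₁)
        (f := fun ψ => (F.filter fun g => x - g ∈ A' ψ).card)
        (fun _ _ => Nat.zero_le _) (Finset.mem_erase.mpr ⟨hne, hψ⟩)
      omega
    obtain ⟨g₁, hg₁⟩ := Finset.card_eq_one.mp hcard1
    have hg₁mem : g₁ ∈ F.filter fun g => x - g ∈ A' ψ₁ := by
      rw [hg₁]
      exact Finset.mem_singleton_self _
    obtain ⟨hg₁F, hg₁A⟩ := Finset.mem_filter.mp hg₁mem
    refine ⟨(x - g₁, g₁), ⟨⟨ψ₁, List.mem_toFinset.mp hψ₁, hg₁A⟩, hg₁F, sub_add_cancel _ _⟩, ?_⟩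
    rintro ⟨a, g⟩ ⟨⟨φ, hφ, haφ⟩, hg, hag⟩
    simp only at haφ hg hag
    have haeq : a = x - g := by
      rw [← hag]
      abel
    rw [haeq] at haφ
    have hmem : g ∈ F.filter fun g => x - g ∈ A' φ := Finset.mem_filter.mpr ⟨hg, haφ⟩
    have hφ₁ : φ = ψ₁ := by
      by_contra hne
      have h5 := hother φ (List.mem_toFinset.mpr hφ) hne
      rw [Finset.card_eq_zero] at h5
      rw [h5] at hmem
      simp at hmem
    rw [hφ₁, hg₁, Finset.mem_singleton] at hmem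
    rw [haeq, hmem]
  · intro y hy x
    constructor
    · rintro ⟨ψ, hψ, h⟩
      have h1 : y ∈ scaleS (N' ψ) := scaleS_mono (List.dvd_prod (List.mem_map.mpr ⟨ψ, hψ, rfl⟩)) hy
      exact ⟨ψ, hψ, (hA'inv ψ hψ y h1 x).mp h⟩
    · rintro ⟨ψ, hψ, h⟩
      have h1 : y ∈ scaleS (N' ψ) := scaleS_mono (List.dvd_prod (List.mem_map.mpr ⟨ψ, hψ, rfl⟩)) hy
      exact ⟨ψ, hψ, (hA'inv ψ hψ y h1 x).mpr h⟩

end Base

open Classical in
/-- The tile condition in the form used in the proof. -/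
lemma tile_of_unique {F : Finset (Fin d → ℤ)} {A : Set (Fin d → ℤ)}
    (htile : ∀ x : Fin d → ℤ, ∃! q : (Fin d → ℤ) × (Fin d → ℤ), q.1 ∈ A ∧ q.2 ∈ F ∧ q.1 + q.2 = x) :
    Tile F A 1 := by
  intro x
  obtain ⟨⟨a, f⟩, ⟨ha, hf, hx⟩, huniq⟩ := htile x
  simp only at ha hf hx
  rw [Finset.card_eq_one]
  refine ⟨f, ?_⟩
  ext g
  simp only [Finset.mem_filter, Finset.mem_singleton, one_smul]
  constructor
  · rintro ⟨hg, hmem⟩
    have hq : ((x - g, g) : (Fin d → ℤ) × (Fin d → ℤ)) = (a, f) :=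
      huniq (x - g, g) ⟨hmem, hg, sub_add_cancel _ _⟩
    exact congrArg Prod.snd hq
  · rintro rfl
    refine ⟨hf, ?_⟩
    rw [← hx, add_sub_cancel_right]
    exact ha

/-- Tilings belong to the class of sets tiling for all the dilates. -/
lemma inOm_of_tile {F : Finset (Fin d → ℤ)} {A : Set (Fin d → ℤ)} (h : Tile F A 1) : InOm F A := by
  intro s
  have h1 : TileR A (F.image (toM F)) 1 := (tileR_iff F A 1).mpr h
  have hcard : (F.image (toM F)).card = F.card := Finset.card_image_of_injOn (toM_injOn F)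
  refine (tileR_iff F A _).mp (h1.of_primes _ (by omega) ?_)
  intro q hq hdvd
  rw [hcard]
  by_contra hle
  have hle' : q ≤ F.card := not_lt.mp hle
  have hdW : q ∣ F.card.factorial := (hq.dvd_factorial).mpr hle'
  have h2 : q ∣ 1 := (Nat.dvd_add_left (dvd_mul_of_dvd_left hdW s)).mp hdvd
  exact hq.one_lt.ne' (Nat.dvd_one.mp h2)

/-- Every tile, all of whose projections to rank two have a point with a unique preimage, admits a
periodic tiling. -/
theorem exists_periodic_tiling (F : Finset (Fin d → ℤ)) (A : Set (Fin d → ℤ))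
    (htile : ∀ x : Fin d → ℤ, ∃! q : (Fin d → ℤ) × (Fin d → ℤ), q.1 ∈ A ∧ q.2 ∈ F ∧ q.1 + q.2 = x)
    (hH : ∀ ψ₁ ψ₂ : (Fin d → ℤ) →+ ℤ, (∀ a b : ℤ, a • ψ₁ + b • ψ₂ = 0 → a = 0 ∧ b = 0) →
      ∃ f ∈ F, ∀ g ∈ F, ψ₁ g = ψ₁ f → ψ₂ g = ψ₂ f → g = f) :
    ∃ (A' : Set (Fin d → ℤ)) (N : ℕ), 0 < N ∧
      (∀ x : Fin d → ℤ, ∃! q : (Fin d → ℤ) × (Fin d → ℤ), q.1 ∈ A' ∧ q.2 ∈ F ∧ q.1 + q.2 = x) ∧
      ∀ (x : Fin d → ℤ) (i : Fin d), x ∈ A' ↔ x + N • (Pi.single i 1 : Fin d → ℤ) ∈ A' := by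
  rcases Nat.eq_zero_or_pos d with rfl | hd
  · exact ⟨A, 1, one_pos, htile, fun x i => i.elim0⟩
  · obtain ⟨B⟩ := exists_base hd F hH
    obtain ⟨ω, N, j, hω, hN, hj, hjinv, hinv⟩ := B.structure_thm hH (inOm_of_tile (tile_of_unique htile))
    obtain ⟨A', N', hN', hA', hper⟩ := B.assemble hω hN hj hjinv hinv
    refine ⟨A', N', hN', hA', fun x i => ?_⟩
    exact (hper _ (nsmul_mem_scaleS _ _) x).symm

end Vale.Agent.P043
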