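import Vale.Agent.Lib.P043Mean

open Real

namespace Vale.Agent.P043

section poly

variable {A : Type*} [AddCommGroup A]

/-- The difference operator on functions of an integer variable. -/
def Dl (t : ℤ) (w : ℤ → A) : ℤ → A := fun s => w (s + t) - w s

/-- Functions all of whose differences of order `k` vanish. -/
def Poly : ℕ → (ℤ → A) → Prop
  | 0, w => ∀ s, w s = 0
  | k + 1, w => ∀ t, Poly k (Dl t w)

lemma Dl_comm (t u : ℤ) (w : ℤ → A) : Dl t (Dl u w) = Dl u (Dl t w) := by
  funext s
  simp only [Dl]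
  rw [show s + t + u = s + u + t by ring]
  abel

lemma Poly.Dl {k : ℕ} {w : ℤ → A} (h : Poly k w) (t : ℤ) : Poly k (Dl t w) := by
  induction k generalizing w with
  | zero =>
    intro s
    have h1 : w (s + t) = 0 := h _
    have h2 : w s = 0 := h _
    simp [Vale.Agent.P043.Dl, h1, h2]
  | succ k ih =>
    intro u
    rw [Dl_comm]
    exact ih (h u)

lemma Poly.succ {k : ℕ} {w : ℤ → A} (h : Poly k w) : Poly (k + 1) w := fun t => h.Dl t

lemma Poly.nsmul {k : ℕ} {w : ℤ → A} (h : Poly k w) (n : ℕ) : Poly k (fun s => n • w s) := by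
  induction k generalizing w with
  | zero =>
    intro s
    have h2 : w s = 0 := h _
    simp [h2]
  | succ k ih =>
    intro t
    have : Vale.Agent.P043.Dl t (fun s => n • w s) = fun s => n • (Vale.Agent.P043.Dl t w s) := by
      funext s
      simp [Vale.Agent.P043.Dl, smul_sub]
    rw [this]
    exact ih (h t)

lemma poly_periodic_torsion : ∀ (k : ℕ) (w : ℤ → A), Poly k w → ∀ D : ℕ, 0 < D →
    (∀ s, w (s + D) = w s) → ∃ Q : ℕ, 0 < Q ∧ ∀ s, Q • (w s - w 0) = 0 := by
  intro k
  induction k with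
  | zero =>
    intro w hw D _ _
    refine ⟨1, one_pos, fun s => ?_⟩
    have h1 : w s = 0 := hw s
    have h2 : w 0 = 0 := hw 0
    simp [h1, h2]
  | succ k ih =>
    intro w hw D hD hper
    obtain ⟨Q', hQ', hq⟩ := ih (Dl 1 w) (hw 1) D hD (by
      intro s
      simp only [Dl]
      rw [show s + D + 1 = s + 1 + D by ring, hper, hper])
    let c : A := Q' • Dl 1 w 0
    have hstep : ∀ s, Q' • w (s + 1) = Q' • w s + c := by
      intro s
      have h1 := hq s
      simp only [Dl, smul_sub] at h1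
      simp only [c, Dl, smul_sub]
      have h4 := sub_eq_zero.mp h1
      rw [sub_eq_iff_eq_add'] at h4
      exact h4
    have hall : ∀ s : ℤ, Q' • w s = Q' • w 0 + s • c := by
      intro s
      induction s using Int.induction_on with
      | zero => simp
      | succ i ih =>
        rw [hstep, ih, add_smul, one_smul, add_assoc]
      | pred i ih =>
        have h1 := hstep (-(i : ℤ) - 1)
        rw [show -(i : ℤ) - 1 + 1 = -(i : ℤ) by ring, ih] at h1
        rw [sub_smul, one_smul]
        have h2 : Q' • w (-(i : ℤ) - 1) = Q' • w 0 + (-(i : ℤ)) • c - c := by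
          rw [eq_sub_iff_add_eq]
          exact h1.symm
        rw [h2]
        abel
    have hDc : (D : ℤ) • c = 0 := by
      have h1 := hall D
      have h2 := hper 0
      rw [zero_add] at h2
      rw [h2] at h1
      have h3 : Q' • w 0 + (D : ℤ) • c = Q' • w 0 + 0 := by
        rw [← h1, add_zero]
      exact add_left_cancel h3
    refine ⟨D * Q', Nat.mul_pos hD hQ', fun s => ?_⟩
    rw [mul_smul, smul_sub, hall s, add_sub_cancel_left, smul_comm, ← natCast_zsmul, hDc, smul_zero]

lemma exists_affine {k : ℕ} {w : ℤ → A} (hw : Poly (k + 1) w) {a D : ℕ} (ha : 0 < a) (hD : 0 < D)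
    (hu : ∀ s, Dl a w (s + D) = Dl a w s) :
    ∃ E : ℕ, 0 < E ∧ a ∣ E ∧ ∃ c : A, ∀ s, w (s + E) = w s + c := by
  have humul : ∀ (n : ℕ) (s : ℤ), Dl a w (s + (n * D : ℕ)) = Dl a w s := by
    intro n s
    induction n with
    | zero => simp
    | succ n ih =>
      rw [show (((n + 1) * D : ℕ) : ℤ) = ((n * D : ℕ) : ℤ) + D by push_cast; ring, ← add_assoc, hu, ih]
  let B : ℤ → A := Dl ((a * D : ℕ) : ℤ) w
  have hB1 : ∀ s, w (s + (a * D : ℕ)) = w s + B s := by
    intro s
    simp only [B, Dl]
    abel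
  have hw1 : ∀ s, w (s + a) = w s + Dl a w s := by
    intro s
    simp only [Dl]
    abel
  have hBper : ∀ s, B (s + a) = B s := by
    intro s
    have h1 : B (s + a) = w (s + (a * D : ℕ) + a) - w (s + a) := by
      simp only [B, Dl]
      rw [show s + a + ((a * D : ℕ) : ℤ) = s + ((a * D : ℕ) : ℤ) + a by ring]
    rw [h1, hw1, hw1, hB1, humul a s]
    abel
  have hBmul : ∀ (n : ℕ) (s : ℤ), B (s + (n * a : ℕ)) = B s := by
    intro n s
    induction n with
    | zero => simp
    | succ n ih =>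
      rw [show (((n + 1) * a : ℕ) : ℤ) = ((n * a : ℕ) : ℤ) + a by push_cast; ring, ← add_assoc, hBper, ih]
  have hBP : Poly k B := hw _
  obtain ⟨Q, hQ, hq⟩ := poly_periodic_torsion k B hBP a ha hBper
  have hiter : ∀ (n : ℕ) (s : ℤ), w (s + (n * (a * D) : ℕ)) = w s + n • B s := by
    intro n s
    induction n with
    | zero => simp
    | succ n ih =>
      rw [show (((n + 1) * (a * D) : ℕ) : ℤ) = ((n * (a * D) : ℕ) : ℤ) + (a * D : ℕ) by push_cast; ring,
        ← add_assoc, hB1, ih, add_smul, one_smul, add_assoc]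
      congr 2
      have := hBmul (n * D) s
      rw [show ((n * D * a : ℕ) : ℤ) = ((n * (a * D) : ℕ) : ℤ) by push_cast; ring] at this
      rw [this]
  refine ⟨Q * (a * D), Nat.mul_pos hQ (Nat.mul_pos ha hD), ⟨Q * D, by ring⟩, Q • B 0, fun s => ?_⟩
  rw [hiter]
  congr 1
  have := hq s
  rw [smul_sub, sub_eq_zero] at this
  exact this

lemma affine_iter {w : ℤ → A} {E : ℕ} {c : A} (h : ∀ s, w (s + E) = w s + c) (n : ℕ) (s : ℤ) :
    w (s + (n * E : ℕ)) = w s + n • c := by
  induction n with
  | zero => simp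
  | succ n ih =>
    rw [show (((n + 1) * E : ℕ) : ℤ) = ((n * E : ℕ) : ℤ) + E by push_cast; ring, ← add_assoc, h, ih,
      add_smul, one_smul, add_assoc]

lemma finite_range_periodic : ∀ (k : ℕ) (w : ℤ → A), Poly k w → (Set.range w).Finite →
    ∃ P : ℕ, 0 < P ∧ ∀ s, w (s + P) = w s := by
  intro k
  induction k with
  | zero =>
    intro w hw _
    refine ⟨1, one_pos, fun s => ?_⟩
    have h1 : w s = 0 := hw s
    have h2 : w (s + (1 : ℕ)) = 0 := hw _
    rw [h1, h2]
  | succ k ih =>
    intro w hw hf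
    have hf' : (Set.range (Dl 1 w)).Finite := by
      refine ((hf.prod hf).image (fun p : A × A => p.1 - p.2)).subset ?_
      rintro _ ⟨s, rfl⟩
      exact ⟨(w (s + 1), w s), ⟨⟨_, rfl⟩, ⟨_, rfl⟩⟩, rfl⟩
    obtain ⟨P, hP, hper⟩ := ih (Dl 1 w) (hw 1) hf'
    obtain ⟨E, hE, _, c, hc⟩ := exists_affine hw (a := 1) (D := P) one_pos hP (by simpa using hper)
    have hfin : Finite (Set.range w) := hf.to_subtype
    let φ : ℕ → Set.range w := fun n => ⟨w (0 + (n * E : ℕ)), ⟨_, rfl⟩⟩
    obtain ⟨n, n', hne, heq⟩ := Finite.exists_ne_map_eq_of_infinite φ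
    have heq' : w (0 + (n * E : ℕ)) = w (0 + (n' * E : ℕ)) := congrArg Subtype.val heq
    rw [affine_iter hc, affine_iter hc] at heq'
    have hnc : n • c = n' • c := add_left_cancel heq'
    obtain ⟨Q, hQ, hQc⟩ : ∃ Q : ℕ, 0 < Q ∧ Q • c = 0 := by
      rcases lt_or_gt_of_ne hne with hlt | hlt
      · refine ⟨n' - n, Nat.sub_pos_of_lt hlt, ?_⟩
        have : n' • c = (n' - n) • c + n • c := by
          rw [← add_smul, Nat.sub_add_cancel hlt.le]
        rw [hnc] at this
        have h3 : (0 : A) + n' • c = (n' - n) • c + n' • c := by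
          rw [zero_add]
          exact this
        exact (add_right_cancel h3).symm
      · refine ⟨n - n', Nat.sub_pos_of_lt hlt, ?_⟩
        have : n • c = (n - n') • c + n' • c := by
          rw [← add_smul, Nat.sub_add_cancel hlt.le]
        rw [← hnc] at this
        have h3 : (0 : A) + n • c = (n - n') • c + n • c := by
          rw [zero_add]
          exact this
        exact (add_right_cancel h3).symm
    refine ⟨Q * E, Nat.mul_pos hQ hE, fun s => ?_⟩
    rw [affine_iter hc, hQc, add_zero]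

lemma smul_periodic {k : ℕ} {w : ℤ → A} (hw : Poly k w) {h D : ℕ} (hh : 0 < h)
    (htors : {u : A | h • u = 0}.Finite) (hD : 0 < D) (hper : ∀ s, h • w (s + D) = h • w s) :
    ∃ D' : ℕ, 0 < D' ∧ ∀ s, w (s + D') = w s := by
  have hu : Poly k (Dl D w) := hw.Dl _
  have hfin : (Set.range (Dl D w)).Finite := by
    refine htors.subset ?_
    rintro _ ⟨s, rfl⟩
    simp only [Set.mem_ofPred_eq, Dl, smul_sub, hper, sub_self]
  obtain ⟨P, hP, hperu⟩ := finite_range_periodic k _ hu hfin
  obtain ⟨E, hE, ⟨e, he⟩, c, hc⟩ := exists_affine hw.succ hD hP hperu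
  have hmul : ∀ (n : ℕ) (s : ℤ), h • w (s + (n * D : ℕ)) = h • w s := by
    intro n s
    induction n with
    | zero => simp
    | succ n ih =>
      rw [show (((n + 1) * D : ℕ) : ℤ) = ((n * D : ℕ) : ℤ) + D by push_cast; ring, ← add_assoc, hper, ih]
  have hhc : h • c = 0 := by
    have h1 := hc 0
    have h2 := hmul e 0
    rw [show e * D = E by rw [he]; ring, h1, smul_add] at h2
    have h3 : h • w 0 + h • c = h • w 0 + 0 := by rw [h2, add_zero]
    exact add_left_cancel h3
  refine ⟨h * E, Nat.mul_pos hh hE, fun s => ?_⟩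
  rw [affine_iter hc, hhc, add_zero]

end poly

section means

/-- The cosine of a sequence, as a bounded sequence. -/
noncomputable def cosSeq (u : ℕ → ℝ) : BddSeq :=
  ⟨fun n => cos (u n), ⟨1, fun n => abs_cos_le_one _⟩⟩

/-- The sine of a sequence, as a bounded sequence. -/
noncomputable def sinSeq (u : ℕ → ℝ) : BddSeq :=
  ⟨fun n => sin (u n), ⟨1, fun n => abs_sin_le_one _⟩⟩

/-- Mean of the cosine phase of a function of an integer variable. -/
noncomputable def mc (v : ℤ → ℝ) : ℝ := bmean (cosSeq fun n => 2 * π * v n)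

/-- Mean of the sine phase of a function of an integer variable. -/
noncomputable def ms (v : ℤ → ℝ) : ℝ := bmean (sinSeq fun n => 2 * π * v n)

/-- Iterated shift of a bounded sequence. -/
def shiftN (k : ℕ) (a : BddSeq) : BddSeq :=
  ⟨fun n => a.1 (n + k), by
    obtain ⟨C, hC⟩ := a.2
    exact ⟨C, fun n => hC _⟩⟩

lemma bmean_shiftN (k : ℕ) (a : BddSeq) : bmean (shiftN k a) = bmean a := by
  induction k with
  | zero =>
    have : shiftN 0 a = a := by
      apply Subtype.ext
      funext n
      simp [shiftN]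
    rw [this]
  | succ k ih =>
    have : shiftN (k + 1) a = shiftSeq (shiftN k a) := by
      apply Subtype.ext
      funext n
      simp only [shiftN, shiftSeq]
      rw [add_right_comm, add_assoc]
    rw [this, bmean_shift, ih]

/-- Product of bounded sequences. -/
def mulSeq (a b : BddSeq) : BddSeq :=
  ⟨fun n => a.1 n * b.1 n, by
    obtain ⟨A, hA⟩ := a.2
    obtain ⟨B, hB⟩ := b.2
    refine ⟨A * B, fun n => ?_⟩
    rw [abs_mul]
    exact mul_le_mul (hA n) (hB n) (abs_nonneg _) ((abs_nonneg _).trans (hA 0))⟩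

lemma bmean_sq_le (a : BddSeq) : bmean a ^ 2 ≤ bmean (mulSeq a a) := by
  let μ := bmean a
  let T : BddSeq := mulSeq a a - (2 * μ) • a + ⟨fun _ => μ ^ 2, const_mem _⟩
  have h1 : 0 ≤ bmean T := by
    refine le_bmean fun n => ?_
    have : T.1 n = (a.1 n - μ) ^ 2 := by
      simp only [T, mulSeq]
      change a.1 n * a.1 n - (2 * μ) * a.1 n + μ ^ 2 = _
      ring
    rw [this]
    positivity
  have h2 : bmean T = bmean (mulSeq a a) - (2 * μ) * μ + μ ^ 2 := by
    simp only [T]
    rw [map_add, map_sub, map_smul, bmean_const, smul_eq_mul]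
  rw [h2] at h1
  nlinarith

lemma cos_sin_sum_sq {ι : Type*} (s : Finset ι) (x : ι → ℝ) :
    (∑ i ∈ s, cos (x i)) * (∑ i ∈ s, cos (x i)) + (∑ i ∈ s, sin (x i)) * (∑ i ∈ s, sin (x i))
      = ∑ i ∈ s, ∑ j ∈ s, cos (x i - x j) := by
  rw [Finset.sum_mul_sum, Finset.sum_mul_sum, ← Finset.sum_add_distrib]
  refine Finset.sum_congr rfl fun i _ => ?_
  rw [← Finset.sum_add_distrib]
  refine Finset.sum_congr rfl fun j _ => ?_
  rw [cos_sub]

lemma double_mean (H : ℕ) (x : ℕ → ℕ → ℝ) :
    bmean (mulSeq (∑ h ∈ Finset.range H, cosSeq (x h)) (∑ h ∈ Finset.range H, cosSeq (x h)))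
      + bmean (mulSeq (∑ h ∈ Finset.range H, sinSeq (x h)) (∑ h ∈ Finset.range H, sinSeq (x h)))
      = ∑ h ∈ Finset.range H, ∑ h' ∈ Finset.range H,
          bmean (cosSeq fun n => x h n - x h' n) := by
  rw [← map_add]
  have : mulSeq (∑ h ∈ Finset.range H, cosSeq (x h)) (∑ h ∈ Finset.range H, cosSeq (x h))
      + mulSeq (∑ h ∈ Finset.range H, sinSeq (x h)) (∑ h ∈ Finset.range H, sinSeq (x h))
      = ∑ h ∈ Finset.range H, ∑ h' ∈ Finset.range H, cosSeq fun n => x h n - x h' n := by
    apply Subtype.ext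
    funext n
    have h1 : ∀ (F : ℕ → BddSeq) (S : Finset ℕ), (∑ h ∈ S, F h).1 n = ∑ h ∈ S, (F h).1 n := by
      intro F S
      rw [Submodule.coe_sum, Finset.sum_apply]
    change (∑ h ∈ Finset.range H, cosSeq (x h)).1 n * (∑ h ∈ Finset.range H, cosSeq (x h)).1 n
      + (∑ h ∈ Finset.range H, sinSeq (x h)).1 n * (∑ h ∈ Finset.range H, sinSeq (x h)).1 n = _
    rw [h1, h1, h1]
    simp only [cosSeq, sinSeq]
    rw [cos_sin_sum_sq]
    refine Finset.sum_congr rfl fun h _ => ?_
    rw [h1]
  rw [this, map_sum]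
  refine Finset.sum_congr rfl fun h _ => ?_
  rw [map_sum]

/-- The real difference of a function of an integer variable. -/
def rd (a : ℕ) (v : ℤ → ℝ) : ℤ → ℝ := fun s => v (s + a) - v s

lemma sq_add_sq_le_of_all {a b : ℝ} (h : ∀ H : ℕ, 0 < H → a ^ 2 + b ^ 2 ≤ 1 / (H : ℝ)) :
    a = 0 ∧ b = 0 := by
  have h0 : a ^ 2 + b ^ 2 ≤ 0 := by
    refine le_of_forall_pos_le_add fun ε hε => ?_
    obtain ⟨H, hH⟩ := exists_nat_one_div_lt hε
    have h1 := h (H + 1) (Nat.succ_pos _)
    have h2 : 1 / (((H + 1 : ℕ) : ℝ)) < ε := by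
      push_cast
      exact hH
    linarith
  have h1 : a ^ 2 = 0 := le_antisymm (by nlinarith [sq_nonneg b]) (sq_nonneg a)
  have h2 : b ^ 2 = 0 := le_antisymm (by nlinarith [sq_nonneg a]) (sq_nonneg b)
  exact ⟨pow_eq_zero_iff (two_ne_zero) |>.mp h1, pow_eq_zero_iff (two_ne_zero) |>.mp h2⟩

/-- The van der Corput inequality, in the form needed here. -/
theorem vdc (v : ℤ → ℝ) (hyp : ∀ a : ℕ, 0 < a → mc (rd a v) = 0) : mc v = 0 ∧ ms v = 0 := by
  refine sq_add_sq_le_of_all fun H hH => ?_
  let x : ℕ → ℕ → ℝ := fun h n => 2 * π * v ((n + h : ℕ) : ℤ)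
  have hc : bmean (∑ h ∈ Finset.range H, cosSeq (x h)) = H * mc v := by
    rw [map_sum]
    have : ∀ h ∈ Finset.range H, bmean (cosSeq (x h)) = mc v := by
      intro h _
      have h1 : cosSeq (x h) = shiftN h (cosSeq fun n => 2 * π * v n) := rfl
      rw [h1, bmean_shiftN]
      rfl
    rw [Finset.sum_congr rfl this]
    simp
  have hs : bmean (∑ h ∈ Finset.range H, sinSeq (x h)) = H * ms v := by
    rw [map_sum]
    have : ∀ h ∈ Finset.range H, bmean (sinSeq (x h)) = ms v := by
      intro h _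
      have h1 : sinSeq (x h) = shiftN h (sinSeq fun n => 2 * π * v n) := rfl
      rw [h1, bmean_shiftN]
      rfl
    rw [Finset.sum_congr rfl this]
    simp
  have h1 := bmean_sq_le (∑ h ∈ Finset.range H, cosSeq (x h))
  have h2 := bmean_sq_le (∑ h ∈ Finset.range H, sinSeq (x h))
  have h3 := double_mean H x
  have key : ∀ p q : ℕ, q < p → bmean (cosSeq fun n => x p n - x q n) = 0 := by
    intro p q hqp
    have h5 := hyp (p - q) (Nat.sub_pos_of_lt hqp)
    have h6 : (cosSeq fun n => x p n - x q n)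
        = shiftN q (cosSeq fun n => 2 * π * rd (p - q) v n) := by
      apply Subtype.ext
      funext n
      simp only [cosSeq, shiftN, x, rd]
      have h7 : (((n + q : ℕ) : ℤ) + ((p - q : ℕ) : ℤ)) = ((n + p : ℕ) : ℤ) := by
        have : q + (p - q) = p := Nat.add_sub_cancel' hqp.le
        rw [← this]
        push_cast
        ring_nf
        omega
      rw [h7, mul_sub]
    rw [h6, bmean_shiftN]
    exact h5
  have hterm : ∀ h ∈ Finset.range H, ∀ h' ∈ Finset.range H,
      bmean (cosSeq fun n => x h n - x h' n) = if h = h' then 1 else 0 := by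
    intro h _ h' _
    rcases lt_trichotomy h h' with hlt | heq | hlt
    · rw [if_neg hlt.ne]
      have : (cosSeq fun n => x h n - x h' n) = cosSeq fun n => x h' n - x h n := by
        apply Subtype.ext
        funext n
        simp only [cosSeq]
        rw [← cos_neg, neg_sub]
      rw [this]
      exact key h' h hlt
    · subst heq
      rw [if_pos rfl]
      have : (cosSeq fun n => x h n - x h n) = ⟨fun _ => 1, const_mem 1⟩ := by
        apply Subtype.ext
        funext n
        simp [cosSeq]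
      rw [this, bmean_const]
    · rw [if_neg hlt.ne']
      exact key h h' hlt
  have hsum : ∑ h ∈ Finset.range H, ∑ h' ∈ Finset.range H,
      bmean (cosSeq fun n => x h n - x h' n) = H := by
    rw [Finset.sum_congr rfl fun h hh => Finset.sum_congr rfl (hterm h hh)]
    have h10 : ∀ h ∈ Finset.range H, ∑ h' ∈ Finset.range H, (if h = h' then (1 : ℝ) else 0) = 1 :=
      fun h hh => by rw [Finset.sum_ite_eq, if_pos hh]
    rw [Finset.sum_congr rfl h10]
    simp
  rw [hsum] at h3
  rw [hc] at h1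
  rw [hs] at h2
  have hHpos : (0 : ℝ) < H := by exact_mod_cast hH
  have h8 : ((H : ℝ) * mc v) ^ 2 + ((H : ℝ) * ms v) ^ 2 ≤ H := by linarith
  rw [le_div_iff₀ hHpos]
  have h9 : (H : ℝ) * ((mc v ^ 2 + ms v ^ 2) * H) ≤ H * 1 := by
    calc (H : ℝ) * ((mc v ^ 2 + ms v ^ 2) * H) = ((H : ℝ) * mc v) ^ 2 + ((H : ℝ) * ms v) ^ 2 := by ring
      _ ≤ (H : ℝ) := h8
      _ = (H : ℝ) * 1 := by ring
  exact le_of_mul_le_mul_left h9 hHpos

lemma cos_of_coe_eq {x y : ℝ} (h : (x : AddCircle (1 : ℝ)) = y) :
    cos (2 * π * x) = cos (2 * π * y) ∧ sin (2 * π * x) = sin (2 * π * y) := by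
  have h1 : ((x - y : ℝ) : AddCircle (1 : ℝ)) = 0 := by
    rw [AddCircle.coe_sub, h, sub_self]
  obtain ⟨n, hn⟩ := (AddCircle.coe_eq_zero_iff (1 : ℝ)).mp h1
  have h2 : x = y + n := by
    simp only [zsmul_eq_mul, mul_one] at hn
    linarith
  have h3 : 2 * π * x = 2 * π * y + n * (2 * π) := by
    rw [h2]
    ring
  rw [h3]
  exact ⟨cos_add_int_mul_two_pi _ _, sin_add_int_mul_two_pi _ _⟩

/-- A nonzero phase mean forces periodicity modulo one. -/
theorem mean_ne_periodic : ∀ (k : ℕ) (v : ℤ → ℝ),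
    Poly k (fun s => (v s : AddCircle (1 : ℝ))) → (mc v ≠ 0 ∨ ms v ≠ 0) →
    ∃ D : ℕ, 0 < D ∧ ∀ s, (v (s + D) : AddCircle (1 : ℝ)) = v s := by
  intro k
  induction k with
  | zero =>
    intro v hv _
    refine ⟨1, one_pos, fun s => ?_⟩
    have h1 : (v s : AddCircle (1 : ℝ)) = 0 := hv s
    have h2 : (v (s + (1 : ℕ)) : AddCircle (1 : ℝ)) = 0 := hv _
    rw [h1, h2]
  | succ k ih =>
    intro v hv hne
    obtain ⟨a, ha, hmc⟩ : ∃ a : ℕ, 0 < a ∧ mc (rd a v) ≠ 0 := by
      by_contra hcon
      push Not at hcon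
      obtain ⟨h1, h2⟩ := vdc v hcon
      rcases hne with h | h
      · exact h h1
      · exact h h2
    have hcoe : (fun s => ((rd a v s : ℝ) : AddCircle (1 : ℝ)))
        = Dl a (fun s => (v s : AddCircle (1 : ℝ))) := by
      funext s
      simp only [rd, Dl]
      rw [AddCircle.coe_sub]
    have hPa : Poly k (fun s => ((rd a v s : ℝ) : AddCircle (1 : ℝ))) := by
      rw [hcoe]
      exact hv _
    obtain ⟨D, hD, hper⟩ := ih (rd a v) hPa (Or.inl hmc)
    have hper' : ∀ s, Dl a (fun s => (v s : AddCircle (1 : ℝ))) (s + D)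
        = Dl a (fun s => (v s : AddCircle (1 : ℝ))) s := by
      intro s
      rw [← hcoe]
      exact hper s
    obtain ⟨E, hE, _, c, hc⟩ := exists_affine hv ha hD hper'
    have hc0 := hc 0
    let a₀ : ℝ := v (0 + E) - v 0
    have hca : c = (a₀ : AddCircle (1 : ℝ)) := by
      simp only [a₀]
      rw [AddCircle.coe_sub, hc0]
      abel
    have hs : ∀ s, (v (s + E) : AddCircle (1 : ℝ)) = ((v s + a₀ : ℝ) : AddCircle (1 : ℝ)) := by
      intro s
      rw [AddCircle.coe_add, ← hca]
      exact hc s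
    have hcos : ∀ s, cos (2 * π * v (s + E)) = cos (2 * π * v s) * cos (2 * π * a₀)
        - sin (2 * π * v s) * sin (2 * π * a₀) := by
      intro s
      rw [(cos_of_coe_eq (hs s)).1, mul_add, cos_add]
    have hsin : ∀ s, sin (2 * π * v (s + E)) = sin (2 * π * v s) * cos (2 * π * a₀)
        + cos (2 * π * v s) * sin (2 * π * a₀) := by
      intro s
      rw [(cos_of_coe_eq (hs s)).2, mul_add, sin_add]
    have h1 : mc v = mc v * cos (2 * π * a₀) - ms v * sin (2 * π * a₀) := by
      have h2 : shiftN E (cosSeq fun n => 2 * π * v n)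
          = cos (2 * π * a₀) • (cosSeq fun n => 2 * π * v n)
            - sin (2 * π * a₀) • (sinSeq fun n => 2 * π * v n) := by
        apply Subtype.ext
        funext n
        change cos (2 * π * v ((n + E : ℕ) : ℤ)) = cos (2 * π * a₀) * cos (2 * π * v n)
          - sin (2 * π * a₀) * sin (2 * π * v n)
        have := hcos n
        push_cast at this ⊢
        rw [this]
        ring
      have h3 := bmean_shiftN E (cosSeq fun n => 2 * π * v n)
      rw [h2, map_sub, map_smul, map_smul, smul_eq_mul, smul_eq_mul] at h3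
      simp only [mc, ms]
      linarith
    have h2 : ms v = ms v * cos (2 * π * a₀) + mc v * sin (2 * π * a₀) := by
      have h2 : shiftN E (sinSeq fun n => 2 * π * v n)
          = cos (2 * π * a₀) • (sinSeq fun n => 2 * π * v n)
            + sin (2 * π * a₀) • (cosSeq fun n => 2 * π * v n) := by
        apply Subtype.ext
        funext n
        change sin (2 * π * v ((n + E : ℕ) : ℤ)) = cos (2 * π * a₀) * sin (2 * π * v n)
          + sin (2 * π * a₀) * cos (2 * π * v n)
        have := hsin n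
        push_cast at this ⊢
        rw [this]
        ring
      have h3 := bmean_shiftN E (sinSeq fun n => 2 * π * v n)
      rw [h2, map_add, map_smul, map_smul, smul_eq_mul, smul_eq_mul] at h3
      simp only [mc, ms]
      linarith
    have hpos : 0 < mc v ^ 2 + ms v ^ 2 := by
      rcases hne with h | h
      · have := sq_nonneg (ms v)
        have := sq_pos_of_ne_zero h
        linarith
      · have := sq_nonneg (mc v)
        have := sq_pos_of_ne_zero h
        linarith
    have hcos1 : cos (2 * π * a₀) = 1 := by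
      have h3 : (mc v ^ 2 + ms v ^ 2) * (1 - cos (2 * π * a₀)) = 0 := by
        have e1 : mc v - mc v * cos (2 * π * a₀) + ms v * sin (2 * π * a₀) = 0 := by linarith
        have e2 : ms v - ms v * cos (2 * π * a₀) - mc v * sin (2 * π * a₀) = 0 := by linarith
        have e3 : (mc v ^ 2 + ms v ^ 2) * (1 - cos (2 * π * a₀))
            = mc v * (mc v - mc v * cos (2 * π * a₀) + ms v * sin (2 * π * a₀))
              + ms v * (ms v - ms v * cos (2 * π * a₀) - mc v * sin (2 * π * a₀)) := by ring
        rw [e3, e1, e2]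
        ring
      rcases mul_eq_zero.mp h3 with h4 | h4
      · exact absurd h4 hpos.ne'
      · linarith
    obtain ⟨n, hn⟩ := (cos_eq_one_iff _).mp hcos1
    have ha₀ : a₀ = n := by
      have hpi := pi_pos
      have : (2 * π) * a₀ = (2 * π) * n := by
        rw [← hn]
        ring
      exact mul_left_cancel₀ (by positivity) this
    refine ⟨E, hE, fun s => ?_⟩
    rw [hs s, AddCircle.coe_add]
    have : ((a₀ : ℝ) : AddCircle (1 : ℝ)) = 0 := by
      rw [ha₀]
      rw [AddCircle.coe_eq_zero_iff]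
      exact ⟨n, by simp⟩
    rw [this, add_zero]

lemma fejer_bound (t : ℝ) (H : ℕ) :
    (1 - cos t) * ((∑ h ∈ Finset.range H, cos (h * t)) * (∑ h ∈ Finset.range H, cos (h * t))
      + (∑ h ∈ Finset.range H, sin (h * t)) * (∑ h ∈ Finset.range H, sin (h * t))) ≤ 2 := by
  let z : ℂ := Complex.exp (t * Complex.I)
  have hpow : ∀ h : ℕ, z ^ h = (cos (h * t) : ℂ) + (sin (h * t) : ℂ) * Complex.I := by
    intro h
    simp only [z]
    rw [← Complex.exp_nat_mul, ← mul_assoc]
    have : (h : ℂ) * (t : ℂ) = ((h * t : ℝ) : ℂ) := by push_cast; ring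
    rw [this, Complex.exp_mul_I]
    simp
  have hgeom := geom_sum_mul z H
  have hsum : (∑ h ∈ Finset.range H, z ^ h)
      = ((∑ h ∈ Finset.range H, cos (h * t) : ℝ) : ℂ)
        + ((∑ h ∈ Finset.range H, sin (h * t) : ℝ) : ℂ) * Complex.I := by
    push_cast
    rw [Finset.sum_mul, ← Finset.sum_add_distrib]
    refine Finset.sum_congr rfl fun h _ => ?_
    rw [hpow]
    push_cast
    rfl
  have hn := congrArg Complex.normSq hgeom
  rw [map_mul, hsum] at hn
  have h1 : Complex.normSq (z - 1) = 2 - 2 * cos t := by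
    have hz := hpow 1
    rw [pow_one] at hz
    rw [hz, Complex.normSq_apply]
    simp only [Nat.cast_one, one_mul, Complex.sub_re, Complex.add_re, Complex.ofReal_re, Complex.mul_re,
      Complex.I_re, mul_zero, Complex.ofReal_im, Complex.I_im, mul_one, sub_self, add_zero,
      Complex.one_re, Complex.sub_im, Complex.add_im, Complex.mul_im, zero_add, Complex.one_im, sub_zero]
    nlinarith [sin_sq_add_cos_sq t]
  have h2 : Complex.normSq (((∑ h ∈ Finset.range H, cos (h * t) : ℝ) : ℂ)
        + ((∑ h ∈ Finset.range H, sin (h * t) : ℝ) : ℂ) * Complex.I)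
      = (∑ h ∈ Finset.range H, cos (h * t)) * (∑ h ∈ Finset.range H, cos (h * t))
        + (∑ h ∈ Finset.range H, sin (h * t)) * (∑ h ∈ Finset.range H, sin (h * t)) := by
    rw [Complex.normSq_add_mul_I]
    ring
  have h3 : Complex.normSq (z ^ H - 1) ≤ 4 := by
    rw [hpow H, Complex.normSq_apply]
    simp only [Complex.sub_re, Complex.add_re, Complex.ofReal_re, Complex.mul_re,
      Complex.I_re, mul_zero, Complex.ofReal_im, Complex.I_im, mul_one, sub_self, add_zero,
      Complex.one_re, Complex.sub_im, Complex.add_im, Complex.mul_im, zero_add, Complex.one_im, sub_zero]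
    nlinarith [sin_sq_add_cos_sq ((H : ℝ) * t), cos_le_one ((H : ℝ) * t), neg_one_le_cos ((H : ℝ) * t)]
  rw [h1, h2] at hn
  have h4 : 0 ≤ (∑ h ∈ Finset.range H, cos (h * t)) * (∑ h ∈ Finset.range H, cos (h * t))
        + (∑ h ∈ Finset.range H, sin (h * t)) * (∑ h ∈ Finset.range H, sin (h * t)) :=
    add_nonneg (mul_self_nonneg _) (mul_self_nonneg _)
  have h5 := hn.le.trans h3
  nlinarith

/-- The multiple of a function. -/
def natMul (h : ℕ) (v : ℤ → ℝ) : ℤ → ℝ := fun s => (h : ℝ) * v s

/-- If all nonzero multiples of a phase have zero mean, the phase visits every arc. -/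
theorem exists_phase_gt (v : ℤ → ℝ) (θ c : ℝ) (hc : c < 1)
    (hm : ∀ h : ℕ, 0 < h → mc (natMul h v) = 0 ∧ ms (natMul h v) = 0) :
    ∃ s : ℤ, c < cos (2 * π * (v s - θ)) := by
  by_contra hcon
  push Not at hcon
  have h1c : 0 < 1 - c := by linarith
  obtain ⟨H, hH⟩ := exists_nat_gt (2 / (1 - c))
  let x : ℕ → ℕ → ℝ := fun h n => h * (2 * π * (v n - θ))
  have h3 := double_mean H x
  have hterm : ∀ h ∈ Finset.range H, ∀ h' ∈ Finset.range H,
      bmean (cosSeq fun n => x h n - x h' n) = if h = h' then 1 else 0 := by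
    have key : ∀ p q : ℕ, q < p → bmean (cosSeq fun n => x p n - x q n) = 0 := by
      intro p q hqp
      obtain ⟨h1, h2⟩ := hm (p - q) (Nat.sub_pos_of_lt hqp)
      let m : ℝ := ((p - q : ℕ) : ℝ)
      have h6 : (cosSeq fun n => x p n - x q n)
          = cos (2 * π * (m * θ)) • (cosSeq fun n => 2 * π * natMul (p - q) v n)
            + sin (2 * π * (m * θ)) • (sinSeq fun n => 2 * π * natMul (p - q) v n) := by
        apply Subtype.ext
        funext n
        change cos (x p n - x q n) = cos (2 * π * (m * θ)) * cos (2 * π * natMul (p - q) v n)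
          + sin (2 * π * (m * θ)) * sin (2 * π * natMul (p - q) v n)
        have h7 : x p n - x q n = 2 * π * natMul (p - q) v n - 2 * π * (m * θ) := by
          simp only [x, natMul, m]
          rw [Nat.cast_sub hqp.le]
          ring
        rw [h7, cos_sub]
        ring
      rw [h6, map_add, map_smul, map_smul, smul_eq_mul, smul_eq_mul]
      have e1 : bmean (cosSeq fun n => 2 * π * natMul (p - q) v n) = 0 := h1
      have e2 : bmean (sinSeq fun n => 2 * π * natMul (p - q) v n) = 0 := h2
      rw [e1, e2]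
      ring
    intro h _ h' _
    rcases lt_trichotomy h h' with hlt | heq | hlt
    · rw [if_neg hlt.ne]
      have : (cosSeq fun n => x h n - x h' n) = cosSeq fun n => x h' n - x h n := by
        apply Subtype.ext
        funext n
        simp only [cosSeq]
        rw [← cos_neg, neg_sub]
      rw [this]
      exact key h' h hlt
    · subst heq
      rw [if_pos rfl]
      have : (cosSeq fun n => x h n - x h n) = ⟨fun _ => 1, const_mem 1⟩ := by
        apply Subtype.ext
        funext n
        simp [cosSeq]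
      rw [this, bmean_const]
    · rw [if_neg hlt.ne']
      exact key h h' hlt
  have hsum : ∑ h ∈ Finset.range H, ∑ h' ∈ Finset.range H,
      bmean (cosSeq fun n => x h n - x h' n) = H := by
    rw [Finset.sum_congr rfl fun h hh => Finset.sum_congr rfl (hterm h hh)]
    have h10 : ∀ h ∈ Finset.range H, ∑ h' ∈ Finset.range H, (if h = h' then (1 : ℝ) else 0) = 1 :=
      fun h hh => by rw [Finset.sum_ite_eq, if_pos hh]
    rw [Finset.sum_congr rfl h10]
    simp
  rw [hsum, ← map_add] at h3
  have hle : bmean (mulSeq (∑ h ∈ Finset.range H, cosSeq (x h)) (∑ h ∈ Finset.range H, cosSeq (x h))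
      + mulSeq (∑ h ∈ Finset.range H, sinSeq (x h)) (∑ h ∈ Finset.range H, sinSeq (x h)))
      ≤ 2 / (1 - c) := by
    refine bmean_le fun n => ?_
    have hs1 : ∀ (F : ℕ → BddSeq) (S : Finset ℕ), (∑ h ∈ S, F h).1 n = ∑ h ∈ S, (F h).1 n := by
      intro F S
      rw [Submodule.coe_sum, Finset.sum_apply]
    change (∑ h ∈ Finset.range H, cosSeq (x h)).1 n * (∑ h ∈ Finset.range H, cosSeq (x h)).1 n
      + (∑ h ∈ Finset.range H, sinSeq (x h)).1 n * (∑ h ∈ Finset.range H, sinSeq (x h)).1 n ≤ _
    rw [hs1, hs1]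
    simp only [cosSeq, sinSeq, x]
    have hf := fejer_bound (2 * π * (v n - θ)) H
    have hcn := hcon n
    rw [le_div_iff₀ h1c]
    have h4 : 0 ≤ (∑ h ∈ Finset.range H, cos (h * (2 * π * (v n - θ)))) * (∑ h ∈ Finset.range H, cos (h * (2 * π * (v n - θ))))
        + (∑ h ∈ Finset.range H, sin (h * (2 * π * (v n - θ)))) * (∑ h ∈ Finset.range H, sin (h * (2 * π * (v n - θ)))) :=
      add_nonneg (mul_self_nonneg _) (mul_self_nonneg _)
    have h5 : (1 - c) * ((∑ h ∈ Finset.range H, cos (h * (2 * π * (v n - θ)))) * (∑ h ∈ Finset.range H, cos (h * (2 * π * (v n - θ))))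
        + (∑ h ∈ Finset.range H, sin (h * (2 * π * (v n - θ)))) * (∑ h ∈ Finset.range H, sin (h * (2 * π * (v n - θ)))))
        ≤ (1 - cos (2 * π * (v n - θ))) * ((∑ h ∈ Finset.range H, cos (h * (2 * π * (v n - θ)))) * (∑ h ∈ Finset.range H, cos (h * (2 * π * (v n - θ))))
        + (∑ h ∈ Finset.range H, sin (h * (2 * π * (v n - θ)))) * (∑ h ∈ Finset.range H, sin (h * (2 * π * (v n - θ))))) :=
      mul_le_mul_of_nonneg_right (by linarith) h4
    linarith
  rw [h3] at hle
  linarith

/-- The cosine is bounded away from one on a proper subinterval of a period. -/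
lemma cos_le_of_arc {ε u : ℝ} (hε : 0 < ε) (hε1 : ε ≤ 1) (h1 : ε / 2 ≤ u) (h2 : u ≤ 1 - ε / 2) :
    cos (2 * π * u) ≤ cos (π * ε) := by
  have hpi := pi_pos
  rcases le_total u (1 / 2) with hu | hu
  · refine cos_le_cos_of_nonneg_of_le_pi (by positivity) ?_ ?_
    · nlinarith
    · nlinarith
  · have h3 : cos (2 * π * u) = cos (2 * π * (1 - u)) := by
      rw [show 2 * π * (1 - u) = 2 * π - 2 * π * u by ring, cos_two_pi_sub]
    rw [h3]
    refine cos_le_cos_of_nonneg_of_le_pi (by positivity) ?_ ?_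
    · nlinarith
    · nlinarith

/-- A bounded function whose class modulo one has vanishing high differences, and which stays
below one by a fixed margin, is periodic. -/
theorem weyl_lite (k : ℕ) (v : ℤ → ℝ) (hP : Poly k (fun s => (v s : AddCircle (1 : ℝ))))
    (h0 : ∀ s, 0 ≤ v s) {ε : ℝ} (hε : 0 < ε) (hle : ∀ s, v s ≤ 1 - ε) :
    ∃ D : ℕ, 0 < D ∧ ∀ s, v (s + D) = v s := by
  have hε1 : ε ≤ 1 := by
    have h1 := h0 0
    have h2 := hle 0
    linarith
  have hfact : Fact ((0 : ℝ) < 1) := ⟨one_pos⟩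
  by_cases hper : ∃ D : ℕ, 0 < D ∧ ∀ s, (v (s + D) : AddCircle (1 : ℝ)) = v s
  · obtain ⟨D, hD, hper⟩ := hper
    refine ⟨D, hD, fun s => ?_⟩
    have h1 : ((v (s + D) - v s : ℝ) : AddCircle (1 : ℝ)) = 0 := by
      rw [AddCircle.coe_sub, hper, sub_self]
    obtain ⟨n, hn⟩ := (AddCircle.coe_eq_zero_iff (1 : ℝ)).mp h1
    simp only [zsmul_eq_mul, mul_one] at hn
    have h2 := h0 s
    have h3 := h0 (s + D)
    have h4 := hle s
    have h5 := hle (s + D)
    have h6 : (-1 : ℝ) < n := by rw [hn]; linarith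
    have h7 : (n : ℝ) < 1 := by rw [hn]; linarith
    have h8 : n = 0 := by
      have h9 : (-1 : ℤ) < n := by exact_mod_cast h6
      have h10 : n < (1 : ℤ) := by exact_mod_cast h7
      omega
    rw [h8] at hn
    simp only [Int.cast_zero] at hn
    linarith
  · exfalso
    have hm : ∀ h : ℕ, 0 < h → mc (natMul h v) = 0 ∧ ms (natMul h v) = 0 := by
      intro h hh
      by_contra hcon
      have hne : mc (natMul h v) ≠ 0 ∨ ms (natMul h v) ≠ 0 := by
        by_contra h2
        push Not at h2
        exact hcon h2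
      have hcoe : (fun s => ((natMul h v s : ℝ) : AddCircle (1 : ℝ)))
          = fun s => h • (v s : AddCircle (1 : ℝ)) := by
        funext s
        simp only [natMul]
        rw [← AddCircle.coe_nsmul, nsmul_eq_mul]
      obtain ⟨D, hD, hD2⟩ := mean_ne_periodic k (natMul h v) (by rw [hcoe]; exact hP.nsmul h) hne
      have hD3 : ∀ s, h • (v (s + D) : AddCircle (1 : ℝ)) = h • (v s : AddCircle (1 : ℝ)) := by
        intro s
        have h2 := hD2 s
        simp only [natMul] at h2
        rw [← AddCircle.coe_nsmul, ← AddCircle.coe_nsmul, nsmul_eq_mul, nsmul_eq_mul]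
        exact h2
      exact hper (smul_periodic hP hh (AddCircle.finite_torsion _ hh) hD hD3)
    have hπ := pi_pos
    have hc : cos (π * ε) < 1 := by
      have h1 : cos (π * ε) < cos 0 := by
        refine cos_lt_cos_of_nonneg_of_le_pi le_rfl ?_ ?_
        · nlinarith
        · positivity
      rwa [cos_zero] at h1
    obtain ⟨s, hs⟩ := exists_phase_gt v (1 - ε / 2) (cos (π * ε)) hc hm
    have h1 := h0 s
    have h2 := hle s
    have h3 : cos (2 * π * (v s - (1 - ε / 2))) = cos (2 * π * ((1 - ε / 2) - v s)) := by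
      rw [← cos_neg]
      congr 1
      ring
    rw [h3] at hs
    have h4 := cos_le_of_arc hε hε1 (u := (1 - ε / 2) - v s) (by linarith) (by linarith)
    linarith

end means

end Vale.Agent.P043
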