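import Vale.Agent.Lib.P043Base
import Vale.Agent.Lib.P043Weyl

namespace Vale.Agent.P043

variable {d : ℕ}

lemma inv_zsmul {h : Bd (Fin d → ℤ)} {κ : Fin d → ℤ} (hκ : Tr κ h = h) (t : ℤ) : Tr (t • κ) h = h := by
  have hm : κ ∈ ({κ} : Set (Fin d → ℤ)) := Set.mem_singleton κ
  exact inv_closure (S := {κ}) (fun w hw => by rw [Set.mem_singleton_iff.mp hw]; exact hκ)
    (AddSubgroup.zsmul_mem _ (AddSubgroup.subset_closure hm) _)

lemma coe_int_eq_zero (z : ℤ) : (((z : ℝ) : ℝ) : AddCircle (1 : ℝ)) = 0 := by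
  rw [AddCircle.coe_eq_zero_iff]
  exact ⟨z, by simp⟩

lemma list_sum_apply (L : List (Bd (Fin d → ℤ))) (x : Fin d → ℤ) :
    (L.sum).1 x = (L.map fun b => b.1 x).sum := by
  induction L with
  | nil => rfl
  | cons a L ih =>
    simp only [List.sum_cons, List.map_cons]
    rw [← ih]
    rfl

/-- Integrality of a sum forces polynomial behaviour of each term modulo one. -/
lemma poly_of_int (τ y₀ : Fin d → ℤ) : ∀ (Q : List ((Fin d → ℤ) →+ ℤ))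
    (hh : ((Fin d → ℤ) →+ ℤ) → Bd (Fin d → ℤ)) (h P : Bd (Fin d → ℤ)),
    (∀ φ ∈ Q, ∃ κ μ, τ = κ + μ ∧ Tr κ (hh φ) = hh φ ∧ Tr μ h = h) →
    Tr τ P = P →
    (∀ x, ∃ z : ℤ, h.1 x + ((Q.map hh).sum).1 x + P.1 x = z) →
    Poly (Q.length + 1) (fun s : ℤ => ((h.1 (y₀ + s • τ) : ℝ) : AddCircle (1 : ℝ))) := by
  intro Q
  induction Q with
  | nil =>
    intro hh h P _ hP hz t s
    obtain ⟨z₁, hz₁⟩ := hz (y₀ + (s + t) • τ)
    obtain ⟨z₂, hz₂⟩ := hz (y₀ + s • τ)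
    have hP1 : ∀ s : ℤ, P.1 (y₀ + s • τ) = P.1 y₀ := by
      intro s
      have h1 := congrArg (fun k : Bd (Fin d → ℤ) => k.1 y₀) (inv_zsmul hP s)
      simpa only [Tr_apply] using h1
    rw [hP1] at hz₁ hz₂
    simp only [List.map_nil, List.sum_nil] at hz₁ hz₂
    have h0 : ∀ x : Fin d → ℤ, (0 : Bd (Fin d → ℤ)).1 x = 0 := fun _ => rfl
    rw [h0, add_zero] at hz₁ hz₂
    change ((h.1 (y₀ + (s + t) • τ) : ℝ) : AddCircle (1 : ℝ)) - ((h.1 (y₀ + s • τ) : ℝ) : AddCircle (1 : ℝ)) = 0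
    rw [← AddCircle.coe_sub]
    have h3 : h.1 (y₀ + (s + t) • τ) - h.1 (y₀ + s • τ) = ((z₁ - z₂ : ℤ) : ℝ) := by
      push_cast
      linarith
    rw [h3]
    exact coe_int_eq_zero _
  | cons φ Q ih =>
    intro hh h P hQ hP hz t
    obtain ⟨κ, μ, hτ, hκ, hμ⟩ := hQ φ List.mem_cons_self
    let D : Bd (Fin d → ℤ) →ₗ[ℝ] Bd (Fin d → ℤ) := Tr (t • κ) - LinearMap.id
    have hDapply : ∀ (b : Bd (Fin d → ℤ)) (x : Fin d → ℤ), (D b).1 x = b.1 (x + t • κ) - b.1 x :=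
      fun _ _ => rfl
    have hDTr : ∀ (y : Fin d → ℤ) (b : Bd (Fin d → ℤ)), Tr y (D b) = D (Tr y b) := by
      intro y b
      simp only [D, LinearMap.sub_apply, LinearMap.id_apply, map_sub]
      rw [Tr_comm]
    have hih := ih (fun χ => D (hh χ)) (D h) (D P) (fun χ hχ => ?_) (by rw [hDTr, hP]) (fun x => ?_)
    · have hfun : (fun s : ℤ => (((D h).1 (y₀ + s • τ) : ℝ) : AddCircle (1 : ℝ)))
          = Dl t (fun s : ℤ => ((h.1 (y₀ + s • τ) : ℝ) : AddCircle (1 : ℝ))) := by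
        funext s
        simp only [Dl]
        rw [← AddCircle.coe_sub, hDapply]
        have h1 : y₀ + (s + t) • τ = y₀ + s • τ + t • κ + t • μ := by
          rw [hτ]
          module
        have h2 := congrArg (fun k : Bd (Fin d → ℤ) => k.1 (y₀ + s • τ + t • κ)) (inv_zsmul hμ t)
        simp only [Tr_apply] at h2
        rw [h1, h2]
      rw [hfun] at hih
      exact hih
    · obtain ⟨κ', μ', h1, h2, h3⟩ := hQ χ (List.mem_cons_of_mem _ hχ)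
      exact ⟨κ', μ', h1, by rw [hDTr, h2], by rw [hDTr, h3]⟩
    · obtain ⟨z₁, hz₁⟩ := hz (x + t • κ)
      obtain ⟨z₂, hz₂⟩ := hz x
      refine ⟨z₁ - z₂, ?_⟩
      have h5 : ((Q.map fun χ => D (hh χ)).sum).1 x = ((Q.map hh).sum).1 (x + t • κ) - ((Q.map hh).sum).1 x := by
        have h6 : (Q.map fun χ => D (hh χ)).sum = D (Q.map hh).sum := by
          rw [map_list_sum, List.map_map]
          rfl
        rw [h6, hDapply]
      rw [h5, hDapply, hDapply]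
      simp only [List.map_cons, List.sum_cons] at hz₁ hz₂
      have h7 : ∀ (a b : Bd (Fin d → ℤ)) (x : Fin d → ℤ), (a + b).1 x = a.1 x + b.1 x := fun _ _ _ => rfl
      rw [h7] at hz₁ hz₂
      have h8 := congrArg (fun k : Bd (Fin d → ℤ) => k.1 x) (inv_zsmul hκ t)
      simp only [Tr_apply] at h8
      rw [Int.cast_sub]
      linarith

namespace Base

variable {F : Finset (Fin d → ℤ)} (B : Base F)

lemma nodup : B.Ψ.Nodup := by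
  refine List.Pairwise.imp_of_mem (fun {a b} ha _ hab => ?_) B.hP
  rintro rfl
  have := hab 1 (-1) (by simp)
  simp at this

/-- The decomposition at a multiple of the base scale. -/
lemma decomp_N {ω : Set (Fin d → ℤ)} (hω : InOm F ω) {N : ℕ} (hN : B.M ∣ N) :
    ∃ P : Bd (Fin d → ℤ), (∀ y ∈ scaleS (N * B.D₂), Tr y P = P) ∧
      indB ω = (B.Ψ.map fun ψ => rhoN N ψ ω).sum + P := by
  obtain ⟨t, rfl⟩ := hN
  exact decomp_level B.hD₂m (B.hann ω hω) t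

open Classical in
lemma rho_poly {ω : Set (Fin d → ℤ)} (hω : InOm F ω) {ψ : (Fin d → ℤ) →+ ℤ} (hψ : ψ ∈ B.Ψ)
    (y₀ : Fin d → ℤ) :
    Poly ((B.Ψ.erase ψ).length + 1)
      (fun s : ℤ => (((rhoN B.M ψ ω).1 (y₀ + s • B.τ ψ) : ℝ) : AddCircle (1 : ℝ))) := by
  obtain ⟨P, hP, hdec⟩ := B.decomp_N hω (dvd_refl B.M)
  refine poly_of_int (B.τ ψ) y₀ (B.Ψ.erase ψ) (fun φ => rhoN B.M φ ω) (rhoN B.M ψ ω) P ?_ ?_ ?_
  · intro φ hφ
    have hmem := (List.Nodup.mem_erase_iff B.nodup).mp hφ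
    obtain ⟨κ, hκ, μ, hμ, he⟩ := B.τ_split hψ hmem.2 (Ne.symm hmem.1)
    exact ⟨κ, μ, he, EL_inv_closure _ hκ _, EL_inv_closure _ hμ _⟩
  · refine hP _ ?_
    have := B.τ_mem_MD₂ ψ
    rwa [mul_one] at this
  · intro x
    have h1 := List.sum_map_erase (fun φ => rhoN B.M φ ω) hψ
    have h2 := congrArg (fun k : Bd (Fin d → ℤ) => k.1 x) hdec
    rw [← h1] at h2
    by_cases hx : x ∈ ω
    · refine ⟨1, ?_⟩
      have h3 : (indB ω).1 x = 1 := by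
        rw [indB_apply, ind, if_pos hx]
      rw [h3] at h2
      have h4 : ∀ (a b : Bd (Fin d → ℤ)) (x : Fin d → ℤ), (a + b).1 x = a.1 x + b.1 x := fun _ _ _ => rfl
      simp only [h4] at h2
      rw [Int.cast_one]
      linarith
    · refine ⟨0, ?_⟩
      have h3 : (indB ω).1 x = 0 := by
        rw [indB_apply, ind, if_neg hx]
      rw [h3] at h2
      have h4 : ∀ (a b : Bd (Fin d → ℤ)) (x : Fin d → ℤ), (a + b).1 x = a.1 x + b.1 x := fun _ _ _ => rfl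
      simp only [h4] at h2
      rw [Int.cast_zero]
      linarith

/-- The values of the kernel average approach one along the transversal direction. -/
def Full (ω : Set (Fin d → ℤ)) (ψ : (Fin d → ℤ) →+ ℤ) (y₀ : Fin d → ℤ) : Prop :=
  ∀ ε : ℝ, 0 < ε → ∃ s : ℤ, 1 - ε < (rhoN B.M ψ ω).1 (y₀ + s • B.τ ψ)

lemma periodic_of_not_full {ω : Set (Fin d → ℤ)} (hω : InOm F ω) {ψ : (Fin d → ℤ) →+ ℤ} (hψ : ψ ∈ B.Ψ)
    {y₀ : Fin d → ℤ} (hf : ¬ B.Full ω ψ y₀) :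
    ∃ D : ℕ, 0 < D ∧ ∀ s : ℤ, (rhoN B.M ψ ω).1 (y₀ + (s + D) • B.τ ψ)
      = (rhoN B.M ψ ω).1 (y₀ + s • B.τ ψ) := by
  unfold Full at hf
  push Not at hf
  obtain ⟨ε, hε, hle⟩ := hf
  exact weyl_lite _ (fun s : ℤ => (rhoN B.M ψ ω).1 (y₀ + s • B.τ ψ)) (B.rho_poly hω hψ y₀)
    (fun s => rhoN_nonneg _ _ _ _) hε hle

/-- The lattice generated by the kernel lattice and the transversal vector. -/
noncomputable def Lam (ψ : (Fin d → ℤ) →+ ℤ) : AddSubgroup (Fin d → ℤ) :=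
  AddSubgroup.closure ({v | v ∈ lv B.M ψ} ∪ {B.τ ψ})

lemma lv_le_Lam (ψ : (Fin d → ℤ) →+ ℤ) : AddSubgroup.closure {v | v ∈ lv B.M ψ} ≤ B.Lam ψ :=
  AddSubgroup.closure_mono Set.subset_union_left

lemma τ_mem_Lam (ψ : (Fin d → ℤ) →+ ℤ) : B.τ ψ ∈ B.Lam ψ :=
  AddSubgroup.subset_closure (Or.inr rfl)

lemma phi_inv_Lam {ω : Set (Fin d → ℤ)} (hω : InOm F ω) {ψ : (Fin d → ℤ) →+ ℤ} (hψ : ψ ∈ B.Ψ)
    {g₀ : Fin d → ℤ} (hg : g₀ ∈ F) {y : Fin d → ℤ} (hy : y ∈ B.Lam ψ) :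
    Tr y (phiB (rhoN B.M ψ ω) F ψ g₀) = phiB (rhoN B.M ψ ω) F ψ g₀ := by
  refine inv_closure (fun v hv => ?_) hy
  apply Subtype.ext
  funext x
  rw [Tr_apply]
  rcases hv with hv | hv
  · exact B.phi_inv_lv g₀ (AddSubgroup.subset_closure hv) x
  · rw [Set.mem_singleton_iff.mp hv]
    exact B.phi_inv_D₃ hω hψ hg (B.τ_mem_D₃ ψ) x

/-- Step F. A full coset has level function one. -/
lemma full_phi {ω : Set (Fin d → ℤ)} (hω : InOm F ω) {ψ : (Fin d → ℤ) →+ ℤ} (hψ : ψ ∈ B.Ψ)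
    {g₀ : Fin d → ℤ} (hg : g₀ ∈ F) {y₀ : Fin d → ℤ} (hf : B.Full ω ψ y₀) {ℓ : Fin d → ℤ}
    (hℓ : ℓ ∈ B.Lam ψ) : (phiB (rhoN B.M ψ ω) F ψ g₀).1 (y₀ + g₀ + ℓ) = 1 := by
  have h1 : ∀ ℓ ∈ B.Lam ψ, (phiB (rhoN B.M ψ ω) F ψ g₀).1 (y₀ + g₀ + ℓ)
      = (phiB (rhoN B.M ψ ω) F ψ g₀).1 (y₀ + g₀) := by
    intro ℓ hℓ
    have := congrArg (fun k : Bd (Fin d → ℤ) => k.1 (y₀ + g₀)) (B.phi_inv_Lam hω hψ hg hℓ)
    simpa only [Tr_apply] using this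
  rw [h1 ℓ hℓ]
  refine le_antisymm (B.phi_le_one hω ψ g₀ _) ?_
  refine le_of_forall_pos_lt_add fun ε hε => ?_
  obtain ⟨s, hs⟩ := hf ε hε
  have h2 : s • B.τ ψ ∈ B.Lam ψ := AddSubgroup.zsmul_mem _ (B.τ_mem_Lam ψ) _
  rw [← h1 _ h2, phiB_apply]
  have h3 : (rhoN B.M ψ ω).1 (y₀ + s • B.τ ψ) ≤
      ∑ h ∈ F.filter (fun h => ψ h = ψ g₀), (rhoN B.M ψ ω).1 (y₀ + g₀ + s • B.τ ψ - h) := by
    have h4 : y₀ + s • B.τ ψ = y₀ + g₀ + s • B.τ ψ - g₀ := by abel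
    rw [h4]
    exact Finset.single_le_sum (f := fun h => (rhoN B.M ψ ω).1 (y₀ + g₀ + s • B.τ ψ - h))
      (fun _ _ => rhoN_nonneg _ _ _ _) (Finset.mem_filter.mpr ⟨hg, rfl⟩)
  linarith

/-- The scale below which everything lies in the lattice `Lam`. -/
noncomputable def NS₁ (ψ : (Fin d → ℤ) →+ ℤ) : ℕ := B.M * B.A * (ψ (B.τ ψ)).natAbs

lemma NS₁_pos {ψ : (Fin d → ℤ) →+ ℤ} (hψ : ψ ∈ B.Ψ) : 0 < B.NS₁ ψ :=
  Nat.mul_pos (Nat.mul_pos B.hM B.hA) (Int.natAbs_pos.mpr (B.τ_pos (B.hne ψ hψ)).ne')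

/-- A vector of the scale `M * A * (ψ v)` is a kernel lattice vector plus a multiple of `v`. -/
lemma exists_decomp_transversal {ψ : (Fin d → ℤ) →+ ℤ} (hψ : ψ ∈ B.Ψ) (v z : Fin d → ℤ) :
    ∃ ℓ ∈ AddSubgroup.closure {v | v ∈ lv B.M ψ}, ∃ c : ℤ,
      (B.M * B.A * (ψ v).natAbs) • z = ℓ + c • v := by
  have h1 : ψ (ψ v • z - ψ z • v) = 0 := by
    rw [map_sub, map_zsmul, map_zsmul, smul_eq_mul, smul_eq_mul]
    ring
  have h2 := smul_ker_mem_closure_lv (N := B.M) (B.hAm ψ hψ _ h1)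
  rcases Int.natAbs_eq (ψ v) with h7 | h7
  · refine ⟨_, h2, (B.M * B.A : ℕ) * ψ z, ?_⟩
    generalize (ψ v).natAbs = n at h7 ⊢
    rw [h7]
    module
  · refine ⟨-_, AddSubgroup.neg_mem _ h2, (B.M * B.A : ℕ) * ψ z * (-1), ?_⟩
    generalize (ψ v).natAbs = n at h7 ⊢
    rw [h7]
    module

lemma NS₁_le_Lam {ψ : (Fin d → ℤ) →+ ℤ} (hψ : ψ ∈ B.Ψ) : scaleS (B.NS₁ ψ) ≤ B.Lam ψ := by
  rintro _ ⟨z, rfl⟩
  obtain ⟨ℓ, hℓ, c, he⟩ := B.exists_decomp_transversal hψ (B.τ ψ) z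
  rw [NS₁, he]
  exact AddSubgroup.add_mem _ (B.lv_le_Lam ψ hℓ) (AddSubgroup.zsmul_mem _ (B.τ_mem_Lam ψ) _)

/-- The scale of the classes. -/
noncomputable def NS : ℕ := (B.Ψ.map fun ψ => B.NS₁ ψ).prod

lemma NS_pos : 0 < B.NS := by
  refine List.prod_pos fun n hn => ?_
  obtain ⟨ψ, hψ, rfl⟩ := List.mem_map.mp hn
  exact B.NS₁_pos hψ

lemma NS_le_Lam {ψ : (Fin d → ℤ) →+ ℤ} (hψ : ψ ∈ B.Ψ) : scaleS B.NS ≤ B.Lam ψ :=
  (scaleS_mono (List.dvd_prod (List.mem_map.mpr ⟨ψ, hψ, rfl⟩))).trans (B.NS₁_le_Lam hψ)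

end Base

end Vale.Agent.P043
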