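import Vale.Agent.Lib.P043Annih
import Vale.Agent.Lib.P043Weyl

namespace Vale.Agent.P043

variable {d : ℕ}

/-- The lattice of `n`-fold multiples. -/
def scaleS (n : ℕ) : AddSubgroup (Fin d → ℤ) where
  carrier := {y | ∃ z, y = n • z}
  zero_mem' := ⟨0, by simp⟩
  add_mem' := by
    rintro _ _ ⟨a, rfl⟩ ⟨b, rfl⟩
    exact ⟨a + b, by rw [smul_add]⟩
  neg_mem' := by
    rintro _ ⟨a, rfl⟩
    exact ⟨-a, by rw [smul_neg]⟩

lemma mem_scaleS {n : ℕ} {y : Fin d → ℤ} : y ∈ scaleS n ↔ ∃ z, y = n • z := Iff.rfl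

lemma scaleS_mono {n m : ℕ} (h : n ∣ m) : scaleS (d := d) m ≤ scaleS n := by
  rintro _ ⟨z, rfl⟩
  obtain ⟨e, rfl⟩ := h
  exact ⟨e • z, by rw [mul_smul]⟩

lemma nsmul_mem_scaleS (n : ℕ) (z : Fin d → ℤ) : n • z ∈ scaleS n := ⟨z, rfl⟩

/-- The generators of the kernel lattice at scale `N`. -/
def lv (N : ℕ) (ψ : (Fin d → ℤ) →+ ℤ) : List (Fin d → ℤ) := (gens ψ).map fun v => N • v

lemma nsmul_mem_closure_of_mem {S : Set (Fin d → ℤ)} {x : Fin d → ℤ} (N : ℕ)
    (hx : x ∈ AddSubgroup.closure S) : N • x ∈ AddSubgroup.closure ((fun v => N • v) '' S) := by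
  induction hx using AddSubgroup.closure_induction with
  | mem y hy => exact AddSubgroup.subset_closure ⟨y, hy, rfl⟩
  | zero =>
    rw [smul_zero]
    exact AddSubgroup.zero_mem _
  | add a b _ _ ha hb =>
    rw [smul_add]
    exact AddSubgroup.add_mem _ ha hb
  | neg a _ ha =>
    rw [smul_neg]
    exact AddSubgroup.neg_mem _ ha

lemma closure_lv_le_scaleS (N : ℕ) (ψ : (Fin d → ℤ) →+ ℤ) :
    AddSubgroup.closure {v | v ∈ lv N ψ} ≤ scaleS N := by
  rw [AddSubgroup.closure_le]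
  intro v hv
  obtain ⟨w, _, rfl⟩ := List.mem_map.mp hv
  exact ⟨w, rfl⟩

/-- A single constant multiplier sends kernels into the generated lattices. -/
lemma exists_A (Ψ : List ((Fin d → ℤ) →+ ℤ)) (hne : ∀ ψ ∈ Ψ, ψ ≠ 0) :
    ∃ A : ℕ, 0 < A ∧ ∀ ψ ∈ Ψ, ∀ y, ψ y = 0 → A • y ∈ AddSubgroup.closure {v | v ∈ gens ψ} := by
  induction Ψ with
  | nil => exact ⟨1, one_pos, by simp⟩
  | cons ψ Ψ ih =>
    obtain ⟨A, hA, hAm⟩ := ih fun φ hφ => hne φ (List.mem_cons_of_mem _ hφ)
    have hψ := hne ψ List.mem_cons_self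
    obtain ⟨i, hi⟩ : ∃ i, ψ (eV i) ≠ 0 := by
      by_contra hcon
      push Not at hcon
      apply hψ
      refine AddMonoidHom.ext fun y => ?_
      rw [functional_apply, AddMonoidHom.zero_apply]
      exact Finset.sum_eq_zero fun l _ => by rw [hcon l, mul_zero]
    refine ⟨(ψ (eV i)).natAbs * A, Nat.mul_pos (Int.natAbs_pos.mpr hi) hA, fun φ hφ y hy => ?_⟩
    rcases List.mem_cons.mp hφ with rfl | hm
    · have h1 := ker_mul_mem_closure φ hy i
      have h2 : (φ (eV i)).natAbs • y ∈ AddSubgroup.closure {v | v ∈ gens φ} := by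
        rcases Int.natAbs_eq (φ (eV i)) with h3 | h3
        · rw [h3] at h1
          simpa using h1
        · rw [h3] at h1
          have := AddSubgroup.neg_mem _ h1
          simpa using this
      rw [mul_comm, mul_smul]
      exact AddSubgroup.nsmul_mem _ h2 _
    · rw [mul_smul]
      exact AddSubgroup.nsmul_mem _ (hAm φ hm y hy) _

lemma smul_ker_mem_closure_lv {A N : ℕ} {ψ : (Fin d → ℤ) →+ ℤ} {y : Fin d → ℤ}
    (hA : A • y ∈ AddSubgroup.closure {v | v ∈ gens ψ}) :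
    (N * A) • y ∈ AddSubgroup.closure {v | v ∈ lv N ψ} := by
  rw [mul_smul]
  have := nsmul_mem_closure_of_mem N hA
  refine (AddSubgroup.closure_mono ?_) this
  rintro _ ⟨w, hw, rfl⟩
  exact List.mem_map.mpr ⟨w, hw, rfl⟩

/-- Independent functionals have kernels jointly of full rank. -/
lemma indep_full_rank {ψ φ : (Fin d → ℤ) →+ ℤ} (hψ : ψ ≠ 0) (hφ : φ ≠ 0) (hind : Indep ψ φ) :
    ∃ D : ℕ, 0 < D ∧ ∀ y, D • y ∈ AddSubgroup.closure {v | v ∈ gens ψ ∨ v ∈ gens φ} := by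
  classical
  have hnz : ∀ ψ : (Fin d → ℤ) →+ ℤ, ψ ≠ 0 → ∃ i, ψ (eV i) ≠ 0 := by
    intro ψ hψ
    by_contra hcon
    push Not at hcon
    apply hψ
    refine AddMonoidHom.ext fun y => ?_
    rw [functional_apply, AddMonoidHom.zero_apply]
    exact Finset.sum_eq_zero fun l _ => by rw [hcon l, mul_zero]
  obtain ⟨i, hi⟩ := hnz ψ hψ
  obtain ⟨j, hj⟩ := hnz φ hφ
  have hprop : ∀ χ : (Fin d → ℤ) →+ ℤ,
      (∀ z ∈ AddSubgroup.closure {v | v ∈ gens ψ ∨ v ∈ gens φ}, χ z = 0) → χ = 0 := by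
    intro χ hχ
    have h1 : ∀ θ : (Fin d → ℤ) →+ ℤ, (∀ v ∈ gens θ, χ v = 0) → ∀ l, θ (eV l) ≠ 0 →
        θ (eV l) • χ = χ (eV l) • θ := by
      intro θ hθ l hl
      refine AddMonoidHom.ext fun y => ?_
      simp only [AddMonoidHom.smul_apply, smul_eq_mul]
      have hker : θ (θ (eV l) • y - θ y • eV l) = 0 := by
        rw [map_sub, map_zsmul, map_zsmul, smul_eq_mul, smul_eq_mul]
        ring
      have h2 := ker_mul_mem_closure θ hker l
      have h3 : χ (θ (eV l) • (θ (eV l) • y - θ y • eV l)) = 0 := by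
        have hc : AddSubgroup.closure {v | v ∈ gens θ} ≤ χ.ker := by
          rw [AddSubgroup.closure_le]
          intro v hv
          exact hθ v hv
        exact hc h2
      rw [map_zsmul, map_sub, map_zsmul, map_zsmul, smul_eq_mul, smul_eq_mul, smul_eq_mul] at h3
      have h4 := (mul_eq_zero.mp h3).resolve_left hl
      linarith
    have hi1 := h1 ψ (fun v hv => hχ v (AddSubgroup.subset_closure (Or.inl hv))) i hi
    have hj1 := h1 φ (fun v hv => hχ v (AddSubgroup.subset_closure (Or.inr hv))) j hj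
    have h5 : (φ (eV j) * χ (eV i)) • ψ + (-(ψ (eV i) * χ (eV j))) • φ = 0 := by
      rw [mul_smul, ← hi1, neg_smul, mul_smul, ← hj1, smul_smul, smul_smul, mul_comm, add_neg_cancel]
    obtain ⟨h6, _⟩ := hind _ _ h5
    have h7 : χ (eV i) = 0 := (mul_eq_zero.mp h6).resolve_left hj
    rw [h7, zero_smul] at hi1
    refine AddMonoidHom.ext fun y => ?_
    have h8 := DFunLike.congr_fun hi1 y
    simp only [AddMonoidHom.smul_apply, AddMonoidHom.zero_apply, smul_eq_mul] at h8 ⊢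
    exact (mul_eq_zero.mp h8).resolve_left hi
  have hl : ∀ l : Fin d, ∃ D : ℕ, 0 < D ∧
      D • eV l ∈ AddSubgroup.closure {v | v ∈ gens ψ ∨ v ∈ gens φ} := by
    intro l
    refine exists_mul_mem _ _ fun χ hχ => ?_
    rw [hprop χ hχ]
    rfl
  choose D hD hDm using hl
  refine ⟨∏ l, D l, Finset.prod_pos fun l _ => hD l, fun y => ?_⟩
  rw [eq_sum_eV y, Finset.smul_sum]
  refine AddSubgroup.sum_mem _ fun l _ => ?_
  obtain ⟨e, he⟩ : D l ∣ ∏ l, D l := Finset.dvd_prod_of_mem _ (Finset.mem_univ l)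
  have h9 : (∏ l, D l) • (y l • eV l) = e • (y l • (D l • eV l)) := by
    rw [he, mul_comm, mul_smul, smul_comm (D l) (y l) (eV l)]
  rw [h9]
  exact AddSubgroup.nsmul_mem _ (AddSubgroup.zsmul_mem _ (hDm l) _) _

/-- A uniform constant for all pairs in a pairwise independent list. -/
lemma exists_pair_D (Ψ : List ((Fin d → ℤ) →+ ℤ)) (hP : Ψ.Pairwise Indep) (hne : ∀ ψ ∈ Ψ, ψ ≠ 0) :
    ∃ D : ℕ, 0 < D ∧ Ψ.Pairwise fun ψ φ => ∀ y, D • y ∈ AddSubgroup.closure {v | v ∈ gens ψ ∨ v ∈ gens φ} := by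
  induction Ψ with
  | nil => exact ⟨1, one_pos, List.Pairwise.nil⟩
  | cons ψ Ψ ih =>
    have hP' := List.pairwise_cons.mp hP
    obtain ⟨D, hD, hDp⟩ := ih hP'.2 fun φ hφ => hne φ (List.mem_cons_of_mem _ hφ)
    have hex : ∀ φ ∈ Ψ, ∃ E : ℕ, 0 < E ∧ ∀ y, E • y ∈ AddSubgroup.closure {v | v ∈ gens ψ ∨ v ∈ gens φ} :=
      fun φ hφ => indep_full_rank (hne ψ List.mem_cons_self) (hne φ (List.mem_cons_of_mem _ hφ)) (hP'.1 φ hφ)
    have hcommon : ∃ E : ℕ, 0 < E ∧ ∀ φ ∈ Ψ, ∀ y,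
        E • y ∈ AddSubgroup.closure {v | v ∈ gens ψ ∨ v ∈ gens φ} := by
      clear hP hP' hDp ih
      induction Ψ with
      | nil => exact ⟨1, one_pos, by simp⟩
      | cons φ Ψ ih =>
        obtain ⟨E, hE, hEm⟩ := ih (fun θ hθ => hne θ (by
            rcases List.mem_cons.mp hθ with rfl | hm
            · exact List.mem_cons_self
            · exact List.mem_cons_of_mem _ (List.mem_cons_of_mem _ hm)))
          (fun θ hθ => hex θ (List.mem_cons_of_mem _ hθ))
        obtain ⟨E', hE', hEm'⟩ := hex φ List.mem_cons_self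
        refine ⟨E' * E, Nat.mul_pos hE' hE, fun θ hθ y => ?_⟩
        rcases List.mem_cons.mp hθ with rfl | hm
        · rw [mul_comm, mul_smul]
          exact AddSubgroup.nsmul_mem _ (hEm' y) _
        · rw [mul_smul]
          exact AddSubgroup.nsmul_mem _ (hEm θ hm y) _
    obtain ⟨E, hE, hEm⟩ := hcommon
    refine ⟨D * E, Nat.mul_pos hD hE, List.pairwise_cons.mpr ⟨fun φ hφ y => ?_, ?_⟩⟩
    · rw [mul_smul]
      exact AddSubgroup.nsmul_mem _ (hEm φ hφ y) _
    · refine hDp.imp fun {a b} h y => ?_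
      rw [mul_comm, mul_smul]
      exact AddSubgroup.nsmul_mem _ (h y) _

lemma closure_es_ge (N : ℕ) : scaleS (d := d) N ≤
    AddSubgroup.closure {v | v ∈ ((List.finRange d).map eV).map fun v => N • v} := by
  rintro _ ⟨z, rfl⟩
  rw [eq_sum_eV z, Finset.smul_sum]
  refine AddSubgroup.sum_mem _ fun l _ => ?_
  have h1 : N • (z l • eV l) = z l • (N • eV l) := by
    rw [smul_comm]
  rw [h1]
  refine AddSubgroup.zsmul_mem _ (AddSubgroup.subset_closure ?_) _
  simp only [List.map_map, Set.mem_ofPred_eq, List.mem_map, List.mem_finRange, true_and,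
    Function.comp_apply]
  exact ⟨l, rfl⟩

/-- Annihilation passes from a set of generators to elements of the generated subgroups. -/
lemma ann_closure : ∀ (vss vss' : List (List (Fin d → ℤ))) (h : Bd (Fin d → ℤ)),
    List.Forall₂ (fun vs' vs => ∀ v ∈ vs', v ∈ AddSubgroup.closure {w | w ∈ vs}) vss' vss →
    (∀ ys, List.Forall₂ (· ∈ ·) ys vss → mD ys h = 0) →
    ∀ ys, List.Forall₂ (· ∈ ·) ys vss' → mD ys h = 0 := by
  intro vss vss' h hrel
  induction hrel generalizing h with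
  | nil =>
    intro hann ys hys
    cases hys
    exact hann [] List.Forall₂.nil
  | @cons vs' vs r' r hvs _ ih =>
    intro hann ys hys
    cases hys with
    | @cons y _ t _ hy ht =>
      have hinner : ∀ u, List.Forall₂ (· ∈ ·) u r → mD u (Tr y h - h) = 0 := by
        intro u hu
        rw [map_sub, mD_Tr, sub_eq_zero]
        refine inv_closure (S := {w | w ∈ vs}) (fun v hv => ?_) (hvs y hy)
        have := hann (v :: u) (List.Forall₂.cons hv hu)
        simp only [mD_cons] at this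
        exact sub_eq_zero.mp this
      have := ih (Tr y h - h) hinner t ht
      simp only [mD_cons]
      rw [map_sub, mD_Tr] at this
      exact this

/-- From the annihilation at scale `M` to the annihilation at any multiple of `M`. -/
lemma ann_level {Ψ : List ((Fin d → ℤ) →+ ℤ)} {M t : ℕ} {h : Bd (Fin d → ℤ)}
    (hann : ∀ ys ∈ List.sections (levelList M Ψ), mD ys h = 0) :
    ∀ ys, List.Forall₂ (· ∈ ·) ys (levelList (M * t) Ψ) → mD ys h = 0 := by
  refine ann_closure (levelList M Ψ) (levelList (M * t) Ψ) h ?_ (fun ys hys => hann ys (List.mem_sections.mpr hys))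
  have hmem : ∀ (vs : List (Fin d → ℤ)) (v : Fin d → ℤ), v ∈ vs.map (fun w => (M * t) • w) →
      v ∈ AddSubgroup.closure {w : Fin d → ℤ | w ∈ vs.map fun w => M • w} := by
    intro vs v hv
    obtain ⟨w, hw, rfl⟩ := List.mem_map.mp hv
    rw [mul_comm, mul_smul]
    have hw' : M • w ∈ {w' : Fin d → ℤ | w' ∈ vs.map fun w => M • w} :=
      List.mem_map.mpr ⟨w, hw, rfl⟩
    exact AddSubgroup.nsmul_mem _ (AddSubgroup.subset_closure hw') _
  simp only [levelList]
  refine List.rel_append ?_ ?_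
  · clear hann
    induction Ψ with
    | nil => exact List.Forall₂.nil
    | cons ψ Ψ ih =>
      exact List.Forall₂.cons (hmem _) ih
  · exact List.Forall₂.cons (hmem _) List.Forall₂.nil

/-- The mean of the indicator along the kernel lattice of a functional, at a given scale. -/
noncomputable def rhoN (N : ℕ) (ψ : (Fin d → ℤ) →+ ℤ) (ω : Set (Fin d → ℤ)) : Bd (Fin d → ℤ) :=
  EL (lv N ψ) (indB ω)

/-- The decomposition of a tiling at scale `N`. -/
theorem decomp_level {Ψ : List ((Fin d → ℤ) →+ ℤ)} {M D₂ : ℕ}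
    (hD₂ : Ψ.Pairwise fun ψ φ => ∀ y, D₂ • y ∈ AddSubgroup.closure {v | v ∈ gens ψ ∨ v ∈ gens φ})
    {ω : Set (Fin d → ℤ)}
    (hann : ∀ ys ∈ List.sections (levelList M Ψ), mD ys (indB ω) = 0) (t : ℕ) :
    ∃ P : Bd (Fin d → ℤ), (∀ y ∈ scaleS (M * t * D₂), Tr y P = P) ∧
      indB ω = (Ψ.map fun ψ => rhoN (M * t) ψ ω).sum + P := by
  have h1 := decomp (scaleS (M * t * D₂)) (((List.finRange d).map eV).map fun v => (M * t) • v)
    ((scaleS_mono (Dvd.intro _ rfl)).trans (closure_es_ge (M * t)))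
    (Ψ.map fun ψ => lv (M * t) ψ) ?_ (indB ω) (ann_level hann)
  · obtain ⟨P, hP, hP2⟩ := h1
    refine ⟨P, hP, ?_⟩
    rw [List.map_map] at hP2
    exact hP2
  · rw [List.pairwise_map]
    refine hD₂.imp fun {ψ φ} hy => ?_
    rintro _ ⟨z, rfl⟩
    rw [show (M * t * D₂) • z = (M * t) • (D₂ • z) by rw [mul_smul]]
    have := nsmul_mem_closure_of_mem (M * t) (hy z)
    refine (AddSubgroup.closure_mono ?_) this
    rintro _ ⟨w, hw | hw, rfl⟩
    · exact Or.inl (List.mem_map.mpr ⟨w, hw, rfl⟩)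
    · exact Or.inr (List.mem_map.mpr ⟨w, hw, rfl⟩)

end Vale.Agent.P043
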