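import Vale.Agent.Lib.P043Limit

namespace Vale.Agent.P043

variable {d : ℕ}

lemma lv_closure_mono {n m : ℕ} (h : n ∣ m) (ψ : (Fin d → ℤ) →+ ℤ) :
    AddSubgroup.closure {v | v ∈ lv m ψ} ≤ AddSubgroup.closure {v | v ∈ lv n ψ} := by
  rw [AddSubgroup.closure_le]
  intro v hv
  obtain ⟨w, hw, rfl⟩ := List.mem_map.mp hv
  obtain ⟨e, rfl⟩ := h
  have hw' : n • w ∈ {v | v ∈ lv n ψ} := List.mem_map.mpr ⟨w, hw, rfl⟩
  have : (n * e) • w = e • (n • w) := by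
    rw [mul_comm, mul_smul]
  change (n * e) • w ∈ _
  rw [this]
  exact AddSubgroup.nsmul_mem _ (AddSubgroup.subset_closure hw') _

lemma exists_common {α : Type*} (L : List α) (P : α → ℕ → Prop)
    (hmono : ∀ a n m, n ∣ m → P a n → P a m) (h : ∀ a ∈ L, ∃ n, 0 < n ∧ P a n) :
    ∃ N, 0 < N ∧ ∀ a ∈ L, P a N := by
  induction L with
  | nil => exact ⟨1, one_pos, by simp⟩
  | cons a L ih =>
    obtain ⟨N, hN, hNL⟩ := ih fun b hb => h b (List.mem_cons_of_mem _ hb)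
    obtain ⟨n, hn, hna⟩ := h a List.mem_cons_self
    refine ⟨n * N, Nat.mul_pos hn hN, fun b hb => ?_⟩
    rcases List.mem_cons.mp hb with rfl | hm
    · exact hmono _ _ _ (Dvd.intro _ rfl) hna
    · exact hmono _ _ _ (Dvd.intro_left _ rfl) (hNL b hm)

namespace Base

variable {F : Finset (Fin d → ℤ)} (B : Base F)

/-- The scale of the remainders at the second level. -/
noncomputable def D₅ : ℕ :=
  B.NS * (B.Ψ.map fun ψ => (B.Ψ.map fun φ =>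
    ∏ g ∈ F, isoD (F.filter fun h => ψ h = ψ g) g φ B.W₃).prod).prod

lemma D₅_pos : 0 < B.D₅ := by
  refine Nat.mul_pos B.NS_pos (List.prod_pos fun n hn => ?_)
  obtain ⟨ψ, _, rfl⟩ := List.mem_map.mp hn
  refine List.prod_pos fun n hn => ?_
  obtain ⟨φ, _, rfl⟩ := List.mem_map.mp hn
  exact Finset.prod_pos fun g _ => isoD_pos _ _ _ B.W₃_pos

lemma NS_dvd_D₅ : B.NS ∣ B.D₅ := Dvd.intro _ rfl

lemma isoD_dvd_D₅ {ψ φ : (Fin d → ℤ) →+ ℤ} (hψ : ψ ∈ B.Ψ) (hφ : φ ∈ B.Ψ) {g : Fin d → ℤ} (hg : g ∈ F) :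
    isoD (F.filter fun h => ψ h = ψ g) g φ B.W₃ ∣ B.D₅ := by
  have h1 : isoD (F.filter fun h => ψ h = ψ g) g φ B.W₃
      ∣ ∏ g ∈ F, isoD (F.filter fun h => ψ h = ψ g) g φ B.W₃ :=
    Finset.dvd_prod_of_mem (fun g => isoD (F.filter fun h => ψ h = ψ g) g φ B.W₃) hg
  refine h1.trans (Dvd.dvd.trans ?_ (Dvd.intro_left _ rfl))
  refine Dvd.dvd.trans (List.dvd_prod ?_) (List.dvd_prod (a := (B.Ψ.map fun φ =>
    ∏ g ∈ F, isoD (F.filter fun h => ψ h = ψ g) g φ B.W₃).prod) ?_)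
  · exact List.mem_map.mpr ⟨φ, hφ, rfl⟩
  · exact List.mem_map.mpr ⟨ψ, hψ, rfl⟩

lemma closure_lv_M₂_le_Lam (φ : (Fin d → ℤ) →+ ℤ) {ψ : (Fin d → ℤ) →+ ℤ} (hψ : ψ ∈ B.Ψ) :
    AddSubgroup.closure {v | v ∈ lv B.M₂ φ} ≤ B.Lam ψ :=
  (closure_lv_le_scaleS _ _).trans ((scaleS_mono B.NS_dvd_M₂).trans (B.NS_le_Lam hψ))

/-- The isolation argument: at a maximal tiling, a full coset for `ψ` makes the kernel average of
any other `φ` periodic on that coset. -/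
lemma full_rho_inv
    (hH : ∀ ψ₁ ψ₂ : (Fin d → ℤ) →+ ℤ, Indep ψ₁ ψ₂ →
      ∃ f ∈ F, ∀ g ∈ F, ψ₁ g = ψ₁ f → ψ₂ g = ψ₂ f → g = f)
    {ω : Set (Fin d → ℤ)} (hω : InOm F ω) (hmax : ∀ ω', InOm F ω' → B.Pot ω' ≤ B.Pot ω)
    {ψ φ : (Fin d → ℤ) →+ ℤ} (hψ : ψ ∈ B.Ψ) (hφ : φ ∈ B.Ψ) (hne : ψ ≠ φ)
    {y₀ : Fin d → ℤ} (hf : B.Full ω ψ y₀) {y' : Fin d → ℤ} (hy' : y' - y₀ ∈ B.Lam ψ)
    {l : Fin d → ℤ} (hl : l ∈ scaleS B.D₅) :
    (rhoN B.M₂ φ ω).1 (y' + l) = (rhoN B.M₂ φ ω).1 y' := by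
  classical
  obtain ⟨g, hg, huniq⟩ := hH ψ φ (B.indep hψ hφ hne)
  set F₀ := F.filter fun h => ψ h = ψ g with hF₀
  set C : Set (Fin d → ℤ) := {x | x - (y₀ + g) ∈ B.Lam ψ} with hC
  have hEx : ∀ x ∈ C, B.Ex ω ψ g x := by
    intro x hx
    refine B.exact_of_max hω hmax hψ hg fun ℓ hℓ => ?_
    have h1 := B.full_phi hω hψ hg hf (AddSubgroup.add_mem _ hx hℓ)
    rwa [show y₀ + g + (x - (y₀ + g) + ℓ) = x + ℓ by abel] at h1
  have hCadd : ∀ x ∈ C, ∀ l ∈ B.Lam ψ, x + l ∈ C := by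
    intro x hx l hl
    have h1 := AddSubgroup.add_mem _ hx hl
    change x + l - (y₀ + g) ∈ B.Lam ψ
    rwa [show x + l - (y₀ + g) = x - (y₀ + g) + l by abel]
  have hsum : ∀ x ∈ C, ∀ s : ℕ, ∑ h ∈ F₀, (rhoN B.M₂ φ ω).1 (x - (1 + B.W₃ * s) • h) = 1 := by
    intro x hx s
    rw [← sumT_apply, rhoN, ← EL_sumT]
    refine EL_eq_of_const fun l hl => ?_
    rw [sumT_indB]
    have h1 := hEx _ (hCadd x hx l (B.closure_lv_M₂_le_Lam φ hψ hl)) s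
    rw [h1]
    simp
  have hiso : ∀ x ∈ C, ∑ h ∈ F₀.filter (fun h => φ h = φ g), (rhoN B.M₂ φ ω).1 (x - h)
      + (isoR (rhoN B.M₂ φ ω) F₀ g φ B.W₃).1 x = 1 := by
    intro x hx
    refine iso_eq (vs := lv B.M₂ φ) (C := C) (fun v hv => EL_inv hv _) (fun y hy => B.W₃_mem₂ hφ hy)
      (fun x hx s => hCadd x hx _ ?_) hsum hx
    refine B.NS_le_Lam hψ ?_
    obtain ⟨e, he⟩ := B.NS_dvd_W₃
    refine ⟨(e * s) • g, ?_⟩
    rw [he]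
    module
  have hfilter : F₀.filter (fun h => φ h = φ g) = {g} := by
    ext h
    simp only [Finset.mem_filter, Finset.mem_singleton, hF₀]
    constructor
    · rintro ⟨⟨h1, h2⟩, h3⟩
      exact huniq h h1 h2 h3
    · rintro rfl
      exact ⟨⟨hg, rfl⟩, rfl⟩
  have hval : ∀ x ∈ C, (rhoN B.M₂ φ ω).1 (x - g) + (isoR (rhoN B.M₂ φ ω) F₀ g φ B.W₃).1 x = 1 := by
    intro x hx
    have := hiso x hx
    rwa [hfilter, Finset.sum_singleton] at this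
  have hx : y' + g ∈ C := by
    change y' + g - (y₀ + g) ∈ B.Lam ψ
    rwa [show y' + g - (y₀ + g) = y' - y₀ by abel]
  have hx' : y' + g + l ∈ C := hCadd _ hx l (B.NS_le_Lam hψ (scaleS_mono B.NS_dvd_D₅ hl))
  have h1 := hval _ hx
  have h2 := hval _ hx'
  have h3 := isoR_inv (ρ := rhoN B.M₂ φ ω) (vs := lv B.M₂ φ) (ψ := φ) (W₂ := B.W₃)
    (fun v hv => EL_inv hv _) (fun y hy => B.W₃_mem₂ hφ hy) F₀ g
    (scaleS_mono (B.isoD_dvd_D₅ hψ hφ hg) hl)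
  have h4 := congrArg (fun k : Bd (Fin d → ℤ) => k.1 (y' + g)) h3
  simp only [Tr_apply] at h4
  rw [show y' + g - g = y' by abel] at h1
  rw [show y' + g + l - g = y' + l by abel] at h2
  linarith

/-- The scale of the invariance on full cosets. -/
noncomputable def D₆ : ℕ := B.M₂ * B.D₂ * B.D₅

lemma D₆_pos : 0 < B.D₆ := Nat.mul_pos (Nat.mul_pos B.M₂_pos B.hD₂) B.D₅_pos

lemma ind_iff_of_eq {ω : Set (Fin d → ℤ)} {x y : Fin d → ℤ} (h : (indB ω).1 x = (indB ω).1 y) :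
    x ∈ ω ↔ y ∈ ω := by
  classical
  rw [indB_apply, indB_apply, ind, ind] at h
  by_cases hx : x ∈ ω <;> by_cases hy : y ∈ ω <;> simp_all

lemma add_apply_val (a b : Bd (Fin d → ℤ)) (x : Fin d → ℤ) : (a + b).1 x = a.1 x + b.1 x := rfl

/-- Invariance along the kernel lattice on full cosets. -/
lemma full_inv
    (hH : ∀ ψ₁ ψ₂ : (Fin d → ℤ) →+ ℤ, Indep ψ₁ ψ₂ →
      ∃ f ∈ F, ∀ g ∈ F, ψ₁ g = ψ₁ f → ψ₂ g = ψ₂ f → g = f)
    {ω : Set (Fin d → ℤ)} (hω : InOm F ω) (hmax : ∀ ω', InOm F ω' → B.Pot ω' ≤ B.Pot ω)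
    {ψ : (Fin d → ℤ) →+ ℤ} (hψ : ψ ∈ B.Ψ) {x : Fin d → ℤ} (hf : B.Full ω ψ x)
    {l : Fin d → ℤ} (hl : l ∈ AddSubgroup.closure {v | v ∈ lv B.D₆ ψ}) : x + l ∈ ω ↔ x ∈ ω := by
  have hls := closure_lv_le_scaleS _ _ hl
  obtain ⟨P, hP, hdec⟩ := B.decomp_N hω B.M_dvd_M₂
  refine ind_iff_of_eq ?_
  rw [hdec, add_apply_val, add_apply_val, list_sum_apply, list_sum_apply, List.map_map, List.map_map]
  congr 1
  · refine congrArg _ (List.map_congr_left fun φ hφ => ?_)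
    simp only [Function.comp_apply]
    by_cases hne : ψ = φ
    · subst hne
      have h1 : l ∈ AddSubgroup.closure {v | v ∈ lv B.M₂ ψ} :=
        lv_closure_mono (Dvd.intro _ (by rw [D₆, mul_assoc])) ψ hl
      have h2 := congrArg (fun k : Bd (Fin d → ℤ) => k.1 x) (EL_inv_closure _ h1 (indB ω))
      simpa only [Tr_apply, rhoN] using h2
    · refine B.full_rho_inv hH hω hmax hψ hφ hne hf ?_ (scaleS_mono (Dvd.intro_left _ rfl) hls)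
      rw [sub_self]
      exact AddSubgroup.zero_mem _
  · have h1 := hP l (scaleS_mono (Dvd.intro _ rfl) hls)
    have h2 := congrArg (fun k : Bd (Fin d → ℤ) => k.1 x) h1
    simpa only [Tr_apply] using h2

/-- The shape of the elements of `Lam`. -/
lemma Lam_decomp {ψ : (Fin d → ℤ) →+ ℤ} {ℓ : Fin d → ℤ} (hℓ : ℓ ∈ B.Lam ψ) :
    ∃ ℓ₀ ∈ AddSubgroup.closure {v | v ∈ lv B.M ψ}, ∃ c : ℤ, ℓ = ℓ₀ + c • B.τ ψ := by
  rw [Lam, AddSubgroup.closure_union, AddSubgroup.mem_sup] at hℓ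
  obtain ⟨ℓ₀, h0, t, ht, rfl⟩ := hℓ
  obtain ⟨c, rfl⟩ := AddSubgroup.mem_closure_singleton.mp ht
  exact ⟨ℓ₀, h0, c, rfl⟩

lemma rho_add_lv {ω : Set (Fin d → ℤ)} {ψ : (Fin d → ℤ) →+ ℤ} {ℓ₀ : Fin d → ℤ}
    (h0 : ℓ₀ ∈ AddSubgroup.closure {v | v ∈ lv B.M ψ}) (x : Fin d → ℤ) :
    (rhoN B.M ψ ω).1 (x + ℓ₀) = (rhoN B.M ψ ω).1 x := by
  have h2 := congrArg (fun k : Bd (Fin d → ℤ) => k.1 x) (EL_inv_closure _ h0 (indB ω))
  simpa only [Tr_apply, rhoN] using h2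

/-- Fullness only depends on the class. -/
lemma full_congr {ω : Set (Fin d → ℤ)} {ψ : (Fin d → ℤ) →+ ℤ} (hψ : ψ ∈ B.Ψ) {x x' : Fin d → ℤ}
    (hxx : cl B.NS x' = cl B.NS x) (hf : B.Full ω ψ x) : B.Full ω ψ x' := by
  intro ε hε
  obtain ⟨s, hs⟩ := hf ε hε
  obtain ⟨ℓ₀, h0, c, hc⟩ := B.Lam_decomp (B.NS_le_Lam hψ (cl_eq_iff.mp hxx))
  refine ⟨s - c, ?_⟩
  have h1 : x + s • B.τ ψ = x' + (s - c) • B.τ ψ + -ℓ₀ := by
    have : x' = x + (ℓ₀ + c • B.τ ψ) := by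
      rw [← hc]
      abel
    rw [this]
    module
  rw [h1, B.rho_add_lv (AddSubgroup.neg_mem _ h0)] at hs
  exact hs

/-- Without fullness, the kernel average is periodic along the coset. -/
lemma rho_periodic_of_not_full {ω : Set (Fin d → ℤ)} (hω : InOm F ω) {ψ : (Fin d → ℤ) →+ ℤ}
    (hψ : ψ ∈ B.Ψ) {x : Fin d → ℤ} (hf : ¬ B.Full ω ψ x) :
    ∃ D : ℕ, 0 < D ∧ ∀ x', x' - x ∈ B.Lam ψ → ∀ l ∈ scaleS D,
      (rhoN B.M ψ ω).1 (x' + l) = (rhoN B.M ψ ω).1 x' := by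
  obtain ⟨D, hD, hper⟩ := B.periodic_of_not_full hω hψ hf
  have hτ := B.τ_pos (B.hne ψ hψ)
  have hv : ψ (D • B.τ ψ) ≠ 0 := by
    rw [map_nsmul, nsmul_eq_mul]
    exact mul_ne_zero (by exact_mod_cast hD.ne') hτ.ne'
  refine ⟨B.M * B.A * (ψ (D • B.τ ψ)).natAbs,
    Nat.mul_pos (Nat.mul_pos B.hM B.hA) (Int.natAbs_pos.mpr hv), fun x' hx' l hl => ?_⟩
  obtain ⟨z, rfl⟩ := hl
  obtain ⟨ℓ, hℓ, c, he⟩ := B.exists_decomp_transversal hψ (D • B.τ ψ) z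
  rw [he]
  obtain ⟨ℓ₀, h0, c₀, hc₀⟩ := B.Lam_decomp hx'
  have hx'eq : x' = x + c₀ • B.τ ψ + ℓ₀ := by
    have h1 : x' = x + (x' - x) := by abel
    rw [h1, hc₀]
    abel
  have h2 : ∀ m : ℤ, (rhoN B.M ψ ω).1 (x + (c₀ + m * D) • B.τ ψ)
      = (rhoN B.M ψ ω).1 (x + c₀ • B.τ ψ) := by
    intro m
    induction m using Int.induction_on with
    | zero => simp
    | succ i ih =>
      have := hper (c₀ + (i : ℤ) * D)
      have e : c₀ + (i : ℤ) * D + D = c₀ + ((i : ℤ) + 1) * D := by ring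
      rw [e] at this
      rw [this, ih]
    | pred i ih =>
      have := hper (c₀ + (-(i : ℤ) - 1) * D)
      have e : c₀ + (-(i : ℤ) - 1) * D + D = c₀ + (-(i : ℤ)) * D := by ring
      rw [e] at this
      rw [← this, ih]
  have h3 : x' + (ℓ + c • (D • B.τ ψ)) = x + (c₀ + c * D) • B.τ ψ + (ℓ₀ + ℓ) := by
    rw [hx'eq]
    module
  rw [h3, B.rho_add_lv (AddSubgroup.add_mem _ h0 hℓ), h2, hx'eq, B.rho_add_lv h0]

/-- Without fullness of any direction, the tiling is periodic on the class. -/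
lemma periodic_of_no_full {ω : Set (Fin d → ℤ)} (hω : InOm F ω) {x : Fin d → ℤ}
    (hf : ∀ ψ ∈ B.Ψ, ¬ B.Full ω ψ x) :
    ∃ D : ℕ, 0 < D ∧ ∀ x', cl B.NS x' = cl B.NS x → ∀ l ∈ scaleS D, x' + l ∈ ω ↔ x' ∈ ω := by
  obtain ⟨D₀, hD₀, hcom⟩ := exists_common B.Ψ (fun ψ D => ∀ x', x' - x ∈ B.Lam ψ → ∀ l ∈ scaleS D,
      (rhoN B.M ψ ω).1 (x' + l) = (rhoN B.M ψ ω).1 x')
    (fun ψ n m hnm h x' hx' l hl => h x' hx' l (scaleS_mono hnm hl))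
    (fun ψ hψ => B.rho_periodic_of_not_full hω hψ (hf ψ hψ))
  refine ⟨B.M * B.D₂ * D₀, Nat.mul_pos (Nat.mul_pos B.hM B.hD₂) hD₀, fun x' hx' l hl => ?_⟩
  obtain ⟨P, hP, hdec⟩ := B.decomp_N hω (dvd_refl B.M)
  refine ind_iff_of_eq ?_
  rw [hdec, add_apply_val, add_apply_val, list_sum_apply, list_sum_apply, List.map_map, List.map_map]
  congr 1
  · refine congrArg _ (List.map_congr_left fun φ hφ => ?_)
    simp only [Function.comp_apply]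
    exact hcom φ hφ x' (B.NS_le_Lam hφ (cl_eq_iff.mp hx')) l (scaleS_mono (Dvd.intro_left _ rfl) hl)
  · have h1 := hP l (scaleS_mono (Dvd.intro _ rfl) hl)
    have h2 := congrArg (fun k : Bd (Fin d → ℤ) => k.1 x') h1
    simpa only [Tr_apply] using h2

lemma cl_surj (a : Fin d → ZMod B.NS) : ∃ x : Fin d → ℤ, cl B.NS x = a := by
  refine ⟨fun i => ((a i).val : ℤ), ?_⟩
  funext i
  simp [cl]

/-- The final structure theorem. -/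
theorem structure_thm
    (hH : ∀ ψ₁ ψ₂ : (Fin d → ℤ) →+ ℤ, Indep ψ₁ ψ₂ →
      ∃ f ∈ F, ∀ g ∈ F, ψ₁ g = ψ₁ f → ψ₂ g = ψ₂ f → g = f)
    {ω₀ : Set (Fin d → ℤ)} (hω₀ : InOm F ω₀) :
    ∃ (ω : Set (Fin d → ℤ)) (N : ℕ) (j : (Fin d → ℤ) → ((Fin d → ℤ) →+ ℤ)), InOm F ω ∧ 0 < N ∧
      (∀ x, j x ∈ B.Ψ) ∧ (∀ x, ∀ l ∈ scaleS N, j (x + l) = j x) ∧
      ∀ x, ∀ l ∈ AddSubgroup.closure {v | v ∈ lv N (j x)}, x + l ∈ ω ↔ x ∈ ω := by
  classical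
  obtain ⟨ω, hω, hmax⟩ := B.exists_max hω₀
  choose rep hrep using B.cl_surj
  obtain ⟨ψ₀, hψ₀⟩ := List.exists_mem_of_ne_nil _ B.hΨ
  let j₀ : (Fin d → ZMod B.NS) → ((Fin d → ℤ) →+ ℤ) := fun a =>
    if h : ∃ ψ ∈ B.Ψ, B.Full ω ψ (rep a) then h.choose else ψ₀
  have hj₀mem : ∀ a, j₀ a ∈ B.Ψ := by
    intro a
    simp only [j₀]
    split_ifs with h
    · exact h.choose_spec.1
    · exact hψ₀
  have hj₀full : ∀ a, (∃ ψ ∈ B.Ψ, B.Full ω ψ (rep a)) → B.Full ω (j₀ a) (rep a) := by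
    intro a h
    simp only [j₀]
    rw [dif_pos h]
    exact h.choose_spec.2
  obtain ⟨D₀, hD₀, hcom⟩ := exists_common (Finset.univ : Finset (Fin d → ZMod B.NS)).toList
    (fun a D => (∀ ψ ∈ B.Ψ, ¬ B.Full ω ψ (rep a)) → ∀ x', cl B.NS x' = a → ∀ l ∈ scaleS D, x' + l ∈ ω ↔ x' ∈ ω)
    (fun a n m hnm h hf x' hx' l hl => h hf x' hx' l (scaleS_mono hnm hl))
    (fun a _ => by
      by_cases hf : ∀ ψ ∈ B.Ψ, ¬ B.Full ω ψ (rep a)
      · obtain ⟨D, hD, hh⟩ := B.periodic_of_no_full hω hf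
        refine ⟨D, hD, fun _ x' hx' l hl => hh x' ?_ l hl⟩
        rw [hx', hrep]
      · exact ⟨1, one_pos, fun hh => absurd hh hf⟩)
  refine ⟨ω, B.NS * B.D₆ * D₀, fun x => j₀ (cl B.NS x), hω,
    Nat.mul_pos (Nat.mul_pos B.NS_pos B.D₆_pos) hD₀, fun x => hj₀mem _, ?_, ?_⟩
  · intro x l hl
    have h1 : l ∈ scaleS B.NS := scaleS_mono (Dvd.dvd.mul_right (Dvd.intro _ rfl) _) hl
    have h2 : cl B.NS (x + l) = cl B.NS x := cl_eq_iff.mpr (by rwa [add_sub_cancel_left])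
    simp only [h2]
  · intro x l hl
    by_cases hf : ∃ ψ ∈ B.Ψ, B.Full ω ψ (rep (cl B.NS x))
    · have h1 := hj₀full _ hf
      have h2 : B.Full ω (j₀ (cl B.NS x)) x := B.full_congr (hj₀mem _) (hrep _).symm h1
      refine B.full_inv hH hω hmax (hj₀mem _) h2 ?_
      exact lv_closure_mono (Dvd.dvd.mul_right (Dvd.intro_left _ rfl) _) _ hl
    · push Not at hf
      have hls := closure_lv_le_scaleS _ _ hl
      exact hcom _ (Finset.mem_toList.mpr (Finset.mem_univ _)) hf x rfl l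
        (scaleS_mono (Dvd.intro_left _ rfl) hls)

end Base

end Vale.Agent.P043
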