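import Mathlib

open MvPolynomial

namespace Vale.Agent.P043

variable {d : ℕ}

/-- The integer vector of an exponent vector. -/
def toG (m : Fin d →₀ ℕ) : Fin d → ℤ := fun i => (m i : ℤ)

lemma toG_add (m n : Fin d →₀ ℕ) : toG (m + n) = toG m + toG n := by
  ext i; simp [toG]

lemma toG_smul (r : ℕ) (m : Fin d →₀ ℕ) : toG (r • m) = r • toG m := by
  ext i; simp [toG]

section act

variable {R : Type*} [CommRing R]

/-- Evaluation of a polynomial as a shift operator, at a point. -/
noncomputable def lin (u : (Fin d → ℤ) → R) (x : Fin d → ℤ) : MvPolynomial (Fin d) R →ₗ[R] R :=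
  (MvPolynomial.basisMonomials (Fin d) R).constr R (fun m => u (x - toG m))

/-- A polynomial acts on functions on the lattice: the monomial `X^m` shifts by `m`. -/
noncomputable def act (g : MvPolynomial (Fin d) R) (u : (Fin d → ℤ) → R) : (Fin d → ℤ) → R :=
  fun x => lin u x g

lemma act_monomial (m : Fin d →₀ ℕ) (c : R) (u : (Fin d → ℤ) → R) (x : Fin d → ℤ) :
    act (monomial m c) u x = c * u (x - toG m) := by
  have h : (monomial m c : MvPolynomial (Fin d) R) = c • (MvPolynomial.basisMonomials (Fin d) R) m := by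
    simp [MvPolynomial.coe_basisMonomials, MvPolynomial.smul_monomial]
  simp only [act, lin]
  rw [h, map_smul, Module.Basis.constr_basis, smul_eq_mul]

lemma act_add (g h : MvPolynomial (Fin d) R) (u : (Fin d → ℤ) → R) :
    act (g + h) u = act g u + act h u := by
  ext x; simp [act]

lemma act_sub (g h : MvPolynomial (Fin d) R) (u : (Fin d → ℤ) → R) :
    act (g - h) u = act g u - act h u := by
  ext x; simp [act]

lemma act_sum {ι : Type*} (s : Finset ι) (g : ι → MvPolynomial (Fin d) R) (u : (Fin d → ℤ) → R) :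
    act (∑ i ∈ s, g i) u = ∑ i ∈ s, act (g i) u := by
  ext x; simp [act]

lemma act_add_right (g : MvPolynomial (Fin d) R) (u v : (Fin d → ℤ) → R) :
    act g (u + v) = act g u + act g v := by
  induction g using MvPolynomial.induction_on' with
  | monomial m c => ext x; simp [act_monomial, mul_add]
  | add p q hp hq => rw [act_add, act_add, act_add, hp, hq]; abel

lemma act_mul (g h : MvPolynomial (Fin d) R) (u : (Fin d → ℤ) → R) :
    act (g * h) u = act g (act h u) := by
  induction g using MvPolynomial.induction_on' with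
  | monomial m c =>
    induction h using MvPolynomial.induction_on' with
    | monomial n e =>
      ext x
      rw [MvPolynomial.monomial_mul, act_monomial, act_monomial, act_monomial, toG_add, mul_assoc]
      congr 2
      abel_nf
    | add p q hp hq =>
      rw [mul_add, act_add, hp, hq, act_add, act_add_right]
  | add p q hp hq =>
    rw [add_mul, act_add, hp, hq, act_add]

lemma act_one (u : (Fin d → ℤ) → R) : act (1 : MvPolynomial (Fin d) R) u = u := by
  ext x
  have h1 : (1 : MvPolynomial (Fin d) R) = monomial 0 1 := rfl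
  have h0 : toG (0 : Fin d →₀ ℕ) = 0 := by ext i; simp [toG]
  rw [h1, act_monomial, h0, sub_zero, one_mul]

/-- The dilated polynomial of a finite set of exponent vectors. -/
noncomputable def dil (R : Type*) [CommRing R] (F : Finset (Fin d →₀ ℕ)) (r : ℕ) :
    MvPolynomial (Fin d) R :=
  ∑ f ∈ F, monomial (r • f) 1

lemma act_dil (F : Finset (Fin d →₀ ℕ)) (r : ℕ) (u : (Fin d → ℤ) → R) (x : Fin d → ℤ) :
    act (dil R F r) u x = ∑ f ∈ F, u (x - r • toG f) := by
  rw [dil, act_sum, Finset.sum_apply]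
  refine Finset.sum_congr rfl fun f _ => ?_
  rw [act_monomial, one_mul, toG_smul]

lemma dil_pow_char (p : ℕ) [Fact p.Prime] [CharP R p] (F : Finset (Fin d →₀ ℕ)) (r : ℕ) :
    (dil R F r) ^ p = dil R F (p * r) := by
  rw [dil, dil, sum_pow_char]
  refine Finset.sum_congr rfl fun f _ => ?_
  rw [MvPolynomial.monomial_pow, one_pow, mul_smul]

lemma act_zero_right (g : MvPolynomial (Fin d) R) : act g (0 : (Fin d → ℤ) → R) = 0 := by
  induction g using MvPolynomial.induction_on' with
  | monomial m c => ext x; simp [act_monomial]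
  | add p q hp hq => rw [act_add, hp, hq, add_zero]

lemma act_dil_const (F : Finset (Fin d →₀ ℕ)) (r : ℕ) (c : R) :
    act (dil R F r) (fun _ => c) = fun _ => (F.card : R) * c := by
  ext x
  rw [act_dil]
  simp

open Classical in
/-- The indicator of a set, with values in a ring. -/
noncomputable def ind (R : Type*) [CommRing R] (A : Set (Fin d → ℤ)) : (Fin d → ℤ) → R :=
  fun x => if x ∈ A then 1 else 0

open Classical in
/-- Every point is hit exactly once by the translates of the `r`-dilate of `F` along `A`. -/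
def TileR (A : Set (Fin d → ℤ)) (F : Finset (Fin d →₀ ℕ)) (r : ℕ) : Prop :=
  ∀ x : Fin d → ℤ, (F.filter (fun f => x - r • toG f ∈ A)).card = 1

open Classical in
lemma sum_ind (A : Set (Fin d → ℤ)) (F : Finset (Fin d →₀ ℕ)) (r : ℕ) (x : Fin d → ℤ) :
    ∑ f ∈ F, ind R A (x - r • toG f) = ((F.filter (fun f => x - r • toG f ∈ A)).card : R) := by
  simp only [ind]
  rw [Finset.sum_boole]

lemma act_dil_ind {A : Set (Fin d → ℤ)} {F : Finset (Fin d →₀ ℕ)} {r : ℕ} (h : TileR A F r) :
    act (dil R F r) (ind R A) = fun _ => 1 := by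
  ext x
  rw [act_dil, sum_ind, h x]
  simp

lemma act_dil_pow_ind {A : Set (Fin d → ℤ)} {F : Finset (Fin d →₀ ℕ)} {r : ℕ} (h : TileR A F r)
    (k : ℕ) : act ((dil R F r) ^ (k + 1)) (ind R A) = fun _ => (F.card : R) ^ k := by
  induction k with
  | zero => rw [zero_add, pow_one, act_dil_ind h]; simp
  | succ k ih =>
    rw [pow_succ', act_mul, ih, act_dil_const]
    ext x
    rw [pow_succ']

end act

lemma TileR.card_pos {A : Set (Fin d → ℤ)} {F : Finset (Fin d →₀ ℕ)} {r : ℕ} (h : TileR A F r) :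
    0 < F.card := by
  classical
  have := h 0
  by_contra hc
  have h0 : F = ∅ := by
    rw [Finset.card_pos, Finset.not_nonempty_iff_eq_empty] at hc
    exact hc
  subst h0
  simp at this

/-- Tijdeman dilation for large primes. -/
lemma TileR.dilate {A : Set (Fin d → ℤ)} {F : Finset (Fin d →₀ ℕ)} {r l : ℕ} (h : TileR A F r)
    (hl : l.Prime) (hn : F.card < l) : TileR A F (l * r) := by
  classical
  have : Fact l.Prime := ⟨hl⟩
  intro x
  have hkey : act ((dil (ZMod l) F r) ^ ((l - 1) + 1)) (ind (ZMod l) A) x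
      = (F.card : ZMod l) ^ (l - 1) := by
    rw [act_dil_pow_ind h]
  have hl1 : l - 1 + 1 = l := Nat.sub_add_cancel hl.one_le
  rw [hl1, dil_pow_char, act_dil, sum_ind] at hkey
  have hne : (F.card : ZMod l) ≠ 0 := by
    intro h0
    rw [ZMod.natCast_eq_zero_iff] at h0
    exact absurd (Nat.le_of_dvd h.card_pos h0) (not_le.mpr hn)
  rw [ZMod.pow_card_sub_one_eq_one hne] at hkey
  have hle : (F.filter (fun f => x - (l * r) • toG f ∈ A)).card < l :=
    lt_of_le_of_lt (Finset.card_filter_le _ _) hn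
  have h1 : ((F.filter (fun f => x - (l * r) • toG f ∈ A)).card : ZMod l) = ((1 : ℕ) : ZMod l) := by
    simpa using hkey
  rw [ZMod.natCast_eq_natCast_iff'] at h1
  rw [Nat.mod_eq_of_lt hle, Nat.mod_eq_of_lt hl.one_lt] at h1
  exact h1

lemma TileR.of_primes {A : Set (Fin d → ℤ)} {F : Finset (Fin d →₀ ℕ)} (h : TileR A F 1) :
    ∀ r : ℕ, 0 < r → (∀ q : ℕ, q.Prime → q ∣ r → F.card < q) → TileR A F r := by
  intro r
  induction r using Nat.strong_induction_on with
  | _ r ih =>
    intro hr hq
    by_cases h1 : r = 1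
    · subst h1; exact h
    · have hp := Nat.minFac_prime h1
      obtain ⟨s, hs⟩ := Nat.minFac_dvd r
      have hs0 : 0 < s := by
        rcases Nat.eq_zero_or_pos s with h0 | h0
        · subst h0; omega
        · exact h0
      have hsr : s < r := by
        have := hp.two_le
        nlinarith
      have hs' := ih s hsr hs0 (fun q hq' hd => hq q hq' (hs ▸ Dvd.dvd.mul_left hd _))
      have := hs'.dilate hp (hq _ hp (Nat.minFac_dvd r))
      rwa [← hs] at this

section modp

variable {k : Type*} [Field k]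

/-- The relation modulo a prime dividing the size of the tile. -/
lemma TileR.sum_eq_zero {A : Set (Fin d → ℤ)} {F : Finset (Fin d →₀ ℕ)} {r : ℕ} (h : TileR A F r)
    (p : ℕ) [hp : Fact p.Prime] [CharP k p] (hpn : p ∣ F.card) (x : Fin d → ℤ) :
    ∑ f ∈ F, ind k A (x - (p * r) • toG f) = 0 := by
  have hkey : act ((dil k F r) ^ ((p - 1) + 1)) (ind k A) x = (F.card : k) ^ (p - 1) := by
    rw [act_dil_pow_ind h]
  have hp1 : p - 1 + 1 = p := Nat.sub_add_cancel hp.out.one_le
  rw [hp1, dil_pow_char, act_dil] at hkey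
  rw [hkey, (CharP.cast_eq_zero_iff k p _).mpr hpn, zero_pow]
  have := hp.out.two_le
  omega

/-- Functions annihilated by the generators are annihilated by the ideal. -/
lemma act_eq_zero_of_mem_span {S : Set (MvPolynomial (Fin d) k)} {b : (Fin d → ℤ) → k}
    (hS : ∀ g ∈ S, act g b = 0) {g : MvPolynomial (Fin d) k} (hg : g ∈ Ideal.span S) :
    act g b = 0 := by
  induction hg using Submodule.span_induction with
  | mem x hx => exact hS x hx
  | zero =>
    ext x
    simp [act]
  | add x y _ _ hx hy => rw [act_add, hx, hy, add_zero]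
  | smul a x _ hx => rw [smul_eq_mul, act_mul, hx, act_zero_right]

/-- Separation of values: a vanishing weighted power sum forces a repeated value. -/
lemma exists_repeat {ι : Type*} [DecidableEq ι] (F : Finset ι) (u w : ι → k)
    (h : ∀ s : ℕ, ∑ f ∈ F, u f * w f ^ s = 0) {f₀ : ι} (hf₀ : f₀ ∈ F) (hu : u f₀ ≠ 0) :
    ∃ g ∈ F, g ≠ f₀ ∧ w g = w f₀ := by
  classical
  by_contra hcon
  push Not at hcon
  have hQ : ∀ Q : Polynomial k, ∑ f ∈ F, u f * Q.eval (w f) = 0 := by
    intro Q
    induction Q using Polynomial.induction_on' with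
    | add p q hp hq =>
      simp only [Polynomial.eval_add, mul_add, Finset.sum_add_distrib, hp, hq, add_zero]
    | monomial n a =>
      have := h n
      simp only [Polynomial.eval_monomial]
      calc ∑ f ∈ F, u f * (a * w f ^ n) = a * ∑ f ∈ F, u f * w f ^ n := by
            rw [Finset.mul_sum]
            refine Finset.sum_congr rfl fun f _ => ?_
            ring
        _ = 0 := by rw [this, mul_zero]
  let Q : Polynomial k := ∏ g ∈ F.erase f₀, (Polynomial.X - Polynomial.C (w g))
  have hval : ∀ g ∈ F, g ≠ f₀ → Q.eval (w g) = 0 := by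
    intro g hg hne
    simp only [Q, Polynomial.eval_prod]
    refine Finset.prod_eq_zero (Finset.mem_erase.mpr ⟨hne, hg⟩) ?_
    simp
  have hval0 : Q.eval (w f₀) ≠ 0 := by
    simp only [Q, Polynomial.eval_prod]
    refine Finset.prod_ne_zero_iff.mpr fun g hg => ?_
    have hg' := Finset.mem_erase.mp hg
    simp only [Polynomial.eval_sub, Polynomial.eval_X, Polynomial.eval_C]
    exact sub_ne_zero.mpr (Ne.symm (hcon g hg'.2 hg'.1))
  have := hQ Q
  rw [Finset.sum_eq_single_of_mem f₀ hf₀ (fun g hg hne => by rw [hval g hg hne, mul_zero])] at this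
  exact (mul_ne_zero hu hval0) this

end modp

section rank

/-- A subgroup of the lattice killed by no nonzero integer functional has full rank. -/
lemma exists_mul_single_mem (L : AddSubgroup (Fin d → ℤ))
    (hL : ∀ ψ : (Fin d → ℤ) →+ ℤ, (∀ y ∈ L, ψ y = 0) → ψ = 0) (i : Fin d) :
    ∃ D : ℕ, 0 < D ∧ D • (Pi.single i 1 : Fin d → ℤ) ∈ L := by
  classical
  let cast : (Fin d → ℤ) → (Fin d → ℚ) := fun y j => (y j : ℚ)
  let V : Submodule ℚ (Fin d → ℚ) := Submodule.span ℚ (cast '' (L : Set (Fin d → ℤ)))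
  have hV : V = ⊤ := by
    by_contra hne
    obtain ⟨lam, hlam, hle⟩ := Submodule.exists_le_ker_of_lt_top V (lt_top_iff_ne_top.mpr hne)
    -- clear denominators
    let c : Fin d → ℚ := fun j => lam (Pi.single j 1)
    let D' : ℕ := ∏ j, (c j).den
    have hD' : ∀ j, ∃ z : ℤ, (z : ℚ) = D' * c j := by
      intro j
      have hdvd : (c j).den ∣ D' := Finset.dvd_prod_of_mem _ (Finset.mem_univ j)
      obtain ⟨e, he⟩ := hdvd
      refine ⟨e * (c j).num, ?_⟩
      rw [he]
      have hden : ((c j).den : ℚ) ≠ 0 := by exact_mod_cast (c j).den_ne_zero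
      push_cast
      have := Rat.num_div_den (c j)
      field_simp at this ⊢
      nlinarith [this]
    choose z hz using hD'
    let ψ : (Fin d → ℤ) →+ ℤ :=
      { toFun := fun y => ∑ j, z j * y j
        map_zero' := by simp
        map_add' := fun a b => by
          simp only [Pi.add_apply, mul_add, Finset.sum_add_distrib] }
    have hlamcast : ∀ y : Fin d → ℤ, lam (cast y) = ∑ j, c j * (y j : ℚ) := by
      intro y
      have : cast y = ∑ j, (y j : ℚ) • (Pi.single j 1 : Fin d → ℚ) := by
        ext j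
        simp [cast, Finset.sum_apply, Pi.single_apply]
      rw [this, map_sum]
      refine Finset.sum_congr rfl fun j _ => ?_
      rw [map_smul, smul_eq_mul, mul_comm]
    have hψcast : ∀ y : Fin d → ℤ, ((ψ y : ℤ) : ℚ) = D' * lam (cast y) := by
      intro y
      rw [hlamcast, Finset.mul_sum]
      simp only [ψ]
      change (((∑ j, z j * y j : ℤ)) : ℚ) = _
      push_cast
      refine Finset.sum_congr rfl fun j _ => ?_
      rw [hz j]
      ring
    have hD'pos : (D' : ℚ) ≠ 0 := by
      have : D' ≠ 0 := Finset.prod_ne_zero_iff.mpr fun j _ => (c j).den_ne_zero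
      exact_mod_cast this
    have hψ0 : ψ = 0 := by
      apply hL
      intro y hy
      have h1 : cast y ∈ V := Submodule.subset_span ⟨y, hy, rfl⟩
      have h2 : lam (cast y) = 0 := hle h1
      have := hψcast y
      rw [h2, mul_zero] at this
      exact_mod_cast this
    apply hlam
    apply LinearMap.ext
    intro v
    have hc0 : ∀ j, c j = 0 := by
      intro j
      have h1 := hψcast (Pi.single j 1)
      have h2 : ψ (Pi.single j 1) = 0 := by rw [hψ0]; rfl
      rw [h2] at h1
      have h3 : cast (Pi.single j 1) = Pi.single j 1 := by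
        ext m
        by_cases hm : m = j
        · subst hm; simp [cast]
        · simp [cast, Pi.single_apply, hm]
      rw [h3] at h1
      have h4 : (D' : ℚ) * c j = 0 := by
        simpa using h1.symm
      exact (mul_eq_zero.mp h4).resolve_left hD'pos
    have hv : v = ∑ j, v j • (Pi.single j 1 : Fin d → ℚ) := by
      ext j
      simp [Finset.sum_apply, Pi.single_apply]
    rw [hv, map_sum]
    simp only [map_smul, LinearMap.zero_apply]
    refine Finset.sum_eq_zero fun j _ => ?_
    have := hc0 j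
    simp only [c] at this
    rw [this, smul_zero]
  -- every vector of the span has a multiple in the image of L
  have hmem : ∀ v ∈ V, ∃ D : ℕ, 0 < D ∧ ∃ y ∈ L, (D : ℚ) • v = cast y := by
    intro v hv
    induction hv using Submodule.span_induction with
    | mem x hx =>
      obtain ⟨y, hy, rfl⟩ := hx
      exact ⟨1, one_pos, y, hy, by simp⟩
    | zero =>
      refine ⟨1, one_pos, 0, L.zero_mem, ?_⟩
      ext j
      simp [cast]
    | add x y _ _ hx hy =>
      obtain ⟨D1, hD1, y1, hy1, h1⟩ := hx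
      obtain ⟨D2, hD2, y2, hy2, h2⟩ := hy
      refine ⟨D1 * D2, Nat.mul_pos hD1 hD2, D2 • y1 + D1 • y2,
        L.add_mem (L.nsmul_mem hy1 _) (L.nsmul_mem hy2 _), ?_⟩
      ext j
      have h1j := congrFun h1 j
      have h2j := congrFun h2 j
      simp only [cast, Pi.smul_apply, smul_eq_mul, Pi.add_apply] at h1j h2j ⊢
      simp only [nsmul_eq_mul]
      push_cast
      rw [← h1j, ← h2j]
      ring
    | smul a x _ hx =>
      obtain ⟨D1, hD1, y1, hy1, h1⟩ := hx
      refine ⟨D1 * a.den, Nat.mul_pos hD1 a.den_pos, a.num • y1, L.zsmul_mem hy1 _, ?_⟩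
      ext j
      have h1j := congrFun h1 j
      simp only [cast, Pi.smul_apply, smul_eq_mul] at h1j ⊢
      push_cast
      rw [← h1j]
      have hden : (a.den : ℚ) ≠ 0 := by exact_mod_cast a.den_ne_zero
      have := Rat.num_div_den a
      calc (D1 : ℚ) * a.den * (a * x j) = (a * a.den) * (D1 * x j) := by ring
        _ = a.num * (D1 * x j) := by
          congr 1
          field_simp at this
          linarith [this]
  have hi : (Pi.single i 1 : Fin d → ℚ) ∈ V := by rw [hV]; exact Submodule.mem_top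
  obtain ⟨D, hD, y, hy, hyeq⟩ := hmem _ hi
  refine ⟨D, hD, ?_⟩
  have : D • (Pi.single i 1 : Fin d → ℤ) = y := by
    ext j
    have := congrFun hyeq j
    simp only [cast, Pi.smul_apply, smul_eq_mul, Pi.single_apply] at this
    simp only [Pi.smul_apply, Pi.single_apply, smul_eq_mul]
    split_ifs at this ⊢ with hj
    · simp only [mul_one, nsmul_eq_mul] at this ⊢
      exact_mod_cast this
    · simp only [mul_zero] at this ⊢
      exact_mod_cast this
  rw [this]
  exact hy

end rank

section main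

/-- The integer difference vectors of a relation on exponent vectors. -/
def diffs (S : Finset ((Fin d →₀ ℕ) × (Fin d →₀ ℕ))) : Set (Fin d → ℤ) :=
  (fun q => toG q.1 - toG q.2) '' (S : Set ((Fin d →₀ ℕ) × (Fin d →₀ ℕ)))

/-- Uniform full rank over all relations in which every point has a partner. -/
lemma exists_uniform (F : Finset (Fin d →₀ ℕ))
    (hfib : ∀ ψ : (Fin d → ℤ) →+ ℤ, ψ ≠ 0 → ∃ f ∈ F, ∀ g ∈ F, ψ (toG g) = ψ (toG f) → g = f) :
    ∃ D : ℕ, 0 < D ∧ ∀ S ∈ (F ×ˢ F).powerset, (∀ f ∈ F, ∃ g ∈ F, g ≠ f ∧ (f, g) ∈ S) →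
      ∀ i : Fin d, D • (Pi.single i 1 : Fin d → ℤ) ∈ AddSubgroup.closure (diffs S) := by
  classical
  have hS : ∀ S : Finset ((Fin d →₀ ℕ) × (Fin d →₀ ℕ)), ∃ D : ℕ, 0 < D ∧
      ((∀ f ∈ F, ∃ g ∈ F, g ≠ f ∧ (f, g) ∈ S) →
        ∀ i : Fin d, D • (Pi.single i 1 : Fin d → ℤ) ∈ AddSubgroup.closure (diffs S)) := by
    intro S
    by_cases hg : ∀ f ∈ F, ∃ g ∈ F, g ≠ f ∧ (f, g) ∈ S
    · have hL : ∀ ψ : (Fin d → ℤ) →+ ℤ, (∀ y ∈ AddSubgroup.closure (diffs S), ψ y = 0) → ψ = 0 := by
        intro ψ hψ
        by_contra hne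
        obtain ⟨f, hf, hu⟩ := hfib ψ hne
        obtain ⟨g, hgF, hgne, hfg⟩ := hg f hf
        have h1 : toG f - toG g ∈ AddSubgroup.closure (diffs S) :=
          AddSubgroup.subset_closure ⟨(f, g), hfg, rfl⟩
        have h2 := hψ _ h1
        rw [map_sub, sub_eq_zero] at h2
        exact hgne (hu g hgF h2.symm)
      have hi := fun i => exists_mul_single_mem _ hL i
      choose D hD hDm using hi
      refine ⟨∏ i, D i, Finset.prod_pos fun i _ => hD i, fun _ i => ?_⟩
      obtain ⟨e, he⟩ : D i ∣ ∏ j, D j := Finset.dvd_prod_of_mem _ (Finset.mem_univ i)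
      rw [he, mul_comm, mul_smul]
      exact AddSubgroup.nsmul_mem _ (hDm i) _
    · exact ⟨1, one_pos, fun h => absurd h hg⟩
  choose D hD hDm using hS
  refine ⟨∏ S ∈ (F ×ˢ F).powerset, D S, Finset.prod_pos fun S _ => hD S, fun S hSm hg i => ?_⟩
  obtain ⟨e, he⟩ : D S ∣ ∏ S ∈ (F ×ˢ F).powerset, D S := Finset.dvd_prod_of_mem _ hSm
  rw [he, mul_comm, mul_smul]
  exact AddSubgroup.nsmul_mem _ (hDm S hg i) _

variable {k : Type*} [Field k]

/-- The character of the lattice attached to a point of the torus. -/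
noncomputable def chi (ξ : Fin d → k) (x : Fin d → ℤ) : k := ∏ i, ξ i ^ x i

lemma chi_add {ξ : Fin d → k} (hξ : ∀ i, ξ i ≠ 0) (x y : Fin d → ℤ) :
    chi ξ (x + y) = chi ξ x * chi ξ y := by
  simp only [chi, Pi.add_apply, zpow_add₀ (hξ _), Finset.prod_mul_distrib]

lemma chi_zero (ξ : Fin d → k) : chi ξ (0 : Fin d → ℤ) = 1 := by
  simp [chi]

lemma chi_neg {ξ : Fin d → k} (hξ : ∀ i, ξ i ≠ 0) (x : Fin d → ℤ) :
    chi ξ (-x) = (chi ξ x)⁻¹ := by
  simp only [chi, Pi.neg_apply, zpow_neg, Finset.prod_inv_distrib]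

lemma chi_ne_zero {ξ : Fin d → k} (hξ : ∀ i, ξ i ≠ 0) (x : Fin d → ℤ) : chi ξ x ≠ 0 :=
  Finset.prod_ne_zero_iff.mpr fun i _ => zpow_ne_zero _ (hξ i)

lemma chi_toG (ξ : Fin d → k) (f : Fin d →₀ ℕ) :
    chi ξ (toG f) = aeval ξ (monomial f (1 : k)) := by
  rw [aeval_monomial, chi, map_one, one_mul, Finsupp.prod_fintype]
  · refine Finset.prod_congr rfl fun i _ => ?_
    simp [toG]
  · intro i
    simp

lemma chi_single (ξ : Fin d → k) (D : ℕ) (i : Fin d) :
    chi ξ (D • (Pi.single i 1 : Fin d → ℤ)) = ξ i ^ D := by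
  rw [chi, Finset.prod_eq_single i]
  · simp
  · intro j _ hj
    simp [Pi.single_apply, hj]
  · simp

/-- The torsion subgroup condition as a subgroup of the lattice. -/
noncomputable def chiKer (ξ : Fin d → k) (hξ : ∀ i, ξ i ≠ 0) (W : ℕ) :
    AddSubgroup (Fin d → ℤ) where
  carrier := {x | chi ξ x ^ W = 1}
  zero_mem' := by
    show chi ξ 0 ^ W = 1
    rw [chi_zero, one_pow]
  add_mem' := by
    intro a b ha hb
    show chi ξ (a + b) ^ W = 1
    rw [chi_add hξ, mul_pow, show chi ξ a ^ W = 1 from ha, show chi ξ b ^ W = 1 from hb, one_mul]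
  neg_mem' := by
    intro a ha
    show chi ξ (-a) ^ W = 1
    rw [chi_neg hξ, inv_pow, show chi ξ a ^ W = 1 from ha, inv_one]

/-- Zeros of all the dilated polynomials have uniformly bounded order. -/
lemma pow_eq_one_of_zero {F : Finset (Fin d →₀ ℕ)} {W D : ℕ}
    (hD : ∀ S ∈ (F ×ˢ F).powerset, (∀ f ∈ F, ∃ g ∈ F, g ≠ f ∧ (f, g) ∈ S) →
      ∀ i : Fin d, D • (Pi.single i 1 : Fin d → ℤ) ∈ AddSubgroup.closure (diffs S))
    {ξ : Fin d → k} (hξ : ∀ i, ξ i ≠ 0)
    (hz : ∀ s : ℕ, aeval ξ (dil k F (1 + W * s)) = 0) (i : Fin d) : ξ i ^ (D * W) = 1 := by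
  classical
  let u : (Fin d →₀ ℕ) → k := fun f => aeval ξ (monomial f (1 : k))
  have hu : ∀ f, u f ≠ 0 := by
    intro f
    show aeval ξ (monomial f (1 : k)) ≠ 0
    rw [← chi_toG]
    exact chi_ne_zero hξ _
  have hsum : ∀ s : ℕ, ∑ f ∈ F, u f * (u f ^ W) ^ s = 0 := by
    intro s
    have := hz s
    rw [dil, map_sum] at this
    rw [← this]
    refine Finset.sum_congr rfl fun f _ => ?_
    have h1 : (monomial ((1 + W * s) • f) (1 : k)) = (monomial f (1 : k)) ^ (1 + W * s) := by
      rw [MvPolynomial.monomial_pow, one_pow]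
    rw [h1, map_pow]
    show u f * (u f ^ W) ^ s = u f ^ (1 + W * s)
    rw [pow_add, pow_one, pow_mul]
  let S : Finset ((Fin d →₀ ℕ) × (Fin d →₀ ℕ)) :=
    (F ×ˢ F).filter (fun q => u q.1 ^ W = u q.2 ^ W)
  have hSm : S ∈ (F ×ˢ F).powerset := Finset.mem_powerset.mpr (Finset.filter_subset _ _)
  have hpartner : ∀ f ∈ F, ∃ g ∈ F, g ≠ f ∧ (f, g) ∈ S := by
    intro f hf
    obtain ⟨g, hg, hne, hw⟩ := exists_repeat F u (fun f => u f ^ W) hsum hf (hu f)
    refine ⟨g, hg, hne, ?_⟩
    simp only [S, Finset.mem_filter, Finset.mem_product]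
    exact ⟨⟨hf, hg⟩, hw.symm⟩
  have hle : AddSubgroup.closure (diffs S) ≤ chiKer ξ hξ W := by
    rw [AddSubgroup.closure_le]
    rintro _ ⟨q, hq, rfl⟩
    have hq' := (Finset.mem_filter.mp hq).2
    show chi ξ (toG q.1 - toG q.2) ^ W = 1
    rw [sub_eq_add_neg, chi_add hξ, chi_neg hξ, mul_pow, inv_pow, chi_toG, chi_toG]
    have h1 : (aeval ξ (monomial q.1 (1 : k))) ^ W = (aeval ξ (monomial q.2 (1 : k))) ^ W := hq'
    rw [h1]
    exact mul_inv_cancel₀ (pow_ne_zero _ (hu q.2))
  have hmem := hle (hD S hSm hpartner i)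
  have h2 : chi ξ (D • (Pi.single i 1 : Fin d → ℤ)) ^ W = 1 := hmem
  rw [chi_single] at h2
  rw [pow_mul]
  exact h2

/-- The monomial that is the product of all variables. -/
noncomputable def allOnes (d : ℕ) : Fin d →₀ ℕ := Finsupp.equivFunOnFinite.symm (fun _ => 1)

lemma aeval_allOnes_eq_zero {ξ : Fin d → k} {j : Fin d} (hj : ξ j = 0) :
    aeval ξ (monomial (allOnes d) (1 : k)) = 0 := by
  rw [aeval_monomial, map_one, one_mul, Finsupp.prod_fintype]
  · refine Finset.prod_eq_zero (Finset.mem_univ j) ?_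
    simp [allOnes, hj]
  · intro i
    simp

variable [IsAlgClosed k]

/-- Main algebraic step: the whole ideal kills a shift minus the identity. -/
lemma exists_period (p : ℕ) [hp : Fact p.Prime] [CharP k p] (F : Finset (Fin d →₀ ℕ)) {W D : ℕ}
    (hW : 0 < W) (hD0 : 0 < D)
    (hD : ∀ S ∈ (F ×ˢ F).powerset, (∀ f ∈ F, ∃ g ∈ F, g ≠ f ∧ (f, g) ∈ S) →
      ∀ i : Fin d, D • (Pi.single i 1 : Fin d → ℤ) ∈ AddSubgroup.closure (diffs S))
    (i : Fin d) :
    ∃ M : ℕ, 0 < M ∧ ∀ b : (Fin d → ℤ) → k,
      (∀ s : ℕ, act (dil k F (1 + W * s)) b = 0) →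
      ∀ x, b (x - M • (Pi.single i 1 : Fin d → ℤ)) = b x := by
  classical
  let I : Ideal (MvPolynomial (Fin d) k) :=
    Ideal.span (Set.range fun s : ℕ => dil k F (1 + W * s))
  let m : ℕ := D * W
  have hm : 0 < m := Nat.mul_pos hD0 hW
  let G : MvPolynomial (Fin d) k := monomial (allOnes d) 1 * (X i ^ m - 1)
  have hG : G ∈ vanishingIdeal k (zeroLocus k I) := by
    rw [mem_vanishingIdeal_iff]
    intro ξ hξ
    have hz : ∀ s : ℕ, aeval ξ (dil k F (1 + W * s)) = 0 := fun s =>
      hξ _ (Ideal.subset_span ⟨s, rfl⟩)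
    simp only [G, map_mul]
    by_cases h0 : ∃ j, ξ j = 0
    · obtain ⟨j, hj⟩ := h0
      rw [aeval_allOnes_eq_zero hj, zero_mul]
    · push Not at h0
      have := pow_eq_one_of_zero hD h0 hz i
      simp only [map_sub, map_pow, aeval_X, map_one, m]
      rw [this, sub_self, mul_zero]
  rw [vanishingIdeal_zeroLocus_eq_radical] at hG
  obtain ⟨N, hN⟩ := hG
  let q : ℕ := p ^ N
  have hNq : N ≤ q := (Nat.lt_pow_self hp.out.one_lt).le
  have hGq : G ^ q ∈ I := Ideal.pow_mem_of_pow_mem I hN hNq
  have hq0 : 0 < q := pow_pos hp.out.pos _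
  have : ExpChar (MvPolynomial (Fin d) k) p := ExpChar.prime hp.out
  have hexp : G ^ q = monomial (q • allOnes d) 1 * (X i ^ (m * q) - 1) := by
    have h : (X i ^ m - 1 : MvPolynomial (Fin d) k) ^ q = X i ^ (m * q) - 1 := by
      change (X i ^ m - 1 : MvPolynomial (Fin d) k) ^ (p ^ N) = X i ^ (m * p ^ N) - 1
      rw [sub_pow_expChar_pow, one_pow, ← pow_mul]
    simp only [G]
    rw [mul_pow, MvPolynomial.monomial_pow, one_pow, h]
  refine ⟨m * q, Nat.mul_pos hm hq0, fun b hb x => ?_⟩
  have hact : act (G ^ q) b = 0 := by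
    refine act_eq_zero_of_mem_span ?_ hGq
    rintro _ ⟨s, rfl⟩
    exact hb s
  rw [hexp, act_mul] at hact
  have hw := congrFun hact (x + toG (q • allOnes d))
  rw [act_monomial, one_mul, add_sub_cancel_right, act_sub, X_pow_eq_monomial] at hw
  have h1 : (1 : MvPolynomial (Fin d) k) = monomial 0 1 := rfl
  rw [h1] at hw
  simp only [Pi.sub_apply, act_monomial, one_mul, Pi.zero_apply] at hw
  have h2 : toG (Finsupp.single i (m * q)) = (m * q) • (Pi.single i 1 : Fin d → ℤ) := by
    ext j
    by_cases hj : j = i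
    · subst hj; simp [toG]
    · simp [toG, Pi.single_apply, hj, Finsupp.single_apply, Ne.symm hj]
  have h3 : toG (0 : Fin d →₀ ℕ) = 0 := by ext j; simp [toG]
  rw [h2, h3, sub_zero, sub_eq_zero] at hw
  exact hw

end main

section final

/-- Periodicity of every tiling by a tile all of whose functionals have a singleton fibre,
for a tile given by exponent vectors. -/
theorem core (F : Finset (Fin d →₀ ℕ)) (A : Set (Fin d → ℤ)) (h : TileR A F 1)
    (hfib : ∀ ψ : (Fin d → ℤ) →+ ℤ, ψ ≠ 0 → ∃ f ∈ F, ∀ g ∈ F, ψ (toG g) = ψ (toG f) → g = f) :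
    ∃ N : ℕ, 0 < N ∧ ∀ (x : Fin d → ℤ) (i : Fin d),
      x ∈ A ↔ x + N • (Pi.single i 1 : Fin d → ℤ) ∈ A := by
  classical
  have hpos := h.card_pos
  by_cases h1 : F.card = 1
  · obtain ⟨f, rfl⟩ := Finset.card_eq_one.mp h1
    have hall : ∀ y, y ∈ A := by
      intro y
      have hy := h (y + toG f)
      by_contra hyA
      have h0 : (({f} : Finset (Fin d →₀ ℕ)).filter
          (fun g => y + toG f - 1 • toG g ∈ A)) = ∅ := by
        apply Finset.filter_eq_empty_iff.mpr
        intro g hg
        rw [Finset.mem_singleton] at hg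
        subst hg
        rw [one_smul, add_sub_cancel_right]
        exact hyA
      rw [h0] at hy
      simp at hy
    exact ⟨1, one_pos, fun x i => ⟨fun _ => hall _, fun _ => hall _⟩⟩
  · let p : ℕ := F.card.minFac
    have hpp : p.Prime := Nat.minFac_prime h1
    have hp : Fact p.Prime := ⟨hpp⟩
    have hpdvd : p ∣ F.card := Nat.minFac_dvd _
    let k := AlgebraicClosure (ZMod p)
    have hchar : CharP k p := inferInstance
    obtain ⟨D, hD0, hD⟩ := exists_uniform F hfib
    let W : ℕ := F.card.factorial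
    have hW : 0 < W := Nat.factorial_pos _
    have htile : ∀ s : ℕ, TileR A F (1 + W * s) := by
      intro s
      refine h.of_primes _ (by omega) ?_
      intro q hq hdvd
      by_contra hle
      have hle' : q ≤ F.card := not_lt.mp hle
      have hdW : q ∣ W := (hq.dvd_factorial).mpr hle'
      have h2 : q ∣ 1 := (Nat.dvd_add_left (dvd_mul_of_dvd_left hdW s)).mp hdvd
      exact hq.one_lt.ne' (Nat.dvd_one.mp h2)
    have hper : ∀ i : Fin d, ∃ M : ℕ, 0 < M ∧ ∀ b : (Fin d → ℤ) → k,
        (∀ s : ℕ, act (dil k F (1 + W * s)) b = 0) →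
        ∀ x, b (x - M • (Pi.single i 1 : Fin d → ℤ)) = b x :=
      fun i => exists_period p F hW hD0 hD i
    choose M hM0 hM using hper
    have hpc : ∀ (c : Fin d → ℤ) (i : Fin d),
        c - (p * M i) • (Pi.single i 1 : Fin d → ℤ) ∈ A ↔ c ∈ A := by
      intro c i
      let b : (Fin d → ℤ) → k := fun x => ind k A (p • x + c)
      have hb : ∀ s : ℕ, act (dil k F (1 + W * s)) b = 0 := by
        intro s
        ext x
        rw [act_dil]
        have := (htile s).sum_eq_zero (k := k) p hpdvd (p • x + c)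
        rw [Pi.zero_apply, ← this]
        refine Finset.sum_congr rfl fun f _ => ?_
        simp only [b]
        have hx : p • (x - (1 + W * s) • toG f) + c
            = p • x + c - (p * (1 + W * s)) • toG f := by
          rw [smul_sub, mul_smul]
          abel
        rw [hx]
      have h2 := hM i b hb 0
      simp only [b] at h2
      have hx1 : p • (0 - M i • (Pi.single i 1 : Fin d → ℤ)) + c
          = c - (p * M i) • (Pi.single i 1 : Fin d → ℤ) := by
        rw [zero_sub, smul_neg, mul_smul]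
        abel
      have hx2 : p • (0 : Fin d → ℤ) + c = c := by simp
      rw [hx1, hx2] at h2
      simp only [ind] at h2
      constructor
      · intro hc
        by_contra hc'
        rw [if_pos hc, if_neg hc'] at h2
        exact one_ne_zero h2
      · intro hc
        by_contra hc'
        rw [if_neg hc', if_pos hc] at h2
        exact one_ne_zero h2.symm
    have hiter : ∀ (i : Fin d) (t : ℕ) (x : Fin d → ℤ),
        x ∈ A ↔ x + (t * (p * M i)) • (Pi.single i 1 : Fin d → ℤ) ∈ A := by
      intro i t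
      induction t with
      | zero =>
        intro x
        simp
      | succ t ih =>
        intro x
        rw [ih x]
        have h3 := hpc (x + ((t + 1) * (p * M i)) • (Pi.single i 1 : Fin d → ℤ)) i
        have h4 : x + ((t + 1) * (p * M i)) • (Pi.single i 1 : Fin d → ℤ)
            - (p * M i) • (Pi.single i 1 : Fin d → ℤ)
            = x + (t * (p * M i)) • (Pi.single i 1 : Fin d → ℤ) := by
          rw [add_mul, one_mul, add_smul]
          abel
        rw [h4] at h3
        exact h3
    refine ⟨∏ i, (p * M i), Finset.prod_pos fun i _ => Nat.mul_pos hpp.pos (hM0 i), fun x i => ?_⟩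
    obtain ⟨e, he⟩ : p * M i ∣ ∏ j, (p * M j) := Finset.dvd_prod_of_mem _ (Finset.mem_univ i)
    have := hiter i e x
    rw [he, mul_comm]
    exact this

/-- The shift making a finite subset of the lattice nonnegative. -/
noncomputable def baseShift (F : Finset (Fin d → ℤ)) : Fin d → ℤ :=
  fun i => - ∑ f ∈ F, |f i|

/-- The exponent vector of a shifted point of the tile. -/
noncomputable def toM (F : Finset (Fin d → ℤ)) (f : Fin d → ℤ) : Fin d →₀ ℕ :=
  Finsupp.equivFunOnFinite.symm (fun i => (f i - baseShift F i).toNat)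

lemma toG_toM {F : Finset (Fin d → ℤ)} {f : Fin d → ℤ} (hf : f ∈ F) :
    toG (toM F f) = f - baseShift F := by
  ext i
  have h1 : |f i| ≤ ∑ g ∈ F, |g i| :=
    Finset.single_le_sum (f := fun g : Fin d → ℤ => |g i|) (fun g _ => abs_nonneg _) hf
  have h2 : 0 ≤ f i - baseShift F i := by
    simp only [baseShift]
    have := neg_abs_le (f i)
    linarith
  simp only [toG, toM, Finsupp.equivFunOnFinite_symm_apply_apply, Pi.sub_apply]
  exact Int.toNat_of_nonneg h2

/-- Every tiling of the lattice by a finite tile is periodic, as soon as every nonzero linear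
functional takes some value at exactly one point of the tile. -/
theorem main {d : ℕ} (F : Finset (Fin d → ℤ)) (A : Set (Fin d → ℤ))
    (htile : ∀ x : Fin d → ℤ,
      ∃! q : (Fin d → ℤ) × (Fin d → ℤ), q.1 ∈ A ∧ q.2 ∈ F ∧ q.1 + q.2 = x)
    (hfibre : ∀ ψ : (Fin d → ℤ) →+ ℤ, ψ ≠ 0 → ∃ f ∈ F, ∀ g ∈ F, ψ g = ψ f → g = f) :
    ∃ N : ℕ, 0 < N ∧ ∀ (x : Fin d → ℤ) (i : Fin d),
      x ∈ A ↔ x + N • (Pi.single i 1 : Fin d → ℤ) ∈ A := by
  classical
  have hinj : ∀ f ∈ F, ∀ g ∈ F, toM F f = toM F g → f = g := by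
    intro f hf g hg hfg
    have := congrArg toG hfg
    rw [toG_toM hf, toG_toM hg] at this
    exact sub_left_inj.mp this
  refine core (F.image (toM F)) A ?_ ?_
  · intro x'
    obtain ⟨⟨a, f⟩, ⟨ha, hf, hx⟩, huniq⟩ := htile (x' + baseShift F)
    simp only at ha hf hx
    rw [Finset.card_eq_one]
    refine ⟨toM F f, ?_⟩
    ext g'
    simp only [Finset.mem_filter, Finset.mem_image, Finset.mem_singleton]
    constructor
    · rintro ⟨⟨g, hg, rfl⟩, hmem⟩
      rw [one_smul, toG_toM hg] at hmem
      have hq : ((x' - (g - baseShift F), g) : (Fin d → ℤ) × (Fin d → ℤ)) = (a, f) := by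
        refine huniq (x' - (g - baseShift F), g) ⟨hmem, hg, ?_⟩
        simp only
        abel
      have := congrArg Prod.snd hq
      simp only at this
      rw [this]
    · rintro rfl
      refine ⟨⟨f, hf, rfl⟩, ?_⟩
      rw [one_smul, toG_toM hf]
      have : x' - (f - baseShift F) = a := by
        have h5 : x' = a + f - baseShift F := by
          rw [hx]
          abel
        rw [h5]
        abel
      rw [this]
      exact ha
  · intro ψ hψ
    obtain ⟨f, hf, hu⟩ := hfibre ψ hψ
    refine ⟨toM F f, Finset.mem_image_of_mem _ hf, ?_⟩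
    intro g' hg' hval
    obtain ⟨g, hg, rfl⟩ := Finset.mem_image.mp hg'
    rw [toG_toM hg, toG_toM hf, map_sub, map_sub] at hval
    have h6 : ψ g = ψ f := sub_left_inj.mp hval
    rw [hu g hg h6]

end final

end Vale.Agent.P043
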