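import Mathlib

/-!
# Reversible chains: elementary operator calculus on a finite state space
-/

namespace Vale.Agent.P125

open Finset

variable {S : Type*} [Fintype S]

/-- One step of the chain acting on functions. -/
noncomputable def Pop (P : S → S → ℝ) (f : S → ℝ) (v : S) : ℝ := ∑ w, P v w * f w

/-- Iterates of the step operator. -/
noncomputable def Ppow (P : S → S → ℝ) : ℕ → (S → ℝ) → S → ℝ
  | 0, f => f
  | r + 1, f => Pop P (Ppow P r f)

/-- Stationary mean. -/
noncomputable def Epi (π : S → ℝ) (f : S → ℝ) : ℝ := ∑ v, π v * f v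

/-- Mean over a stationary edge. -/
noncomputable def Ee (π : S → ℝ) (P : S → S → ℝ) (g : S → S → ℝ) : ℝ :=
  ∑ v, ∑ w, π v * P v w * g v w

/-- Hypotheses: a stationary reversible chain. -/
structure RevChain (π : S → ℝ) (P : S → S → ℝ) : Prop where
  pi_nonneg : ∀ i, 0 ≤ π i
  pi_one : ∑ i, π i = 1
  p_nonneg : ∀ i j, 0 ≤ P i j
  p_one : ∀ i, ∑ j, P i j = 1
  rev : ∀ i j, π i * P i j = π j * P j i

variable {π : S → ℝ} {P : S → S → ℝ}

lemma Pop_add (f g : S → ℝ) (v : S) :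
    Pop P (fun x => f x + g x) v = Pop P f v + Pop P g v := by
  simp [Pop, mul_add, sum_add_distrib]

lemma Pop_sub (f g : S → ℝ) (v : S) :
    Pop P (fun x => f x - g x) v = Pop P f v - Pop P g v := by
  simp [Pop, mul_sub, sum_sub_distrib]

lemma Pop_const_mul (c : ℝ) (f : S → ℝ) (v : S) :
    Pop P (fun x => c * f x) v = c * Pop P f v := by
  simp only [Pop, mul_sum]
  refine sum_congr rfl fun w _ => ?_
  ring

lemma Pop_sum {ι : Type*} (s : Finset ι) (f : ι → S → ℝ) (v : S) :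
    Pop P (fun x => ∑ i ∈ s, f i x) v = ∑ i ∈ s, Pop P (f i) v := by
  simp only [Pop, mul_sum]
  rw [sum_comm]

lemma Pop_zero (v : S) : Pop P (fun _ => (0 : ℝ)) v = 0 := by
  simp [Pop]

namespace RevChain

variable (hc : RevChain π P)
include hc

lemma Pop_const (c : ℝ) (v : S) : Pop P (fun _ => c) v = c := by
  simp only [Pop, ← sum_mul, hc.p_one, one_mul]

lemma Pop_mono {f g : S → ℝ} (h : ∀ x, f x ≤ g x) (v : S) : Pop P f v ≤ Pop P g v :=
  sum_le_sum fun w _ => mul_le_mul_of_nonneg_left (h w) (hc.p_nonneg v w)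

lemma Pop_nonneg {f : S → ℝ} (h : ∀ x, 0 ≤ f x) (v : S) : 0 ≤ Pop P f v :=
  sum_nonneg fun w _ => mul_nonneg (hc.p_nonneg v w) (h w)

lemma Ppow_const (r : ℕ) (c : ℝ) (v : S) : Ppow P r (fun _ => c) v = c := by
  induction r generalizing v with
  | zero => rfl
  | succ r ih =>
    have : Ppow P r (fun _ => c) = fun _ => c := funext ih
    simp only [Ppow, this]
    exact hc.Pop_const c v

lemma Ppow_mono (r : ℕ) {f g : S → ℝ} (h : ∀ x, f x ≤ g x) (v : S) :
    Ppow P r f v ≤ Ppow P r g v := by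
  induction r generalizing v with
  | zero => exact h v
  | succ r ih => exact hc.Pop_mono ih v

lemma Ppow_nonneg (r : ℕ) {f : S → ℝ} (h : ∀ x, 0 ≤ f x) (v : S) : 0 ≤ Ppow P r f v := by
  have := hc.Ppow_mono r h v
  rwa [hc.Ppow_const] at this

lemma Ppow_le_const (r : ℕ) {f : S → ℝ} {c : ℝ} (h : ∀ x, f x ≤ c) (v : S) :
    Ppow P r f v ≤ c := by
  have := hc.Ppow_mono r h v
  rwa [hc.Ppow_const] at this

lemma edge_one : ∑ v, ∑ w, π v * P v w = 1 := by
  simp only [← mul_sum, hc.p_one, mul_one, hc.pi_one]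

lemma Ee_swap (g : S → S → ℝ) : Ee π P g = Ee π P (fun v w => g w v) := by
  unfold Ee
  rw [sum_comm]
  refine sum_congr rfl fun v _ => sum_congr rfl fun w _ => ?_
  rw [hc.rev w v]

lemma Epi_Pop (f : S → ℝ) : Epi π (Pop P f) = Epi π f := by
  have h1 : Epi π (Pop P f) = Ee π P (fun _ w => f w) := by
    simp only [Epi, Ee, Pop, mul_sum, mul_assoc]
  rw [h1, hc.Ee_swap]
  simp only [Epi, Ee, ← sum_mul, ← mul_sum, hc.p_one, mul_one]

lemma Epi_Ppow (r : ℕ) (f : S → ℝ) : Epi π (Ppow P r f) = Epi π f := by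
  induction r with
  | zero => rfl
  | succ r ih => simp only [Ppow]; rw [hc.Epi_Pop, ih]

lemma Epi_mul_Pop (g f : S → ℝ) :
    Epi π (fun v => g v * Pop P f v) = Epi π (fun v => Pop P g v * f v) := by
  have h1 : Epi π (fun v => g v * Pop P f v) = Ee π P (fun v w => g v * f w) := by
    simp only [Epi, Ee, Pop, mul_sum]
    refine sum_congr rfl fun v _ => sum_congr rfl fun w _ => ?_
    ring
  have h2 : Epi π (fun v => Pop P g v * f v) = Ee π P (fun v w => g w * f v) := by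
    simp only [Epi, Ee, Pop, sum_mul, mul_sum]
    refine sum_congr rfl fun v _ => sum_congr rfl fun w _ => ?_
    ring
  rw [h1, h2, hc.Ee_swap]

end RevChain

lemma Ppow_add (r : ℕ) (f g : S → ℝ) (v : S) :
    Ppow P r (fun x => f x + g x) v = Ppow P r f v + Ppow P r g v := by
  induction r generalizing v with
  | zero => rfl
  | succ r ih =>
    simp only [Ppow]
    rw [show Ppow P r (fun x => f x + g x) = fun x => Ppow P r f x + Ppow P r g x from funext ih]
    exact Pop_add _ _ v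

lemma Ppow_sub (r : ℕ) (f g : S → ℝ) (v : S) :
    Ppow P r (fun x => f x - g x) v = Ppow P r f v - Ppow P r g v := by
  induction r generalizing v with
  | zero => rfl
  | succ r ih =>
    simp only [Ppow]
    rw [show Ppow P r (fun x => f x - g x) = fun x => Ppow P r f x - Ppow P r g x from funext ih]
    exact Pop_sub _ _ v

lemma Ppow_sum {ι : Type*} (s : Finset ι) (r : ℕ) (f : ι → S → ℝ) (v : S) :
    Ppow P r (fun x => ∑ i ∈ s, f i x) v = ∑ i ∈ s, Ppow P r (f i) v := by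
  induction r generalizing v with
  | zero => rfl
  | succ r ih =>
    simp only [Ppow]
    rw [show Ppow P r (fun x => ∑ i ∈ s, f i x) = fun x => ∑ i ∈ s, Ppow P r (f i) x from funext ih]
    exact Pop_sum s _ v

lemma Ppow_Pop (r : ℕ) (f : S → ℝ) : Ppow P r (Pop P f) = Pop P (Ppow P r f) := by
  induction r with
  | zero => rfl
  | succ r ih => simp only [Ppow]; rw [ih]

lemma RevChain.Epi_mul_Ppow (hc : RevChain π P) (r : ℕ) (g f : S → ℝ) :
    Epi π (fun v => g v * Ppow P r f v) = Epi π (fun v => Ppow P r g v * f v) := by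
  induction r generalizing g with
  | zero => rfl
  | succ r ih =>
    simp only [Ppow]
    rw [hc.Epi_mul_Pop, ih, ← Ppow_Pop]

/-- Cumulative occupation of a function over a window of `L` steps. -/
noncomputable def Cum (P : S → S → ℝ) (L : ℕ) (f : S → ℝ) (v : S) : ℝ :=
  ∑ r ∈ range L, Ppow P r f v

lemma Pop_Cum_eq (L : ℕ) (f : S → ℝ) (v : S) :
    Pop P (Cum P L f) v = ∑ r ∈ range L, Ppow P (r + 1) f v := by
  have h : Cum P L f = fun x => ∑ r ∈ range L, Ppow P r f x := rfl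
  rw [h, Pop_sum]
  rfl

lemma Pop_Cum (L : ℕ) (f : S → ℝ) (v : S) :
    Pop P (Cum P L f) v - Cum P L f v = Ppow P L f v - f v := by
  rw [Pop_Cum_eq]
  unfold Cum
  rw [← sum_sub_distrib, sum_range_sub (fun r => Ppow P r f v) L]
  rfl

namespace RevChain

variable (hc : RevChain π P)
include hc

lemma Cum_nonneg (L : ℕ) {f : S → ℝ} (h : ∀ x, 0 ≤ f x) (v : S) : 0 ≤ Cum P L f v :=
  sum_nonneg fun r _ => hc.Ppow_nonneg r h v

lemma Cum_le (L : ℕ) {f : S → ℝ} {c : ℝ} (h : ∀ x, f x ≤ c) (v : S) :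
    Cum P L f v ≤ L * c := by
  unfold Cum
  calc ∑ r ∈ range L, Ppow P r f v ≤ ∑ _r ∈ range L, c :=
        sum_le_sum fun r _ => hc.Ppow_le_const r h v
    _ = L * c := by simp

lemma Epi_Cum (L : ℕ) (f : S → ℝ) : Epi π (Cum P L f) = L * Epi π f := by
  have : Epi π (Cum P L f) = ∑ r ∈ range L, Epi π (Ppow P r f) := by
    simp only [Epi, Cum, mul_sum]
    rw [sum_comm]
  rw [this]
  simp [hc.Epi_Ppow]

lemma Epi_mono {f g : S → ℝ} (h : ∀ x, f x ≤ g x) : Epi π f ≤ Epi π g :=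
  sum_le_sum fun v _ => mul_le_mul_of_nonneg_left (h v) (hc.pi_nonneg v)

lemma Epi_const (c : ℝ) : Epi π (fun _ => c) = c := by
  simp only [Epi, ← sum_mul, hc.pi_one, one_mul]

lemma Epi_nonneg {f : S → ℝ} (h : ∀ x, 0 ≤ f x) : 0 ≤ Epi π f :=
  sum_nonneg fun v _ => mul_nonneg (hc.pi_nonneg v) (h v)

lemma Ee_mono {f g : S → S → ℝ} (h : ∀ x y, f x y ≤ g x y) : Ee π P f ≤ Ee π P g :=
  sum_le_sum fun v _ => sum_le_sum fun w _ =>
    mul_le_mul_of_nonneg_left (h v w) (mul_nonneg (hc.pi_nonneg v) (hc.p_nonneg v w))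

lemma Ee_nonneg {f : S → S → ℝ} (h : ∀ x y, 0 ≤ f x y) : 0 ≤ Ee π P f :=
  sum_nonneg fun v _ => sum_nonneg fun w _ =>
    mul_nonneg (mul_nonneg (hc.pi_nonneg v) (hc.p_nonneg v w)) (h v w)

end RevChain

lemma Ee_add (f g : S → S → ℝ) :
    Ee π P (fun v w => f v w + g v w) = Ee π P f + Ee π P g := by
  simp only [Ee, mul_add, sum_add_distrib]

lemma Ee_const_mul (c : ℝ) (f : S → S → ℝ) :
    Ee π P (fun v w => c * f v w) = c * Ee π P f := by
  simp only [Ee, mul_sum]
  refine sum_congr rfl fun v _ => sum_congr rfl fun w _ => ?_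
  ring

lemma Ee_sum {ι : Type*} (s : Finset ι) (f : ι → S → S → ℝ) :
    Ee π P (fun v w => ∑ i ∈ s, f i v w) = ∑ i ∈ s, Ee π P (f i) := by
  simp only [Ee, mul_sum]
  have h : ∀ v, ∑ w, ∑ i ∈ s, π v * P v w * f i v w = ∑ i ∈ s, ∑ w, π v * P v w * f i v w :=
    fun v => sum_comm
  simp only [h]
  exact sum_comm

lemma Epi_add (f g : S → ℝ) :
    Epi π (fun v => f v + g v) = Epi π f + Epi π g := by
  simp only [Epi, mul_add, sum_add_distrib]

lemma Epi_sub (f g : S → ℝ) :
    Epi π (fun v => f v - g v) = Epi π f - Epi π g := by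
  simp only [Epi, mul_sub, sum_sub_distrib]

lemma Epi_const_mul (c : ℝ) (f : S → ℝ) :
    Epi π (fun v => c * f v) = c * Epi π f := by
  simp only [Epi, mul_sum]
  refine sum_congr rfl fun v _ => ?_
  ring

lemma Epi_sum {ι : Type*} (s : Finset ι) (f : ι → S → ℝ) :
    Epi π (fun v => ∑ i ∈ s, f i v) = ∑ i ∈ s, Epi π (f i) := by
  simp only [Epi, mul_sum]
  rw [sum_comm]

/-- Energy identity: weighted Dirichlet form against a positive weight. -/
lemma RevChain.energy (hc : RevChain π P) (m G : S → ℝ) :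
    Ee π P (fun v w => m v * (G w - G v) ^ 2) =
      Epi π (fun v => (Pop P m v - m v) * G v ^ 2)
        - 2 * Epi π (fun v => m v * G v * (Pop P G v - G v)) := by
  have hsq : ∀ v, ∑ w, P v w * (G w - G v) ^ 2
      = Pop P (fun x => G x ^ 2) v - 2 * G v * Pop P G v + G v ^ 2 := by
    intro v
    have h1 : ∀ w, P v w * (G w - G v) ^ 2
        = P v w * G w ^ 2 - 2 * G v * (P v w * G w) + P v w * G v ^ 2 := by
      intro w; ring
    simp only [h1, sum_add_distrib, sum_sub_distrib, ← mul_sum, ← sum_mul, hc.p_one, Pop]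
    ring
  have h2 : Ee π P (fun v w => m v * (G w - G v) ^ 2)
      = Epi π (fun v => m v * (Pop P (fun x => G x ^ 2) v - 2 * G v * Pop P G v + G v ^ 2)) := by
    simp only [Ee, Epi]
    refine sum_congr rfl fun v _ => ?_
    rw [← hsq v, mul_sum, mul_sum]
    refine sum_congr rfl fun w _ => ?_
    ring
  have h3 : Epi π (fun v => m v * Pop P (fun x => G x ^ 2) v)
      = Epi π (fun v => Pop P m v * G v ^ 2) := hc.Epi_mul_Pop _ _
  rw [h2]
  have e1 : (fun v => m v * (Pop P (fun x => G x ^ 2) v - 2 * G v * Pop P G v + G v ^ 2))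
      = fun v => m v * Pop P (fun x => G x ^ 2) v
          - (2 * (m v * G v * Pop P G v)) + m v * G v ^ 2 := by
    funext v; ring
  have e2 : (fun v => (Pop P m v - m v) * G v ^ 2)
      = fun v => Pop P m v * G v ^ 2 - m v * G v ^ 2 := by
    funext v; ring
  have e3 : (fun v => m v * G v * (Pop P G v - G v))
      = fun v => m v * G v * Pop P G v - m v * G v ^ 2 := by
    funext v; ring
  rw [e1, e2, e3, Epi_add, Epi_sub, Epi_sub, Epi_sub, h3]
  have e4 : Epi π (fun v => 2 * (m v * G v * Pop P G v))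
      = 2 * Epi π (fun v => m v * G v * Pop P G v) := Epi_const_mul 2 _
  rw [e4]
  ring

/-- Elementary inequality behind the cubic telescoping. -/
lemma abs_cube_sub_le (x y : ℝ) : |x ^ 3 - y ^ 3| ≤ 3 / 2 * |x - y| * (x ^ 2 + y ^ 2) := by
  have h1 : x ^ 3 - y ^ 3 = (x - y) * (x ^ 2 + x * y + y ^ 2) := by ring
  rw [h1, abs_mul]
  have h2 : |x ^ 2 + x * y + y ^ 2| ≤ 3 / 2 * (x ^ 2 + y ^ 2) := by
    rw [abs_le]
    constructor <;> nlinarith [sq_nonneg (x + y), sq_nonneg (x - y)]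
  nlinarith [abs_nonneg (x - y)]

/-- Cubic telescoping along a sequence. -/
lemma abs_cube_telescope (t W : ℕ → ℝ) (hW : ∀ a, |t a - t (a + 1)| ≤ W a) (j k : ℕ) (hjk : j ≤ k) :
    |t j ^ 3 - t k ^ 3| ≤ 3 / 2 * ∑ a ∈ Ico j k, W a * (t a ^ 2 + t (a + 1) ^ 2) := by
  induction k, hjk using Nat.le_induction with
  | base => simp
  | succ k hk ih =>
    rw [sum_Ico_succ_top hk, mul_add]
    have h1 : |t j ^ 3 - t (k + 1) ^ 3| ≤ |t j ^ 3 - t k ^ 3| + |t k ^ 3 - t (k + 1) ^ 3| :=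
      abs_sub_le _ _ _
    have h2 := abs_cube_sub_le (t k) (t (k + 1))
    have h3 : 3 / 2 * |t k - t (k + 1)| * (t k ^ 2 + t (k + 1) ^ 2)
        ≤ 3 / 2 * (W k * (t k ^ 2 + t (k + 1) ^ 2)) := by
      have := hW k
      have hnn : 0 ≤ t k ^ 2 + t (k + 1) ^ 2 := by positivity
      nlinarith
    linarith

end Vale.Agent.P125
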