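import Vale.Agent.Lib.P125Path

/-!
# The cubic maximal inequality for partial sums along a reversible chain
-/

namespace Vale.Agent.P125

open Finset

variable {S : Type*} [Fintype S] {π : S → ℝ} {P : S → S → ℝ}

/-- Largest partial sum of the total displacement along a path. -/
noncomputable def Ym (ω : S → S → ℕ → ℝ) (n : ℕ) {t : ℕ} (z : Fin (t + 1) → S) : ℝ :=
  (range (n + 1)).sup' nonempty_range_add_one (fun k => |Sm (Hk ω k) z|)

omit [Fintype S] in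
lemma Ym_nonneg (ω : S → S → ℕ → ℝ) (n : ℕ) {t : ℕ} (z : Fin (t + 1) → S) : 0 ≤ Ym ω n z :=
  (abs_nonneg (Sm (Hk ω 0) z)).trans
    (le_sup' (fun k => |Sm (Hk ω k) z|) (mem_range.2 (Nat.succ_pos n)))

omit [Fintype S] in
/-- Pointwise cubic telescoping of the maximal partial sum. -/
lemma Ym_cube_le (ω : S → S → ℕ → ℝ) (n : ℕ) {t : ℕ} (z : Fin (t + 1) → S) :
    Ym ω n z ^ 3 ≤ 3 / 2 * ∑ a ∈ range n, ∑ s : Fin t,
      (|ω (z s.castSucc) (z s.succ) a| * Sm (Hk ω a) z ^ 2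
        + |ω (z s.castSucc) (z s.succ) a| * Sm (Hk ω (a + 1)) z ^ 2) := by
  obtain ⟨k, hk, hkeq⟩ := exists_mem_eq_sup' (s := range (n + 1)) nonempty_range_add_one
    (fun k => |Sm (Hk ω k) z|)
  have hk' : k ≤ n := Nat.le_of_lt_succ (mem_range.1 hk)
  set W : ℕ → ℝ := fun a => ∑ s : Fin t, |ω (z s.castSucc) (z s.succ) a| with hW
  have hW0 : ∀ a, 0 ≤ W a := fun a => sum_nonneg fun _ _ => abs_nonneg _
  set Y : ℕ → ℝ := fun k => Sm (Hk ω k) z with hY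
  have hY0 : Y 0 = 0 := by
    simp [hY, Sm, Hk]
  have hstep : ∀ a, |Y a - Y (a + 1)| ≤ W a := by
    intro a
    have h1 : Y a - Y (a + 1) = - ∑ s : Fin t, ω (z s.castSucc) (z s.succ) a := by
      simp only [hY, Sm, Hk, sum_range_succ, sum_add_distrib]
      ring
    rw [h1, abs_neg]
    exact abs_sum_le_sum_abs _ _
  have h2 := abs_cube_telescope Y W hstep 0 k (Nat.zero_le k)
  have h3 : Ym ω n z = |Y k| := hkeq
  rw [h3]
  have h4 : |Y k| ^ 3 = |Y 0 ^ 3 - Y k ^ 3| := by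
    rw [hY0]
    simp [abs_pow]
  rw [h4]
  refine h2.trans (mul_le_mul_of_nonneg_left ?_ (by norm_num))
  have h5 : ∑ a ∈ Ico 0 k, W a * (Y a ^ 2 + Y (a + 1) ^ 2)
      ≤ ∑ a ∈ range n, W a * (Y a ^ 2 + Y (a + 1) ^ 2) := by
    refine sum_le_sum_of_subset_of_nonneg ?_ ?_
    · intro a ha
      exact mem_range.2 (lt_of_lt_of_le (mem_Ico.1 ha).2 hk')
    · intro a _ _
      exact mul_nonneg (hW0 a) (by positivity)
  refine h5.trans (le_of_eq ?_)
  refine sum_congr rfl fun a _ => ?_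
  simp only [hW, sum_mul, mul_add, hY, sum_add_distrib]

section main

variable (hc : RevChain π P) (ω : S → S → ℕ → ℝ) (hanti : ∀ v w k, ω w v k = - ω v w k) (n : ℕ)
  (hnorm : ∀ v w, ∑ k ∈ range n, |ω v w k| ≤ 1)

omit [Fintype S] in
include hanti in
lemma Hk_anti (k : ℕ) (v w : S) : Hk ω k w v = - Hk ω k v w := by
  unfold Hk
  rw [← sum_neg_distrib]
  exact sum_congr rfl fun j _ => hanti v w j

include hc hanti hnorm in
/-- One marker against one partial sum. -/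
lemma marker_k {a k : ℕ} (hk : k ≤ n) (t : ℕ) (s : Fin t) :
    Et π P t (fun z => |ω (z s.castSucc) (z s.succ) a| * Sm (Hk ω k) z ^ 2)
      ≤ 3 * Ee π P (fun v w => |ω v w a| * Bnd P ω n s v)
        + 3 * Ee π P (fun v w => |ω v w a|)
        + 3 * Ee π P (fun v w => |ω v w a| * Bnd P ω n (t - 1 - s) v) := by
  have h := hc.marker_total (fun v w => |ω v w a|) (Hk ω k)
    (fun v w => by rw [hanti v w a, abs_neg]) (fun _ _ => abs_nonneg _)
    (Hk_anti ω hanti k) (abs_Hk_le ω n hnorm hk) t s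
  refine h.trans ?_
  have h1 : ∀ r, Ee π P (fun v w => |ω v w a| * Qr P (Hk ω k) r v)
      ≤ Ee π P (fun v w => |ω v w a| * Bnd P ω n r v) := fun r =>
    hc.Ee_mono fun v w =>
      mul_le_mul_of_nonneg_left (hc.Qr_le_Bnd ω n hnorm hk r v) (abs_nonneg _)
  have h2 := h1 s
  have h3 := h1 (t - 1 - s)
  linarith

include hc hnorm in
/-- Summing the marker over coordinates. -/
lemma Ee_marker_sum (G : S → ℝ) (hG : ∀ v, 0 ≤ G v) :
    ∑ a ∈ range n, Ee π P (fun v w => |ω v w a| * G v) ≤ Epi π G := by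
  rw [← Ee_sum, ← hc.Ee_left G]
  refine hc.Ee_mono fun v w => ?_
  rw [← sum_mul]
  have := mul_le_mul_of_nonneg_right (hnorm v w) (hG v)
  linarith

include hc hnorm in
lemma Ee_marker_sum_one :
    ∑ a ∈ range n, Ee π P (fun v w => |ω v w a|) ≤ 1 := by
  rw [← Ee_sum, ← hc.Ee_const 1]
  exact hc.Ee_mono fun v w => hnorm v w

include hc hanti hnorm in
/-- The path-level cube bound, in terms of the envelopes. -/
theorem Et_Ym_cube (t : ℕ) :
    Et π P t (fun z => Ym ω n z ^ 3)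
      ≤ 9 * ∑ s : Fin t, (Epi π (Bnd P ω n s) + 1 + Epi π (Bnd P ω n (t - 1 - s))) := by
  refine (hc.Et_mono t (Ym_cube_le ω n)).trans ?_
  rw [Et_const_mul, Et_sum]
  have h1 : ∀ a ∈ range n, Et π P t (fun z => ∑ s : Fin t,
      (|ω (z s.castSucc) (z s.succ) a| * Sm (Hk ω a) z ^ 2
        + |ω (z s.castSucc) (z s.succ) a| * Sm (Hk ω (a + 1)) z ^ 2))
      ≤ ∑ s : Fin t, 2 * (3 * Ee π P (fun v w => |ω v w a| * Bnd P ω n s v)
        + 3 * Ee π P (fun v w => |ω v w a|)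
        + 3 * Ee π P (fun v w => |ω v w a| * Bnd P ω n (t - 1 - s) v)) := by
    intro a ha
    rw [Et_sum]
    refine sum_le_sum fun s _ => ?_
    rw [Et_add]
    have ha' : a < n := mem_range.1 ha
    have h2 := marker_k hc ω hanti n hnorm (a := a) (k := a) ha'.le t s
    have h3 := marker_k hc ω hanti n hnorm (a := a) (k := a + 1) ha' t s
    linarith
  have h4 := sum_le_sum h1
  rw [sum_comm] at h4
  have h5 : ∀ s : Fin t, ∑ a ∈ range n, 2 * (3 * Ee π P (fun v w => |ω v w a| * Bnd P ω n s v)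
        + 3 * Ee π P (fun v w => |ω v w a|)
        + 3 * Ee π P (fun v w => |ω v w a| * Bnd P ω n (t - 1 - s) v))
      ≤ 6 * (Epi π (Bnd P ω n s) + 1 + Epi π (Bnd P ω n (t - 1 - s))) := by
    intro s
    rw [← mul_sum, sum_add_distrib, sum_add_distrib, ← mul_sum, ← mul_sum, ← mul_sum]
    have h6 := Ee_marker_sum hc ω n hnorm (Bnd P ω n s) (hc.Bnd_nonneg ω n s)
    have h7 := Ee_marker_sum hc ω n hnorm (Bnd P ω n (t - 1 - s)) (hc.Bnd_nonneg ω n _)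
    have h8 := Ee_marker_sum_one hc ω n hnorm
    linarith
  have h9 := h4.trans (sum_le_sum fun s _ => h5 s)
  rw [← mul_sum] at h9
  nlinarith

include hc hanti hnorm in
/-- The final form of the cube bound. -/
theorem Et_Ym_cube_final (t : ℕ) (ht : 1 ≤ t) :
    Et π P t (fun z => Ym ω n z ^ 3) ≤ 103 * (t : ℝ) ^ ((8 : ℝ) / 3) := by
  have ht0 : (1 : ℝ) ≤ t := by exact_mod_cast ht
  have ht0' : (0 : ℝ) ≤ t := by linarith
  set τ : ℝ := (t : ℝ) ^ ((2 : ℝ) / 3) with hτ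
  have hτ1 : 1 ≤ τ := Real.one_le_rpow ht0 (by norm_num)
  have hτ3 : τ ^ 3 = (t : ℝ) ^ 2 := by
    rw [hτ, ← Real.rpow_natCast, ← Real.rpow_mul ht0', ← Real.rpow_natCast]
    norm_num
  have h83 : (t : ℝ) ^ ((8 : ℝ) / 3) = (t : ℝ) ^ 2 * τ := by
    rw [hτ, ← Real.rpow_natCast, ← Real.rpow_add (by linarith)]
    norm_num
  rw [h83]
  -- mean level bound
  have hm : ∀ m ∈ range t, Epi π (Mx P ω n m) ≤ 21 / 10 * τ := by
    intro m hm
    have hmt : (m : ℝ) ≤ t := by exact_mod_cast (mem_range.1 hm).le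
    have h1 := Mx_bound hc ω hanti n hnorm m
    have h0 : 0 ≤ Epi π (Mx P ω n m) := hc.Epi_nonneg (Mx_nonneg ω n m)
    have h2 : (m : ℝ) ^ 2 ≤ (t : ℝ) ^ 2 := pow_le_pow_left₀ (Nat.cast_nonneg m) hmt 2
    have h3 : Epi π (Mx P ω n m) ^ 3 ≤ (21 / 10 * τ) ^ 3 := by
      have : (21 / 10 * τ) ^ 3 = 9261 / 1000 * τ ^ 3 := by ring
      rw [this, hτ3]
      nlinarith [sq_nonneg (t : ℝ)]
    exact (pow_le_pow_iff_left₀ h0 (by positivity) (by norm_num)).1 h3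
  -- envelope bound
  have hB : ∀ r, r ≤ t → Epi π (Bnd P ω n r) ≤ t * (1 + 21 / 5 * τ) := by
    intro r hr
    rw [hc.Epi_Bnd]
    have h1 : ∑ m ∈ range r, Epi π (Mx P ω n m) ≤ ∑ _m ∈ range r, (21 / 10 * τ) :=
      sum_le_sum fun m hm' => hm m (mem_range.2 (lt_of_lt_of_le (mem_range.1 hm') hr))
    rw [sum_const, card_range, nsmul_eq_mul] at h1
    have hr' : (r : ℝ) ≤ t := by exact_mod_cast hr
    have hτ0 : 0 ≤ τ := by linarith
    nlinarith [mul_le_mul_of_nonneg_right hr' hτ0]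
  refine (Et_Ym_cube hc ω hanti n hnorm t).trans ?_
  have h2 : ∑ s : Fin t, (Epi π (Bnd P ω n s) + 1 + Epi π (Bnd P ω n (t - 1 - s)))
      ≤ ∑ _s : Fin t, (2 * (t * (1 + 21 / 5 * τ)) + 1) := by
    refine sum_le_sum fun s _ => ?_
    have h3 := hB s (le_of_lt s.isLt)
    have h4 := hB (t - 1 - s) (by omega)
    linarith
  rw [sum_const, card_univ, Fintype.card_fin, nsmul_eq_mul] at h2
  have h5 : (t : ℝ) ≤ (t : ℝ) ^ 2 := by nlinarith
  have hτ0 : 0 ≤ (t : ℝ) ^ 2 := sq_nonneg _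
  have h6 : (t : ℝ) ^ 2 ≤ (t : ℝ) ^ 2 * τ := le_mul_of_one_le_right hτ0 hτ1
  have h7 : 9 * ((t : ℝ) * (2 * (t * (1 + 21 / 5 * τ)) + 1))
      = 18 * (t : ℝ) ^ 2 + 9 * t + (378 / 5) * ((t : ℝ) ^ 2 * τ) := by ring
  nlinarith

include hc in
/-- Jensen for cubes on paths. -/
lemma Et_cube (t : ℕ) {Φ : (Fin (t + 1) → S) → ℝ} (hΦ : ∀ z, 0 ≤ Φ z) :
    Et π P t Φ ^ 3 ≤ Et π P t (fun z => Φ z ^ 3) := by
  have hone : Et π P t (fun _ => (1 : ℝ)) = 1 := by
    rw [Et_eq]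
    simp only [hc.Ev_const, hc.Epi_const]
  set c := Et π P t Φ with hcdef
  have hc0 : 0 ≤ c := by
    have := hc.Et_mono t (Φ := fun _ => (0 : ℝ)) hΦ
    have h0 : Et π P t (fun _ => (0 : ℝ)) = 0 := by
      simp [Et]
    rwa [h0] at this
  have h1 : ∀ z, (3 * c ^ 2) * Φ z + (- (2 * c ^ 3)) * 1 ≤ Φ z ^ 3 := by
    intro z
    nlinarith [mul_nonneg (sq_nonneg (Φ z - c)) (add_nonneg (hΦ z) (mul_nonneg zero_le_two hc0))]
  have h2 := hc.Et_mono t h1
  rw [Et_add t (fun z => (3 * c ^ 2) * Φ z) (fun _ => (- (2 * c ^ 3)) * 1), Et_const_mul,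
    Et_const_mul, hone, ← hcdef] at h2
  nlinarith

include hc hanti hnorm in
/-- First-moment form. -/
theorem Et_Ym_final (t : ℕ) (ht : 1 ≤ t) :
    Et π P t (fun z => Ym ω n z) ≤ 5 * (t : ℝ) ^ ((8 : ℝ) / 9) := by
  have ht0 : (1 : ℝ) ≤ t := by exact_mod_cast ht
  have ht0' : (0 : ℝ) ≤ t := by linarith
  have h1 := Et_cube hc t (Φ := fun z => Ym ω n z) (fun z => Ym_nonneg ω n z)
  have h2 := Et_Ym_cube_final hc ω hanti n hnorm t ht
  have h3 : 0 ≤ Et π P t (fun z => Ym ω n z) := by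
    have := hc.Et_mono t (Φ := fun _ => (0 : ℝ)) (fun z => Ym_nonneg ω n z)
    have h0 : Et π P t (fun _ => (0 : ℝ)) = 0 := by
      simp [Et]
    rwa [h0] at this
  have h4 : (5 * (t : ℝ) ^ ((8 : ℝ) / 9)) ^ 3 = 125 * (t : ℝ) ^ ((8 : ℝ) / 3) := by
    have h6 : ((t : ℝ) ^ ((8 : ℝ) / 9)) ^ 3 = (t : ℝ) ^ ((8 : ℝ) / 3) := by
      rw [← Real.rpow_natCast, ← Real.rpow_mul ht0']
      norm_num
    rw [mul_pow, h6]
    norm_num
  have h5 : 0 ≤ (t : ℝ) ^ ((8 : ℝ) / 3) := by positivity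
  refine (pow_le_pow_iff_left₀ h3 (by positivity) (by norm_num : (3 : ℕ) ≠ 0)).1 ?_
  rw [h4]
  linarith

end main

end Vale.Agent.P125
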