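import Vale.Agent.Lib.P125Chain

/-!
# Mean-level estimate for the expected displacement of partial sums
-/

namespace Vale.Agent.P125

open Finset

variable {S : Type*} [Fintype S] {π : S → ℝ} {P : S → S → ℝ}

/-- Expected `j`-th coordinate increment. -/
noncomputable def bj (P : S → S → ℝ) (ω : S → S → ℕ → ℝ) (j : ℕ) (v : S) : ℝ :=
  ∑ w, P v w * ω v w j

/-- Partial sums of edge vectors. -/
noncomputable def Hk (ω : S → S → ℕ → ℝ) (k : ℕ) (v w : S) : ℝ := ∑ j ∈ range k, ω v w j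

/-- Expected displacement of the `k`-th partial sum after `L` steps. -/
noncomputable def Gw (P : S → S → ℝ) (ω : S → S → ℕ → ℝ) (k L : ℕ) (v : S) : ℝ :=
  ∑ j ∈ range k, Cum P L (bj P ω j) v

/-- Jensen for cubes on edges. -/
lemma RevChain.Ee_cube (hc : RevChain π P) {g : S → S → ℝ} (hg : ∀ v w, 0 ≤ g v w) :
    Ee π P g ^ 3 ≤ Ee π P (fun v w => g v w ^ 3) := by
  set c := Ee π P g with hcdef
  have hc0 : 0 ≤ c := hc.Ee_nonneg hg
  have h1 : ∀ v w, 3 * c ^ 2 * g v w + (- (2 * c ^ 3)) * 1 ≤ g v w ^ 3 := by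
    intro v w
    nlinarith [mul_nonneg (sq_nonneg (g v w - c)) (add_nonneg (hg v w) (mul_nonneg zero_le_two hc0))]
  have h2 := hc.Ee_mono (f := fun v w => 3 * c ^ 2 * g v w + (- (2 * c ^ 3)) * 1) h1
  have h3 : Ee π P (fun _ _ => (1 : ℝ)) = 1 := by
    have := hc.edge_one
    simpa [Ee] using this
  have h4 : Ee π P (fun v w => 3 * c ^ 2 * g v w + (- (2 * c ^ 3)) * 1)
      = 3 * c ^ 2 * Ee π P g + (- (2 * c ^ 3)) * Ee π P (fun _ _ => (1 : ℝ)) := by
    rw [Ee_add (fun v w => 3 * c ^ 2 * g v w) (fun _ _ => (- (2 * c ^ 3)) * 1), Ee_const_mul,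
      Ee_const_mul]
  rw [h4, h3, ← hcdef] at h2
  nlinarith

lemma RevChain.Ee_const (hc : RevChain π P) (c : ℝ) : Ee π P (fun _ _ => c) = c := by
  have h := Ee_const_mul (π := π) (P := P) c (fun _ _ => (1 : ℝ))
  have h3 : Ee π P (fun _ _ => (1 : ℝ)) = 1 := by
    have := hc.edge_one
    simpa [Ee] using this
  simp only [mul_one] at h
  rw [h, h3, mul_one]

/-- Mean over an edge of a function of the initial vertex. -/
lemma RevChain.Ee_left (hc : RevChain π P) (f : S → ℝ) :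
    Ee π P (fun v _ => f v) = Epi π f := by
  simp only [Ee, Epi, ← sum_mul, ← mul_sum, hc.p_one, mul_one]

/-- Mean over an edge of a function of the terminal vertex. -/
lemma RevChain.Ee_right (hc : RevChain π P) (f : S → ℝ) :
    Ee π P (fun _ w => f w) = Epi π f := by
  rw [hc.Ee_swap]
  exact hc.Ee_left f

/-- The weighted cube bound: a sub-probability mixture of numbers with cube at most `B`. -/
lemma cube_weighted (n : ℕ) (w t : ℕ → ℝ) (hw : ∀ j, 0 ≤ w j) (hsum : ∑ j ∈ range n, w j ≤ 1)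
    (B : ℝ) (hB0 : 0 ≤ B) (hB : ∀ j ∈ range n, |t j| ^ 3 ≤ B) :
    (∑ j ∈ range n, |t j| * w j) ^ 3 ≤ B := by
  rcases (range n).eq_empty_or_nonempty with h | h
  · simp [h, hB0]
  · obtain ⟨j0, hj0, hmax⟩ := exists_max_image (range n) (fun j => |t j|) h
    have h1 : ∑ j ∈ range n, |t j| * w j ≤ |t j0| := by
      calc ∑ j ∈ range n, |t j| * w j ≤ ∑ j ∈ range n, |t j0| * w j :=
            sum_le_sum fun j hj => mul_le_mul_of_nonneg_right (hmax j hj) (hw j)
        _ = |t j0| * ∑ j ∈ range n, w j := by rw [mul_sum]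
        _ ≤ |t j0| * 1 := mul_le_mul_of_nonneg_left hsum (abs_nonneg _)
        _ = |t j0| := mul_one _
    have h0 : 0 ≤ ∑ j ∈ range n, |t j| * w j :=
      sum_nonneg fun j _ => mul_nonneg (abs_nonneg _) (hw j)
    calc (∑ j ∈ range n, |t j| * w j) ^ 3 ≤ |t j0| ^ 3 := pow_le_pow_left₀ h0 h1 3
      _ ≤ B := hB j0 hj0

/-- Selection profile: `Ψ_j u = f u` when `j < p u`, and `0` otherwise. -/
noncomputable def Prof (f : S → ℝ) (p : S → ℕ) (j : ℕ) (u : S) : ℝ :=
  if j < p u then f u else 0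

lemma Prof_nonneg {f : S → ℝ} (hf : ∀ u, 0 ≤ f u) (p : S → ℕ) (j : ℕ) (u : S) :
    0 ≤ Prof f p j u := by
  unfold Prof; split_ifs
  · exact hf u
  · exact le_rfl

lemma Prof_le {f : S → ℝ} (hf : ∀ u, 0 ≤ f u) (hf1 : ∀ u, f u ≤ 1) (p : S → ℕ) (j : ℕ) (u : S) :
    Prof f p j u ≤ 1 := by
  unfold Prof; split_ifs
  · exact hf1 u
  · exact zero_le_one

lemma Prof_anti {f : S → ℝ} (hf : ∀ u, 0 ≤ f u) (p : S → ℕ) (j : ℕ) (u : S) :
    Prof f p (j + 1) u ≤ Prof f p j u := by
  unfold Prof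
  split_ifs with h1 h2 h2
  · exact le_rfl
  · exact absurd (lt_trans (Nat.lt_succ_self j) h1) h2
  · exact hf u
  · exact le_rfl

/-- Cumulated selection profile. -/
noncomputable def Cp (P : S → S → ℝ) (L : ℕ) (f : S → ℝ) (p : S → ℕ) (j : ℕ) : S → ℝ :=
  Cum P L (Prof f p j)

/-- Flip measure of the cumulated profile. -/
noncomputable def Mu (f : S → ℝ) (p : S → ℕ) (a : ℕ) (u : S) : ℝ :=
  Prof f p a u - Prof f p (a + 1) u

lemma Cum_sub (L : ℕ) (f g : S → ℝ) (v : S) :
    Cum P L f v - Cum P L g v = Cum P L (fun x => f x - g x) v := by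
  unfold Cum
  rw [← sum_sub_distrib]
  refine sum_congr rfl fun r _ => ?_
  rw [Ppow_sub]

section energy

variable (hc : RevChain π P) {f : S → ℝ} (hf : ∀ u, 0 ≤ f u) (hf1 : ∀ u, f u ≤ 1) (p : S → ℕ)
include hc hf hf1

lemma Cp_nonneg (L j : ℕ) (v : S) : 0 ≤ Cp P L f p j v :=
  hc.Cum_nonneg L (Prof_nonneg hf p j) v

lemma Cp_le (L j : ℕ) (v : S) : Cp P L f p j v ≤ L := by
  have := hc.Cum_le L (f := Prof f p j) (c := 1) (Prof_le hf hf1 p j) v
  rw [mul_one] at this
  exact this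

/-- The key local energy estimate. -/
lemma energy_bound (L a b : ℕ) :
    Ee π P (fun v w => (Cp P L f p a v - Cp P L f p (a + 1) v)
        * (Cp P L f p b w - Cp P L f p b v) ^ 2)
      ≤ 3 * (L : ℝ) ^ 2 * Epi π (Mu f p a) := by
  have hMu : ∀ u, 0 ≤ Mu f p a u := fun u => sub_nonneg.2 (Prof_anti hf p a u)
  set m : S → ℝ := Cum P L (Mu f p a) with hm
  have hmeq : ∀ v, Cp P L f p a v - Cp P L f p (a + 1) v = m v := fun v => Cum_sub L _ _ v
  have hm0 : ∀ v, 0 ≤ m v := hc.Cum_nonneg L hMu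
  set G : S → ℝ := Cp P L f p b with hG
  have hG0 : ∀ v, 0 ≤ G v := Cp_nonneg hc hf hf1 p L b
  have hG1 : ∀ v, G v ≤ L := Cp_le hc hf hf1 p L b
  have hL0 : (0 : ℝ) ≤ L := Nat.cast_nonneg L
  have hmeq' : (fun v w => (Cp P L f p a v - Cp P L f p (a + 1) v)
        * (Cp P L f p b w - Cp P L f p b v) ^ 2) = fun v w => m v * (G w - G v) ^ 2 := by
    funext v w
    rw [hmeq v]
  rw [hmeq', hc.energy m G]
  -- first term
  have h1 : Epi π (fun v => (Pop P m v - m v) * G v ^ 2)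
      ≤ (L : ℝ) ^ 2 * Epi π (Mu f p a) := by
    have : ∀ v, (Pop P m v - m v) * G v ^ 2
        ≤ (L : ℝ) ^ 2 * Ppow P L (Mu f p a) v := by
      intro v
      rw [hm, Pop_Cum]
      have hPL : 0 ≤ Ppow P L (Mu f p a) v := hc.Ppow_nonneg L hMu v
      have hG2 : G v ^ 2 ≤ (L : ℝ) ^ 2 := pow_le_pow_left₀ (hG0 v) (hG1 v) 2
      have hG3 : 0 ≤ G v ^ 2 := sq_nonneg _
      have hMuv := hMu v
      nlinarith [mul_nonneg hMuv hG3, mul_le_mul_of_nonneg_left hG2 hPL]
    calc Epi π (fun v => (Pop P m v - m v) * G v ^ 2)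
        ≤ Epi π (fun v => (L : ℝ) ^ 2 * Ppow P L (Mu f p a) v) := hc.Epi_mono this
      _ = (L : ℝ) ^ 2 * Epi π (Ppow P L (Mu f p a)) := Epi_const_mul _ _
      _ = (L : ℝ) ^ 2 * Epi π (Mu f p a) := by rw [hc.Epi_Ppow]
  -- second term
  have h2 : - (2 * Epi π (fun v => m v * G v * (Pop P G v - G v)))
      ≤ 2 * (L : ℝ) ^ 2 * Epi π (Mu f p a) := by
    have hbd : ∀ v, |Pop P G v - G v| ≤ 1 := by
      intro v
      rw [hG]
      unfold Cp
      rw [Pop_Cum]
      have h3 := hc.Ppow_nonneg L (Prof_nonneg hf p b) v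
      have h4 := hc.Ppow_le_const L (Prof_le hf hf1 p b) v
      have h5 := Prof_nonneg hf p b v
      have h6 := Prof_le hf hf1 p b v
      rw [abs_le]
      constructor <;> linarith
    have : ∀ v, - (m v * G v * (Pop P G v - G v)) ≤ (L : ℝ) * m v := by
      intro v
      have h3 := abs_le.1 (hbd v)
      have h4 : 0 ≤ m v * G v := mul_nonneg (hm0 v) (hG0 v)
      have h5 : m v * G v ≤ m v * L := mul_le_mul_of_nonneg_left (hG1 v) (hm0 v)
      nlinarith [h3.1, h3.2]
    have h6 : Epi π (fun v => - (m v * G v * (Pop P G v - G v))) ≤ Epi π (fun v => (L : ℝ) * m v) :=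
      hc.Epi_mono this
    have h7 : Epi π (fun v => - (m v * G v * (Pop P G v - G v)))
        = - Epi π (fun v => m v * G v * (Pop P G v - G v)) := by
      have := Epi_const_mul (π := π) (-1) (fun v => m v * G v * (Pop P G v - G v))
      simpa using this
    have h8 : Epi π (fun v => (L : ℝ) * m v) = (L : ℝ) * ((L : ℝ) * Epi π (Mu f p a)) := by
      rw [Epi_const_mul, hm, hc.Epi_Cum]
    rw [h7, h8] at h6
    nlinarith
  linarith

end energy

section main

variable (hc : RevChain π P) (ω : S → S → ℕ → ℝ)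

include hc in
/-- Pairing identity: move the window to the selection and symmetrise. -/
lemma pair_single (hanti : ∀ v w k, ω w v k = - ω v w k) (L j : ℕ) (Ψ : S → ℝ) :
    Epi π (fun u => Ψ u * Cum P L (bj P ω j) u)
      = (1 / 2) * Ee π P (fun v w => (Cum P L Ψ v - Cum P L Ψ w) * ω v w j) := by
  have h1 : Epi π (fun u => Ψ u * Cum P L (bj P ω j) u)
      = Epi π (fun u => Cum P L Ψ u * bj P ω j u) := by
    have e1 : ∀ (g h : S → ℝ), Epi π (fun u => g u * Cum P L h u)
        = ∑ r ∈ range L, Epi π (fun u => g u * Ppow P r h u) := by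
      intro g h
      simp only [Cum, mul_sum]
      exact Epi_sum _ _
    have e2 : ∀ (g h : S → ℝ), Epi π (fun u => Cum P L g u * h u)
        = ∑ r ∈ range L, Epi π (fun u => Ppow P r g u * h u) := by
      intro g h
      simp only [Cum, sum_mul]
      exact Epi_sum _ _
    rw [e1, e2]
    exact sum_congr rfl fun r _ => hc.Epi_mul_Ppow r _ _
  set C := Cum P L Ψ with hC
  have h2 : Epi π (fun u => C u * bj P ω j u) = Ee π P (fun v w => C v * ω v w j) := by
    simp only [Epi, Ee, bj, mul_sum]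
    refine sum_congr rfl fun v _ => sum_congr rfl fun w _ => ?_
    ring
  have h3 : Ee π P (fun v w => C v * ω v w j) = - Ee π P (fun v w => C w * ω v w j) := by
    rw [hc.Ee_swap]
    have : (fun v w => C w * ω w v j) = fun v w => (-1 : ℝ) * (C w * ω v w j) := by
      funext v w
      rw [hanti v w j]
      ring
    rw [this, Ee_const_mul]
    ring
  have h4 : Ee π P (fun v w => (C v - C w) * ω v w j)
      = Ee π P (fun v w => C v * ω v w j) - Ee π P (fun v w => C w * ω v w j) := by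
    have : (fun v w => (C v - C w) * ω v w j)
        = fun v w => C v * ω v w j + (-1 : ℝ) * (C w * ω v w j) := by
      funext v w
      ring
    rw [this, Ee_add, Ee_const_mul]
    ring
  rw [h1, h2, h4]
  linarith

variable {f : S → ℝ} (hf : ∀ u, 0 ≤ f u) (hf1 : ∀ u, f u ≤ 1) (p : S → ℕ)

/-- Expansion of the selected displacement along the profile. -/
lemma select_expand (n : ℕ) (hp : ∀ u, p u ≤ n) (L : ℕ) :
    Epi π (fun u => f u * Gw P ω (p u) L u)
      = ∑ j ∈ range n, Epi π (fun u => Prof f p j u * Cum P L (bj P ω j) u) := by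
  rw [← Epi_sum]
  refine congrArg (Epi π) (funext fun u => ?_)
  unfold Gw
  rw [mul_sum]
  have h1 : ∀ j ∈ range (p u), f u * Cum P L (bj P ω j) u
      = Prof f p j u * Cum P L (bj P ω j) u := by
    intro j hj
    have : j < p u := mem_range.1 hj
    simp [Prof, this]
  rw [sum_congr rfl h1]
  refine sum_subset (range_subset_range.2 (hp u)) (fun j _ hj => ?_)
  have : ¬ j < p u := by simpa using hj
  simp [Prof, this]

include hc in
lemma Ee_sym_half (m G : S → ℝ) :
    Ee π P (fun v w => m w * (G w - G v) ^ 2) = Ee π P (fun v w => m v * (G w - G v) ^ 2) := by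
  rw [hc.Ee_swap]
  refine congrArg (Ee π P) (funext fun v => funext fun w => ?_)
  ring

include hc in
lemma two_sided (m G G' : S → ℝ) (c : ℝ)
    (h1 : Ee π P (fun v w => m v * (G w - G v) ^ 2) ≤ c)
    (h2 : Ee π P (fun v w => m v * (G' w - G' v) ^ 2) ≤ c) :
    Ee π P (fun v w => (m v + m w) * ((G w - G v) ^ 2 + (G' w - G' v) ^ 2)) ≤ 4 * c := by
  have e : (fun v w => (m v + m w) * ((G w - G v) ^ 2 + (G' w - G' v) ^ 2))
      = fun v w => (m v * (G w - G v) ^ 2 + m v * (G' w - G' v) ^ 2)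
          + (m w * (G w - G v) ^ 2 + m w * (G' w - G' v) ^ 2) := by
    funext v w
    ring
  rw [e, Ee_add (fun v w => m v * (G w - G v) ^ 2 + m v * (G' w - G' v) ^ 2),
    Ee_add (fun v w => m v * (G w - G v) ^ 2), Ee_add (fun v w => m w * (G w - G v) ^ 2),
    Ee_sym_half hc, Ee_sym_half hc]
  linarith

include hc hf hf1 in
/-- The main mean-level estimate for a single selection. -/
lemma mean_bound (hanti : ∀ v w k, ω w v k = - ω v w k) (n : ℕ)
    (hnorm : ∀ v w, ∑ k ∈ range n, |ω v w k| ≤ 1) (hp : ∀ u, p u ≤ n) (L : ℕ) :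
    |Epi π (fun u => f u * Gw P ω (p u) L u)| ^ 3 ≤ 9 / 4 * (L : ℝ) ^ 2 * Epi π f := by
  set C : ℕ → S → ℝ := Cp P L f p with hC
  set X := Epi π (fun u => f u * Gw P ω (p u) L u) with hX
  -- non-negativity of the flips
  have hMu : ∀ a u, 0 ≤ Mu f p a u := fun a u => sub_nonneg.2 (Prof_anti hf p a u)
  have hmnn : ∀ a v, 0 ≤ C a v - C (a + 1) v := by
    intro a v
    have : C a v - C (a + 1) v = Cum P L (Mu f p a) v := Cum_sub L _ _ v
    rw [this]
    exact hc.Cum_nonneg L (hMu a) v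
  -- vanishing at the top
  have htop : ∀ v, C n v = 0 := by
    intro v
    have h0 : Prof f p n = fun _ => (0 : ℝ) := by
      funext u
      simp [Prof, not_lt.2 (hp u)]
    change Cum P L (Prof f p n) v = 0
    rw [h0]
    unfold Cum
    refine sum_eq_zero fun r _ => ?_
    exact hc.Ppow_const r 0 v
  set E : S → S → ℝ := fun v w => ∑ j ∈ range n, |C j w - C j v| * |ω v w j| with hE
  have hE0 : ∀ v w, 0 ≤ E v w := fun v w =>
    sum_nonneg fun j _ => mul_nonneg (abs_nonneg _) (abs_nonneg _)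
  set T : S → S → ℝ := fun v w => ∑ a ∈ range n, ((C a v - C (a + 1) v) + (C a w - C (a + 1) w))
      * ((C a w - C a v) ^ 2 + (C (a + 1) w - C (a + 1) v) ^ 2) with hT
  have hT0 : ∀ v w, 0 ≤ T v w := fun v w =>
    sum_nonneg fun a _ => mul_nonneg (add_nonneg (hmnn a v) (hmnn a w)) (by positivity)
  -- pointwise cube bound
  have hcube : ∀ v w, E v w ^ 3 ≤ 3 / 2 * T v w := by
    intro v w
    refine cube_weighted n (fun j => |ω v w j|) (fun j => C j w - C j v)
      (fun j => abs_nonneg _) (hnorm v w) _ (by have := hT0 v w; positivity) ?_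
    intro j hj
    have hj' : j ≤ n := le_of_lt (mem_range.1 hj)
    have h1 := abs_cube_telescope (fun j => C j w - C j v)
      (fun a => (C a v - C (a + 1) v) + (C a w - C (a + 1) w)) (fun a => by
        have h3 := hmnn a v
        have h4 := hmnn a w
        rw [abs_le]
        constructor <;> linarith) j n hj'
    simp only [htop, sub_self, ne_eq, OfNat.ofNat_ne_zero, not_false_eq_true, zero_pow, sub_zero,
      abs_pow] at h1
    refine h1.trans ?_
    refine mul_le_mul_of_nonneg_left ?_ (by norm_num)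
    refine sum_le_sum_of_subset_of_nonneg ?_ ?_
    · intro a ha
      exact mem_range.2 (mem_Ico.1 ha).2
    · intro a _ _
      exact mul_nonneg (add_nonneg (hmnn a v) (hmnn a w)) (by positivity)
  -- the global energy bound
  have hEeT : Ee π P T ≤ 12 * (L : ℝ) ^ 2 * Epi π f := by
    have e1 : Ee π P T = ∑ a ∈ range n, Ee π P (fun v w =>
        ((C a v - C (a + 1) v) + (C a w - C (a + 1) w))
          * ((C a w - C a v) ^ 2 + (C (a + 1) w - C (a + 1) v) ^ 2)) := Ee_sum _ _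
    rw [e1]
    have h2 : ∀ a ∈ range n, Ee π P (fun v w =>
        ((C a v - C (a + 1) v) + (C a w - C (a + 1) w))
          * ((C a w - C a v) ^ 2 + (C (a + 1) w - C (a + 1) v) ^ 2))
        ≤ 12 * (L : ℝ) ^ 2 * Epi π (Mu f p a) := by
      intro a _
      have := two_sided hc (fun v => C a v - C (a + 1) v) (C a) (C (a + 1))
        (3 * (L : ℝ) ^ 2 * Epi π (Mu f p a))
        (energy_bound hc hf hf1 p L a a) (energy_bound hc hf hf1 p L a (a + 1))
      linarith
    refine (sum_le_sum h2).trans ?_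
    rw [← mul_sum]
    have h3 : ∑ a ∈ range n, Epi π (Mu f p a) ≤ Epi π f := by
      have h4 : ∀ a, Epi π (Mu f p a) = Epi π (Prof f p a) - Epi π (Prof f p (a + 1)) :=
        fun a => Epi_sub _ _
      simp only [h4]
      rw [sum_range_sub']
      have h5 : 0 ≤ Epi π (Prof f p n) := hc.Epi_nonneg (Prof_nonneg hf p n)
      have h6 : Epi π (Prof f p 0) ≤ Epi π f := hc.Epi_mono (fun u => by
        unfold Prof
        split_ifs
        · exact le_rfl
        · exact hf u)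
      linarith
    have hL : 0 ≤ 12 * (L : ℝ) ^ 2 := by positivity
    exact mul_le_mul_of_nonneg_left h3 hL
  -- pairing
  have hXeq : X = (1 / 2) * Ee π P (fun v w =>
      ∑ j ∈ range n, (C j v - C j w) * ω v w j) := by
    rw [hX, select_expand ω p n hp L, Ee_sum, mul_sum]
    refine sum_congr rfl fun j _ => ?_
    exact pair_single hc ω hanti L j _
  have hD : |Ee π P (fun v w => ∑ j ∈ range n, (C j v - C j w) * ω v w j)| ≤ Ee π P E := by
    have hb : ∀ v w, |∑ j ∈ range n, (C j v - C j w) * ω v w j| ≤ E v w := by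
      intro v w
      refine (abs_sum_le_sum_abs _ _).trans (le_of_eq ?_)
      refine sum_congr rfl fun j _ => ?_
      rw [abs_mul, abs_sub_comm]
    rw [abs_le]
    constructor
    · have h1 : Ee π P (fun v w => (-1 : ℝ) * E v w)
          ≤ Ee π P (fun v w => ∑ j ∈ range n, (C j v - C j w) * ω v w j) :=
        hc.Ee_mono fun v w => by linarith [(abs_le.1 (hb v w)).1]
      rw [Ee_const_mul] at h1
      linarith
    · exact hc.Ee_mono fun v w => (abs_le.1 (hb v w)).2
  have hEE : Ee π P E ^ 3 ≤ 3 / 2 * (12 * (L : ℝ) ^ 2 * Epi π f) := by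
    calc Ee π P E ^ 3 ≤ Ee π P (fun v w => E v w ^ 3) := hc.Ee_cube hE0
      _ ≤ Ee π P (fun v w => 3 / 2 * T v w) := hc.Ee_mono hcube
      _ = 3 / 2 * Ee π P T := Ee_const_mul _ _
      _ ≤ 3 / 2 * (12 * (L : ℝ) ^ 2 * Epi π f) := by
        exact mul_le_mul_of_nonneg_left hEeT (by norm_num)
  have hX1 : |X| ≤ 1 / 2 * Ee π P E := by
    rw [hXeq, abs_mul, abs_of_pos (by norm_num : (0 : ℝ) < 1 / 2)]
    exact mul_le_mul_of_nonneg_left hD (by norm_num)
  have hX3 : |X| ^ 3 ≤ (1 / 2 * Ee π P E) ^ 3 := pow_le_pow_left₀ (abs_nonneg _) hX1 3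
  have hX4 : (1 / 2 * Ee π P E) ^ 3 = 1 / 8 * Ee π P E ^ 3 := by ring
  rw [hX4] at hX3
  nlinarith

/-- Maximal expected displacement over all partial sums. -/
noncomputable def Mx (P : S → S → ℝ) (ω : S → S → ℕ → ℝ) (n L : ℕ) (v : S) : ℝ :=
  (range (n + 1)).sup' nonempty_range_add_one (fun k => |Gw P ω k L v|)

omit [Fintype S] in
lemma le_Mx_aux {k n : ℕ} (hk : k ≤ n) (g : ℕ → ℝ) :
    |g k| ≤ (range (n + 1)).sup' nonempty_range_add_one (fun k => |g k|) :=
  le_sup' (fun k => |g k|) (mem_range.2 (Nat.lt_succ_of_le hk))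

lemma le_Mx {k n : ℕ} (hk : k ≤ n) (L : ℕ) (v : S) : |Gw P ω k L v| ≤ Mx P ω n L v :=
  le_Mx_aux hk (fun k => Gw P ω k L v)

lemma Mx_nonneg (n L : ℕ) (v : S) : 0 ≤ Mx P ω n L v :=
  (abs_nonneg _).trans (le_Mx ω (Nat.zero_le n) L v)

include hc in
/-- **Mean-level theorem**: the maximal expected displacement has cube at most `9 L²`. -/
theorem Mx_bound (hanti : ∀ v w k, ω w v k = - ω v w k) (n : ℕ)
    (hnorm : ∀ v w, ∑ k ∈ range n, |ω v w k| ≤ 1) (L : ℕ) :
    Epi π (Mx P ω n L) ^ 3 ≤ 9 * (L : ℝ) ^ 2 := by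
  have hex : ∀ u, ∃ k ∈ range (n + 1), Mx P ω n L u = |Gw P ω k L u| := fun u =>
    exists_mem_eq_sup' nonempty_range_add_one (fun k => |Gw P ω k L u|)
  choose p hp hpeq using hex
  have hp' : ∀ u, p u ≤ n := fun u => Nat.le_of_lt_succ (mem_range.1 (hp u))
  set fp : S → ℝ := fun u => if 0 ≤ Gw P ω (p u) L u then 1 else 0 with hfp
  set fm : S → ℝ := fun u => 1 - fp u with hfm
  have hfp0 : ∀ u, 0 ≤ fp u := fun u => by
    simp only [hfp]; split_ifs <;> norm_num
  have hfp1 : ∀ u, fp u ≤ 1 := fun u => by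
    simp only [hfp]; split_ifs <;> norm_num
  have hfm0 : ∀ u, 0 ≤ fm u := fun u => sub_nonneg.2 (hfp1 u)
  have hfm1 : ∀ u, fm u ≤ 1 := fun u => by
    have := hfp0 u
    simp only [hfm]; linarith
  have h1 := mean_bound hc ω hfp0 hfp1 p hanti n hnorm hp' L
  have h2 := mean_bound hc ω hfm0 hfm1 p hanti n hnorm hp' L
  set Xp := Epi π (fun u => fp u * Gw P ω (p u) L u) with hXp
  set Xm := Epi π (fun u => fm u * Gw P ω (p u) L u) with hXm
  have hdecomp : Epi π (Mx P ω n L) = Xp - Xm := by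
    rw [hXp, hXm, ← Epi_sub]
    refine congrArg (Epi π) (funext fun u => ?_)
    rw [hpeq u]
    simp only [hfm, hfp]
    split_ifs with h
    · rw [abs_of_nonneg h]; ring
    · rw [abs_of_neg (not_le.1 h)]; ring
  have hsum : Epi π fp + Epi π fm = 1 := by
    have : Epi π fm = Epi π (fun _ => (1 : ℝ)) - Epi π fp := Epi_sub _ _
    rw [this, hc.Epi_const]
    ring
  have hxy : ∀ x y : ℝ, 0 ≤ x → 0 ≤ y → (x + y) ^ 3 ≤ 4 * (x ^ 3 + y ^ 3) := by
    intro x y hx hy
    nlinarith [mul_nonneg (add_nonneg hx hy) (sq_nonneg (x - y))]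
  have h3 : Epi π (Mx P ω n L) ≤ |Xp| + |Xm| := by
    rw [hdecomp]
    have h4 := le_abs_self Xp
    have h5 := neg_abs_le Xm
    linarith
  have h0 : 0 ≤ Epi π (Mx P ω n L) := hc.Epi_nonneg (Mx_nonneg ω n L)
  calc Epi π (Mx P ω n L) ^ 3 ≤ (|Xp| + |Xm|) ^ 3 := pow_le_pow_left₀ h0 h3 3
    _ ≤ 4 * (|Xp| ^ 3 + |Xm| ^ 3) := hxy _ _ (abs_nonneg _) (abs_nonneg _)
    _ ≤ 4 * (9 / 4 * (L : ℝ) ^ 2 * Epi π fp + 9 / 4 * (L : ℝ) ^ 2 * Epi π fm) := by
      linarith
    _ = 9 * (L : ℝ) ^ 2 * (Epi π fp + Epi π fm) := by ring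
    _ = 9 * (L : ℝ) ^ 2 := by rw [hsum, mul_one]

end main

end Vale.Agent.P125
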