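import Vale.Agent.Lib.P125Mean

/-!
# Path-level calculus for a reversible chain
-/

namespace Vale.Agent.P125

open Finset

variable {S : Type*} [Fintype S] {π : S → ℝ} {P : S → S → ℝ}

/-- Prepend a vertex to a path. -/
def pc {t : ℕ} (v : S) (z : Fin (t + 1) → S) : Fin (t + 2) → S :=
  Fin.cons (α := fun _ => S) v z

omit [Fintype S] in
@[simp] lemma pc_zero {t : ℕ} (v : S) (z : Fin (t + 1) → S) : pc v z 0 = v := rfl

omit [Fintype S] in
@[simp] lemma pc_succ {t : ℕ} (v : S) (z : Fin (t + 1) → S) (i : Fin (t + 1)) :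
    pc v z i.succ = z i := rfl

/-- Expectation over paths started at `v`, by first-step recursion. -/
noncomputable def Ev (P : S → S → ℝ) : (t : ℕ) → S → ((Fin (t + 1) → S) → ℝ) → ℝ
  | 0, v, Φ => Φ (fun _ => v)
  | t + 1, v, Φ => ∑ w, P v w * Ev P t w (fun z => Φ (pc v z))

/-- Sum of an edge function along a path. -/
def Sm {t : ℕ} (g : S → S → ℝ) (z : Fin (t + 1) → S) : ℝ :=
  ∑ i : Fin t, g (z i.castSucc) (z i.succ)

omit [Fintype S] in
lemma Sm_pc {t : ℕ} (g : S → S → ℝ) (v : S) (z : Fin (t + 1) → S) :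
    Sm g (pc v z) = g v (z 0) + Sm g z := by
  unfold Sm
  rw [Fin.sum_univ_succ]
  have h1 : pc v z (1 : Fin (t + 2)) = z 0 := rfl
  simp [h1]

lemma Ev_add (t : ℕ) (v : S) (Φ Ψ : (Fin (t + 1) → S) → ℝ) :
    Ev P t v (fun z => Φ z + Ψ z) = Ev P t v Φ + Ev P t v Ψ := by
  induction t generalizing v with
  | zero => rfl
  | succ t ih =>
    simp only [Ev]
    rw [← sum_add_distrib]
    refine sum_congr rfl fun w _ => ?_
    rw [ih, mul_add]

lemma Ev_const_mul (t : ℕ) (v : S) (c : ℝ) (Φ : (Fin (t + 1) → S) → ℝ) :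
    Ev P t v (fun z => c * Φ z) = c * Ev P t v Φ := by
  induction t generalizing v with
  | zero => rfl
  | succ t ih =>
    simp only [Ev]
    rw [mul_sum]
    refine sum_congr rfl fun w _ => ?_
    rw [ih]
    ring

lemma RevChain.Ev_const (hc : RevChain π P) (t : ℕ) (v : S) (c : ℝ) :
    Ev P t v (fun _ => c) = c := by
  induction t generalizing v with
  | zero => rfl
  | succ t ih =>
    simp only [Ev, ih, ← sum_mul, hc.p_one, one_mul]

lemma RevChain.Ev_mono (hc : RevChain π P) (t : ℕ) (v : S) {Φ Ψ : (Fin (t + 1) → S) → ℝ}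
    (h : ∀ z, Φ z ≤ Ψ z) : Ev P t v Φ ≤ Ev P t v Ψ := by
  induction t generalizing v with
  | zero => exact h _
  | succ t ih =>
    simp only [Ev]
    exact sum_le_sum fun w _ =>
      mul_le_mul_of_nonneg_left (ih w (fun z => h _)) (hc.p_nonneg v w)

/-- Under `Ev P t w`, the head of the path is `w`. -/
lemma Ev_head (t : ℕ) (w : S) (Φ : S → (Fin (t + 1) → S) → ℝ) :
    Ev P t w (fun z => Φ (z 0) z) = Ev P t w (fun z => Φ w z) := by
  cases t with
  | zero => rfl
  | succ t => rfl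

/-- Iterated expected sum of an edge function. -/
noncomputable def Gr (P : S → S → ℝ) (H : S → S → ℝ) : ℕ → S → ℝ
  | 0, _ => 0
  | r + 1, v => ∑ w, P v w * (H v w + Gr P H r w)

/-- Iterated expected square of the sum of an edge function. -/
noncomputable def Qr (P : S → S → ℝ) (H : S → S → ℝ) : ℕ → S → ℝ
  | 0, _ => 0
  | r + 1, v => ∑ w, P v w * (H v w ^ 2 + 2 * H v w * Gr P H r w + Qr P H r w)

lemma RevChain.Ev_Sm (hc : RevChain π P) (H : S → S → ℝ) (t : ℕ) (v : S) :
    Ev P t v (Sm H) = Gr P H t v := by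
  induction t generalizing v with
  | zero =>
    simp [Ev, Sm, Gr]
  | succ t ih =>
    simp only [Ev, Gr]
    refine sum_congr rfl fun w _ => ?_
    congr 1
    simp only [Sm_pc]
    rw [Ev_head t w (fun x z => H v x + Sm H z), Ev_add, hc.Ev_const, ih]

lemma RevChain.Ev_Sm_sq (hc : RevChain π P) (H : S → S → ℝ) (t : ℕ) (v : S) :
    Ev P t v (fun z => Sm H z ^ 2) = Qr P H t v := by
  induction t generalizing v with
  | zero =>
    simp [Ev, Sm, Qr]
  | succ t ih =>
    simp only [Ev, Qr]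
    refine sum_congr rfl fun w _ => ?_
    congr 1
    simp only [Sm_pc]
    rw [Ev_head t w (fun x z => (H v x + Sm H z) ^ 2)]
    have e : (fun z : Fin (t + 1) → S => (H v w + Sm H z) ^ 2)
        = fun z => (fun _ => H v w ^ 2) z + ((fun z => (2 * H v w) * Sm H z) z + (fun z => Sm H z ^ 2) z) := by
      funext z
      ring
    rw [e, Ev_add, Ev_add, Ev_const_mul, hc.Ev_const, ih, hc.Ev_Sm]
    ring

/-- `Gr` for partial sums agrees with the mean-level displacement. -/
lemma Gr_Hk (ω : S → S → ℕ → ℝ) (k r : ℕ) (v : S) :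
    Gr P (Hk ω k) r v = Gw P ω k r v := by
  induction r generalizing v with
  | zero =>
    simp [Gr, Gw, Cum]
  | succ r ih =>
    simp only [Gr, ih]
    have h1 : ∀ w, P v w * (Hk ω k v w + Gw P ω k r w)
        = ∑ j ∈ range k, (P v w * ω v w j) + P v w * Gw P ω k r w := by
      intro w
      rw [mul_add, Hk, mul_sum]
    simp only [h1, sum_add_distrib]
    have h2 : ∑ w, ∑ j ∈ range k, P v w * ω v w j = ∑ j ∈ range k, bj P ω j v := by
      rw [sum_comm]
      rfl
    have h3 : ∑ w, P v w * Gw P ω k r w = ∑ j ∈ range k, Pop P (Cum P r (bj P ω j)) v := by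
      have : Gw P ω k r = fun x => ∑ j ∈ range k, Cum P r (bj P ω j) x := rfl
      rw [← Pop_sum]
      rw [← this]
      rfl
    rw [h2, h3]
    unfold Gw
    rw [← sum_add_distrib]
    refine sum_congr rfl fun j _ => ?_
    rw [Pop_Cum_eq]
    unfold Cum
    rw [sum_range_succ']
    simp only [Ppow]
    ring

/-- Envelope of the second moments. -/
noncomputable def Bnd (P : S → S → ℝ) (ω : S → S → ℕ → ℝ) (n : ℕ) : ℕ → S → ℝ
  | 0, _ => 0
  | r + 1, v => 1 + 2 * Pop P (Mx P ω n r) v + Pop P (Bnd P ω n r) v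

lemma RevChain.Bnd_nonneg (hc : RevChain π P) (ω : S → S → ℕ → ℝ) (n r : ℕ) (v : S) :
    0 ≤ Bnd P ω n r v := by
  induction r generalizing v with
  | zero => exact le_rfl
  | succ r ih =>
    simp only [Bnd]
    have h1 := hc.Pop_nonneg (f := Mx P ω n r) (fun x => Mx_nonneg ω n r x) v
    have h2 := hc.Pop_nonneg (f := Bnd P ω n r) ih v
    linarith

lemma RevChain.Epi_Bnd (hc : RevChain π P) (ω : S → S → ℕ → ℝ) (n r : ℕ) :
    Epi π (Bnd P ω n r) = r + 2 * ∑ m ∈ range r, Epi π (Mx P ω n m) := by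
  induction r with
  | zero =>
    simp [Bnd, Epi]
  | succ r ih =>
    have e : Bnd P ω n (r + 1) = fun v => (1 + 2 * Pop P (Mx P ω n r) v) + Pop P (Bnd P ω n r) v := by
      funext v
      rfl
    rw [e, Epi_add, Epi_add, Epi_const_mul, hc.Epi_const, hc.Epi_Pop, hc.Epi_Pop, ih,
      sum_range_succ]
    push_cast
    ring

lemma abs_Hk_le (ω : S → S → ℕ → ℝ) (n : ℕ) (hnorm : ∀ v w, ∑ k ∈ range n, |ω v w k| ≤ 1)
    {k : ℕ} (hk : k ≤ n) (v w : S) : |Hk ω k v w| ≤ 1 := by
  unfold Hk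
  calc |∑ j ∈ range k, ω v w j| ≤ ∑ j ∈ range k, |ω v w j| := abs_sum_le_sum_abs _ _
    _ ≤ ∑ j ∈ range n, |ω v w j| :=
      sum_le_sum_of_subset_of_nonneg (range_subset_range.2 hk) (fun _ _ _ => abs_nonneg _)
    _ ≤ 1 := hnorm v w

/-- Second-moment envelope: the `Qr` of any partial sum is dominated by `Bnd`. -/
lemma RevChain.Qr_le_Bnd (hc : RevChain π P) (ω : S → S → ℕ → ℝ) (n : ℕ)
    (hnorm : ∀ v w, ∑ k ∈ range n, |ω v w k| ≤ 1) {k : ℕ} (hk : k ≤ n) (r : ℕ) (v : S) :
    Qr P (Hk ω k) r v ≤ Bnd P ω n r v := by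
  induction r generalizing v with
  | zero => exact le_rfl
  | succ r ih =>
    simp only [Qr, Bnd]
    have h0 : ∀ w, P v w * ((Hk ω k v w) ^ 2 + 2 * Hk ω k v w * Gr P (Hk ω k) r w
          + Qr P (Hk ω k) r w)
        ≤ P v w * (1 + 2 * Mx P ω n r w + Bnd P ω n r w) := by
      intro w
      refine mul_le_mul_of_nonneg_left ?_ (hc.p_nonneg v w)
      have h1 := abs_Hk_le ω n hnorm hk v w
      have h2 := le_Mx (P := P) ω hk r w
      rw [← Gr_Hk] at h2
      have h3 := ih w
      have h4 : Hk ω k v w ^ 2 ≤ 1 := by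
        rw [← sq_abs]
        exact pow_le_one₀ (abs_nonneg _) h1
      have h5 : 2 * Hk ω k v w * Gr P (Hk ω k) r w ≤ 2 * Mx P ω n r w := by
        have h6 : |Hk ω k v w * Gr P (Hk ω k) r w| ≤ 1 * Mx P ω n r w := by
          rw [abs_mul]
          exact mul_le_mul h1 h2 (abs_nonneg _) zero_le_one
        have h7 := (abs_le.1 h6).2
        linarith
      linarith
    refine (sum_le_sum fun w _ => h0 w).trans (le_of_eq ?_)
    have : ∀ w, P v w * (1 + 2 * Mx P ω n r w + Bnd P ω n r w)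
        = P v w + 2 * (P v w * Mx P ω n r w) + P v w * Bnd P ω n r w := by
      intro w; ring
    simp only [this, sum_add_distrib, ← mul_sum, hc.p_one]
    rfl

omit [Fintype S] in
lemma prod_pc {t : ℕ} (v : S) (y : Fin (t + 1) → S) :
    ∏ s : Fin (t + 1), P (pc v y s.castSucc) (pc v y s.succ)
      = P v (y 0) * ∏ s : Fin t, P (y s.castSucc) (y s.succ) := by
  rw [Fin.prod_univ_succ]
  have h1 : pc v y (1 : Fin (t + 2)) = y 0 := rfl
  simp [h1]

/-- Sum over paths, splitting off the head. -/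
lemma sum_pc {t : ℕ} (F : (Fin (t + 2) → S) → ℝ) :
    ∑ z, F z = ∑ v, ∑ y : Fin (t + 1) → S, F (pc v y) := by
  rw [← Fintype.sum_prod_type']
  exact (Fintype.sum_equiv (Fin.consEquiv (fun _ => S)) _ _ (fun _ => rfl)).symm

/-- Bridge between sums over all tuples and the first-step recursion. -/
lemma tuple_sum_eq (t : ℕ) (c : S → ℝ) (Φ : (Fin (t + 1) → S) → ℝ) :
    ∑ z : Fin (t + 1) → S, c (z 0) * (∏ s : Fin t, P (z s.castSucc) (z s.succ)) * Φ z
      = ∑ v, c v * Ev P t v Φ := by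
  induction t generalizing c with
  | zero =>
    refine Fintype.sum_equiv (Equiv.funUnique (Fin 1) S) _ (fun v => c v * Ev P 0 v Φ) ?_
    intro z
    have h : (fun _ : Fin 1 => z default) = z := by
      funext i
      rw [Subsingleton.elim i default]
    simp only [Ev, Fin.prod_univ_zero, mul_one, Equiv.funUnique_apply]
    rw [h]
    rfl
  | succ t ih =>
    rw [sum_pc]
    refine sum_congr rfl fun v _ => ?_
    simp only [pc_zero, prod_pc, Ev]
    rw [← ih (P v) (fun z => Φ (pc v z)), mul_sum]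
    refine sum_congr rfl fun y _ => ?_
    ring

/-- Expectation of a functional over the stationary path space. -/
noncomputable def Et (π : S → ℝ) (P : S → S → ℝ) (t : ℕ) (Φ : (Fin (t + 1) → S) → ℝ) : ℝ :=
  ∑ z : Fin (t + 1) → S, π (z 0) * (∏ s : Fin t, P (z s.castSucc) (z s.succ)) * Φ z

lemma Et_eq (t : ℕ) (Φ : (Fin (t + 1) → S) → ℝ) :
    Et π P t Φ = Epi π (fun v => Ev P t v Φ) := tuple_sum_eq t π Φ

lemma RevChain.weight_nonneg (hc : RevChain π P) (t : ℕ) (z : Fin (t + 1) → S) :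
    0 ≤ π (z 0) * ∏ s : Fin t, P (z s.castSucc) (z s.succ) :=
  mul_nonneg (hc.pi_nonneg _) (prod_nonneg fun _ _ => hc.p_nonneg _ _)

lemma RevChain.Et_mono (hc : RevChain π P) (t : ℕ) {Φ Ψ : (Fin (t + 1) → S) → ℝ}
    (h : ∀ z, Φ z ≤ Ψ z) : Et π P t Φ ≤ Et π P t Ψ :=
  sum_le_sum fun z _ => mul_le_mul_of_nonneg_left (h z) (hc.weight_nonneg t z)

lemma Et_add (t : ℕ) (Φ Ψ : (Fin (t + 1) → S) → ℝ) :
    Et π P t (fun z => Φ z + Ψ z) = Et π P t Φ + Et π P t Ψ := by
  simp only [Et, mul_add, sum_add_distrib]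

lemma Et_const_mul (t : ℕ) (c : ℝ) (Φ : (Fin (t + 1) → S) → ℝ) :
    Et π P t (fun z => c * Φ z) = c * Et π P t Φ := by
  simp only [Et, mul_sum]
  refine sum_congr rfl fun z _ => ?_
  ring

lemma Et_sum {ι : Type*} (u : Finset ι) (t : ℕ) (Φ : ι → (Fin (t + 1) → S) → ℝ) :
    Et π P t (fun z => ∑ i ∈ u, Φ i z) = ∑ i ∈ u, Et π P t (Φ i) := by
  simp only [Et, mul_sum]
  rw [sum_comm]

/-- Detailed balance along a path. -/
lemma RevChain.weight_rev (hc : RevChain π P) (t : ℕ) (z : Fin (t + 1) → S) :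
    π (z 0) * ∏ s : Fin t, P (z s.castSucc) (z s.succ)
      = π (z (Fin.last t)) * ∏ s : Fin t, P (z s.succ) (z s.castSucc) := by
  induction t with
  | zero =>
    simp
  | succ t ih =>
    rw [Fin.prod_univ_castSucc, Fin.prod_univ_castSucc]
    have h : π (z 0) * ∏ s : Fin t, P (z s.castSucc.castSucc) (z s.succ.castSucc)
        = π (z (Fin.last t).castSucc) * ∏ s : Fin t, P (z s.succ.castSucc) (z s.castSucc.castSucc) :=
      ih (fun i => z i.castSucc)
    simp only [Fin.succ_castSucc, Fin.succ_last]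
    have hr := hc.rev (z (Fin.last t).castSucc) (z (Fin.last (t + 1)))
    rw [← mul_assoc, h]
    linear_combination (∏ s : Fin t, P (z s.succ.castSucc) (z s.castSucc.castSucc)) * hr

/-- Reversal of paths preserves the stationary path measure. -/
lemma RevChain.Et_rev (hc : RevChain π P) (t : ℕ) (Φ : (Fin (t + 1) → S) → ℝ) :
    Et π P t Φ = Et π P t (fun z => Φ (fun i => z (Fin.rev i))) := by
  have hinv : Function.Involutive (fun (z : Fin (t + 1) → S) (i : Fin (t + 1)) => z (Fin.rev i)) := by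
    intro z
    funext i
    simp only [Fin.rev_rev]
  refine Fintype.sum_equiv hinv.toPerm _ _ ?_
  intro z
  have h1 : (fun i => (fun i => z (Fin.rev i)) (Fin.rev i)) = z := hinv z
  have hw : π (z 0) * (∏ s : Fin t, P (z s.castSucc) (z s.succ))
      = π ((fun i => z (Fin.rev i)) 0)
        * ∏ s : Fin t, P ((fun i => z (Fin.rev i)) s.castSucc) ((fun i => z (Fin.rev i)) s.succ) := by
    rw [hc.weight_rev]
    simp only [Fin.rev_zero, Fin.rev_castSucc, Fin.rev_succ]
    congr 1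
    exact (Equiv.prod_comp Fin.revPerm (fun s : Fin t => P (z s.succ) (z s.castSucc))).symm
  simp only [Function.Involutive.coe_toPerm]
  rw [h1, hw]

/-- Sum of an edge function after a marker. -/
def Bk {t : ℕ} (H : S → S → ℝ) (z : Fin (t + 1) → S) (s : Fin t) : ℝ :=
  ∑ i : Fin t, if s < i then H (z i.castSucc) (z i.succ) else 0

/-- Sum of an edge function before a marker. -/
def Ak {t : ℕ} (H : S → S → ℝ) (z : Fin (t + 1) → S) (s : Fin t) : ℝ :=
  ∑ i : Fin t, if i < s then H (z i.castSucc) (z i.succ) else 0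

omit [Fintype S] in
lemma Sm_split {t : ℕ} (H : S → S → ℝ) (z : Fin (t + 1) → S) (s : Fin t) :
    Sm H z = Ak H z s + H (z s.castSucc) (z s.succ) + Bk H z s := by
  have h1 : H (z s.castSucc) (z s.succ)
      = ∑ i : Fin t, if i = s then H (z i.castSucc) (z i.succ) else 0 := by
    rw [Finset.sum_ite_eq' univ s]
    simp
  rw [h1]
  unfold Sm Ak Bk
  rw [← sum_add_distrib, ← sum_add_distrib]
  refine sum_congr rfl fun i _ => ?_
  rcases lt_trichotomy i s with h | h | h
  · simp [h, h.ne, not_lt.2 h.le]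
  · simp [h]
  · simp [h, h.ne', not_lt.2 h.le]

omit [Fintype S] in
lemma Bk_pc_zero {t : ℕ} (H : S → S → ℝ) (v : S) (z : Fin (t + 1) → S) :
    Bk H (pc v z) 0 = Sm H z := by
  unfold Bk Sm
  rw [Fin.sum_univ_succ]
  simp [Fin.succ_pos]

omit [Fintype S] in
lemma Bk_pc_succ {t : ℕ} (H : S → S → ℝ) (v : S) (z : Fin (t + 1) → S) (s : Fin t) :
    Bk H (pc v z) s.succ = Bk H z s := by
  unfold Bk
  rw [Fin.sum_univ_succ]
  simp

omit [Fintype S] in
lemma pc_castSucc_zero {t : ℕ} (v : S) (z : Fin (t + 1) → S) :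
    pc v z (0 : Fin (t + 1)).castSucc = v := rfl

omit [Fintype S] in
lemma pc_succ_zero {t : ℕ} (v : S) (z : Fin (t + 1) → S) :
    pc v z (0 : Fin (t + 1)).succ = z 0 := rfl

omit [Fintype S] in
lemma pc_castSucc_succ {t : ℕ} (v : S) (z : Fin (t + 1) → S) (s : Fin t) :
    pc v z s.succ.castSucc = z s.castSucc := by
  rw [← Fin.succ_castSucc, pc_succ]

/-- Marker with the future of the path: Markov property and stationarity. -/
lemma RevChain.future (hc : RevChain π P) (a H : S → S → ℝ) (t : ℕ) (s : Fin t) :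
    Epi π (fun v => Ev P t v (fun z => a (z s.castSucc) (z s.succ) * Bk H z s ^ 2))
      = Ee π P (fun v w => a v w * Qr P H (t - 1 - s) w) := by
  induction t with
  | zero => exact s.elim0
  | succ t ih =>
    refine Fin.cases ?_ (fun s => ?_) s
    · simp only [Ev, pc_castSucc_zero, pc_succ_zero, Bk_pc_zero]
      have h : ∀ v w, Ev P t w (fun z => a v (z 0) * Sm H z ^ 2) = a v w * Qr P H t w := by
        intro v w
        rw [Ev_head t w (fun x z => a v x * Sm H z ^ 2), Ev_const_mul, hc.Ev_Sm_sq]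
      simp only [h]
      simp only [Epi, Ee, mul_sum, Fin.val_zero, Nat.add_sub_cancel, Nat.sub_zero]
      refine sum_congr rfl fun v _ => sum_congr rfl fun w _ => ?_
      ring
    · have e : t + 1 - 1 - (s.succ : ℕ) = t - 1 - (s : ℕ) := by
        rw [Fin.val_succ]
        omega
      rw [e, ← ih s,
        ← hc.Epi_Pop (fun w => Ev P t w (fun z => a (z s.castSucc) (z s.succ) * Bk H z s ^ 2))]
      refine congrArg (Epi π) (funext fun v => ?_)
      simp only [Ev, Pop, pc_castSucc_succ, Bk_pc_succ, pc_succ]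

/-- Marker alone. -/
lemma RevChain.edge_mean (hc : RevChain π P) (a : S → S → ℝ) (t : ℕ) (s : Fin t) :
    Epi π (fun v => Ev P t v (fun z => a (z s.castSucc) (z s.succ))) = Ee π P a := by
  induction t with
  | zero => exact s.elim0
  | succ t ih =>
    refine Fin.cases ?_ (fun s => ?_) s
    · simp only [Ev, pc_castSucc_zero, pc_succ_zero]
      have h : ∀ v w, Ev P t w (fun z => a v (z 0)) = a v w := by
        intro v w
        rw [Ev_head t w (fun x _ => a v x), hc.Ev_const]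
      simp only [h]
      simp only [Epi, Ee, mul_sum]
      refine sum_congr rfl fun v _ => sum_congr rfl fun w _ => ?_
      ring
    · rw [← ih s, ← hc.Epi_Pop (fun w => Ev P t w (fun z => a (z s.castSucc) (z s.succ)))]
      refine congrArg (Epi π) (funext fun v => ?_)
      simp only [Ev, Pop, pc_castSucc_succ, pc_succ]

omit [Fintype S] in
lemma Ak_rev {t : ℕ} (H : S → S → ℝ) (hanti : ∀ v w, H w v = - H v w) (z : Fin (t + 1) → S)
    (s : Fin t) :
    Ak H (fun i => z (Fin.rev i)) s = - Bk H z (Fin.rev s) := by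
  unfold Ak Bk
  rw [← sum_neg_distrib]
  rw [← Equiv.sum_comp Fin.revPerm
    (fun i : Fin t => - (if Fin.rev s < i then H (z i.castSucc) (z i.succ) else 0))]
  refine sum_congr rfl fun i _ => ?_
  simp only [Fin.revPerm_apply, Fin.rev_castSucc, Fin.rev_succ, Fin.rev_lt_rev]
  split_ifs
  · exact hanti _ _
  · simp

/-- Marker with the past of the path, via reversal. -/
lemma RevChain.past (hc : RevChain π P) (a H : S → S → ℝ) (hsym : ∀ v w, a w v = a v w)
    (hanti : ∀ v w, H w v = - H v w) (t : ℕ) (s : Fin t) :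
    Et π P t (fun z => a (z s.castSucc) (z s.succ) * Ak H z s ^ 2)
      = Ee π P (fun v w => a v w * Qr P H s w) := by
  rw [hc.Et_rev, Et_eq]
  have e : (s : ℕ) = t - 1 - (Fin.rev s : ℕ) := by
    rw [Fin.val_rev]
    have := s.isLt
    omega
  rw [e, ← hc.future a H t (Fin.rev s)]
  refine congrArg (Epi π) (funext fun v => ?_)
  refine congrArg (Ev P t v) (funext fun z => ?_)
  rw [Ak_rev H hanti]
  simp only [Fin.rev_castSucc, Fin.rev_succ]
  rw [hsym]
  ring

lemma RevChain.Ee_sym_right (hc : RevChain π P) (a : S → S → ℝ) (hsym : ∀ v w, a w v = a v w)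
    (Q : S → ℝ) :
    Ee π P (fun v w => a v w * Q w) = Ee π P (fun v w => a v w * Q v) := by
  rw [hc.Ee_swap]
  refine congrArg (Ee π P) (funext fun v => funext fun w => ?_)
  rw [hsym]

/-- Second moment of the whole sum against a marker. -/
lemma RevChain.marker_total (hc : RevChain π P) (a H : S → S → ℝ) (hsym : ∀ v w, a w v = a v w)
    (ha0 : ∀ v w, 0 ≤ a v w) (hanti : ∀ v w, H w v = - H v w) (hH : ∀ v w, |H v w| ≤ 1)
    (t : ℕ) (s : Fin t) :
    Et π P t (fun z => a (z s.castSucc) (z s.succ) * Sm H z ^ 2)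
      ≤ 3 * Ee π P (fun v w => a v w * Qr P H s v) + 3 * Ee π P a
        + 3 * Ee π P (fun v w => a v w * Qr P H (t - 1 - s) v) := by
  have h1 : ∀ z : Fin (t + 1) → S, a (z s.castSucc) (z s.succ) * Sm H z ^ 2
      ≤ 3 * (a (z s.castSucc) (z s.succ) * Ak H z s ^ 2) + 3 * a (z s.castSucc) (z s.succ)
        + 3 * (a (z s.castSucc) (z s.succ) * Bk H z s ^ 2) := by
    intro z
    rw [Sm_split H z s]
    set x := a (z s.castSucc) (z s.succ) with hx
    have hx0 : 0 ≤ x := ha0 _ _
    set h := H (z s.castSucc) (z s.succ) with hh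
    have hh1 : h ^ 2 ≤ 1 := by
      rw [← sq_abs]
      exact pow_le_one₀ (abs_nonneg _) (hH _ _)
    set A := Ak H z s
    set B := Bk H z s
    have h2 : (A + h + B) ^ 2 ≤ 3 * A ^ 2 + 3 * h ^ 2 + 3 * B ^ 2 := by
      nlinarith [sq_nonneg (A - h), sq_nonneg (A - B), sq_nonneg (h - B)]
    have h3 : x * (A + h + B) ^ 2 ≤ x * (3 * A ^ 2 + 3 * h ^ 2 + 3 * B ^ 2) :=
      mul_le_mul_of_nonneg_left h2 hx0
    nlinarith [mul_le_mul_of_nonneg_left hh1 hx0]
  refine (hc.Et_mono t h1).trans (le_of_eq ?_)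
  rw [Et_add t (fun z => 3 * (a (z s.castSucc) (z s.succ) * Ak H z s ^ 2)
      + 3 * a (z s.castSucc) (z s.succ)),
    Et_add t (fun z => 3 * (a (z s.castSucc) (z s.succ) * Ak H z s ^ 2)),
    Et_const_mul, Et_const_mul, Et_const_mul, hc.past a H hsym hanti, Et_eq, Et_eq,
    hc.future a H, hc.edge_mean, hc.Ee_sym_right a hsym, hc.Ee_sym_right a hsym]

end Vale.Agent.P125
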