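import Vale.Agent.Lib.P183_Defs

/-!
General reductions for representability: unary presentations, the descent to a quotient, and
powers of a unary presentation.
-/

namespace Vale.Agent.P183

open Classical

/-- `θ` presents `L` as the lattice of all equivalences compatible with the maps preserving
every `θ x`. -/
structure UnaryRep {L B : Type} [PartialOrder L] (θ : L → Setoid B) : Prop where
  le_iff : ∀ x y, θ x ≤ θ y ↔ x ≤ y
  classify : ∀ Ψ : Setoid B,
    (∀ g : B → B, (∀ x a b, θ x a b → θ x (g a) (g b)) → ∀ a b, Ψ a b → Ψ (g a) (g b)) →
      ∃ v, Ψ = θ v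

/-- An equivalence compatible with all translations of an operation is compatible with the
operation. -/
theorem compat_of_translations {A : Type} {n : ℕ} (op : (Fin n → A) → A) (Ψ : Setoid A)
    (h : ∀ (z : Fin n → A) (j : Fin n) (c c' : A), Ψ c c' →
      Ψ (op (Function.update z j c)) (op (Function.update z j c')))
    (x y : Fin n → A) (hxy : ∀ j, Ψ (x j) (y j)) : Ψ (op x) (op y) := by
  have key : ∀ S : Finset (Fin n), Ψ (op x) (op (fun j => if j ∈ S then y j else x j)) := by
    intro S
    induction S using Finset.induction_on with
    | empty => simp only [Finset.notMem_empty, if_false]; exact Ψ.refl' _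
    | insert a S ha ih =>
      refine Ψ.trans' ih ?_
      have h1 := h (fun j => if j ∈ S then y j else x j) a (x a) (y a) (hxy a)
      have e1 : Function.update (fun j => if j ∈ S then y j else x j) a (x a)
          = (fun j => if j ∈ S then y j else x j) := by
        funext j
        by_cases hj : j = a
        · subst hj; simp [ha]
        · simp [Function.update_of_ne hj]
      have e2 : Function.update (fun j => if j ∈ S then y j else x j) a (y a)
          = (fun j => if j ∈ insert a S then y j else x j) := by
        funext j
        by_cases hj : j = a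
        · subst hj; simp
        · simp [Finset.mem_insert, hj]
      rw [e1, e2] at h1
      exact h1
  have := key Finset.univ
  simpa using this

/-- A representable poset has a unary presentation on a finite nonempty set. -/
theorem exists_unaryRep {L : Type} [PartialOrder L] (h : Representable L) :
    ∃ (B : Type) (_ : Finite B) (_ : Nonempty B) (θ : L → Setoid B), UnaryRep θ := by
  obtain ⟨A, ι, hA, hne, hι, ar, op, ⟨e⟩⟩ := h
  refine ⟨A, hA, hne, fun x => (e x).1, ⟨?_, ?_⟩⟩
  · intro x y
    exact e.le_iff_le
  · intro Ψ hΨ
    have hcon : IsCongruence op Ψ := by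
      intro i x y hxy
      refine compat_of_translations (op i) Ψ ?_ x y hxy
      intro z j c c' hcc
      refine hΨ (fun t => op i (Function.update z j t)) ?_ c c' hcc
      intro v a b hab
      refine (e v).2 i _ _ ?_
      intro k
      by_cases hk : k = j
      · subst hk; simpa using hab
      · simp only [Function.update_of_ne hk]; exact (e v).1.refl' _
    refine ⟨e.symm ⟨Ψ, hcon⟩, ?_⟩
    simp

/-- Descent to the quotient: a family of equivalences on a finite set that is closed under the
classification below gives a representation. -/
theorem representable_of_family {X Z : Type} [Finite X] [Nonempty X] [PartialOrder Z]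
    (R : Z → Setoid X) (hle : ∀ z z', R z ≤ R z' ↔ z ≤ z') (bot : Z) (hbot : ∀ z, bot ≤ z)
    (hclass : ∀ Ψ : Setoid X, R bot ≤ Ψ →
      (∀ g : X → X, (∀ z a b, R z a b → R z (g a) (g b)) → ∀ a b, Ψ a b → Ψ (g a) (g b)) →
      ∃ z, Ψ = R z) : Representable Z := by
  -- the carrier
  let A : Type := Quotient (R bot)
  let mk : X → A := fun a => Quotient.mk (R bot) a
  have mk_eq : ∀ a b, mk a = mk b ↔ R bot a b := fun a b => Quotient.eq (r := R bot)
  let ι : Type := {g : X → X // ∀ z a b, R z a b → R z (g a) (g b)}
  let lift : ι → A → A := fun g =>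
    Quotient.lift (s := R bot) (fun a => mk (g.1 a)) (fun a b hab => (mk_eq _ _).2 (g.2 bot a b hab))
  have lift_mk : ∀ g a, lift g (mk a) = mk (g.1 a) := fun g a => rfl
  let ar : ι → ℕ := fun _ => 1
  let op : ∀ i, (Fin (ar i) → A) → A := fun g x => lift g (x ⟨0, Nat.one_pos⟩)
  -- the congruence attached to `z`
  let fac : ∀ z : Z, A → Quotient (R z) := fun z =>
    Quotient.lift (s := R bot) (fun a => Quotient.mk (R z) a)
      (fun a b hab => Quotient.sound (s := R z) (((hle bot z).2 (hbot z)) hab))
  have fac_mk : ∀ z a, fac z (mk a) = Quotient.mk (R z) a := fun z a => rfl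
  let S : Z → Setoid A := fun z => Setoid.ker (fac z)
  have S_mk : ∀ z a b, S z (mk a) (mk b) ↔ R z a b := by
    intro z a b
    change fac z (mk a) = fac z (mk b) ↔ _
    rw [fac_mk, fac_mk]
    exact Quotient.eq (r := R z)
  have mk_surj : ∀ p : A, ∃ a, mk a = p := fun p => Quotient.exists_rep p
  have Scon : ∀ z, IsCongruence op (S z) := by
    intro z g x y hxy
    obtain ⟨a, ha⟩ := mk_surj (x ⟨0, Nat.one_pos⟩)
    obtain ⟨b, hb⟩ := mk_surj (y ⟨0, Nat.one_pos⟩)
    have h0 := hxy ⟨0, Nat.one_pos⟩
    rw [← ha, ← hb, S_mk] at h0
    change S z (lift g (x ⟨0, Nat.one_pos⟩)) (lift g (y ⟨0, Nat.one_pos⟩))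
    rw [← ha, ← hb, lift_mk, lift_mk, S_mk]
    exact g.2 z a b h0
  let f : Z → ConLat op := fun z => ⟨S z, Scon z⟩
  have f_le : ∀ z z', f z ≤ f z' ↔ z ≤ z' := by
    intro z z'
    rw [← hle z z']
    constructor
    · intro h a b hab
      have : S z (mk a) (mk b) := (S_mk z a b).2 hab
      exact (S_mk z' a b).1 (h this)
    · intro h p q hpq
      obtain ⟨a, rfl⟩ := mk_surj p
      obtain ⟨b, rfl⟩ := mk_surj q
      exact (S_mk z' a b).2 (h ((S_mk z a b).1 hpq))
  have f_inj : Function.Injective f := by
    intro z z' hzz
    exact le_antisymm ((f_le z z').1 (le_of_eq hzz)) ((f_le z' z).1 (le_of_eq hzz.symm))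
  have f_surj : Function.Surjective f := by
    rintro ⟨T, hT⟩
    let Ψ : Setoid X := Setoid.comap mk T
    have hΨ : ∀ a b, Ψ a b ↔ T (mk a) (mk b) := fun a b => Iff.rfl
    have h1 : R bot ≤ Ψ := by
      intro a b hab
      rw [hΨ, (mk_eq a b).2 hab]
    have h2 : ∀ g : X → X, (∀ z a b, R z a b → R z (g a) (g b)) →
        ∀ a b, Ψ a b → Ψ (g a) (g b) := by
      intro g hg a b hab
      have := hT (⟨g, hg⟩ : ι) (fun _ => mk a) (fun _ => mk b) (fun _ => hab)
      exact this
    obtain ⟨z, hz⟩ := hclass Ψ h1 h2
    refine ⟨z, ?_⟩
    apply Subtype.ext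
    change S z = T
    ext p q
    obtain ⟨a, rfl⟩ := mk_surj p
    obtain ⟨b, rfl⟩ := mk_surj q
    rw [S_mk, ← hz]
    exact (hΨ a b)
  have hAfin : Finite A := Quotient.finite _
  have hAne : Nonempty A := ⟨mk (Classical.arbitrary X)⟩
  have hιfin : Finite ι := Subtype.finite
  refine ⟨A, ι, hAfin, hAne, hιfin, ar, op, ⟨?_⟩⟩
  exact
    { toEquiv := Equiv.ofBijective f ⟨f_inj, f_surj⟩
      map_rel_iff' := fun {a b} => f_le a b }

/-- The pointwise extension of a family of equivalences to a power. -/
def powerSetoid {L B : Type} (θ : L → Setoid B) (E : Type) (x : L) : Setoid (E → B) where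
  r := fun f f' => ∀ e, θ x (f e) (f' e)
  iseqv :=
    { refl := fun f e => (θ x).refl' (f e)
      symm := fun h e => (θ x).symm' (h e)
      trans := fun h h' e => (θ x).trans' (h e) (h' e) }

theorem powerSetoid_apply {L B : Type} (θ : L → Setoid B) (E : Type) (x : L) (f f' : E → B) :
    powerSetoid θ E x f f' ↔ ∀ e, θ x (f e) (f' e) := Iff.rfl

/-- A finite nonempty power of a unary presentation is a unary presentation. -/
theorem UnaryRep.power {L B : Type} [PartialOrder L] {θ : L → Setoid B} [Nonempty B]
    (h : UnaryRep θ) (E : Type) [Finite E] [Nonempty E] : UnaryRep (powerSetoid θ E) := by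
  refine ⟨?_, ?_⟩
  · intro x y
    rw [← h.le_iff x y]
    constructor
    · intro hle a b hab
      have h1 : powerSetoid θ E x (fun _ => a) (fun _ => b) := fun _ => hab
      exact hle h1 (Classical.arbitrary E)
    · intro hle f f' hff e
      exact hle (hff e)
  · intro Ψ hΨ
    let e0 : E := Classical.arbitrary E
    let w0 : B := Classical.arbitrary B
    let ins : B → (E → B) := fun b => Function.update (fun _ => w0) e0 b
    have ins_e0 : ∀ b, ins b e0 = b := fun b => by simp [ins]
    let ΨB : Setoid B := Setoid.comap ins Ψ
    have hΨB : ∀ a b, ΨB a b ↔ Ψ (ins a) (ins b) := fun a b => Iff.rfl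
    have ins_pres : ∀ x a b, θ x a b → powerSetoid θ E x (ins a) (ins b) := by
      intro x a b hab e
      by_cases he : e = e0
      · subst he; rw [ins_e0, ins_e0]; exact hab
      · simp only [ins, Function.update_of_ne he]; exact (θ x).refl' _
    -- compatibility of `ΨB`
    have hcomp : ∀ g : B → B, (∀ x a b, θ x a b → θ x (g a) (g b)) →
        ∀ a b, ΨB a b → ΨB (g a) (g b) := by
      intro g hg a b hab
      have := hΨ (fun t => ins (g (t e0))) ?_ _ _ hab
      · simpa [hΨB, ins_e0] using this
      · intro x t t' htt
        exact ins_pres x _ _ (hg x _ _ (htt e0))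
    obtain ⟨v, hv⟩ := h.classify ΨB hcomp
    refine ⟨v, ?_⟩
    ext f f'
    constructor
    · intro hff e
      have h1 : Ψ (ins (f e)) (ins (f' e)) := by
        refine hΨ (fun t => ins (t e)) ?_ _ _ hff
        intro x t t' htt
        exact ins_pres x _ _ (htt e)
      have h2 : ΨB (f e) (f' e) := h1
      rw [hv] at h2
      exact h2
    · intro hff
      have := Fintype.ofFinite E
      have key : ∀ S : Finset E, Ψ f (fun e => if e ∈ S then f' e else f e) := by
        intro S
        induction S using Finset.induction_on with
        | empty => simp only [Finset.notMem_empty, if_false]; exact Ψ.refl' _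
        | insert a S ha ih =>
          refine Ψ.trans' ih ?_
          have hb : ΨB (f a) (f' a) := by rw [hv]; exact hff a
          have h1 := hΨ (fun t => Function.update (fun e => if e ∈ S then f' e else f e) a (t e0))
            ?_ _ _ hb
          · have e1 : Function.update (fun e => if e ∈ S then f' e else f e) a
                (ins (f a) e0) = (fun e => if e ∈ S then f' e else f e) := by
              funext j
              by_cases hj : j = a
              · subst hj; simp [ins_e0, ha]
              · simp [Function.update_of_ne hj]
            have e2 : Function.update (fun e => if e ∈ S then f' e else f e) a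
                (ins (f' a) e0) = (fun e => if e ∈ insert a S then f' e else f e) := by
              funext j
              by_cases hj : j = a
              · subst hj; simp [ins_e0]
              · simp [Function.update_of_ne hj, Finset.mem_insert, hj]
            rw [e1, e2] at h1
            exact h1
          · intro x t t' htt j
            by_cases hj : j = a
            · subst hj; simpa using htt e0
            · simp only [Function.update_of_ne hj]; exact (θ x).refl' _
      have := key Finset.univ
      simpa using this

end Vale.Agent.P183
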