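import Vale.Agent.Lib.P183_Glue2

/-!
The class of lattices obtained from a one-element lattice by repeated convex doublings.
-/

namespace Vale.Agent.P183

/-- The class of posets obtained from a one-element poset by finitely many doublings at nonempty
convex sets, up to order isomorphism (finite congruence-normal lattices, in Day's terminology). -/
inductive CongruenceNormal : (L : Type) → [PartialOrder L] → Prop
  | base (L : Type) [PartialOrder L] [Unique L] : CongruenceNormal L
  | doubling (L : Type) [PartialOrder L] (U : UpperSet L) (D : LowerSet L)
      (hUD : ∃ c, c ∈ U ∧ c ∈ D) (h : CongruenceNormal L) : CongruenceNormal (ConvexDoubling L U D)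
  | iso (L M : Type) [PartialOrder L] [PartialOrder M] (e : L ≃o M) (h : CongruenceNormal L) :
      CongruenceNormal M

/-- A one-element poset is representable. -/
theorem representable_unique (L : Type) [PartialOrder L] [Unique L] : Representable L := by
  refine ⟨Unit, Empty, inferInstance, inferInstance, inferInstance, fun e => e.elim,
    fun e => e.elim, ⟨?_⟩⟩
  have hinj : ∀ x y : ConLat (A := Unit) (ι := Empty) (ar := fun e => e.elim)
      (fun e => e.elim), x = y := by
    intro x y
    apply Subtype.ext
    ext a b
    constructor <;> intro _
    · have : a = b := Subsingleton.elim a b
      rw [this]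
    · have : a = b := Subsingleton.elim a b
      rw [this]
  let c : ConLat (A := Unit) (ι := Empty) (ar := fun e => e.elim) (fun e => e.elim) :=
    ⟨⊥, fun e => e.elim⟩
  exact
    { toFun := fun _ => c
      invFun := fun _ => default
      left_inv := fun x => Subsingleton.elim _ _
      right_inv := fun x => hinj _ _
      map_rel_iff' := by
        intro a b
        have : a = b := Subsingleton.elim a b
        subst this
        simp }

/-- Representability is invariant under order isomorphism. -/
theorem Representable.of_orderIso {L M : Type} [PartialOrder L] [PartialOrder M] (e : L ≃o M)
    (h : Representable L) : Representable M := by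
  obtain ⟨A, ι, h1, h2, h3, ar, op, ⟨f⟩⟩ := h
  exact ⟨A, ι, h1, h2, h3, ar, op, ⟨e.symm.trans f⟩⟩

/-- Every finite congruence-normal lattice is representable. -/
theorem representable_of_congruenceNormal {L : Type} [PartialOrder L] (h : CongruenceNormal L) :
    Representable L := by
  induction h with
  | base L => exact representable_unique L
  | doubling L U D hUD _ ih => exact representable_convexDoubling U D hUD ih
  | iso L M e _ ih => exact ih.of_orderIso e

end Vale.Agent.P183
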