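import Mathlib

/-!
Definitions for the finite lattice representation problem: congruence lattices of
finite algebras, representable posets and the doubling construction.
-/

namespace Vale.Agent.P183

/-- The equivalence `θ` on `A` is a congruence of the algebra with operations `op`:
it is compatible with every operation. -/
def IsCongruence {A ι : Type} {ar : ι → ℕ} (op : ∀ i, (Fin (ar i) → A) → A)
    (θ : Setoid A) : Prop :=
  ∀ (i : ι) (x y : Fin (ar i) → A), (∀ j, θ (x j) (y j)) → θ (op i x) (op i y)

/-- The congruence lattice of the algebra with operations `op`: all congruences, ordered by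
inclusion (the order is the one inherited from `Setoid A`). -/
abbrev ConLat {A ι : Type} {ar : ι → ℕ} (op : ∀ i, (Fin (ar i) → A) → A) : Type :=
  {θ : Setoid A // IsCongruence op θ}

/-- The poset `L` is representable: it is order isomorphic to the whole congruence lattice of
some finite nonempty algebra with finitely many operations of finite arities. -/
def Representable (L : Type) [PartialOrder L] : Prop :=
  ∃ (A ι : Type) (_ : Finite A) (_ : Nonempty A) (_ : Finite ι) (ar : ι → ℕ)
    (op : ∀ i, (Fin (ar i) → A) → A), Nonempty (L ≃o ConLat op)

/-- The doubling of `L` at the convex set `C = {v | α ≤ v ∧ v ∈ D}` (with `D` a lower set),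
realised inside `L × Bool` with the product order: a point `v` outside `C` occurs once (as
`(v, true)` if `α ≤ v`, as `(v, false)` otherwise) and a point `v` of `C` occurs twice. -/
abbrev Doubling (L : Type) [PartialOrder L] (α : L) (D : LowerSet L) : Type :=
  {z : L × Bool // (z.2 = true → α ≤ z.1) ∧ (z.2 = false → ¬ α ≤ z.1 ∨ z.1 ∈ D)}

/-- The doubling of `L` at an arbitrary convex set `C = U ∩ D` (`U` an upper set, `D` a lower set),
realised inside `L × Bool` with the product order: a point `v` outside `C` occurs once (as
`(v, true)` if `v ∈ U`, as `(v, false)` otherwise) and a point `v` of `C` occurs twice. -/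
abbrev ConvexDoubling (L : Type) [PartialOrder L] (U : UpperSet L) (D : LowerSet L) : Type :=
  {z : L × Bool // (z.2 = true → z.1 ∈ U) ∧ (z.2 = false → z.1 ∉ U ∨ z.1 ∈ D)}

/-- The inflation of `L` by `K` at the convex set `C = U ∩ D` (`U` an upper set, `D` a lower set),
realised inside `L × K` with the product order: a point `v` outside `C` occurs once (as `(v, ⊤)`
if `v ∈ U`, as `(v, ⊥)` otherwise, `⊥` and `⊤` being the least and the greatest element of `K`) and
a point `v` of `C` is replaced by a copy `{v} × K` of `K`. -/
abbrev Inflation (L K : Type) [PartialOrder L] [PartialOrder K] (U : UpperSet L) (D : LowerSet L) :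
    Type :=
  {z : L × K // (¬ IsBot z.2 → z.1 ∈ U) ∧ (¬ IsTop z.2 → z.1 ∉ U ∨ z.1 ∈ D)}

end Vale.Agent.P183
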