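import Vale.Agent.Lib.P183_Assembly

/-!
The main gluing construction: from a pointed unary presentation of `L` to a representation of the
doubling of `L` at a convex set with least element.
-/

namespace Vale.Agent.P183

open Classical

/-- A unary presentation of `L` with the extra points needed for the gluing. -/
structure Pointed (L P : Type) [PartialOrder L] where
  θ : L → Setoid P
  rep : UnaryRep θ
  o : P
  s : L → P
  hs : ∀ x w, θ x o (s w) ↔ w ≤ x
  α : L
  D : LowerSet L
  c : P → P
  hc : ∀ x f f', θ x f f' → θ x (c f) (c f')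
  hco : c o = o
  hcs : ∀ w, α ≤ w → c (s w) = s α

namespace Pointed

variable {L P : Type} [PartialOrder L] (d : Pointed L P)

/-- Arm labels. -/
abbrev Arm : Type := {w : L // d.α ≤ w ∧ w ∉ d.D}

/-- Labels: the hub is `none`. -/
abbrev Lab : Type := Option d.Arm

/-- The pre-space. -/
abbrev X : Type := Bool × d.Lab × P

/-- The exit condition. -/
def Ex (v : L) : d.Lab → P → Prop
  | none, _ => True
  | some w, f => d.θ v f (d.s w.1)

/-- The projection to the hub. -/
def Hp : d.Lab → P → P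
  | none, f => f
  | some w, _ => d.s w.1

/-- Close to the bridge point. -/
def Near (v : L) (l : d.Lab) (f : P) : Prop := d.Ex v l f ∧ d.θ v (d.Hp l f) d.o

/-- The relation between points on the same side. -/
def Same (v : L) (l : d.Lab) (f : P) (l' : d.Lab) (f' : P) : Prop :=
  (l = l' ∧ d.θ v f f') ∨ (d.Ex v l f ∧ d.Ex v l' f' ∧ d.θ v (d.Hp l f) (d.Hp l' f'))

/-- The relation between points on different sides. -/
def Cross (v : L) (b : Bool) (l : d.Lab) (f : P) (l' : d.Lab) (f' : P) : Prop :=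
  (∃ w, l = some w ∧ l' = some w ∧ d.θ v f d.o ∧ d.θ v f' d.o) ∨
    (b = true ∧ d.Near v l f ∧ d.Near v l' f')

/-- The relation on the pre-space. -/
def Rel (v : L) (b : Bool) (a a' : d.X) : Prop :=
  (a.1 = a'.1 ∧ d.Same v a.2.1 a.2.2 a'.2.1 a'.2.2) ∨
    (a.1 ≠ a'.1 ∧ d.Cross v b a.2.1 a.2.2 a'.2.1 a'.2.2)

variable {d}

theorem ex_congr {v : L} {l : d.Lab} {f f' : P} (h : d.θ v f f') :
    d.Ex v l f ↔ d.Ex v l f' := by
  cases l with
  | none => exact Iff.rfl
  | some w =>
    exact ⟨fun h' => (d.θ v).trans' ((d.θ v).symm' h) h', fun h' => (d.θ v).trans' h h'⟩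

theorem hp_congr {v : L} {l : d.Lab} {f f' : P} (h : d.θ v f f') :
    d.θ v (d.Hp l f) (d.Hp l f') := by
  cases l with
  | none => exact h
  | some w => exact (d.θ v).refl' _

theorem near_congr {v : L} {l : d.Lab} {f f' : P} (h : d.θ v f f') (hn : d.Near v l f) :
    d.Near v l f' :=
  ⟨(ex_congr h).1 hn.1, (d.θ v).trans' ((d.θ v).symm' (hp_congr h)) hn.2⟩

theorem same_refl (v : L) (l : d.Lab) (f : P) : d.Same v l f l f :=
  Or.inl ⟨rfl, (d.θ v).refl' f⟩

theorem same_symm {v : L} {l l' : d.Lab} {f f' : P} (h : d.Same v l f l' f') :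
    d.Same v l' f' l f := by
  rcases h with ⟨rfl, h⟩ | ⟨h1, h2, h3⟩
  · exact Or.inl ⟨rfl, (d.θ v).symm' h⟩
  · exact Or.inr ⟨h2, h1, (d.θ v).symm' h3⟩

theorem same_trans {v : L} {l l' l'' : d.Lab} {f f' f'' : P} (h : d.Same v l f l' f')
    (h' : d.Same v l' f' l'' f'') : d.Same v l f l'' f'' := by
  rcases h with ⟨rfl, h⟩ | ⟨h1, h2, h3⟩
  · rcases h' with ⟨rfl, h'⟩ | ⟨h1', h2', h3'⟩
    · exact Or.inl ⟨rfl, (d.θ v).trans' h h'⟩
    · exact Or.inr ⟨(ex_congr h).2 h1', h2', (d.θ v).trans' (hp_congr h) h3'⟩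
  · rcases h' with ⟨rfl, h'⟩ | ⟨h1', h2', h3'⟩
    · exact Or.inr ⟨h1, (ex_congr h').1 h2, (d.θ v).trans' h3 (hp_congr h')⟩
    · exact Or.inr ⟨h1, h2', (d.θ v).trans' h3 h3'⟩

theorem cross_symm {v : L} {b : Bool} {l l' : d.Lab} {f f' : P} (h : d.Cross v b l f l' f') :
    d.Cross v b l' f' l f := by
  rcases h with ⟨w, h1, h2, h3, h4⟩ | ⟨h1, h2, h3⟩
  · exact Or.inl ⟨w, h2, h1, h4, h3⟩
  · exact Or.inr ⟨h1, h3, h2⟩

theorem same_cross {v : L} {b : Bool} (hV : b = false → ∀ w : d.Arm, ¬ d.θ v d.o (d.s w.1))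
    {l l' l'' : d.Lab} {f f' f'' : P} (h : d.Same v l f l' f') (h' : d.Cross v b l' f' l'' f'') :
    d.Cross v b l f l'' f'' := by
  rcases h with ⟨rfl, h⟩ | ⟨h1, h2, h3⟩
  · rcases h' with ⟨w, rfl, h2', h3', h4'⟩ | ⟨h1', h2', h3'⟩
    · exact Or.inl ⟨w, rfl, h2', (d.θ v).trans' h h3', h4'⟩
    · exact Or.inr ⟨h1', near_congr ((d.θ v).symm' h) h2', h3'⟩
  · rcases h' with ⟨w, rfl, rfl, h3', h4'⟩ | ⟨h1', h2', h3'⟩
    · -- the exit of `a'` forces `θ o s_w`, hence the bridge is open
      have hos : d.θ v d.o (d.s w.1) := (d.θ v).trans' ((d.θ v).symm' h3') h2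
      have hb : b = true := by
        cases hb : b with
        | true => rfl
        | false => exact absurd hos (hV hb w)
      refine Or.inr ⟨hb, ⟨h1, ?_⟩, ⟨?_, ?_⟩⟩
      · exact (d.θ v).trans' h3 ((d.θ v).symm' hos)
      · exact (d.θ v).trans' h4' hos
      · exact (d.θ v).symm' hos
    · exact Or.inr ⟨h1', ⟨h1, (d.θ v).trans' h3 h2'.2⟩, h3'⟩

theorem cross_cross {v : L} {b : Bool} {l l' l'' : d.Lab} {f f' f'' : P}
    (h : d.Cross v b l f l' f') (h' : d.Cross v b l' f' l'' f'') : d.Same v l f l'' f'' := by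
  rcases h with ⟨w, rfl, rfl, h3, h4⟩ | ⟨h1, h2, h3⟩
  · rcases h' with ⟨w', h1', rfl, h3', h4'⟩ | ⟨h1', h2', h3'⟩
    · cases h1'
      exact Or.inl ⟨rfl, (d.θ v).trans' h3 ((d.θ v).symm' h4')⟩
    · -- near the arm point on the middle forces `θ o s_w`
      have hos : d.θ v d.o (d.s w.1) := (d.θ v).trans' ((d.θ v).symm' h4) h2'.1
      refine Or.inr ⟨(d.θ v).trans' h3 hos, h3'.1, ?_⟩
      exact (d.θ v).trans' ((d.θ v).symm' hos) ((d.θ v).symm' h3'.2)
  · rcases h' with ⟨w', rfl, rfl, h3', h4'⟩ | ⟨h1', h2', h3'⟩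
    · have hos : d.θ v d.o (d.s w'.1) := (d.θ v).trans' ((d.θ v).symm' h3') h3.1
      refine Or.inr ⟨h2.1, (d.θ v).trans' h4' hos, ?_⟩
      exact (d.θ v).trans' h2.2 hos
    · exact Or.inr ⟨h2.1, h3'.1, (d.θ v).trans' h2.2 ((d.θ v).symm' h3'.2)⟩

theorem rel_equivalence {v : L} {b : Bool} (hV : b = false → ∀ w : d.Arm, ¬ d.θ v d.o (d.s w.1)) :
    Equivalence (d.Rel v b) := by
  refine ⟨?_, ?_, ?_⟩
  · rintro ⟨j, l, f⟩
    exact Or.inl ⟨rfl, same_refl v l f⟩
  · rintro ⟨j, l, f⟩ ⟨j', l', f'⟩ h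
    rcases h with ⟨h1, h2⟩ | ⟨h1, h2⟩
    · exact Or.inl ⟨h1.symm, same_symm h2⟩
    · exact Or.inr ⟨h1.symm, cross_symm h2⟩
  · rintro ⟨j, l, f⟩ ⟨j', l', f'⟩ ⟨j'', l'', f''⟩ h h'
    rcases h with ⟨h1, h2⟩ | ⟨h1, h2⟩ <;> rcases h' with ⟨h1', h2'⟩ | ⟨h1', h2'⟩
    · exact Or.inl ⟨h1.trans h1', same_trans h2 h2'⟩
    · simp only at h1 h1'
      subst h1
      exact Or.inr ⟨h1', same_cross hV h2 h2'⟩
    · simp only at h1 h1'
      subst h1'
      exact Or.inr ⟨h1, cross_symm (same_cross hV (same_symm h2') (cross_symm h2))⟩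
    · simp only at h1 h1'
      have hj : j = j'' := by
        cases j <;> cases j' <;> cases j'' <;> simp_all
      exact Or.inl ⟨hj, cross_cross h2 h2'⟩

/-- A point of the doubling gives a valid parameter. -/
theorem valid_of_mem {v : L} {b : Bool}
    (hz : (b = true → d.α ≤ v) ∧ (b = false → ¬ d.α ≤ v ∨ v ∈ d.D)) :
    b = false → ∀ w : d.Arm, ¬ d.θ v d.o (d.s w.1) := by
  intro hb w hos
  have hwv : w.1 ≤ v := (d.hs v w.1).1 hos
  rcases hz.2 hb with h | h
  · exact h (le_trans w.2.1 hwv)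
  · exact w.2.2 (d.D.lower hwv h)

/-- The family of equivalences indexed by the doubling. -/
def R (d : Pointed L P) (z : Doubling L d.α d.D) : Setoid d.X where
  r := d.Rel z.1.1 z.1.2
  iseqv := rel_equivalence (valid_of_mem z.2)

theorem R_apply (z : Doubling L d.α d.D) (a a' : d.X) :
    d.R z a a' ↔ d.Rel z.1.1 z.1.2 a a' := Iff.rfl

theorem ex_mono {v v' : L} (h : v ≤ v') {l : d.Lab} {f : P} (he : d.Ex v l f) :
    d.Ex v' l f := by
  cases l with
  | none => exact he
  | some w => exact ((d.rep.le_iff v v').2 h) he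

theorem rel_mono {v v' : L} {b b' : Bool} (hv : v ≤ v') (hb : b = true → b' = true)
    {a a' : d.X} (h : d.Rel v b a a') : d.Rel v' b' a a' := by
  have hθ : ∀ {p q : P}, d.θ v p q → d.θ v' p q := fun h' => ((d.rep.le_iff v v').2 hv) h'
  rcases h with ⟨h1, h2⟩ | ⟨h1, h2⟩
  · refine Or.inl ⟨h1, ?_⟩
    rcases h2 with ⟨h3, h4⟩ | ⟨h3, h4, h5⟩
    · exact Or.inl ⟨h3, hθ h4⟩
    · exact Or.inr ⟨ex_mono hv h3, ex_mono hv h4, hθ h5⟩
  · refine Or.inr ⟨h1, ?_⟩
    rcases h2 with ⟨w, h3, h4, h5, h6⟩ | ⟨h3, h4, h5⟩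
    · exact Or.inl ⟨w, h3, h4, hθ h5, hθ h6⟩
    · exact Or.inr ⟨hb h3, ⟨ex_mono hv h4.1, hθ h4.2⟩, ⟨ex_mono hv h5.1, hθ h5.2⟩⟩

theorem R_le_iff (z z' : Doubling L d.α d.D) : d.R z ≤ d.R z' ↔ z ≤ z' := by
  constructor
  · intro h
    have hv : z.1.1 ≤ z'.1.1 := by
      rw [← d.rep.le_iff]
      intro p q hpq
      have h1 : d.R z (false, none, p) (false, none, q) :=
        Or.inl ⟨rfl, Or.inl ⟨rfl, hpq⟩⟩
      rcases h h1 with ⟨_, h3 | h3⟩ | ⟨h2, _⟩
      · exact h3.2
      · exact h3.2.2
      · exact absurd rfl h2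
    have hb : z.1.2 = true → z'.1.2 = true := by
      intro hb
      have h1 : d.R z (false, none, d.o) (true, none, d.o) :=
        Or.inr ⟨by simp, Or.inr ⟨hb, ⟨trivial, (d.θ _).refl' _⟩, ⟨trivial, (d.θ _).refl' _⟩⟩⟩
      rcases h h1 with ⟨h2, _⟩ | ⟨_, ⟨w, h3, _⟩ | h3⟩
      · simp at h2
      · simp at h3
      · exact h3.1
    exact ⟨hv, Bool.le_iff_imp.2 hb⟩
  · intro h a a' haa
    exact rel_mono h.1 (Bool.le_iff_imp.1 h.2) haa

/-! ### Maps to the fibre -/

/-- A map to the fibre `P` is admissible if it carries every relation of the family to the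
corresponding level. -/
def Adm (d : Pointed L P) (G : d.X → P) : Prop :=
  ∀ (z : Doubling L d.α d.D) (a a' : d.X), d.R z a a' → d.θ z.1.1 (G a) (G a')

theorem adm_of_family (G : Bool → d.Lab → P → P)
    (hG : ∀ j l x f f', d.θ x f f' → d.θ x (G j l f) (G j l f'))
    (h1 : ∀ j (w : d.Arm), G j (some w) (d.s w.1) = G j none (d.s w.1))
    (h2 : ∀ w : d.Arm, G false (some w) d.o = G true (some w) d.o)
    (h3 : ∀ x, d.α ≤ x → d.θ x (G false none d.o) (G true none d.o)) :
    d.Adm (fun a => G a.1 a.2.1 a.2.2) := by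
  intro z a a' haa
  obtain ⟨⟨v, b⟩, hz⟩ := z
  obtain ⟨j, l, f⟩ := a
  obtain ⟨j', l', f'⟩ := a'
  simp only at hz ⊢
  have hub : ∀ (j : Bool) (l : d.Lab) (f : P), d.Ex v l f →
      d.θ v (G j l f) (G j none (d.Hp l f)) := by
    intro j l f he
    cases l with
    | none => exact (d.θ v).refl' _
    | some w =>
      have := hG j (some w) v f _ he
      rw [h1 j w] at this
      exact this
  have hcross : ∀ (j j' : Bool), j ≠ j' → d.α ≤ v → d.θ v (G j none d.o) (G j' none d.o) := by
    intro j j' hj hα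
    cases j <;> cases j'
    · exact absurd rfl hj
    · exact h3 v hα
    · exact (d.θ v).symm' (h3 v hα)
    · exact absurd rfl hj
  have harm : ∀ (j j' : Bool) (w : d.Arm), G j (some w) d.o = G j' (some w) d.o := by
    intro j j' w
    cases j <;> cases j'
    · rfl
    · exact h2 w
    · exact (h2 w).symm
    · rfl
  rcases haa with ⟨h0, h4⟩ | ⟨h0, h4⟩
  · simp only at h0 h4
    subst h0
    rcases h4 with ⟨rfl, h5⟩ | ⟨h5, h6, h7⟩
    · exact hG _ _ _ _ _ h5
    · exact (d.θ v).trans' (hub j l f h5)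
        ((d.θ v).trans' (hG j none v _ _ h7) ((d.θ v).symm' (hub j l' f' h6)))
  · simp only at h0 h4
    rcases h4 with ⟨w, rfl, rfl, h5, h6⟩ | ⟨h5, h6, h7⟩
    · have e1 := hG j (some w) v _ _ h5
      have e2 := hG j' (some w) v _ _ h6
      rw [harm j j' w] at e1
      exact (d.θ v).trans' e1 ((d.θ v).symm' e2)
    · have hα : d.α ≤ v := hz.1 h5
      have e1 := (d.θ v).trans' (hub j l f h6.1) (hG j none v _ _ h6.2)
      have e2 := (d.θ v).trans' (hub j' l' f' h7.1) (hG j' none v _ _ h7.2)
      exact (d.θ v).trans' e1 ((d.θ v).trans' (hcross j j' h0 hα) ((d.θ v).symm' e2))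

/-- The fibre projection is admissible. -/
theorem adm_snd (g : P → P) (hg : ∀ x f f', d.θ x f f' → d.θ x (g f) (g f')) :
    d.Adm (fun a => g a.2.2) :=
  adm_of_family (fun _ _ f => g f) (fun _ _ x f f' h => hg x f f' h)
    (fun _ _ => rfl) (fun _ => rfl) (fun _ _ => (d.θ _).refl' _)

/-- The identity on one side, constant on the other. -/
theorem adm_side (j₀ : Bool) :
    d.Adm (fun a => if a.1 = j₀ then a.2.2 else d.o) := by
  refine adm_of_family (fun j _ f => if j = j₀ then f else d.o) ?_ ?_ ?_ ?_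
  · intro j l x f f' h
    by_cases hj : j = j₀
    · simpa [hj] using h
    · simp only [hj, if_false]; exact (d.θ x).refl' _
  · intro j w; rfl
  · intro w
    cases j₀ <;> simp
  · intro x _
    cases j₀ <;> simp

/-- The identity on one arm, constant on everything else. -/
theorem adm_arm (w : d.Arm) :
    d.Adm (fun a => if a.2.1 = some w then a.2.2 else d.s w.1) := by
  refine adm_of_family (fun _ l f => if l = some w then f else d.s w.1) ?_ ?_ ?_ ?_
  · intro j l x f f' h
    by_cases hl : l = some w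
    · simpa [hl] using h
    · simp only [hl, if_false]; exact (d.θ x).refl' _
  · intro j w'
    by_cases hw : w' = w
    · subst hw; simp
    · simp [hw]
  · intro w'; rfl
  · intro x _; exact (d.θ x).refl' _

/-- The map detecting the bridge. -/
def bridgeMap (d : Pointed L P) : Bool → d.Lab → P → P
  | false, _, _ => d.o
  | true, none, _ => d.s d.α
  | true, some _, f => d.c f

theorem adm_bridge : d.Adm (fun a => d.bridgeMap a.1 a.2.1 a.2.2) := by
  refine adm_of_family _ ?_ ?_ ?_ ?_
  · intro j l x f f' h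
    cases j with
    | false => exact (d.θ x).refl' _
    | true =>
      cases l with
      | none => exact (d.θ x).refl' _
      | some w => exact d.hc x f f' h
  · intro j w
    cases j with
    | false => rfl
    | true => exact d.hcs w.1 w.2.1
  · intro w
    exact d.hco.symm
  · intro x hx
    exact (d.hs x d.α).2 hx

/-! ### Classification -/

section Classify

variable (Ψ : Setoid d.X)
  (hcomp : ∀ g : d.X → d.X, (∀ z a b, d.R z a b → d.R z (g a) (g b)) →
    ∀ a b, Ψ a b → Ψ (g a) (g b))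

include hcomp in
/-- Admissible maps followed by the insertion of a copy preserve `Ψ`. -/
theorem psi_adm {G : d.X → P} (hG : d.Adm G) (j : Bool) (l : d.Lab) {a a' : d.X}
    (h : Ψ a a') : Ψ (j, l, G a) (j, l, G a') := by
  refine hcomp (fun a => (j, l, G a)) ?_ a a' h
  intro z p q hpq
  exact Or.inl ⟨rfl, Or.inl ⟨rfl, hG z p q hpq⟩⟩

include hcomp in
/-- The hub copy of `Ψ` is one of the levels. -/
theorem exists_level : ∃ v, ∀ f f', Ψ (false, none, f) (false, none, f') ↔ d.θ v f f' := by
  let Ψ₀ : Setoid P := Setoid.comap (fun f => ((false, none, f) : d.X)) Ψ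
  have h0 : ∀ g : P → P, (∀ x a b, d.θ x a b → d.θ x (g a) (g b)) →
      ∀ a b, Ψ₀ a b → Ψ₀ (g a) (g b) := by
    intro g hg a b hab
    exact psi_adm Ψ hcomp (adm_snd g (fun x f f' h => hg x f f' h)) false none hab
  obtain ⟨v, hv⟩ := d.rep.classify Ψ₀ h0
  refine ⟨v, fun f f' => ?_⟩
  rw [← hv]
  exact Iff.rfl

variable {v : L} (hv : ∀ f f', Ψ (false, none, f) (false, none, f') ↔ d.θ v f f')

include hcomp hv in
/-- Admissible maps carry `Ψ` to the level. -/
theorem adm_level {G : d.X → P} (hG : d.Adm G) {a a' : d.X} (h : Ψ a a') :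
    d.θ v (G a) (G a') :=
  (hv _ _).1 (psi_adm Ψ hcomp hG false none h)

include hcomp hv in
/-- On each copy, `Ψ` is the level. -/
theorem copy_iff (j : Bool) (l : d.Lab) (f f' : P) :
    Ψ (j, l, f) (j, l, f') ↔ d.θ v f f' := by
  constructor
  · intro h
    exact adm_level Ψ hcomp hv (adm_snd id (fun _ _ _ h => h)) h
  · intro h
    exact psi_adm Ψ hcomp (adm_snd id (fun _ _ _ h => h)) j l ((hv f f').2 h)

include hcomp hv in
/-- The classification of compatible equivalences above the gluing relation. -/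
theorem exists_param (z₀ : Doubling L d.α d.D) (h₀ : d.R z₀ ≤ Ψ) : ∃ z, Ψ = d.R z := by
  have copy := copy_iff Ψ hcomp hv
  have lvl : ∀ {G : d.X → P}, d.Adm G → ∀ {a a' : d.X}, Ψ a a' → d.θ v (G a) (G a') :=
    fun hG _ _ h => adm_level Ψ hcomp hv hG h
  have G1 : ∀ (j : Bool) (w : d.Arm), Ψ (j, some w, d.s w.1) (j, none, d.s w.1) := fun j w =>
    h₀ (Or.inl ⟨rfl, Or.inr ⟨(d.θ _).refl' _, trivial, (d.θ _).refl' _⟩⟩)
  have G2 : ∀ (j j' : Bool) (w : d.Arm), Ψ (j, some w, d.o) (j', some w, d.o) := by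
    intro j j' w
    by_cases hj : j = j'
    · subst hj; exact Ψ.refl' _
    · exact h₀ (Or.inr ⟨hj, Or.inl ⟨w, rfl, rfl, (d.θ _).refl' _, (d.θ _).refl' _⟩⟩)
  have hub : ∀ (j : Bool) (l : d.Lab) (f : P), d.Ex v l f → Ψ (j, l, f) (j, none, d.Hp l f) := by
    intro j l f he
    cases l with
    | none => exact Ψ.refl' _
    | some w => exact Ψ.trans' ((copy j (some w) f (d.s w.1)).2 he) (G1 j w)
  let b : Bool := decide (Ψ (false, none, d.o) (true, none, d.o))
  have hb : b = true ↔ Ψ (false, none, d.o) (true, none, d.o) := by simp [b]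
  have hbridge : ∀ j j' : Bool, j ≠ j' → Ψ (j, none, d.o) (j', none, d.o) → b = true := by
    intro j j' hj h
    cases j <;> cases j'
    · exact absurd rfl hj
    · exact hb.2 h
    · exact hb.2 (Ψ.symm' h)
    · exact absurd rfl hj
  have hbridge' : b = true → ∀ j j' : Bool, Ψ (j, none, d.o) (j', none, d.o) := by
    intro hbt j j'
    have h := hb.1 hbt
    cases j <;> cases j'
    · exact Ψ.refl' _
    · exact h
    · exact Ψ.symm' h
    · exact Ψ.refl' _
  have h1 : b = true → d.α ≤ v := by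
    intro hbt
    have := lvl adm_bridge (hb.1 hbt)
    exact (d.hs v d.α).1 this
  have h2 : b = false → ¬ d.α ≤ v ∨ v ∈ d.D := by
    intro hbf
    by_contra hcon
    rw [not_or, not_not] at hcon
    let w : d.Arm := ⟨v, hcon.1, hcon.2⟩
    have hos : d.θ v d.o (d.s v) := (d.hs v v).2 le_rfl
    have hside : ∀ j : Bool, Ψ (j, none, d.o) (j, some w, d.o) := by
      intro j
      have e1 : Ψ (j, none, d.o) (j, none, d.s v) := (copy j none _ _).2 hos
      have e2 : Ψ (j, some w, d.s v) (j, none, d.s v) := G1 j w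
      have e3 : Ψ (j, some w, d.s v) (j, some w, d.o) := (copy j (some w) _ _).2 ((d.θ v).symm' hos)
      exact Ψ.trans' e1 (Ψ.trans' (Ψ.symm' e2) e3)
    have : Ψ (false, none, d.o) (true, none, d.o) :=
      Ψ.trans' (hside false) (Ψ.trans' (G2 false true w) (Ψ.symm' (hside true)))
    have hbt : b = true := hb.2 this
    rw [hbf] at hbt
    exact Bool.noConfusion hbt
  refine ⟨⟨(v, b), h1, h2⟩, ?_⟩
  ext ⟨j, l, f⟩ ⟨j', l', f'⟩
  constructor
  · intro h
    have hex : l ≠ l' → d.Ex v l f ∧ d.Ex v l' f' := by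
      intro hl
      constructor
      · cases l with
        | none => trivial
        | some w =>
          have := lvl (adm_arm w) h
          change d.θ v f (d.s w.1)
          simpa [Ne.symm hl] using this
      · cases l' with
        | none => trivial
        | some w =>
          have := lvl (adm_arm w) h
          exact (d.θ v).symm' (by simpa [hl] using this)
    by_cases hj : j = j'
    · subst hj
      by_cases hl : l = l'
      · subst hl
        exact Or.inl ⟨rfl, Or.inl ⟨rfl, (copy j l f f').1 h⟩⟩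
      · obtain ⟨e1, e2⟩ := hex hl
        have h3 := Ψ.trans' (Ψ.symm' (hub j l f e1)) (Ψ.trans' h (hub j l' f' e2))
        exact Or.inl ⟨rfl, Or.inr ⟨e1, e2, (copy j none _ _).1 h3⟩⟩
    · have hf : d.θ v f d.o := by
        have := lvl (adm_side j) h
        simpa [Ne.symm hj] using this
      have hf' : d.θ v f' d.o := by
        have := lvl (adm_side j') h
        exact (d.θ v).symm' (by simpa [hj] using this)
      by_cases hl : ∃ w, l = some w ∧ l' = some w
      · obtain ⟨w, rfl, rfl⟩ := hl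
        exact Or.inr ⟨hj, Or.inl ⟨w, rfl, rfl, hf, hf'⟩⟩
      · have hn : d.Ex v l f ∧ d.Ex v l' f' := by
          by_cases hll : l = l'
          · subst hll
            cases l with
            | none => exact ⟨trivial, trivial⟩
            | some w => exact absurd ⟨w, rfl, rfl⟩ hl
          · exact hex hll
        have near : ∀ (l : d.Lab) (f : P), d.θ v f d.o → d.Ex v l f → d.Near v l f := by
          intro l f hf he
          refine ⟨he, ?_⟩
          cases l with
          | none => exact hf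
          | some w => exact (d.θ v).trans' ((d.θ v).symm' he) hf
        have n1 := near l f hf hn.1
        have n2 := near l' f' hf' hn.2
        have hh : ∀ (j : Bool) (l : d.Lab) (f : P), d.Near v l f →
            Ψ (j, none, d.o) (j, l, f) := by
          intro j l f hn
          exact Ψ.trans' ((copy j none _ _).2 ((d.θ v).symm' hn.2)) (Ψ.symm' (hub j l f hn.1))
        have bt : b = true :=
          hbridge j j' hj (Ψ.trans' (hh j l f n1) (Ψ.trans' h (Ψ.symm' (hh j' l' f' n2))))
        exact Or.inr ⟨hj, Or.inr ⟨bt, n1, n2⟩⟩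
  · intro h
    rcases h with ⟨h0, h4⟩ | ⟨h0, h4⟩
    · simp only at h0 h4
      subst h0
      rcases h4 with ⟨rfl, h5⟩ | ⟨h5, h6, h7⟩
      · exact (copy j l f f').2 h5
      · exact Ψ.trans' (hub j l f h5)
          (Ψ.trans' ((copy j none _ _).2 h7) (Ψ.symm' (hub j l' f' h6)))
    · simp only at h0 h4
      rcases h4 with ⟨w, rfl, rfl, h5, h6⟩ | ⟨h5, h6, h7⟩
      · exact Ψ.trans' ((copy j (some w) _ _).2 h5)
          (Ψ.trans' (G2 j j' w) ((copy j' (some w) _ _).2 ((d.θ v).symm' h6)))
      · have hh : ∀ (j : Bool) (l : d.Lab) (f : P), d.Near v l f →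
            Ψ (j, l, f) (j, none, d.o) := by
          intro j l f hn
          exact Ψ.trans' (hub j l f hn.1) ((copy j none _ _).2 hn.2)
        exact Ψ.trans' (hh j l f h6) (Ψ.trans' (hbridge' h5 j j') (Ψ.symm' (hh j' l' f' h7)))

end Classify

/-- The equality relation, as a point of the family of equivalences. -/
def eqSetoid (P : Type) : Setoid P where
  r := Eq
  iseqv := eq_equivalence

/-- The main theorem for pointed presentations. -/
theorem representable [Finite P] [Nonempty P] (d : Pointed L P) (hα : d.α ∈ d.D) :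
    Representable (Doubling L d.α d.D) := by
  have hfinSet : Finite (Setoid P) :=
    Finite.of_injective (fun r : Setoid P => (r.r : P → P → Prop))
      (fun r r' h => Setoid.ext (fun a b => by
        have := congrFun (congrFun h a) b
        exact iff_of_eq this))
  have hinj : Function.Injective d.θ := by
    intro x y hxy
    exact le_antisymm ((d.rep.le_iff x y).1 (le_of_eq hxy)) ((d.rep.le_iff y x).1 (le_of_eq hxy.symm))
  have hfinL : Finite L := Finite.of_injective d.θ hinj
  obtain ⟨v₀, hv₀⟩ := d.rep.classify (eqSetoid P) (by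
    intro g _ a b hab
    exact congrArg g hab)
  have hv₀le : ∀ x, v₀ ≤ x := by
    intro x
    rw [← d.rep.le_iff, ← hv₀]
    intro a b hab
    have hab' : a = b := hab
    rw [hab']
  have hv₀D : v₀ ∈ d.D := d.D.lower (hv₀le d.α) hα
  let z₀ : Doubling L d.α d.D := ⟨(v₀, false), fun h => Bool.noConfusion h, fun _ => Or.inr hv₀D⟩
  have hz₀ : ∀ z, z₀ ≤ z := fun z => ⟨hv₀le _, Bool.false_le _⟩
  have hfinX : Finite d.X := inferInstance
  have hneX : Nonempty d.X := ⟨(false, none, d.o)⟩
  refine representable_of_family d.R R_le_iff z₀ hz₀ ?_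
  intro Ψ h₀ hcomp
  obtain ⟨v, hv⟩ := exists_level Ψ hcomp
  exact exists_param Ψ hcomp hv z₀ h₀

end Pointed

/-- **Doubling theorem.** If `L` is representable, and `D` is a lower set containing `α`, then the
doubling of `L` at the convex set `{v | α ≤ v ∧ v ∈ D}` is representable. -/
theorem representable_doubling {L : Type} [PartialOrder L] (α : L) (D : LowerSet L) (hα : α ∈ D)
    (h : Representable L) : Representable (Doubling L α D) := by
  obtain ⟨B, hB, hne, θ, hθ⟩ := exists_unaryRep h
  have hP : Finite (B × B → B) := inferInstance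
  have hneP : Nonempty (B × B → B) := inferInstance
  let d : Pointed L (B × B → B) :=
    { θ := powerSetoid θ (B × B)
      rep := hθ.power (B × B)
      o := fun e => e.1
      s := fun w e => if θ w e.1 e.2 then e.2 else e.1
      hs := by
        intro x w
        constructor
        · intro h
          rw [← hθ.le_iff]
          intro a b hab
          have := h (a, b)
          simp only [hab, if_true] at this
          exact this
        · intro h e
          by_cases he : θ w e.1 e.2
          · simp only [he, if_true]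
            exact ((hθ.le_iff w x).2 h) he
          · simp only [he, if_false]
            exact (θ x).refl' _
      α := α
      D := D
      c := fun f e => if θ α e.1 e.2 then f e else e.1
      hc := by
        intro x f f' h e
        by_cases he : θ α e.1 e.2
        · simp only [he, if_true]
          exact h e
        · simp only [he, if_false]
          exact (θ x).refl' _
      hco := by
        funext e
        by_cases he : θ α e.1 e.2 <;> simp [he]
      hcs := by
        intro w hw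
        funext e
        by_cases he : θ α e.1 e.2
        · have he' : θ w e.1 e.2 := ((hθ.le_iff α w).2 hw) he
          simp [he, he']
        · simp [he] }
  exact d.representable hα

end Vale.Agent.P183
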