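import Vale.Agent.Lib.P183_Assembly

/-!
The gluing construction for an arbitrary convex set: from a pointed unary presentation of `L`
to a representation of the doubling of `L` at a convex set.
-/

namespace Vale.Agent.P183

open Classical

/-- A unary presentation of `L` with the extra points needed for the gluing. -/
structure Pointed2 (L P : Type) [PartialOrder L] where
  θ : L → Setoid P
  rep : UnaryRep θ
  o : P
  s : L → P
  hs : ∀ x w, θ x o (s w) ↔ w ≤ x
  U : UpperSet L
  D : LowerSet L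
  Q : P → Prop
  hQ1 : ∀ x q, Q q → θ x q o → x ∈ U
  hQ2 : ∀ w, w ∈ U → Q (s w)
  hQ3 : ∀ v q q', Q q → Q q' → θ v q q' → ∃ q'', Q q'' ∧
    (∃ Φ : P → P, (∀ x f f', θ x f f' → θ x (Φ f) (Φ f')) ∧ (∀ p, Q (Φ p)) ∧
      Φ o = q ∧ Φ (s v) = q'') ∧
    (∃ Φ : P → P, (∀ x f f', θ x f f' → θ x (Φ f) (Φ f')) ∧ (∀ p, Q (Φ p)) ∧
      Φ o = q'' ∧ Φ (s v) = q')

namespace Pointed2

variable {L P : Type} [PartialOrder L] (d : Pointed2 L P)

/-- Arm labels. -/
abbrev Arm : Type := {w : L // w ∈ d.U ∧ w ∉ d.D}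

/-- Labels: the hub is `none`. -/
abbrev Lab : Type := Option d.Arm

/-- The pre-space. -/
abbrev X0 : Type := Bool × d.Lab × P

/-- The space: on the hub of side `false` only the points of `Q` are kept. -/
abbrev X : Type := {a : d.X0 // a.1 = false → a.2.1 = none → d.Q a.2.2}

/-- The exit condition. -/
def Ex (v : L) : d.Lab → P → Prop
  | none, _ => True
  | some w, f => d.θ v f (d.s w.1)

/-- The projection to the hub. -/
def Hp : d.Lab → P → P
  | none, f => f
  | some w, _ => d.s w.1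

/-- Close to the bridge point. -/
def Near (v : L) (l : d.Lab) (f : P) : Prop := d.Ex v l f ∧ d.θ v (d.Hp l f) d.o

/-- The relation between points on the same side. -/
def Same (v : L) (l : d.Lab) (f : P) (l' : d.Lab) (f' : P) : Prop :=
  (l = l' ∧ d.θ v f f') ∨ (d.Ex v l f ∧ d.Ex v l' f' ∧ d.θ v (d.Hp l f) (d.Hp l' f'))

/-- The relation between points on different sides. -/
def Cross (v : L) (b : Bool) (l : d.Lab) (f : P) (l' : d.Lab) (f' : P) : Prop :=
  (∃ w, l = some w ∧ l' = some w ∧ d.θ v f d.o ∧ d.θ v f' d.o) ∨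
    (b = true ∧ d.Near v l f ∧ d.Near v l' f')

/-- The relation on the pre-space. -/
def Rel (v : L) (b : Bool) (a a' : d.X0) : Prop :=
  (a.1 = a'.1 ∧ d.Same v a.2.1 a.2.2 a'.2.1 a'.2.2) ∨
    (a.1 ≠ a'.1 ∧ d.Cross v b a.2.1 a.2.2 a'.2.1 a'.2.2)

variable {d}

theorem ex_congr {v : L} {l : d.Lab} {f f' : P} (h : d.θ v f f') :
    d.Ex v l f ↔ d.Ex v l f' := by
  cases l with
  | none => exact Iff.rfl
  | some w =>
    exact ⟨fun h' => (d.θ v).trans' ((d.θ v).symm' h) h', fun h' => (d.θ v).trans' h h'⟩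

theorem hp_congr {v : L} {l : d.Lab} {f f' : P} (h : d.θ v f f') :
    d.θ v (d.Hp l f) (d.Hp l f') := by
  cases l with
  | none => exact h
  | some w => exact (d.θ v).refl' _

theorem near_congr {v : L} {l : d.Lab} {f f' : P} (h : d.θ v f f') (hn : d.Near v l f) :
    d.Near v l f' :=
  ⟨(ex_congr h).1 hn.1, (d.θ v).trans' ((d.θ v).symm' (hp_congr h)) hn.2⟩

theorem same_refl (v : L) (l : d.Lab) (f : P) : d.Same v l f l f :=
  Or.inl ⟨rfl, (d.θ v).refl' f⟩

theorem same_symm {v : L} {l l' : d.Lab} {f f' : P} (h : d.Same v l f l' f') :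
    d.Same v l' f' l f := by
  rcases h with ⟨rfl, h⟩ | ⟨h1, h2, h3⟩
  · exact Or.inl ⟨rfl, (d.θ v).symm' h⟩
  · exact Or.inr ⟨h2, h1, (d.θ v).symm' h3⟩

theorem same_trans {v : L} {l l' l'' : d.Lab} {f f' f'' : P} (h : d.Same v l f l' f')
    (h' : d.Same v l' f' l'' f'') : d.Same v l f l'' f'' := by
  rcases h with ⟨rfl, h⟩ | ⟨h1, h2, h3⟩
  · rcases h' with ⟨rfl, h'⟩ | ⟨h1', h2', h3'⟩
    · exact Or.inl ⟨rfl, (d.θ v).trans' h h'⟩
    · exact Or.inr ⟨(ex_congr h).2 h1', h2', (d.θ v).trans' (hp_congr h) h3'⟩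
  · rcases h' with ⟨rfl, h'⟩ | ⟨h1', h2', h3'⟩
    · exact Or.inr ⟨h1, (ex_congr h').1 h2, (d.θ v).trans' h3 (hp_congr h')⟩
    · exact Or.inr ⟨h1, h2', (d.θ v).trans' h3 h3'⟩

theorem cross_symm {v : L} {b : Bool} {l l' : d.Lab} {f f' : P} (h : d.Cross v b l f l' f') :
    d.Cross v b l' f' l f := by
  rcases h with ⟨w, h1, h2, h3, h4⟩ | ⟨h1, h2, h3⟩
  · exact Or.inl ⟨w, h2, h1, h4, h3⟩
  · exact Or.inr ⟨h1, h3, h2⟩

theorem same_cross {v : L} {b : Bool} (hV : b = false → ∀ w : d.Arm, ¬ d.θ v d.o (d.s w.1))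
    {l l' l'' : d.Lab} {f f' f'' : P} (h : d.Same v l f l' f') (h' : d.Cross v b l' f' l'' f'') :
    d.Cross v b l f l'' f'' := by
  rcases h with ⟨rfl, h⟩ | ⟨h1, h2, h3⟩
  · rcases h' with ⟨w, rfl, h2', h3', h4'⟩ | ⟨h1', h2', h3'⟩
    · exact Or.inl ⟨w, rfl, h2', (d.θ v).trans' h h3', h4'⟩
    · exact Or.inr ⟨h1', near_congr ((d.θ v).symm' h) h2', h3'⟩
  · rcases h' with ⟨w, rfl, rfl, h3', h4'⟩ | ⟨h1', h2', h3'⟩
    · -- the exit of `a'` forces `θ o s_w`, hence the bridge is open
      have hos : d.θ v d.o (d.s w.1) := (d.θ v).trans' ((d.θ v).symm' h3') h2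
      have hb : b = true := by
        cases hb : b with
        | true => rfl
        | false => exact absurd hos (hV hb w)
      refine Or.inr ⟨hb, ⟨h1, ?_⟩, ⟨?_, ?_⟩⟩
      · exact (d.θ v).trans' h3 ((d.θ v).symm' hos)
      · exact (d.θ v).trans' h4' hos
      · exact (d.θ v).symm' hos
    · exact Or.inr ⟨h1', ⟨h1, (d.θ v).trans' h3 h2'.2⟩, h3'⟩

theorem cross_cross {v : L} {b : Bool} {l l' l'' : d.Lab} {f f' f'' : P}
    (h : d.Cross v b l f l' f') (h' : d.Cross v b l' f' l'' f'') : d.Same v l f l'' f'' := by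
  rcases h with ⟨w, rfl, rfl, h3, h4⟩ | ⟨h1, h2, h3⟩
  · rcases h' with ⟨w', h1', rfl, h3', h4'⟩ | ⟨h1', h2', h3'⟩
    · cases h1'
      exact Or.inl ⟨rfl, (d.θ v).trans' h3 ((d.θ v).symm' h4')⟩
    · -- near the arm point on the middle forces `θ o s_w`
      have hos : d.θ v d.o (d.s w.1) := (d.θ v).trans' ((d.θ v).symm' h4) h2'.1
      refine Or.inr ⟨(d.θ v).trans' h3 hos, h3'.1, ?_⟩
      exact (d.θ v).trans' ((d.θ v).symm' hos) ((d.θ v).symm' h3'.2)
  · rcases h' with ⟨w', rfl, rfl, h3', h4'⟩ | ⟨h1', h2', h3'⟩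
    · have hos : d.θ v d.o (d.s w'.1) := (d.θ v).trans' ((d.θ v).symm' h3') h3.1
      refine Or.inr ⟨h2.1, (d.θ v).trans' h4' hos, ?_⟩
      exact (d.θ v).trans' h2.2 hos
    · exact Or.inr ⟨h2.1, h3'.1, (d.θ v).trans' h2.2 ((d.θ v).symm' h3'.2)⟩

theorem rel_equivalence {v : L} {b : Bool} (hV : b = false → ∀ w : d.Arm, ¬ d.θ v d.o (d.s w.1)) :
    Equivalence (d.Rel v b) := by
  refine ⟨?_, ?_, ?_⟩
  · rintro ⟨j, l, f⟩
    exact Or.inl ⟨rfl, same_refl v l f⟩
  · rintro ⟨j, l, f⟩ ⟨j', l', f'⟩ h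
    rcases h with ⟨h1, h2⟩ | ⟨h1, h2⟩
    · exact Or.inl ⟨h1.symm, same_symm h2⟩
    · exact Or.inr ⟨h1.symm, cross_symm h2⟩
  · rintro ⟨j, l, f⟩ ⟨j', l', f'⟩ ⟨j'', l'', f''⟩ h h'
    rcases h with ⟨h1, h2⟩ | ⟨h1, h2⟩ <;> rcases h' with ⟨h1', h2'⟩ | ⟨h1', h2'⟩
    · exact Or.inl ⟨h1.trans h1', same_trans h2 h2'⟩
    · simp only at h1 h1'
      subst h1
      exact Or.inr ⟨h1', same_cross hV h2 h2'⟩
    · simp only at h1 h1'
      subst h1'
      exact Or.inr ⟨h1, cross_symm (same_cross hV (same_symm h2') (cross_symm h2))⟩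
    · simp only at h1 h1'
      have hj : j = j'' := by
        cases j <;> cases j' <;> cases j'' <;> simp_all
      exact Or.inl ⟨hj, cross_cross h2 h2'⟩

/-- A point of the doubling gives a valid parameter. -/
theorem valid_of_mem {v : L} {b : Bool}
    (hz : (b = true → v ∈ d.U) ∧ (b = false → v ∉ d.U ∨ v ∈ d.D)) :
    b = false → ∀ w : d.Arm, ¬ d.θ v d.o (d.s w.1) := by
  intro hb w hos
  have hwv : w.1 ≤ v := (d.hs v w.1).1 hos
  rcases hz.2 hb with h | h
  · exact h (d.U.upper hwv w.2.1)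
  · exact w.2.2 (d.D.lower hwv h)

/-- The relation on the pre-space as an equivalence. -/
def R0 (d : Pointed2 L P) (z : ConvexDoubling L d.U d.D) : Setoid d.X0 where
  r := d.Rel z.1.1 z.1.2
  iseqv := rel_equivalence (valid_of_mem z.2)

/-- The family of equivalences indexed by the doubling. -/
def R (d : Pointed2 L P) (z : ConvexDoubling L d.U d.D) : Setoid d.X :=
  Setoid.comap Subtype.val (d.R0 z)

theorem R_apply (z : ConvexDoubling L d.U d.D) (a a' : d.X) :
    d.R z a a' ↔ d.Rel z.1.1 z.1.2 a.1 a'.1 := Iff.rfl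

theorem ex_mono {v v' : L} (h : v ≤ v') {l : d.Lab} {f : P} (he : d.Ex v l f) :
    d.Ex v' l f := by
  cases l with
  | none => exact he
  | some w => exact ((d.rep.le_iff v v').2 h) he

theorem rel_mono {v v' : L} {b b' : Bool} (hv : v ≤ v') (hb : b = true → b' = true)
    {a a' : d.X0} (h : d.Rel v b a a') : d.Rel v' b' a a' := by
  have hθ : ∀ {p q : P}, d.θ v p q → d.θ v' p q := fun h' => ((d.rep.le_iff v v').2 hv) h'
  rcases h with ⟨h1, h2⟩ | ⟨h1, h2⟩
  · refine Or.inl ⟨h1, ?_⟩
    rcases h2 with ⟨h3, h4⟩ | ⟨h3, h4, h5⟩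
    · exact Or.inl ⟨h3, hθ h4⟩
    · exact Or.inr ⟨ex_mono hv h3, ex_mono hv h4, hθ h5⟩
  · refine Or.inr ⟨h1, ?_⟩
    rcases h2 with ⟨w, h3, h4, h5, h6⟩ | ⟨h3, h4, h5⟩
    · exact Or.inl ⟨w, h3, h4, hθ h5, hθ h6⟩
    · exact Or.inr ⟨hb h3, ⟨ex_mono hv h4.1, hθ h4.2⟩, ⟨ex_mono hv h5.1, hθ h5.2⟩⟩

/-- A point on the hub of side `true`. -/
def hub1 (d : Pointed2 L P) (f : P) : d.X := ⟨(true, none, f), fun h => Bool.noConfusion h⟩

/-- A point on the hub of side `false`. -/
def hub0 (d : Pointed2 L P) (q : P) (hq : d.Q q) : d.X := ⟨(false, none, q), fun _ _ => hq⟩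

/-- A point on an arm. -/
def arm (d : Pointed2 L P) (j : Bool) (w : d.Arm) (f : P) : d.X :=
  ⟨(j, some w, f), fun _ h => absurd h (by simp)⟩

theorem R_le_iff (z z' : ConvexDoubling L d.U d.D) : d.R z ≤ d.R z' ↔ z ≤ z' := by
  constructor
  · intro h
    have hv : z.1.1 ≤ z'.1.1 := by
      rw [← d.rep.le_iff]
      intro p q hpq
      have h1 : d.R z (d.hub1 p) (d.hub1 q) :=
        Or.inl ⟨rfl, Or.inl ⟨rfl, hpq⟩⟩
      rcases h h1 with ⟨_, h3 | h3⟩ | ⟨h2, _⟩
      · exact h3.2
      · exact h3.2.2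
      · exact absurd rfl h2
    have hb : z.1.2 = true → z'.1.2 = true := by
      intro hb
      have hU : z.1.1 ∈ d.U := z.2.1 hb
      have h1 : d.R z (d.hub0 (d.s z.1.1) (d.hQ2 _ hU)) (d.hub1 d.o) :=
        Or.inr ⟨by simp [hub0, hub1], Or.inr ⟨hb, ⟨trivial, (d.θ _).symm' ((d.hs _ _).2 le_rfl)⟩,
          ⟨trivial, (d.θ _).refl' _⟩⟩⟩
      rcases h h1 with ⟨h2, _⟩ | ⟨_, ⟨w, h3, _⟩ | h3⟩
      · simp [hub0, hub1] at h2
      · simp [hub0] at h3
      · exact h3.1
    exact ⟨hv, Bool.le_iff_imp.2 hb⟩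
  · intro h a a' haa
    exact rel_mono h.1 (Bool.le_iff_imp.1 h.2) haa

/-! ### Maps to the fibre -/

/-- A map to the fibre `P` is admissible if it carries every relation of the family to the
corresponding level. -/
def Adm (d : Pointed2 L P) (G : d.X0 → P) : Prop :=
  ∀ (z : ConvexDoubling L d.U d.D) (a a' : d.X0), d.R0 z a a' → d.θ z.1.1 (G a) (G a')

theorem adm_of_family (G : Bool → d.Lab → P → P)
    (hG : ∀ j l x f f', d.θ x f f' → d.θ x (G j l f) (G j l f'))
    (h1 : ∀ j (w : d.Arm), G j (some w) (d.s w.1) = G j none (d.s w.1))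
    (h2 : ∀ w : d.Arm, G false (some w) d.o = G true (some w) d.o)
    (h3 : ∀ x, x ∈ d.U → d.θ x (G false none d.o) (G true none d.o)) :
    d.Adm (fun a => G a.1 a.2.1 a.2.2) := by
  intro z a a' haa
  obtain ⟨⟨v, b⟩, hz⟩ := z
  obtain ⟨j, l, f⟩ := a
  obtain ⟨j', l', f'⟩ := a'
  simp only at hz ⊢
  have hub : ∀ (j : Bool) (l : d.Lab) (f : P), d.Ex v l f →
      d.θ v (G j l f) (G j none (d.Hp l f)) := by
    intro j l f he
    cases l with
    | none => exact (d.θ v).refl' _
    | some w =>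
      have := hG j (some w) v f _ he
      rw [h1 j w] at this
      exact this
  have hcross : ∀ (j j' : Bool), j ≠ j' → v ∈ d.U → d.θ v (G j none d.o) (G j' none d.o) := by
    intro j j' hj hα
    cases j <;> cases j'
    · exact absurd rfl hj
    · exact h3 v hα
    · exact (d.θ v).symm' (h3 v hα)
    · exact absurd rfl hj
  have harm : ∀ (j j' : Bool) (w : d.Arm), G j (some w) d.o = G j' (some w) d.o := by
    intro j j' w
    cases j <;> cases j'
    · rfl
    · exact h2 w
    · exact (h2 w).symm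
    · rfl
  rcases haa with ⟨h0, h4⟩ | ⟨h0, h4⟩
  · simp only at h0 h4
    subst h0
    rcases h4 with ⟨rfl, h5⟩ | ⟨h5, h6, h7⟩
    · exact hG _ _ _ _ _ h5
    · exact (d.θ v).trans' (hub j l f h5)
        ((d.θ v).trans' (hG j none v _ _ h7) ((d.θ v).symm' (hub j l' f' h6)))
  · simp only at h0 h4
    rcases h4 with ⟨w, rfl, rfl, h5, h6⟩ | ⟨h5, h6, h7⟩
    · have e1 := hG j (some w) v _ _ h5
      have e2 := hG j' (some w) v _ _ h6
      rw [harm j j' w] at e1
      exact (d.θ v).trans' e1 ((d.θ v).symm' e2)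
    · have hα : v ∈ d.U := hz.1 h5
      have e1 := (d.θ v).trans' (hub j l f h6.1) (hG j none v _ _ h6.2)
      have e2 := (d.θ v).trans' (hub j' l' f' h7.1) (hG j' none v _ _ h7.2)
      exact (d.θ v).trans' e1 ((d.θ v).trans' (hcross j j' h0 hα) ((d.θ v).symm' e2))

/-- The fibre projection is admissible. -/
theorem adm_snd (g : P → P) (hg : ∀ x f f', d.θ x f f' → d.θ x (g f) (g f')) :
    d.Adm (fun a => g a.2.2) :=
  adm_of_family (fun _ _ f => g f) (fun _ _ x f f' h => hg x f f' h)
    (fun _ _ => rfl) (fun _ => rfl) (fun _ _ => (d.θ _).refl' _)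

/-- The identity on one side, constant on the other. -/
theorem adm_side (j₀ : Bool) :
    d.Adm (fun a => if a.1 = j₀ then a.2.2 else d.o) := by
  refine adm_of_family (fun j _ f => if j = j₀ then f else d.o) ?_ ?_ ?_ ?_
  · intro j l x f f' h
    by_cases hj : j = j₀
    · simpa [hj] using h
    · simp only [hj, if_false]; exact (d.θ x).refl' _
  · intro j w; rfl
  · intro w
    cases j₀ <;> simp
  · intro x _
    cases j₀ <;> simp

/-- The identity on one arm, constant on everything else. -/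
theorem adm_arm (w : d.Arm) :
    d.Adm (fun a => if a.2.1 = some w then a.2.2 else d.s w.1) := by
  refine adm_of_family (fun _ l f => if l = some w then f else d.s w.1) ?_ ?_ ?_ ?_
  · intro j l x f f' h
    by_cases hl : l = some w
    · simpa [hl] using h
    · simp only [hl, if_false]; exact (d.θ x).refl' _
  · intro j w'
    by_cases hw : w' = w
    · subst hw; simp
    · simp [hw]
  · intro w'; rfl
  · intro x _; exact (d.θ x).refl' _

/-- Composition of an admissible map with a map preserving the levels. -/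
theorem adm_comp {G : d.X0 → P} (hG : d.Adm G) (Φ : P → P)
    (hΦ : ∀ x f f', d.θ x f f' → d.θ x (Φ f) (Φ f')) : d.Adm (fun a => Φ (G a)) :=
  fun z a a' h => hΦ _ _ _ (hG z a a' h)

/-! ### Classification -/

section Classify

variable (Ψ : Setoid d.X)
  (hcomp : ∀ g : d.X → d.X, (∀ z a b, d.R z a b → d.R z (g a) (g b)) →
    ∀ a b, Ψ a b → Ψ (g a) (g b))

include hcomp in
/-- Admissible maps followed by the insertion of a copy preserve `Ψ`. -/
theorem psi_adm {G : d.X0 → P} (hG : d.Adm G) (j : Bool) (l : d.Lab)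
    (hQ : ∀ a : d.X, j = false → l = none → d.Q (G a.1)) {a a' : d.X}
    (h : Ψ a a') : Ψ ⟨(j, l, G a.1), hQ a⟩ ⟨(j, l, G a'.1), hQ a'⟩ := by
  refine hcomp (fun a => ⟨(j, l, G a.1), hQ a⟩) ?_ a a' h
  intro z p q hpq
  exact Or.inl ⟨rfl, Or.inl ⟨rfl, hG z p.1 q.1 hpq⟩⟩

include hcomp in
/-- The hub copy of `Ψ` is one of the levels. -/
theorem exists_level : ∃ v, ∀ f f', Ψ (d.hub1 f) (d.hub1 f') ↔ d.θ v f f' := by
  let Ψ₀ : Setoid P := Setoid.comap (fun f => d.hub1 f) Ψ
  have h0 : ∀ g : P → P, (∀ x a b, d.θ x a b → d.θ x (g a) (g b)) →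
      ∀ a b, Ψ₀ a b → Ψ₀ (g a) (g b) := by
    intro g hg a b hab
    exact psi_adm Ψ hcomp (adm_snd g (fun x f f' h => hg x f f' h)) true none
      (fun _ h _ => Bool.noConfusion h) hab
  obtain ⟨v, hv⟩ := d.rep.classify Ψ₀ h0
  refine ⟨v, fun f f' => ?_⟩
  rw [← hv]
  exact Iff.rfl

variable {v : L} (hv : ∀ f f', Ψ (d.hub1 f) (d.hub1 f') ↔ d.θ v f f')

include hcomp hv in
/-- Admissible maps carry `Ψ` to the level. -/
theorem adm_level {G : d.X0 → P} (hG : d.Adm G) {a a' : d.X} (h : Ψ a a') :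
    d.θ v (G a.1) (G a'.1) :=
  (hv _ _).1 (psi_adm Ψ hcomp hG true none (fun _ h _ => Bool.noConfusion h) h)

include hcomp hv in
/-- On the hub of side `false`, `Ψ` contains the image of the level, for pairs coming from a
map into `Q`. -/
theorem hub0_of_map (Φ : P → P) (hΦ : ∀ x f f', d.θ x f f' → d.θ x (Φ f) (Φ f'))
    (hΦQ : ∀ p, d.Q (Φ p)) {f f' : P} (h : d.θ v f f') :
    Ψ (d.hub0 (Φ f) (hΦQ f)) (d.hub0 (Φ f') (hΦQ f')) := by
  have hG : d.Adm (fun a => Φ (if a.1 = true then a.2.2 else d.o)) :=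
    adm_comp (adm_side true) Φ hΦ
  exact psi_adm Ψ hcomp hG false none (fun _ _ _ => hΦQ _) ((hv f f').2 h)

include hcomp hv in
/-- On each copy, `Ψ` is the level. -/
theorem copy_iff {j : Bool} {l : d.Lab} {f f' : P} {ha : j = false → l = none → d.Q f}
    {ha' : j = false → l = none → d.Q f'} :
    Ψ ⟨(j, l, f), ha⟩ ⟨(j, l, f'), ha'⟩ ↔ d.θ v f f' := by
  constructor
  · intro h
    exact adm_level Ψ hcomp hv (adm_snd id (fun _ _ _ h => h)) h
  · intro h
    by_cases hc : j = false ∧ l = none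
    · obtain ⟨rfl, rfl⟩ := hc
      have hq : d.Q f := ha rfl rfl
      have hq' : d.Q f' := ha' rfl rfl
      obtain ⟨q'', _, ⟨Φ, hΦ, hΦQ, e1, e2⟩, ⟨Φ', hΦ', hΦQ', e1', e2'⟩⟩ := d.hQ3 v f f' hq hq' h
      have hos : d.θ v d.o (d.s v) := (d.hs v v).2 le_rfl
      have s1 := hub0_of_map Ψ hcomp hv Φ hΦ hΦQ hos
      have s2 := hub0_of_map Ψ hcomp hv Φ' hΦ' hΦQ' hos
      have e3 : d.hub0 (Φ d.o) (hΦQ d.o) = ⟨(false, none, f), ha⟩ := by
        apply Subtype.ext; simp [hub0, e1]
      have e4 : d.hub0 (Φ (d.s v)) (hΦQ (d.s v)) = d.hub0 (Φ' d.o) (hΦQ' d.o) := by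
        apply Subtype.ext; simp [hub0, e2, e1']
      have e5 : d.hub0 (Φ' (d.s v)) (hΦQ' (d.s v)) = ⟨(false, none, f'), ha'⟩ := by
        apply Subtype.ext; simp [hub0, e2']
      rw [e3, e4] at s1
      rw [e5] at s2
      exact Ψ.trans' s1 s2
    · have hne : ∀ (a : d.X), j = false → l = none → d.Q (id a.1.2.2) := by
        intro _ h3 h4; exact absurd ⟨h3, h4⟩ hc
      exact psi_adm Ψ hcomp (adm_snd id (fun _ _ _ h => h)) j l hne
        ((hv f f').2 h : Ψ (d.hub1 f) (d.hub1 f'))

include hcomp hv in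
/-- The classification of compatible equivalences above the gluing relation. -/
theorem exists_param (z₀ : ConvexDoubling L d.U d.D) (h₀ : d.R z₀ ≤ Ψ) : ∃ z, Ψ = d.R z := by
  have copy : ∀ {j : Bool} {l : d.Lab} {f f' : P} {ha : j = false → l = none → d.Q f}
      {ha' : j = false → l = none → d.Q f'},
      Ψ ⟨(j, l, f), ha⟩ ⟨(j, l, f'), ha'⟩ ↔ d.θ v f f' := copy_iff Ψ hcomp hv
  have lvl : ∀ {G : d.X0 → P}, d.Adm G → ∀ {a a' : d.X}, Ψ a a' → d.θ v (G a.1) (G a'.1) :=
    fun hG _ _ h => adm_level Ψ hcomp hv hG h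
  -- membership of hub projections
  have hpQ : ∀ (j : Bool) (l : d.Lab) (f : P), (j = false → l = none → d.Q f) →
      (j = false → d.Q (d.Hp l f)) := by
    intro j l f h hj
    cases l with
    | none => exact h hj rfl
    | some w => exact d.hQ2 _ w.2.1
  let hubpt : ∀ (j : Bool) (l : d.Lab) (f : P), (j = false → l = none → d.Q f) → d.X :=
    fun j l f h => ⟨(j, none, d.Hp l f), fun hj _ => hpQ j l f h hj⟩
  have G1 : ∀ (j : Bool) (w : d.Arm), Ψ (d.arm j w (d.s w.1))
      ⟨(j, none, d.s w.1), fun _ _ => d.hQ2 _ w.2.1⟩ := fun j w =>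
    h₀ (Or.inl ⟨rfl, Or.inr ⟨(d.θ _).refl' (d.s w.1), trivial, (d.θ _).refl' (d.s w.1)⟩⟩)
  have G2 : ∀ (j j' : Bool) (w : d.Arm), Ψ (d.arm j w d.o) (d.arm j' w d.o) := by
    intro j j' w
    by_cases hj : j = j'
    · subst hj; exact Ψ.refl' _
    · exact h₀ (Or.inr ⟨hj, Or.inl ⟨w, rfl, rfl, (d.θ _).refl' _, (d.θ _).refl' _⟩⟩)
  have hub : ∀ (j : Bool) (l : d.Lab) (f : P) (h : j = false → l = none → d.Q f),
      d.Ex v l f → Ψ ⟨(j, l, f), h⟩ (hubpt j l f h) := by
    intro j l f h he
    cases l with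
    | none => exact Ψ.refl' _
    | some w =>
      have e1 : Ψ ⟨(j, some w, f), h⟩ (d.arm j w (d.s w.1)) :=
        (copy).2 he
      exact Ψ.trans' e1 (G1 j w)
  let b : Bool := decide (∃ q, ∃ hq : d.Q q, d.θ v q d.o ∧ Ψ (d.hub0 q hq) (d.hub1 d.o))
  have hb : b = true ↔ ∃ q, ∃ hq : d.Q q, d.θ v q d.o ∧ Ψ (d.hub0 q hq) (d.hub1 d.o) := by
    simp [b]
  have h1 : b = true → v ∈ d.U := by
    intro hbt
    obtain ⟨q, hq, hqo, _⟩ := hb.1 hbt
    exact d.hQ1 v q hq hqo
  have h2 : b = false → v ∉ d.U ∨ v ∈ d.D := by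
    intro hbf
    by_contra hcon
    rw [not_or, not_not] at hcon
    let w : d.Arm := ⟨v, hcon.1, hcon.2⟩
    have hos : d.θ v d.o (d.s v) := (d.hs v v).2 le_rfl
    have hq : d.Q (d.s v) := d.hQ2 v hcon.1
    have e0 : Ψ (d.hub0 (d.s v) hq) (d.arm false w d.o) := by
      have e2 : Ψ (d.arm false w (d.s v)) (d.hub0 (d.s v) hq) := G1 false w
      have e3 : Ψ (d.arm false w (d.s v)) (d.arm false w d.o) :=
        (copy).2 ((d.θ v).symm' hos)
      exact Ψ.trans' (Ψ.symm' e2) e3
    have e1 : Ψ (d.arm true w d.o) (d.hub1 d.o) := by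
      have e2 : Ψ (d.arm true w (d.s v)) (d.hub1 (d.s v)) := G1 true w
      have e3 : Ψ (d.arm true w d.o) (d.arm true w (d.s v)) :=
        (copy).2 hos
      have e4 : Ψ (d.hub1 (d.s v)) (d.hub1 d.o) := (hv _ _).2 ((d.θ v).symm' hos)
      exact Ψ.trans' e3 (Ψ.trans' e2 e4)
    have : Ψ (d.hub0 (d.s v) hq) (d.hub1 d.o) :=
      Ψ.trans' e0 (Ψ.trans' (G2 false true w) e1)
    have hbt : b = true := hb.2 ⟨d.s v, hq, (d.θ v).symm' hos, this⟩
    rw [hbf] at hbt
    exact Bool.noConfusion hbt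
  refine ⟨⟨(v, b), h1, h2⟩, ?_⟩
  ext ⟨⟨j, l, f⟩, ha⟩ ⟨⟨j', l', f'⟩, ha'⟩
  constructor
  · intro h
    have hex : l ≠ l' → d.Ex v l f ∧ d.Ex v l' f' := by
      intro hl
      constructor
      · cases l with
        | none => trivial
        | some w =>
          have := lvl (adm_arm w) h
          change d.θ v f (d.s w.1)
          simpa [Ne.symm hl] using this
      · cases l' with
        | none => trivial
        | some w =>
          have := lvl (adm_arm w) h
          exact (d.θ v).symm' (by simpa [hl] using this)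
    by_cases hj : j = j'
    · subst hj
      by_cases hl : l = l'
      · subst hl
        exact Or.inl ⟨rfl, Or.inl ⟨rfl, (copy).1 h⟩⟩
      · obtain ⟨e1, e2⟩ := hex hl
        have h3 := Ψ.trans' (Ψ.symm' (hub j l f ha e1)) (Ψ.trans' h (hub j l' f' ha' e2))
        exact Or.inl ⟨rfl, Or.inr ⟨e1, e2, (copy).1 h3⟩⟩
    · have hf : d.θ v f d.o := by
        have := lvl (adm_side j) h
        simpa [Ne.symm hj] using this
      have hf' : d.θ v f' d.o := by
        have := lvl (adm_side j') h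
        exact (d.θ v).symm' (by simpa [hj] using this)
      by_cases hl : ∃ w, l = some w ∧ l' = some w
      · obtain ⟨w, rfl, rfl⟩ := hl
        exact Or.inr ⟨hj, Or.inl ⟨w, rfl, rfl, hf, hf'⟩⟩
      · have hn : d.Ex v l f ∧ d.Ex v l' f' := by
          by_cases hll : l = l'
          · subst hll
            cases l with
            | none => exact ⟨trivial, trivial⟩
            | some w => exact absurd ⟨w, rfl, rfl⟩ hl
          · exact hex hll
        have near : ∀ (l : d.Lab) (f : P), d.θ v f d.o → d.Ex v l f → d.Near v l f := by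
          intro l f hf he
          refine ⟨he, ?_⟩
          cases l with
          | none => exact hf
          | some w => exact (d.θ v).trans' ((d.θ v).symm' he) hf
        have n1 := near l f hf hn.1
        have n2 := near l' f' hf' hn.2
        have bt : b = true := by
          -- the chain between the two hub projections
          have c1 := Ψ.trans' (Ψ.symm' (hub j l f ha hn.1)) (Ψ.trans' h (hub j' l' f' ha' hn.2))
          have key : ∀ (j j' : Bool) (l l' : d.Lab) (f f' : P) (ha : j = false → l = none → d.Q f)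
              (ha' : j' = false → l' = none → d.Q f'), j = false → j' = true →
              d.Near v l f → d.Near v l' f' → Ψ (hubpt j l f ha) (hubpt j' l' f' ha') →
              b = true := by
            intro j j' l l' f f' ha ha' hj hj' n1 n2 c
            subst hj; subst hj'
            refine hb.2 ⟨d.Hp l f, hpQ false l f ha rfl, n1.2, ?_⟩
            have e4 : Ψ (hubpt true l' f' ha') (d.hub1 d.o) := (hv _ _).2 n2.2
            exact Ψ.trans' c e4
          cases j <;> cases j'
          · exact absurd rfl hj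
          · exact key _ _ _ _ _ _ ha ha' rfl rfl n1 n2 c1
          · exact key _ _ _ _ _ _ ha' ha rfl rfl n2 n1 (Ψ.symm' c1)
          · exact absurd rfl hj
        exact Or.inr ⟨hj, Or.inr ⟨bt, n1, n2⟩⟩
  · intro h
    rcases h with ⟨h0, h4⟩ | ⟨h0, h4⟩
    · simp only at h0 h4
      subst h0
      rcases h4 with ⟨rfl, h5⟩ | ⟨h5, h6, h7⟩
      · exact (copy).2 h5
      · exact Ψ.trans' (hub j l f ha h5)
          (Ψ.trans' ((copy).2 h7) (Ψ.symm' (hub j l' f' ha' h6)))
    · simp only at h0 h4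
      rcases h4 with ⟨w, rfl, rfl, h5, h6⟩ | ⟨h5, h6, h7⟩
      · have e1 : Ψ ⟨(j, some w, f), ha⟩ (d.arm j w d.o) := (copy).2 h5
        have e2 : Ψ (d.arm j' w d.o) ⟨(j', some w, f'), ha'⟩ :=
          (copy).2 ((d.θ v).symm' h6)
        exact Ψ.trans' e1 (Ψ.trans' (G2 j j' w) e2)
      · -- both points are near the bridge
        have hbt := hb.1 h5
        obtain ⟨q₀, hq₀, hq₀o, hq₀Ψ⟩ := hbt
        have key : ∀ (j j' : Bool) (l l' : d.Lab) (f f' : P) (ha : j = false → l = none → d.Q f)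
            (ha' : j' = false → l' = none → d.Q f'), j = false → j' = true →
            d.Near v l f → d.Near v l' f' → Ψ ⟨(j, l, f), ha⟩ ⟨(j', l', f'), ha'⟩ := by
          intro j j' l l' f f' ha ha' hj hj' n1 n2
          subst hj; subst hj'
          have e1 := hub false l f ha n1.1
          have e2 := hub true l' f' ha' n2.1
          have e3 : Ψ (hubpt false l f ha) (d.hub0 q₀ hq₀) :=
            (copy).2 ((d.θ v).trans' n1.2 ((d.θ v).symm' hq₀o))
          have e4 : Ψ (d.hub1 d.o) (hubpt true l' f' ha') := (hv _ _).2 ((d.θ v).symm' n2.2)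
          exact Ψ.trans' e1 (Ψ.trans' e3 (Ψ.trans' hq₀Ψ (Ψ.trans' e4 (Ψ.symm' e2))))
        cases j <;> cases j'
        · exact absurd rfl h0
        · exact key _ _ _ _ _ _ ha ha' rfl rfl h6 h7
        · exact Ψ.symm' (key _ _ _ _ _ _ ha' ha rfl rfl h7 h6)
        · exact absurd rfl h0

end Classify

/-- The equality relation, as a point of the family of equivalences. -/
def eqSetoid (P : Type) : Setoid P where
  r := Eq
  iseqv := eq_equivalence

/-- The main theorem for pointed presentations. -/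
theorem representable [Finite P] [Nonempty P] (d : Pointed2 L P) (hUD : ∃ c, c ∈ d.U ∧ c ∈ d.D) :
    Representable (ConvexDoubling L d.U d.D) := by
  obtain ⟨v₀, hv₀⟩ := d.rep.classify (eqSetoid P) (by
    intro g _ a b hab
    exact congrArg g hab)
  have hv₀le : ∀ x, v₀ ≤ x := by
    intro x
    rw [← d.rep.le_iff, ← hv₀]
    intro a b hab
    have hab' : a = b := hab
    rw [hab']
  have hfinSet : Finite (Setoid P) :=
    Finite.of_injective (fun r : Setoid P => (r.r : P → P → Prop))
      (fun r r' h => Setoid.ext (fun a b => by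
        have := congrFun (congrFun h a) b
        exact iff_of_eq this))
  have hinj : Function.Injective d.θ := by
    intro x y hxy
    exact le_antisymm ((d.rep.le_iff x y).1 (le_of_eq hxy)) ((d.rep.le_iff y x).1 (le_of_eq hxy.symm))
  have hfinL : Finite L := Finite.of_injective d.θ hinj
  obtain ⟨c, _, hcD⟩ := hUD
  have hv₀D : v₀ ∈ d.D := d.D.lower (hv₀le c) hcD
  let z₀ : ConvexDoubling L d.U d.D :=
    ⟨(v₀, false), fun h => Bool.noConfusion h, fun _ => Or.inr hv₀D⟩
  have hz₀ : ∀ z, z₀ ≤ z := fun z => ⟨hv₀le _, Bool.false_le _⟩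
  have hfinX : Finite d.X := inferInstance
  have hneX : Nonempty d.X := ⟨d.hub1 d.o⟩
  refine representable_of_family d.R R_le_iff z₀ hz₀ ?_
  intro Ψ h₀ hcomp
  obtain ⟨v, hv⟩ := exists_level Ψ hcomp
  exact exists_param Ψ hcomp hv z₀ h₀

end Pointed2

/-- **Convex doubling theorem.** If `L` is representable, and `U`, `D` are an upper and a lower set
with a common point, then the doubling of `L` at the convex set `U ∩ D` is representable. -/
theorem representable_convexDoubling {L : Type} [PartialOrder L] (U : UpperSet L) (D : LowerSet L)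
    (hUD : ∃ c, c ∈ U ∧ c ∈ D) (h : Representable L) : Representable (ConvexDoubling L U D) := by
  obtain ⟨B, hB, hne, θ, hθ⟩ := exists_unaryRep h
  -- finiteness of `L`
  have hfinSet : Finite (Setoid B) :=
    Finite.of_injective (fun r : Setoid B => (r.r : B → B → Prop))
      (fun r r' h => Setoid.ext (fun a b => by
        have := congrFun (congrFun h a) b
        exact iff_of_eq this))
  have hinj : Function.Injective θ := by
    intro x y hxy
    exact le_antisymm ((hθ.le_iff x y).1 (le_of_eq hxy)) ((hθ.le_iff y x).1 (le_of_eq hxy.symm))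
  have hfinL : Finite L := Finite.of_injective θ hinj
  have hneL : Nonempty L := ⟨hUD.choose⟩
  let I : Type := L × (B × B)
  have hfinI : Finite I := inferInstance
  have hneI : Nonempty I := inferInstance
  let r : L → B × B → B := fun w e => if θ w e.1 e.2 then e.2 else e.1
  have r_rel : ∀ w a b, θ w a b → r w (a, b) = b := by
    intro w a b h
    simp only [r]
    rw [if_pos h]
  let o : I → B := fun i => i.2.1
  let s : L → I → B := fun w i => if i.1 = w then r w i.2 else i.2.1
  let Q : (I → B) → Prop := fun g => ∃ t, t ∈ U ∧ ∀ e, g (t, e) = r t e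
  -- the maps into `Q`
  have hom : ∀ (v t : L) (x y : I → B), t ∈ U → (∀ e, x (t, e) = r t e) → (∀ e, y (t, e) = r t e) →
      powerSetoid θ I v x y →
      ∃ Φ : (I → B) → (I → B),
        (∀ z f f', powerSetoid θ I z f f' → powerSetoid θ I z (Φ f) (Φ f')) ∧
        (∀ p, Q (Φ p)) ∧ Φ o = x ∧ Φ (s v) = y := by
    intro v t x y ht hx hy hxy
    refine ⟨fun p i => if i.1 = t then r t i.2 else p (v, (x i, y i)), ?_, ?_, ?_, ?_⟩
    · intro z f f' hff i
      by_cases hi : i.1 = t
      · simp only [hi, if_true]; exact (θ z).refl' _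
      · simp only [hi, if_false]; exact hff _
    · intro p
      exact ⟨t, ht, fun e => by simp⟩
    · funext i
      by_cases hi : i.1 = t
      · obtain ⟨i1, i2⟩ := i
        simp only at hi
        subst hi
        simp [hx]
      · simp [hi, o]
    · funext i
      by_cases hi : i.1 = t
      · obtain ⟨i1, i2⟩ := i
        simp only at hi
        subst hi
        simp [hy]
      · simp only [hi, if_false, s, if_true]
        exact r_rel v _ _ (hxy i)
  let d : Pointed2 L (I → B) :=
    { θ := powerSetoid θ I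
      rep := hθ.power I
      o := o
      s := s
      hs := by
        intro x w
        constructor
        · intro h
          rw [← hθ.le_iff]
          intro a b hab
          have := h (w, (a, b))
          simp only [o, s, if_true] at this
          rw [r_rel w a b hab] at this
          exact this
        · intro h i
          by_cases hi : i.1 = w
          · simp only [o, s, hi, if_true, r]
            by_cases he : θ w i.2.1 i.2.2
            · simp only [he, if_true]
              exact ((hθ.le_iff w x).2 h) he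
            · simp only [he, if_false]
              exact (θ x).refl' _
          · simp only [o, s, hi, if_false]
            exact (θ x).refl' _
      U := U
      D := D
      Q := Q
      hQ1 := by
        rintro x q ⟨t, ht, hq⟩ hqo
        have htx : t ≤ x := by
          rw [← hθ.le_iff]
          intro a b hab
          have := hqo (t, (a, b))
          rw [hq, r_rel t a b hab] at this
          exact (θ x).symm' this
        exact U.upper htx ht
      hQ2 := by
        intro w hw
        exact ⟨w, hw, fun e => by simp [s]⟩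
      hQ3 := by
        rintro v q q' ⟨t, ht, hq⟩ ⟨t', ht', hq'⟩ hqq
        let q'' : I → B := fun i => if i.1 = t' then r t' i.2 else q i
        have hq''t : ∀ e, q'' (t, e) = r t e := by
          intro e
          by_cases htt : t = t'
          · subst htt; simp [q'']
          · simp [q'', htt, hq]
        have hq''t' : ∀ e, q'' (t', e) = r t' e := by
          intro e
          simp [q'']
        have h1 : powerSetoid θ I v q q'' := by
          intro i
          by_cases hi : i.1 = t'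
          · have e1 : q'' i = q' i := by
              obtain ⟨i1, i2⟩ := i
              simp only at hi
              subst hi
              rw [hq''t', hq']
            rw [e1]
            exact hqq i
          · simp only [q'', hi, if_false]
            exact (θ v).refl' _
        have h2 : powerSetoid θ I v q'' q' := by
          intro i
          by_cases hi : i.1 = t'
          · have e1 : q'' i = q' i := by
              obtain ⟨i1, i2⟩ := i
              simp only at hi
              subst hi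
              rw [hq''t', hq']
            rw [e1]
          · simp only [q'', hi, if_false]
            exact hqq i
        exact ⟨q'', ⟨t, ht, hq''t⟩, hom v t q q'' ht hq hq''t h1, hom v t' q'' q' ht' hq''t' hq' h2⟩ }
  have hfP : Finite (I → B) := inferInstance
  have hnP : Nonempty (I → B) := inferInstance
  exact d.representable hUD

end Vale.Agent.P183
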