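import Vale.Agent.Lib.P183_Assembly

/-!
The gluing construction for inflations: from pointed unary presentations of `L` and a unary
presentation of `K` to a representation of the inflation of `L` by `K` at a convex set.
-/

namespace Vale.Agent.P183

open Classical

/-- The data for the gluing. -/
structure Pointed3 (L K P J : Type) [PartialOrder L] [PartialOrder K] where
  θ : L → Setoid P
  rep : UnaryRep θ
  ξ : K → Setoid J
  repK : UnaryRep ξ
  o : P
  s : L → P
  hs : ∀ x w, θ x o (s w) ↔ w ≤ x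
  U : UpperSet L
  D : LowerSet L
  c : L
  hcU : c ∈ U
  hcD : c ∈ D
  Q : P → Prop
  hQ1 : ∀ x q, Q q → θ x q o → x ∈ U
  hQ2 : ∀ w, w ∈ U → Q (s w)
  hQ3 : ∀ v q q', Q q → Q q' → θ v q q' → ∃ q'', Q q'' ∧
    (∃ Φ : P → P, (∀ x f f', θ x f f' → θ x (Φ f) (Φ f')) ∧ (∀ p, Q (Φ p)) ∧
      Φ o = q ∧ Φ (s v) = q'') ∧
    (∃ Φ : P → P, (∀ x f f', θ x f f' → θ x (Φ f) (Φ f')) ∧ (∀ p, Q (Φ p)) ∧
      Φ o = q'' ∧ Φ (s v) = q')
  j₀ : J

namespace Pointed3

variable {L K P J : Type} [PartialOrder L] [PartialOrder K] (d : Pointed3 L K P J)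

/-- Arm labels: the points of `U` outside `D`, and one point of `C`. -/
abbrev Arm : Type := {w : L // w ∈ d.U ∧ (w ∉ d.D ∨ w = d.c)}

/-- Labels: the hub is `none`. -/
abbrev Lab : Type := Option d.Arm

/-- The pre-space. -/
abbrev X0 : Type := J × d.Lab × P

/-- The space: on the hubs only the points of `Q` are kept. -/
abbrev X : Type := {a : d.X0 // a.2.1 = none → d.Q a.2.2}

/-- The exit condition. -/
def Ex (v : L) : d.Lab → P → Prop
  | none, _ => True
  | some w, f => d.θ v f (d.s w.1)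

/-- The projection to the hub. -/
def Hp : d.Lab → P → P
  | none, f => f
  | some w, _ => d.s w.1

/-- Close to the bridge point. -/
def Near (v : L) (l : d.Lab) (f : P) : Prop := d.Ex v l f ∧ d.θ v (d.Hp l f) d.o

/-- The relation between points on the same side. -/
def Same (v : L) (l : d.Lab) (f : P) (l' : d.Lab) (f' : P) : Prop :=
  (l = l' ∧ d.θ v f f') ∨ (d.Ex v l f ∧ d.Ex v l' f' ∧ d.θ v (d.Hp l f) (d.Hp l' f'))

/-- The relation between points on different sides. -/
def Cross (v : L) (κ : K) (j j' : J) (l : d.Lab) (f : P) (l' : d.Lab) (f' : P) : Prop :=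
  (∃ w : d.Arm, w.1 ∉ d.D ∧ l = some w ∧ l' = some w ∧ d.θ v f d.o ∧ d.θ v f' d.o) ∨
    (d.ξ κ j j' ∧ d.Near v l f ∧ d.Near v l' f')

/-- The relation on the pre-space. -/
def Rel (v : L) (κ : K) (a a' : d.X0) : Prop :=
  (a.1 = a'.1 ∧ d.Same v a.2.1 a.2.2 a'.2.1 a'.2.2) ∨
    (a.1 ≠ a'.1 ∧ d.Cross v κ a.1 a'.1 a.2.1 a.2.2 a'.2.1 a'.2.2)

variable {d}

theorem ex_congr {v : L} {l : d.Lab} {f f' : P} (h : d.θ v f f') :
    d.Ex v l f ↔ d.Ex v l f' := by
  cases l with
  | none => exact Iff.rfl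
  | some w =>
    exact ⟨fun h' => (d.θ v).trans' ((d.θ v).symm' h) h', fun h' => (d.θ v).trans' h h'⟩

theorem hp_congr {v : L} {l : d.Lab} {f f' : P} (h : d.θ v f f') :
    d.θ v (d.Hp l f) (d.Hp l f') := by
  cases l with
  | none => exact h
  | some w => exact (d.θ v).refl' _

theorem near_congr {v : L} {l : d.Lab} {f f' : P} (h : d.θ v f f') (hn : d.Near v l f) :
    d.Near v l f' :=
  ⟨(ex_congr h).1 hn.1, (d.θ v).trans' ((d.θ v).symm' (hp_congr h)) hn.2⟩

theorem same_refl (v : L) (l : d.Lab) (f : P) : d.Same v l f l f :=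
  Or.inl ⟨rfl, (d.θ v).refl' f⟩

theorem same_symm {v : L} {l l' : d.Lab} {f f' : P} (h : d.Same v l f l' f') :
    d.Same v l' f' l f := by
  rcases h with ⟨rfl, h⟩ | ⟨h1, h2, h3⟩
  · exact Or.inl ⟨rfl, (d.θ v).symm' h⟩
  · exact Or.inr ⟨h2, h1, (d.θ v).symm' h3⟩

theorem same_trans {v : L} {l l' l'' : d.Lab} {f f' f'' : P} (h : d.Same v l f l' f')
    (h' : d.Same v l' f' l'' f'') : d.Same v l f l'' f'' := by
  rcases h with ⟨rfl, h⟩ | ⟨h1, h2, h3⟩
  · rcases h' with ⟨rfl, h'⟩ | ⟨h1', h2', h3'⟩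
    · exact Or.inl ⟨rfl, (d.θ v).trans' h h'⟩
    · exact Or.inr ⟨(ex_congr h).2 h1', h2', (d.θ v).trans' (hp_congr h) h3'⟩
  · rcases h' with ⟨rfl, h'⟩ | ⟨h1', h2', h3'⟩
    · exact Or.inr ⟨h1, (ex_congr h').1 h2, (d.θ v).trans' h3 (hp_congr h')⟩
    · exact Or.inr ⟨h1, h2', (d.θ v).trans' h3 h3'⟩

theorem cross_symm {v : L} {κ : K} {j j' : J} {l l' : d.Lab} {f f' : P}
    (h : d.Cross v κ j j' l f l' f') : d.Cross v κ j' j l' f' l f := by
  rcases h with ⟨w, h0, h1, h2, h3, h4⟩ | ⟨h1, h2, h3⟩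
  · exact Or.inl ⟨w, h0, h2, h1, h4, h3⟩
  · exact Or.inr ⟨(d.ξ κ).symm' h1, h3, h2⟩

theorem same_cross {v : L} {κ : K}
    (hV : ∀ w : d.Arm, w.1 ∉ d.D → d.θ v d.o (d.s w.1) → ∀ j j', d.ξ κ j j')
    {j j' : J} {l l' l'' : d.Lab} {f f' f'' : P} (h : d.Same v l f l' f')
    (h' : d.Cross v κ j j' l' f' l'' f'') : d.Cross v κ j j' l f l'' f'' := by
  rcases h with ⟨rfl, h⟩ | ⟨h1, h2, h3⟩
  · rcases h' with ⟨w, h0, rfl, h2', h3', h4'⟩ | ⟨h1', h2', h3'⟩
    · exact Or.inl ⟨w, h0, rfl, h2', (d.θ v).trans' h h3', h4'⟩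
    · exact Or.inr ⟨h1', near_congr ((d.θ v).symm' h) h2', h3'⟩
  · rcases h' with ⟨w, h0, rfl, rfl, h3', h4'⟩ | ⟨h1', h2', h3'⟩
    · have hos : d.θ v d.o (d.s w.1) := (d.θ v).trans' ((d.θ v).symm' h3') h2
      refine Or.inr ⟨hV w h0 hos j j', ⟨h1, ?_⟩, ⟨?_, ?_⟩⟩
      · exact (d.θ v).trans' h3 ((d.θ v).symm' hos)
      · exact (d.θ v).trans' h4' hos
      · exact (d.θ v).symm' hos
    · exact Or.inr ⟨h1', ⟨h1, (d.θ v).trans' h3 h2'.2⟩, h3'⟩

/-- Two crossings returning to the same side. -/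
theorem cross_cross_same {v : L} {κ : K} {j j' : J} {l l' l'' : d.Lab} {f f' f'' : P}
    (h : d.Cross v κ j j' l f l' f') (h' : d.Cross v κ j' j l' f' l'' f'') :
    d.Same v l f l'' f'' := by
  rcases h with ⟨w, _, rfl, rfl, h3, h4⟩ | ⟨h1, h2, h3⟩
  · rcases h' with ⟨w', _, h1', rfl, h3', h4'⟩ | ⟨h1', h2', h3'⟩
    · cases h1'
      exact Or.inl ⟨rfl, (d.θ v).trans' h3 ((d.θ v).symm' h4')⟩
    · have hos : d.θ v d.o (d.s w.1) := (d.θ v).trans' ((d.θ v).symm' h4) h2'.1
      refine Or.inr ⟨(d.θ v).trans' h3 hos, h3'.1, ?_⟩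
      exact (d.θ v).trans' ((d.θ v).symm' hos) ((d.θ v).symm' h3'.2)
  · rcases h' with ⟨w', _, rfl, rfl, h3', h4'⟩ | ⟨h1', h2', h3'⟩
    · have hos : d.θ v d.o (d.s w'.1) := (d.θ v).trans' ((d.θ v).symm' h3') h3.1
      refine Or.inr ⟨h2.1, (d.θ v).trans' h4' hos, ?_⟩
      exact (d.θ v).trans' h2.2 hos
    · exact Or.inr ⟨h2.1, h3'.1, (d.θ v).trans' h2.2 ((d.θ v).symm' h3'.2)⟩

/-- Two crossings ending on a third side. -/
theorem cross_cross_cross {v : L} {κ : K}
    (hV : ∀ w : d.Arm, w.1 ∉ d.D → d.θ v d.o (d.s w.1) → ∀ j j', d.ξ κ j j')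
    {j j' j'' : J} {l l' l'' : d.Lab} {f f' f'' : P}
    (h : d.Cross v κ j j' l f l' f') (h' : d.Cross v κ j' j'' l' f' l'' f'') :
    d.Cross v κ j j'' l f l'' f'' := by
  rcases h with ⟨w, hw, rfl, rfl, h3, h4⟩ | ⟨h1, h2, h3⟩
  · rcases h' with ⟨w', _, h1', rfl, h3', h4'⟩ | ⟨h1', h2', h3'⟩
    · cases h1'
      exact Or.inl ⟨w, hw, rfl, rfl, h3, h4'⟩
    · have hos : d.θ v d.o (d.s w.1) := (d.θ v).trans' ((d.θ v).symm' h4) h2'.1
      exact Or.inr ⟨hV w hw hos _ _, ⟨(d.θ v).trans' h3 hos, (d.θ v).symm' hos⟩, h3'⟩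
  · rcases h' with ⟨w', hw', rfl, rfl, h3', h4'⟩ | ⟨h1', h2', h3'⟩
    · have hos : d.θ v d.o (d.s w'.1) := (d.θ v).trans' ((d.θ v).symm' h3') h3.1
      exact Or.inr ⟨hV w' hw' hos _ _, h2, ⟨(d.θ v).trans' h4' hos, (d.θ v).symm' hos⟩⟩
    · exact Or.inr ⟨(d.ξ κ).trans' h1 h1', h2, h3'⟩

theorem rel_equivalence {v : L} {κ : K}
    (hV : ∀ w : d.Arm, w.1 ∉ d.D → d.θ v d.o (d.s w.1) → ∀ j j', d.ξ κ j j') :
    Equivalence (d.Rel v κ) := by
  refine ⟨?_, ?_, ?_⟩
  · rintro ⟨j, l, f⟩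
    exact Or.inl ⟨rfl, same_refl v l f⟩
  · rintro ⟨j, l, f⟩ ⟨j', l', f'⟩ h
    rcases h with ⟨h1, h2⟩ | ⟨h1, h2⟩
    · exact Or.inl ⟨h1.symm, same_symm h2⟩
    · exact Or.inr ⟨h1.symm, cross_symm h2⟩
  · rintro ⟨j, l, f⟩ ⟨j', l', f'⟩ ⟨j'', l'', f''⟩ h h'
    rcases h with ⟨h1, h2⟩ | ⟨h1, h2⟩ <;> rcases h' with ⟨h1', h2'⟩ | ⟨h1', h2'⟩
    · exact Or.inl ⟨h1.trans h1', same_trans h2 h2'⟩
    · simp only at h1 h1'
      subst h1
      exact Or.inr ⟨h1', same_cross hV h2 h2'⟩
    · simp only at h1 h1'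
      subst h1'
      exact Or.inr ⟨h1, cross_symm (same_cross hV (same_symm h2') (cross_symm h2))⟩
    · simp only at h1 h1' h2 h2'
      by_cases hj : j = j''
      · subst hj
        exact Or.inl ⟨rfl, cross_cross_same h2 h2'⟩
      · exact Or.inr ⟨hj, cross_cross_cross hV h2 h2'⟩

theorem exists_bot_top (d : Pointed3 L K P J) :
    ∃ κ₀ κ₁ : K, (∀ a b, d.ξ κ₀ a b ↔ a = b) ∧ (∀ a b, d.ξ κ₁ a b) ∧ IsBot κ₀ ∧ IsTop κ₁ := by
  obtain ⟨κ₀, h₀⟩ := d.repK.classify (⟨Eq, eq_equivalence⟩ : Setoid J) (by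
    intro g _ a b hab
    exact congrArg g hab)
  obtain ⟨κ₁, h₁⟩ := d.repK.classify (⟨fun _ _ => True, ⟨fun _ => trivial, fun _ => trivial,
    fun _ _ => trivial⟩⟩ : Setoid J) (by
    intro g _ a b _
    exact trivial)
  have e0 : ∀ a b, d.ξ κ₀ a b ↔ a = b := by
    intro a b
    rw [← h₀]
    exact Iff.rfl
  have e1 : ∀ a b, d.ξ κ₁ a b := by
    intro a b
    rw [← h₁]
    exact trivial
  refine ⟨κ₀, κ₁, e0, e1, ?_, ?_⟩
  · intro x
    rw [← d.repK.le_iff]
    intro a b hab
    rw [(e0 a b).1 hab]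
  · intro x
    rw [← d.repK.le_iff]
    intro a b _
    exact e1 a b

theorem isTop_rel {κ : K} (h : IsTop κ) (a b : J) : d.ξ κ a b := by
  obtain ⟨_, κ₁, _, e1, _, _⟩ := exists_bot_top d
  exact ((d.repK.le_iff κ₁ κ).2 (h κ₁)) (e1 a b)

/-- A point of the inflation gives a valid parameter. -/
theorem valid_of_mem {v : L} {κ : K}
    (hz : (¬ IsBot κ → v ∈ d.U) ∧ (¬ IsTop κ → v ∉ d.U ∨ v ∈ d.D)) :
    ∀ w : d.Arm, w.1 ∉ d.D → d.θ v d.o (d.s w.1) → ∀ j j', d.ξ κ j j' := by
  intro w hw hos j j'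
  have hwv : w.1 ≤ v := (d.hs v w.1).1 hos
  have hT : IsTop κ := by
    by_contra hT
    rcases hz.2 hT with h | h
    · exact h (d.U.upper hwv w.2.1)
    · exact hw (d.D.lower hwv h)
  exact isTop_rel hT j j'

/-- The relation on the pre-space as an equivalence. -/
def R0 (d : Pointed3 L K P J) (z : Inflation L K d.U d.D) : Setoid d.X0 where
  r := d.Rel z.1.1 z.1.2
  iseqv := rel_equivalence (valid_of_mem z.2)

/-- The family of equivalences indexed by the inflation. -/
def R (d : Pointed3 L K P J) (z : Inflation L K d.U d.D) : Setoid d.X :=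
  Setoid.comap Subtype.val (d.R0 z)

theorem ex_mono {v v' : L} (h : v ≤ v') {l : d.Lab} {f : P} (he : d.Ex v l f) :
    d.Ex v' l f := by
  cases l with
  | none => exact he
  | some w => exact ((d.rep.le_iff v v').2 h) he

theorem rel_mono {v v' : L} {κ κ' : K} (hv : v ≤ v') (hκ : κ ≤ κ')
    {a a' : d.X0} (h : d.Rel v κ a a') : d.Rel v' κ' a a' := by
  have hθ : ∀ {p q : P}, d.θ v p q → d.θ v' p q := fun h' => ((d.rep.le_iff v v').2 hv) h'
  have hξ : ∀ {p q : J}, d.ξ κ p q → d.ξ κ' p q := fun h' => ((d.repK.le_iff κ κ').2 hκ) h'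
  rcases h with ⟨h1, h2⟩ | ⟨h1, h2⟩
  · refine Or.inl ⟨h1, ?_⟩
    rcases h2 with ⟨h3, h4⟩ | ⟨h3, h4, h5⟩
    · exact Or.inl ⟨h3, hθ h4⟩
    · exact Or.inr ⟨ex_mono hv h3, ex_mono hv h4, hθ h5⟩
  · refine Or.inr ⟨h1, ?_⟩
    rcases h2 with ⟨w, h0, h3, h4, h5, h6⟩ | ⟨h3, h4, h5⟩
    · exact Or.inl ⟨w, h0, h3, h4, hθ h5, hθ h6⟩
    · exact Or.inr ⟨hξ h3, ⟨ex_mono hv h4.1, hθ h4.2⟩, ⟨ex_mono hv h5.1, hθ h5.2⟩⟩

/-- A point on a hub. -/
def hub (d : Pointed3 L K P J) (j : J) (q : P) (hq : d.Q q) : d.X := ⟨(j, none, q), fun _ => hq⟩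

/-- A point on an arm. -/
def arm (d : Pointed3 L K P J) (j : J) (w : d.Arm) (f : P) : d.X :=
  ⟨(j, some w, f), fun h => absurd h (by simp)⟩

/-- The arm used to read the level. -/
def armc (d : Pointed3 L K P J) : d.Arm := ⟨d.c, d.hcU, Or.inr rfl⟩

theorem R_le_iff (z z' : Inflation L K d.U d.D) : d.R z ≤ d.R z' ↔ z ≤ z' := by
  constructor
  · intro h
    have hv : z.1.1 ≤ z'.1.1 := by
      rw [← d.rep.le_iff]
      intro p q hpq
      have h1 : d.R z (d.arm d.j₀ d.armc p) (d.arm d.j₀ d.armc q) :=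
        Or.inl ⟨rfl, Or.inl ⟨rfl, hpq⟩⟩
      rcases h h1 with ⟨_, h3 | h3⟩ | ⟨h2, _⟩
      · exact h3.2
      · have e1 : d.θ z'.1.1 p (d.s d.c) := h3.1
        have e2 : d.θ z'.1.1 q (d.s d.c) := h3.2.1
        exact (d.θ _).trans' e1 ((d.θ _).symm' e2)
      · exact absurd rfl h2
    have hκ : z.1.2 ≤ z'.1.2 := by
      rw [← d.repK.le_iff]
      intro p q hpq
      by_cases hpq' : p = q
      · rw [hpq']
      · obtain ⟨κ₀, _, e0, _, _, _⟩ := exists_bot_top d
        have hnb : ¬ IsBot z.1.2 := by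
          intro hb
          exact hpq' ((e0 p q).1 (((d.repK.le_iff z.1.2 κ₀).2 (hb κ₀)) hpq))
        have hU : z.1.1 ∈ d.U := z.2.1 hnb
        have hos : d.θ z.1.1 (d.s z.1.1) d.o := (d.θ _).symm' ((d.hs _ _).2 le_rfl)
        have h1 : d.R z (d.hub p (d.s z.1.1) (d.hQ2 _ hU)) (d.hub q (d.s z.1.1) (d.hQ2 _ hU)) :=
          Or.inr ⟨hpq', Or.inr ⟨hpq, ⟨trivial, hos⟩, ⟨trivial, hos⟩⟩⟩
        rcases h h1 with ⟨h2, _⟩ | ⟨_, ⟨w, _, h3, _⟩ | h3⟩
        · exact absurd h2 hpq'
        · simp [hub] at h3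
        · exact h3.1
    exact ⟨hv, hκ⟩
  · intro h a a' haa
    exact rel_mono h.1 h.2 haa

/-! ### Maps to the fibre -/

/-- A map to the fibre `P` is admissible if it carries every relation of the family to the
corresponding level. -/
def Adm (d : Pointed3 L K P J) (G : d.X0 → P) : Prop :=
  ∀ (z : Inflation L K d.U d.D) (a a' : d.X0), d.R0 z a a' → d.θ z.1.1 (G a) (G a')

theorem adm_of_family (G : J → d.Lab → P → P)
    (hG : ∀ j l x f f', d.θ x f f' → d.θ x (G j l f) (G j l f'))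
    (h1 : ∀ j (w : d.Arm), G j (some w) (d.s w.1) = G j none (d.s w.1))
    (h2 : ∀ (j j' : J) (w : d.Arm), w.1 ∉ d.D → G j (some w) d.o = G j' (some w) d.o)
    (h3 : ∀ j j', G j none d.o = G j' none d.o) :
    d.Adm (fun a => G a.1 a.2.1 a.2.2) := by
  intro z a a' haa
  obtain ⟨⟨v, κ⟩, hz⟩ := z
  obtain ⟨j, l, f⟩ := a
  obtain ⟨j', l', f'⟩ := a'
  simp only at hz ⊢
  have hub : ∀ (j : J) (l : d.Lab) (f : P), d.Ex v l f →
      d.θ v (G j l f) (G j none (d.Hp l f)) := by
    intro j l f he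
    cases l with
    | none => exact (d.θ v).refl' _
    | some w =>
      have := hG j (some w) v f _ he
      rw [h1 j w] at this
      exact this
  rcases haa with ⟨h0, h4⟩ | ⟨h0, h4⟩
  · simp only at h0 h4
    subst h0
    rcases h4 with ⟨rfl, h5⟩ | ⟨h5, h6, h7⟩
    · exact hG _ _ _ _ _ h5
    · exact (d.θ v).trans' (hub j l f h5)
        ((d.θ v).trans' (hG j none v _ _ h7) ((d.θ v).symm' (hub j l' f' h6)))
  · simp only at h0 h4
    rcases h4 with ⟨w, hw, rfl, rfl, h5, h6⟩ | ⟨_, h6, h7⟩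
    · have e1 := hG j (some w) v _ _ h5
      have e2 := hG j' (some w) v _ _ h6
      rw [h2 j j' w hw] at e1
      exact (d.θ v).trans' e1 ((d.θ v).symm' e2)
    · have e1 := (d.θ v).trans' (hub j l f h6.1) (hG j none v _ _ h6.2)
      have e2 := (d.θ v).trans' (hub j' l' f' h7.1) (hG j' none v _ _ h7.2)
      rw [h3 j j'] at e1
      exact (d.θ v).trans' e1 ((d.θ v).symm' e2)

/-- The fibre projection is admissible. -/
theorem adm_snd (g : P → P) (hg : ∀ x f f', d.θ x f f' → d.θ x (g f) (g f')) :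
    d.Adm (fun a => g a.2.2) :=
  adm_of_family (fun _ _ f => g f) (fun _ _ x f f' h => hg x f f' h)
    (fun _ _ => rfl) (fun _ _ _ _ => rfl) (fun _ _ => rfl)

/-- The identity on one side, constant on the others. -/
theorem adm_side (j₁ : J) :
    d.Adm (fun a => if a.1 = j₁ then a.2.2 else d.o) := by
  refine adm_of_family (fun j _ f => if j = j₁ then f else d.o) ?_ ?_ ?_ ?_
  · intro j l x f f' h
    by_cases hj : j = j₁
    · simpa [hj] using h
    · simp only [hj, if_false]; exact (d.θ x).refl' _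
  · intro j w; rfl
  · intro j j' _ _
    by_cases hj : j = j₁ <;> by_cases hj' : j' = j₁ <;> simp [hj, hj']
  · intro j j'
    by_cases hj : j = j₁ <;> by_cases hj' : j' = j₁ <;> simp [hj, hj']

/-- The identity on one arm, constant on everything else. -/
theorem adm_arm (w : d.Arm) :
    d.Adm (fun a => if a.2.1 = some w then a.2.2 else d.s w.1) := by
  refine adm_of_family (fun _ l f => if l = some w then f else d.s w.1) ?_ ?_ ?_ ?_
  · intro j l x f f' h
    by_cases hl : l = some w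
    · simpa [hl] using h
    · simp only [hl, if_false]; exact (d.θ x).refl' _
  · intro j w'
    by_cases hw : w' = w
    · subst hw; simp
    · simp [hw]
  · intro _ _ _ _; rfl
  · intro _ _; rfl

/-- The identity on one side of an arm that is not glued across, constant on everything else. -/
theorem adm_arm_side (w : d.Arm) (hw : w.1 ∈ d.D) (j₁ : J) :
    d.Adm (fun a => if a.2.1 = some w ∧ a.1 = j₁ then a.2.2 else d.s w.1) := by
  refine adm_of_family (fun j l f => if l = some w ∧ j = j₁ then f else d.s w.1) ?_ ?_ ?_ ?_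
  · intro j l x f f' h
    by_cases hl : l = some w ∧ j = j₁
    · simpa [hl] using h
    · simp only [hl, if_false]; exact (d.θ x).refl' _
  · intro j w'
    by_cases hc : some w' = some w ∧ j = j₁
    · have hww : w' = w := by simpa using hc.1
      subst hww
      simp [hc.2]
    · simp only [hc, if_false]
      simp
  · intro j j' w' hw'
    have hne : w' ≠ w := by
      rintro rfl
      exact hw' hw
    simp [hne]
  · intro _ _; simp

/-- Composition of an admissible map with a map preserving the levels. -/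
theorem adm_comp {G : d.X0 → P} (hG : d.Adm G) (Φ : P → P)
    (hΦ : ∀ x f f', d.θ x f f' → d.θ x (Φ f) (Φ f')) : d.Adm (fun a => Φ (G a)) :=
  fun z a a' h => hΦ _ _ _ (hG z a a' h)

/-! ### Classification -/

section Classify

variable (Ψ : Setoid d.X)
  (hcomp : ∀ g : d.X → d.X, (∀ z a b, d.R z a b → d.R z (g a) (g b)) →
    ∀ a b, Ψ a b → Ψ (g a) (g b))

include hcomp in
/-- Admissible maps followed by the insertion of a copy preserve `Ψ`. -/
theorem psi_adm {G : d.X0 → P} (hG : d.Adm G) (j : J) (l : d.Lab)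
    (hQ : ∀ a : d.X, l = none → d.Q (G a.1)) {a a' : d.X}
    (h : Ψ a a') : Ψ ⟨(j, l, G a.1), hQ a⟩ ⟨(j, l, G a'.1), hQ a'⟩ := by
  refine hcomp (fun a => ⟨(j, l, G a.1), hQ a⟩) ?_ a a' h
  intro z p q hpq
  exact Or.inl ⟨rfl, Or.inl ⟨rfl, hG z p.1 q.1 hpq⟩⟩

include hcomp in
/-- The copy of `Ψ` on the chosen arm is one of the levels. -/
theorem exists_level :
    ∃ v, ∀ f f', Ψ (d.arm d.j₀ d.armc f) (d.arm d.j₀ d.armc f') ↔ d.θ v f f' := by
  let Ψ₀ : Setoid P := Setoid.comap (fun f => d.arm d.j₀ d.armc f) Ψ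
  have h0 : ∀ g : P → P, (∀ x a b, d.θ x a b → d.θ x (g a) (g b)) →
      ∀ a b, Ψ₀ a b → Ψ₀ (g a) (g b) := by
    intro g hg a b hab
    exact psi_adm Ψ hcomp (adm_snd g (fun x f f' h => hg x f f' h)) d.j₀ (some d.armc)
      (fun _ h => absurd h (by simp)) hab
  obtain ⟨v, hv⟩ := d.rep.classify Ψ₀ h0
  refine ⟨v, fun f f' => ?_⟩
  rw [← hv]
  exact Iff.rfl

variable {v : L} (hv : ∀ f f', Ψ (d.arm d.j₀ d.armc f) (d.arm d.j₀ d.armc f') ↔ d.θ v f f')

include hcomp hv in
/-- Admissible maps carry `Ψ` to the level. -/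
theorem adm_level {G : d.X0 → P} (hG : d.Adm G) {a a' : d.X} (h : Ψ a a') :
    d.θ v (G a.1) (G a'.1) :=
  (hv _ _).1 (psi_adm Ψ hcomp hG d.j₀ (some d.armc) (fun _ h => absurd h (by simp)) h)

include hcomp hv in
/-- On a hub, `Ψ` contains the image of the level, for pairs coming from a map into `Q`. -/
theorem hub_of_map (j : J) (Φ : P → P) (hΦ : ∀ x f f', d.θ x f f' → d.θ x (Φ f) (Φ f'))
    (hΦQ : ∀ p, d.Q (Φ p)) {f f' : P} (h : d.θ v f f') :
    Ψ (d.hub j (Φ f) (hΦQ f)) (d.hub j (Φ f') (hΦQ f')) := by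
  have hG : d.Adm (fun a => Φ a.2.2) := adm_snd Φ hΦ
  exact psi_adm Ψ hcomp hG j none (fun _ _ => hΦQ _) ((hv f f').2 h)

include hcomp hv in
/-- On each copy, `Ψ` is the level. -/
theorem copy_iff {j : J} {l : d.Lab} {f f' : P} {ha : l = none → d.Q f}
    {ha' : l = none → d.Q f'} :
    Ψ ⟨(j, l, f), ha⟩ ⟨(j, l, f'), ha'⟩ ↔ d.θ v f f' := by
  constructor
  · intro h
    exact adm_level Ψ hcomp hv (adm_snd id (fun _ _ _ h => h)) h
  · intro h
    by_cases hc : l = none
    · subst hc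
      have hq : d.Q f := ha rfl
      have hq' : d.Q f' := ha' rfl
      obtain ⟨q'', _, ⟨Φ, hΦ, hΦQ, e1, e2⟩, ⟨Φ', hΦ', hΦQ', e1', e2'⟩⟩ := d.hQ3 v f f' hq hq' h
      have hos : d.θ v d.o (d.s v) := (d.hs v v).2 le_rfl
      have s1 := hub_of_map Ψ hcomp hv j Φ hΦ hΦQ hos
      have s2 := hub_of_map Ψ hcomp hv j Φ' hΦ' hΦQ' hos
      have e3 : d.hub j (Φ d.o) (hΦQ d.o) = ⟨(j, none, f), ha⟩ := by
        apply Subtype.ext; simp [hub, e1]
      have e4 : d.hub j (Φ (d.s v)) (hΦQ (d.s v)) = d.hub j (Φ' d.o) (hΦQ' d.o) := by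
        apply Subtype.ext; simp [hub, e2, e1']
      have e5 : d.hub j (Φ' (d.s v)) (hΦQ' (d.s v)) = ⟨(j, none, f'), ha'⟩ := by
        apply Subtype.ext; simp [hub, e2']
      rw [e3, e4] at s1
      rw [e5] at s2
      exact Ψ.trans' s1 s2
    · have hne : ∀ (a : d.X), l = none → d.Q (id a.1.2.2) := by
        intro _ h4; exact absurd h4 hc
      exact psi_adm Ψ hcomp (adm_snd id (fun _ _ _ h => h)) j l hne
        ((hv f f').2 h : Ψ (d.arm d.j₀ d.armc f) (d.arm d.j₀ d.armc f'))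

include hcomp hv in
/-- The classification of compatible equivalences above the gluing relation. -/
theorem exists_param (z₀ : Inflation L K d.U d.D) (h₀ : d.R z₀ ≤ Ψ) : ∃ z, Ψ = d.R z := by
  have copy : ∀ {j : J} {l : d.Lab} {f f' : P} {ha : l = none → d.Q f}
      {ha' : l = none → d.Q f'},
      Ψ ⟨(j, l, f), ha⟩ ⟨(j, l, f'), ha'⟩ ↔ d.θ v f f' := copy_iff Ψ hcomp hv
  have lvl : ∀ {G : d.X0 → P}, d.Adm G → ∀ {a a' : d.X}, Ψ a a' → d.θ v (G a.1) (G a'.1) :=
    fun hG _ _ h => adm_level Ψ hcomp hv hG h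
  -- membership of hub projections
  have hpQ : ∀ (l : d.Lab) (f : P), (l = none → d.Q f) → d.Q (d.Hp l f) := by
    intro l f h
    cases l with
    | none => exact h rfl
    | some w => exact d.hQ2 _ w.2.1
  have G1 : ∀ (j : J) (w : d.Arm), Ψ (d.arm j w (d.s w.1)) (d.hub j (d.s w.1) (d.hQ2 _ w.2.1)) :=
    fun j w =>
    h₀ (Or.inl ⟨rfl, Or.inr ⟨(d.θ _).refl' (d.s w.1), trivial, (d.θ _).refl' (d.s w.1)⟩⟩)
  have G2 : ∀ (j j' : J) (w : d.Arm), w.1 ∉ d.D → Ψ (d.arm j w d.o) (d.arm j' w d.o) := by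
    intro j j' w hw
    by_cases hj : j = j'
    · subst hj; exact Ψ.refl' _
    · exact h₀ (Or.inr ⟨hj, Or.inl ⟨w, hw, rfl, rfl, (d.θ _).refl' _, (d.θ _).refl' _⟩⟩)
  have hubl : ∀ (j : J) (l : d.Lab) (f : P) (h : l = none → d.Q f),
      d.Ex v l f → Ψ ⟨(j, l, f), h⟩ (d.hub j (d.Hp l f) (hpQ l f h)) := by
    intro j l f h he
    cases l with
    | none => exact Ψ.refl' _
    | some w =>
      have e1 : Ψ ⟨(j, some w, f), h⟩ (d.arm j w (d.s w.1)) := copy.2 he
      exact Ψ.trans' e1 (G1 j w)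
  -- the bridges
  let Ξ : Setoid J :=
    { r := fun j j' => j = j' ∨ ∃ q, ∃ hq : d.Q q, ∃ q', ∃ hq' : d.Q q',
        d.θ v q d.o ∧ d.θ v q' d.o ∧ Ψ (d.hub j q hq) (d.hub j' q' hq')
      iseqv :=
        { refl := fun _ => Or.inl rfl
          symm := by
            rintro x y (h | ⟨q, hq, q', hq', h1, h2, h3⟩)
            · exact Or.inl h.symm
            · exact Or.inr ⟨q', hq', q, hq, h2, h1, Ψ.symm' h3⟩
          trans := by
            rintro x y z (rfl | ⟨q, hq, q', hq', h1, h2, h3⟩) (h' | ⟨p, hp, p', hp', h4, h5, h6⟩)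
            · exact Or.inl h'
            · exact Or.inr ⟨p, hp, p', hp', h4, h5, h6⟩
            · subst h'
              exact Or.inr ⟨q, hq, q', hq', h1, h2, h3⟩
            · refine Or.inr ⟨q, hq, p', hp', h1, h5, Ψ.trans' h3 (Ψ.trans' ?_ h6)⟩
              exact copy.2 ((d.θ v).trans' h2 ((d.θ v).symm' h4)) } }
  have hΞ : ∀ j j', Ξ j j' ↔ (j = j' ∨ ∃ q, ∃ hq : d.Q q, ∃ q', ∃ hq' : d.Q q',
        d.θ v q d.o ∧ d.θ v q' d.o ∧ Ψ (d.hub j q hq) (d.hub j' q' hq')) := fun _ _ => Iff.rfl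
  have hΞcomp : ∀ g : J → J, (∀ x a b, d.ξ x a b → d.ξ x (g a) (g b)) →
      ∀ a b, Ξ a b → Ξ (g a) (g b) := by
    intro g hg a b hab
    rcases hab with rfl | ⟨q, hq, q', hq', h1, h2, h3⟩
    · exact Or.inl rfl
    · refine Or.inr ⟨q, hq, q', hq', h1, h2, ?_⟩
      refine hcomp (fun a => ⟨(g a.1.1, a.1.2.1, a.1.2.2), a.2⟩) ?_ _ _ h3
      rintro ⟨⟨v', κ'⟩, hz⟩ ⟨⟨j, l, f⟩, ha⟩ ⟨⟨j', l', f'⟩, ha'⟩ hrel
      simp only at hz
      have hrel' : d.Rel v' κ' (j, l, f) (j', l', f') := hrel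
      change d.Rel v' κ' (g j, l, f) (g j', l', f')
      rcases hrel' with ⟨h0, h4⟩ | ⟨h0, h4⟩
      · simp only at h0 h4
        subst h0
        exact Or.inl ⟨rfl, h4⟩
      · simp only at h0 h4
        by_cases hg' : g j = g j'
        · refine Or.inl ⟨hg', ?_⟩
          rcases h4 with ⟨w, _, rfl, rfl, h5, h6⟩ | ⟨_, h6, h7⟩
          · exact Or.inl ⟨rfl, (d.θ v').trans' h5 ((d.θ v').symm' h6)⟩
          · exact Or.inr ⟨h6.1, h7.1, (d.θ v').trans' h6.2 ((d.θ v').symm' h7.2)⟩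
        · refine Or.inr ⟨hg', ?_⟩
          rcases h4 with ⟨w, hw, rfl, rfl, h5, h6⟩ | ⟨h5, h6, h7⟩
          · exact Or.inl ⟨w, hw, rfl, rfl, h5, h6⟩
          · exact Or.inr ⟨hg κ' j j' h5, h6, h7⟩
  obtain ⟨κ, hκ⟩ := d.repK.classify Ξ hΞcomp
  have hξ : ∀ j j', d.ξ κ j j' ↔ Ξ j j' := by
    intro j j'
    rw [← hκ]
  obtain ⟨κ₀, κ₁, e0, e1, hκ₀, hκ₁⟩ := exists_bot_top d
  have h1 : ¬ IsBot κ → v ∈ d.U := by
    intro hnb
    have hex : ∃ j j', d.ξ κ j j' ∧ j ≠ j' := by
      by_contra hcon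
      push Not at hcon
      apply hnb
      have hle : κ ≤ κ₀ := by
        rw [← d.repK.le_iff]
        intro a b hab
        exact (e0 a b).2 (hcon a b hab)
      exact fun x => le_trans hle (hκ₀ x)
    obtain ⟨j, j', hjj, hne⟩ := hex
    rcases (hξ j j').1 hjj with h | ⟨q, hq, _, _, hqo, _, _⟩
    · exact absurd h hne
    · exact d.hQ1 v q hq hqo
  have h2 : ¬ IsTop κ → v ∉ d.U ∨ v ∈ d.D := by
    intro hnt
    by_contra hcon
    rw [not_or, not_not] at hcon
    let w : d.Arm := ⟨v, hcon.1, Or.inl hcon.2⟩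
    have hos : d.θ v d.o (d.s v) := (d.hs v v).2 le_rfl
    have hq : d.Q (d.s v) := d.hQ2 v hcon.1
    have hside : ∀ j : J, Ψ (d.hub j (d.s v) hq) (d.arm j w d.o) := by
      intro j
      have e2 : Ψ (d.arm j w (d.s v)) (d.hub j (d.s v) hq) := G1 j w
      have e3 : Ψ (d.arm j w (d.s v)) (d.arm j w d.o) := copy.2 ((d.θ v).symm' hos)
      exact Ψ.trans' (Ψ.symm' e2) e3
    apply hnt
    intro x
    rw [← d.repK.le_iff]
    intro a b _
    refine (hξ a b).2 (Or.inr ⟨d.s v, hq, d.s v, hq, (d.θ v).symm' hos, (d.θ v).symm' hos, ?_⟩)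
    exact Ψ.trans' (hside a) (Ψ.trans' (G2 a b w hcon.2) (Ψ.symm' (hside b)))
  refine ⟨⟨(v, κ), h1, h2⟩, ?_⟩
  ext ⟨⟨j, l, f⟩, ha⟩ ⟨⟨j', l', f'⟩, ha'⟩
  constructor
  · intro h
    have hex : l ≠ l' → d.Ex v l f ∧ d.Ex v l' f' := by
      intro hl
      constructor
      · cases l with
        | none => trivial
        | some w =>
          have := lvl (adm_arm w) h
          change d.θ v f (d.s w.1)
          simpa [Ne.symm hl] using this
      · cases l' with
        | none => trivial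
        | some w =>
          have := lvl (adm_arm w) h
          exact (d.θ v).symm' (by simpa [hl] using this)
    by_cases hj : j = j'
    · subst hj
      by_cases hl : l = l'
      · subst hl
        exact Or.inl ⟨rfl, Or.inl ⟨rfl, copy.1 h⟩⟩
      · obtain ⟨e1', e2'⟩ := hex hl
        have h3 := Ψ.trans' (Ψ.symm' (hubl j l f ha e1')) (Ψ.trans' h (hubl j l' f' ha' e2'))
        exact Or.inl ⟨rfl, Or.inr ⟨e1', e2', copy.1 h3⟩⟩
    · have hf : d.θ v f d.o := by
        have := lvl (adm_side j) h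
        simpa [Ne.symm hj] using this
      have hf' : d.θ v f' d.o := by
        have := lvl (adm_side j') h
        exact (d.θ v).symm' (by simpa [hj] using this)
      by_cases hl : ∃ w : d.Arm, w.1 ∉ d.D ∧ l = some w ∧ l' = some w
      · obtain ⟨w, hw, rfl, rfl⟩ := hl
        exact Or.inr ⟨hj, Or.inl ⟨w, hw, rfl, rfl, hf, hf'⟩⟩
      · have hn : d.Ex v l f ∧ d.Ex v l' f' := by
          by_cases hll : l = l'
          · subst hll
            cases l with
            | none => exact ⟨trivial, trivial⟩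
            | some w =>
              have hwD : w.1 ∈ d.D := by
                by_contra hwD
                exact hl ⟨w, hwD, rfl, rfl⟩
              constructor
              · have := lvl (adm_arm_side w hwD j) h
                change d.θ v f (d.s w.1)
                simpa [Ne.symm hj] using this
              · have := lvl (adm_arm_side w hwD j') h
                change d.θ v f' (d.s w.1)
                exact (d.θ v).symm' (by simpa [hj] using this)
          · exact hex hll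
        have near : ∀ (l : d.Lab) (f : P), d.θ v f d.o → d.Ex v l f → d.Near v l f := by
          intro l f hf he
          refine ⟨he, ?_⟩
          cases l with
          | none => exact hf
          | some w => exact (d.θ v).trans' ((d.θ v).symm' he) hf
        have n1 := near l f hf hn.1
        have n2 := near l' f' hf' hn.2
        have bt : d.ξ κ j j' := by
          refine (hξ j j').2 (Or.inr ⟨d.Hp l f, hpQ l f ha, d.Hp l' f', hpQ l' f' ha', n1.2, n2.2, ?_⟩)
          exact Ψ.trans' (Ψ.symm' (hubl j l f ha hn.1)) (Ψ.trans' h (hubl j' l' f' ha' hn.2))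
        exact Or.inr ⟨hj, Or.inr ⟨bt, n1, n2⟩⟩
  · intro h
    rcases h with ⟨h0, h4⟩ | ⟨h0, h4⟩
    · simp only at h0 h4
      subst h0
      rcases h4 with ⟨rfl, h5⟩ | ⟨h5, h6, h7⟩
      · exact copy.2 h5
      · exact Ψ.trans' (hubl j l f ha h5)
          (Ψ.trans' (copy.2 h7) (Ψ.symm' (hubl j l' f' ha' h6)))
    · simp only at h0 h4
      rcases h4 with ⟨w, hw, rfl, rfl, h5, h6⟩ | ⟨h5, h6, h7⟩
      · have e1' : Ψ ⟨(j, some w, f), ha⟩ (d.arm j w d.o) := copy.2 h5
        have e2' : Ψ (d.arm j' w d.o) ⟨(j', some w, f'), ha'⟩ :=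
          copy.2 ((d.θ v).symm' h6)
        exact Ψ.trans' e1' (Ψ.trans' (G2 j j' w hw) e2')
      · rcases (hξ j j').1 h5 with hjj | ⟨q, hq, q', hq', hqo, hqo', h3⟩
        · exact absurd hjj h0
        · have e3 : Ψ (d.hub j (d.Hp l f) (hpQ l f ha)) (d.hub j q hq) :=
            copy.2 ((d.θ v).trans' h6.2 ((d.θ v).symm' hqo))
          have e4 : Ψ (d.hub j' q' hq') (d.hub j' (d.Hp l' f') (hpQ l' f' ha')) :=
            copy.2 ((d.θ v).trans' hqo' ((d.θ v).symm' h7.2))
          exact Ψ.trans' (hubl j l f ha h6.1) (Ψ.trans' e3 (Ψ.trans' h3 (Ψ.trans' e4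
            (Ψ.symm' (hubl j' l' f' ha' h7.1)))))

end Classify

/-- The equality relation, as a point of the family of equivalences. -/
def eqSetoid (P : Type) : Setoid P where
  r := Eq
  iseqv := eq_equivalence

/-- The main theorem for pointed presentations. -/
theorem representable [Finite P] [Nonempty P] [Finite J] (d : Pointed3 L K P J) :
    Representable (Inflation L K d.U d.D) := by
  obtain ⟨v₀, hv₀⟩ := d.rep.classify (eqSetoid P) (by
    intro g _ a b hab
    exact congrArg g hab)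
  have hv₀le : ∀ x, v₀ ≤ x := by
    intro x
    rw [← d.rep.le_iff, ← hv₀]
    intro a b hab
    have hab' : a = b := hab
    rw [hab']
  have hfinSet : Finite (Setoid P) :=
    Finite.of_injective (fun r : Setoid P => (r.r : P → P → Prop))
      (fun r r' h => Setoid.ext (fun a b => by
        have := congrFun (congrFun h a) b
        exact iff_of_eq this))
  have hinj : Function.Injective d.θ := by
    intro x y hxy
    exact le_antisymm ((d.rep.le_iff x y).1 (le_of_eq hxy)) ((d.rep.le_iff y x).1 (le_of_eq hxy.symm))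
  have hfinL : Finite L := Finite.of_injective d.θ hinj
  have hv₀D : v₀ ∈ d.D := d.D.lower (hv₀le d.c) d.hcD
  obtain ⟨κ₀, _, _, _, hκ₀, _⟩ := exists_bot_top d
  let z₀ : Inflation L K d.U d.D :=
    ⟨(v₀, κ₀), fun h => absurd hκ₀ h, fun _ => Or.inr hv₀D⟩
  have hz₀ : ∀ z, z₀ ≤ z := fun z => ⟨hv₀le _, hκ₀ _⟩
  have hfinX : Finite d.X := inferInstance
  have hneX : Nonempty d.X := ⟨d.arm d.j₀ d.armc d.o⟩
  refine representable_of_family d.R R_le_iff z₀ hz₀ ?_
  intro Ψ h₀ hcomp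
  obtain ⟨v, hv⟩ := exists_level Ψ hcomp
  exact exists_param Ψ hcomp hv z₀ h₀

end Pointed3

/-- **Inflation theorem.** If `L` and `K` are representable, and `U`, `D` are an upper and a lower
set of `L` with a common point, then the inflation of `L` by `K` at the convex set `U ∩ D` is
representable. -/
theorem representable_inflation {L K : Type} [PartialOrder L] [PartialOrder K] (U : UpperSet L)
    (D : LowerSet L) (hUD : ∃ c, c ∈ U ∧ c ∈ D) (h : Representable L) (hK : Representable K) :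
    Representable (Inflation L K U D) := by
  obtain ⟨B, hB, hne, θ, hθ⟩ := exists_unaryRep h
  obtain ⟨J, hJ, hneJ, ξ, hξ⟩ := exists_unaryRep hK
  -- finiteness of `L`
  have hfinSet : Finite (Setoid B) :=
    Finite.of_injective (fun r : Setoid B => (r.r : B → B → Prop))
      (fun r r' h => Setoid.ext (fun a b => by
        have := congrFun (congrFun h a) b
        exact iff_of_eq this))
  have hinj : Function.Injective θ := by
    intro x y hxy
    exact le_antisymm ((hθ.le_iff x y).1 (le_of_eq hxy)) ((hθ.le_iff y x).1 (le_of_eq hxy.symm))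
  have hfinL : Finite L := Finite.of_injective θ hinj
  have hneL : Nonempty L := ⟨hUD.choose⟩
  let I : Type := L × (B × B)
  have hfinI : Finite I := inferInstance
  have hneI : Nonempty I := inferInstance
  let r : L → B × B → B := fun w e => if θ w e.1 e.2 then e.2 else e.1
  have r_rel : ∀ w a b, θ w a b → r w (a, b) = b := by
    intro w a b h
    simp only [r]
    rw [if_pos h]
  let o : I → B := fun i => i.2.1
  let s : L → I → B := fun w i => if i.1 = w then r w i.2 else i.2.1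
  let Q : (I → B) → Prop := fun g => ∃ t, t ∈ U ∧ ∀ e, g (t, e) = r t e
  -- the maps into `Q`
  have hom : ∀ (v t : L) (x y : I → B), t ∈ U → (∀ e, x (t, e) = r t e) → (∀ e, y (t, e) = r t e) →
      powerSetoid θ I v x y →
      ∃ Φ : (I → B) → (I → B),
        (∀ z f f', powerSetoid θ I z f f' → powerSetoid θ I z (Φ f) (Φ f')) ∧
        (∀ p, Q (Φ p)) ∧ Φ o = x ∧ Φ (s v) = y := by
    intro v t x y ht hx hy hxy
    refine ⟨fun p i => if i.1 = t then r t i.2 else p (v, (x i, y i)), ?_, ?_, ?_, ?_⟩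
    · intro z f f' hff i
      by_cases hi : i.1 = t
      · simp only [hi, if_true]; exact (θ z).refl' _
      · simp only [hi, if_false]; exact hff _
    · intro p
      exact ⟨t, ht, fun e => by simp⟩
    · funext i
      by_cases hi : i.1 = t
      · obtain ⟨i1, i2⟩ := i
        simp only at hi
        subst hi
        simp [hx]
      · simp [hi, o]
    · funext i
      by_cases hi : i.1 = t
      · obtain ⟨i1, i2⟩ := i
        simp only at hi
        subst hi
        simp [hy]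
      · simp only [hi, if_false, s, if_true]
        exact r_rel v _ _ (hxy i)
  let d : Pointed3 L K (I → B) J :=
    { θ := powerSetoid θ I
      rep := hθ.power I
      ξ := ξ
      repK := hξ
      o := o
      s := s
      hs := by
        intro x w
        constructor
        · intro h
          rw [← hθ.le_iff]
          intro a b hab
          have := h (w, (a, b))
          simp only [o, s, if_true] at this
          rw [r_rel w a b hab] at this
          exact this
        · intro h i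
          by_cases hi : i.1 = w
          · simp only [o, s, hi, if_true, r]
            by_cases he : θ w i.2.1 i.2.2
            · simp only [he, if_true]
              exact ((hθ.le_iff w x).2 h) he
            · simp only [he, if_false]
              exact (θ x).refl' _
          · simp only [o, s, hi, if_false]
            exact (θ x).refl' _
      U := U
      D := D
      c := hUD.choose
      hcU := hUD.choose_spec.1
      hcD := hUD.choose_spec.2
      Q := Q
      hQ1 := by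
        rintro x q ⟨t, ht, hq⟩ hqo
        have htx : t ≤ x := by
          rw [← hθ.le_iff]
          intro a b hab
          have := hqo (t, (a, b))
          rw [hq, r_rel t a b hab] at this
          exact (θ x).symm' this
        exact U.upper htx ht
      hQ2 := by
        intro w hw
        exact ⟨w, hw, fun e => by simp [s]⟩
      hQ3 := by
        rintro v q q' ⟨t, ht, hq⟩ ⟨t', ht', hq'⟩ hqq
        let q'' : I → B := fun i => if i.1 = t' then r t' i.2 else q i
        have hq''t : ∀ e, q'' (t, e) = r t e := by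
          intro e
          by_cases htt : t = t'
          · subst htt; simp [q'']
          · simp [q'', htt, hq]
        have hq''t' : ∀ e, q'' (t', e) = r t' e := by
          intro e
          simp [q'']
        have h1 : powerSetoid θ I v q q'' := by
          intro i
          by_cases hi : i.1 = t'
          · have e1 : q'' i = q' i := by
              obtain ⟨i1, i2⟩ := i
              simp only at hi
              subst hi
              rw [hq''t', hq']
            rw [e1]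
            exact hqq i
          · simp only [q'', hi, if_false]
            exact (θ v).refl' _
        have h2 : powerSetoid θ I v q'' q' := by
          intro i
          by_cases hi : i.1 = t'
          · have e1 : q'' i = q' i := by
              obtain ⟨i1, i2⟩ := i
              simp only at hi
              subst hi
              rw [hq''t', hq']
            rw [e1]
          · simp only [q'', hi, if_false]
            exact hqq i
        exact ⟨q'', ⟨t, ht, hq''t⟩, hom v t q q'' ht hq hq''t h1, hom v t' q'' q' ht' hq''t' hq' h2⟩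
      j₀ := Classical.arbitrary J }
  have hfP : Finite (I → B) := inferInstance
  have hnP : Nonempty (I → B) := inferInstance
  exact d.representable

end Vale.Agent.P183
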