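import Mathlib

/-!
Definitions for the Eisenbud-Green-Harris statement in three variables for three cubics.
-/

open MvPolynomial Module

namespace Vale.Agent.P200

/-- The polynomial ring in three variables `x = X 0`, `y = X 1`, `z = X 2`. -/
abbrev S3 (K : Type*) [Field K] := MvPolynomial (Fin 3) K

/-- The forms of degree `d`. -/
abbrev Sd (K : Type*) [Field K] (d : ℕ) : Submodule K (S3 K) := homogeneousSubmodule (Fin 3) K d

variable {K : Type*} [Field K]

/-- The degree `d` piece of an ideal: its homogeneous elements of degree `d`, with zero. -/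
noncomputable def piece (I : Ideal (S3 K)) (d : ℕ) : Submodule K (S3 K) :=
  I.restrictScalars K ⊓ Sd K d

/-- The ideal `(x^3, y^3, z^3)`. -/
noncomputable def powerIdeal (K : Type*) [Field K] : Ideal (S3 K) :=
  Ideal.span {X 0 ^ 3, X 1 ^ 3, X 2 ^ 3}

/-- The number `q_d = dim I_d - dim P_d` with `P = (x^3, y^3, z^3)`. -/
noncomputable def excess (I : Ideal (S3 K)) (d : ℕ) : ℕ :=
  finrank K (piece I d) - finrank K (piece (powerIdeal K) d)

/-- Exponent vectors `(i, j, k)` of the monomials `x^i y^j z^k` outside `P`. -/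
abbrev Exps := Fin 3 × Fin 3 × Fin 3

/-- The degree of the monomial with a given exponent vector. -/
def expDeg (m : Exps) : ℕ := (m.1 : ℕ) + (m.2.1 : ℕ) + (m.2.2 : ℕ)

/-- `m'` is greater than `m` in the lexicographic order with `x > y > z`. -/
def lexGreater (m' m : Exps) : Prop :=
  m'.1 > m.1 ∨ (m'.1 = m.1 ∧ m'.2.1 > m.2.1) ∨ (m'.1 = m.1 ∧ m'.2.1 = m.2.1 ∧ m'.2.2 > m.2.2)

instance (m' m : Exps) : Decidable (lexGreater m' m) := by
  unfold lexGreater; infer_instance

/-- The number of monomials outside `P`, of the same degree as `m`, lexicographically greater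
than `m`. -/
def lexRank (m : Exps) : ℕ :=
  (Finset.univ.filter fun m' : Exps => expDeg m' = expDeg m ∧ lexGreater m' m).card

/-- The monomial `x^i y^j z^k`. -/
noncomputable def monomialOf (K : Type*) [Field K] (m : Exps) : S3 K :=
  X 0 ^ (m.1 : ℕ) * X 1 ^ (m.2.1 : ℕ) * X 2 ^ (m.2.2 : ℕ)

/-- The space `J_d`: the span of `P_d` and of the `q_d` lexicographically greatest monomials of
degree `d` outside `P`. -/
noncomputable def lexPart (I : Ideal (S3 K)) (d : ℕ) : Submodule K (S3 K) :=
  piece (powerIdeal K) d ⊔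
    Submodule.span K {p | ∃ m : Exps, expDeg m = d ∧ lexRank m < excess I d ∧ p = monomialOf K m}

/-- The graded subspace `J`, the sum of the `J_d`. -/
noncomputable def lexPlusPowers (I : Ideal (S3 K)) : Submodule K (S3 K) :=
  ⨆ d, lexPart I d

end Vale.Agent.P200
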