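import Mathlib

/-!
Koszul-type syzygy lemmas for regular triples in a commutative domain.
-/

namespace Vale.Agent.P200

variable {R : Type*} [CommRing R] [IsDomain R]

/-- A regular triple in a commutative domain, phrased with explicit witnesses. -/
structure RegTriple (a b c : R) : Prop where
  ne : a ≠ 0
  reg2 : ∀ g u : R, b * g = a * u → ∃ v, g = a * v
  reg3 : ∀ g u v : R, c * g = a * u + b * v → ∃ u' v', g = a * u' + b * v'

namespace RegTriple

variable {a b c : R}

/-- Syzygies of a regular triple are Koszul. -/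
theorem syz (h : RegTriple a b c) {v0 v1 v2 : R} (hv : v0 * a + v1 * b + v2 * c = 0) :
    ∃ B0 B1 B2 : R, v0 = b * B2 - c * B1 ∧ v1 = c * B0 - a * B2 ∧ v2 = a * B1 - b * B0 := by
  obtain ⟨u, w, huw⟩ := h.reg3 v2 (-v0) (-v1) (by linear_combination hv)
  -- (v0 + c u) a + (v1 + c w) b = 0
  obtain ⟨z, hz⟩ := h.reg2 (v1 + c * w) (-(v0 + c * u)) (by
    have : v0 * a + v1 * b + c * (a * u + b * w) = 0 := by rw [← huw]; linear_combination hv
    linear_combination this)
  have h1 : v0 + c * u = - b * z := by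
    have : a * (v0 + c * u + b * z) = 0 := by
      have e : v0 * a + v1 * b + c * (a * u + b * w) = 0 := by rw [← huw]; linear_combination hv
      linear_combination e - b * hz
    have := (mul_eq_zero.mp this).resolve_left h.ne
    linear_combination this
  refine ⟨-w, u, -z, ?_, ?_, ?_⟩
  · linear_combination h1
  · linear_combination hz
  · linear_combination huw

/-- If the cross product with a regular triple vanishes then the vector is a multiple of it. -/
theorem cross (h : RegTriple a b c) {v0 v1 v2 : R}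
    (_h12 : b * v2 = c * v1) (h20 : c * v0 = a * v2) (h01 : a * v1 = b * v0) :
    ∃ e : R, v0 = a * e ∧ v1 = b * e ∧ v2 = c * e := by
  obtain ⟨e, he⟩ := h.reg2 v0 v1 (by linear_combination -h01)
  refine ⟨e, he, ?_, ?_⟩
  · have : a * (v1 - b * e) = 0 := by rw [he] at h01; linear_combination h01
    have := (mul_eq_zero.mp this).resolve_left h.ne
    linear_combination this
  · have : a * (v2 - c * e) = 0 := by rw [he] at h20; linear_combination -h20
    have := (mul_eq_zero.mp this).resolve_left h.ne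
    linear_combination this

end RegTriple

/-- No socle modulo two relatively prime elements, in a ring where `x0 x1 x2` is regular. -/
theorem noSocle_of_relPrime {x0 x1 x2 q q' : R} (hx : RegTriple x0 x1 x2)
    (hq' : q' ≠ 0) (hrel : ∀ s t : R, s * q = t * q' → ∃ C, s = C * q' ∧ t = C * q)
    {c a0 a1 a2 b0 b1 b2 : R}
    (h0 : x0 * c = a0 * q + b0 * q')
    (h1 : x1 * c = a1 * q + b1 * q')
    (h2 : x2 * c = a2 * q + b2 * q') :
    ∃ e e', c = e * q + e' * q' := by
  -- the three cross product components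
  obtain ⟨C0, hC0a, hC0b⟩ := hrel (x1 * a2 - x2 * a1) (x2 * b1 - x1 * b2) (by
    linear_combination x1 * (-h2) + x2 * h1)
  obtain ⟨C1, hC1a, hC1b⟩ := hrel (x2 * a0 - x0 * a2) (x0 * b2 - x2 * b0) (by
    linear_combination x2 * (-h0) + x0 * h2)
  obtain ⟨C2, hC2a, hC2b⟩ := hrel (x0 * a1 - x1 * a0) (x1 * b0 - x0 * b1) (by
    linear_combination x0 * (-h1) + x1 * h0)
  have hdiv : C0 * x0 + C1 * x1 + C2 * x2 = 0 := by
    have : q' * (C0 * x0 + C1 * x1 + C2 * x2) = 0 := by
      linear_combination (-x0) * hC0a + (-x1) * hC1a + (-x2) * hC2a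
    exact (mul_eq_zero.mp this).resolve_left hq'
  obtain ⟨D0, D1, D2, hD0, hD1, hD2⟩ := hx.syz hdiv
  -- a - D q' = x e
  obtain ⟨e, he0, he1, he2⟩ := hx.cross (v0 := a0 - D0 * q') (v1 := a1 - D1 * q')
    (v2 := a2 - D2 * q')
    (by rw [hD0] at hC0a; linear_combination hC0a)
    (by rw [hD1] at hC1a; linear_combination hC1a)
    (by rw [hD2] at hC2a; linear_combination hC2a)
  obtain ⟨e', he'0, he'1, he'2⟩ := hx.cross (v0 := b0 + D0 * q) (v1 := b1 + D1 * q)
    (v2 := b2 + D2 * q)
    (by rw [hD0] at hC0b; linear_combination -hC0b)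
    (by rw [hD1] at hC1b; linear_combination -hC1b)
    (by rw [hD2] at hC2b; linear_combination -hC2b)
  refine ⟨e, e', ?_⟩
  have : x0 * (c - (e * q + e' * q')) = 0 := by
    have ha0 : a0 = x0 * e + D0 * q' := by linear_combination he0
    have hb0 : b0 = x0 * e' - D0 * q := by linear_combination he'0
    rw [ha0, hb0] at h0
    linear_combination h0
  have := (mul_eq_zero.mp this).resolve_left hx.ne
  linear_combination this

/-- The socle chase: from a cycle `g` with explicit data `A` and auxiliary `B`, conclude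
`g` lies in the ideal of the `f`. -/
theorem socle_chase {x0 x1 x2 f0 f1 f2 : R} (hx : RegTriple x0 x1 x2)
    {g A00 A01 A02 A10 A11 A12 A20 A21 A22 : R}
    (h0 : x0 * g = A00 * f0 + A01 * f1 + A02 * f2)
    (_h1 : x1 * g = A10 * f0 + A11 * f1 + A12 * f2)
    (_h2 : x2 * g = A20 * f0 + A21 * f1 + A22 * f2)
    {B00 B01 B02 B10 B11 B12 B20 B21 B22 : R}
    -- (x × A)_l = f × B_l for each l, written componentwise
    (h00 : x1 * A20 - x2 * A10 = f1 * B02 - f2 * B01)
    (h01 : x1 * A21 - x2 * A11 = f2 * B00 - f0 * B02)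
    (h02 : x1 * A22 - x2 * A12 = f0 * B01 - f1 * B00)
    (h10 : x2 * A00 - x0 * A20 = f1 * B12 - f2 * B11)
    (h11 : x2 * A01 - x0 * A21 = f2 * B10 - f0 * B12)
    (h12 : x2 * A02 - x0 * A22 = f0 * B11 - f1 * B10)
    (h20 : x0 * A10 - x1 * A00 = f1 * B22 - f2 * B21)
    (h21 : x0 * A11 - x1 * A01 = f2 * B20 - f0 * B22)
    (h22 : x0 * A12 - x1 * A02 = f0 * B21 - f1 * B20)
    -- divergence of B vanishes
    (hB0 : B00 * x0 + B10 * x1 + B20 * x2 = 0)
    (hB1 : B01 * x0 + B11 * x1 + B21 * x2 = 0)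
    (hB2 : B02 * x0 + B12 * x1 + B22 * x2 = 0) :
    ∃ E0 E1 E2, g = E0 * f0 + E1 * f1 + E2 * f2 := by
  -- column j : B_{.j} = x × C_{.j}
  obtain ⟨C00, C10, C20, hc00, hc10, hc20⟩ := hx.syz hB0
  obtain ⟨C01, C11, C21, hc01, hc11, hc21⟩ := hx.syz hB1
  obtain ⟨C02, C12, C22, hc02, hc12, hc22⟩ := hx.syz hB2
  -- D_l = f × C_l ; A - D is a multiple of x columnwise
  obtain ⟨E0, he00, he10, he20⟩ := hx.cross
    (v0 := A00 - (f1 * C02 - f2 * C01))
    (v1 := A10 - (f1 * C12 - f2 * C11))
    (v2 := A20 - (f1 * C22 - f2 * C21))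
    (by linear_combination h00 + f1 * hc02 - f2 * hc01)
    (by linear_combination h10 + f1 * hc12 - f2 * hc11)
    (by linear_combination h20 + f1 * hc22 - f2 * hc21)
  obtain ⟨E1, he01, he11, he21⟩ := hx.cross
    (v0 := A01 - (f2 * C00 - f0 * C02))
    (v1 := A11 - (f2 * C10 - f0 * C12))
    (v2 := A21 - (f2 * C20 - f0 * C22))
    (by linear_combination h01 + f2 * hc00 - f0 * hc02)
    (by linear_combination h11 + f2 * hc10 - f0 * hc12)
    (by linear_combination h21 + f2 * hc20 - f0 * hc22)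
  obtain ⟨E2, he02, he12, he22⟩ := hx.cross
    (v0 := A02 - (f0 * C01 - f1 * C00))
    (v1 := A12 - (f0 * C11 - f1 * C10))
    (v2 := A22 - (f0 * C21 - f1 * C20))
    (by linear_combination h02 + f0 * hc01 - f1 * hc00)
    (by linear_combination h12 + f0 * hc11 - f1 * hc10)
    (by linear_combination h22 + f0 * hc21 - f1 * hc20)
  refine ⟨E0, E1, E2, ?_⟩
  have : x0 * (g - (E0 * f0 + E1 * f1 + E2 * f2)) = 0 := by
    linear_combination h0 + f0 * he00 + f1 * he01 + f2 * he02
  have := (mul_eq_zero.mp this).resolve_left hx.ne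
  linear_combination this

end Vale.Agent.P200
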