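import Mathlib
import Vale.Agent.Lib.P200_Koszul
import Vale.Agent.Lib.P200_Defs

/-!
Polynomial ring in three variables: graded pieces, components, dimensions.
-/

open MvPolynomial Module

namespace Vale.Agent.P200

variable {K : Type*} [Field K]

theorem mem_Sd {d : ℕ} {p : S3 K} : p ∈ Sd K d ↔ p.IsHomogeneous d := Iff.rfl

instance Sd_finite (d : ℕ) : Module.Finite K (Sd K d) :=
  Module.Finite.iff_fg.mpr (homogeneousSubmodule_fg (Fin 3) K d)

/-- dimension of the degree `d` forms -/
theorem finrank_Sd (d : ℕ) : finrank K (Sd K d) = (d + 2).choose d := by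
  classical
  have e1 : Sd K d = AddMonoidAlgebra.supported _ K {m : Fin 3 →₀ ℕ | m.degree = d} :=
    homogeneousSubmodule_eq_finsupp_supported (Fin 3) K d
  rw [e1]
  let T : Set (Fin 3 →₀ ℕ) := {m : Fin 3 →₀ ℕ | m.degree = d}
  have hT : T = ↑((Finset.univ : Finset (Fin 3)).finsuppAntidiag d) := by
    ext m
    simp [T, Finset.mem_finsuppAntidiag, Finsupp.degree_eq_sum]
  letI : Fintype T := by rw [hT]; exact FinsetCoe.fintype _
  rw [LinearEquiv.finrank_eq (AddMonoidAlgebra.supportedEquivFinsupp (R := K) (S := K) T)]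
  rw [Module.finrank_finsupp_self]
  have : Fintype.card T = ((Finset.univ : Finset (Fin 3)).finsuppAntidiag d).card := by
    rw [← Fintype.card_coe]
    exact Fintype.card_congr (Equiv.setCongr (by simpa using hT))
  rw [this, Finset.card_finsuppAntidiag_nat_eq_choose]
  simp [add_comm]

theorem finrank_Sd0 : finrank K (Sd K 0) = 1 := by rw [finrank_Sd]; rfl
theorem finrank_Sd1 : finrank K (Sd K 1) = 3 := by rw [finrank_Sd]; rfl
theorem finrank_Sd2 : finrank K (Sd K 2) = 6 := by rw [finrank_Sd]; rfl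
theorem finrank_Sd3 : finrank K (Sd K 3) = 10 := by rw [finrank_Sd]; rfl
theorem finrank_Sd4 : finrank K (Sd K 4) = 15 := by rw [finrank_Sd]; rfl
theorem finrank_Sd5 : finrank K (Sd K 5) = 21 := by rw [finrank_Sd]; rfl
theorem finrank_Sd6 : finrank K (Sd K 6) = 28 := by rw [finrank_Sd]; rfl
theorem finrank_Sd7 : finrank K (Sd K 7) = 36 := by rw [finrank_Sd]; rfl

/-! ### homogeneous components of products -/

theorem hc_mul_of_homog {p q : S3 K} {m : ℕ} (hp : p.IsHomogeneous m) (n : ℕ) :
    homogeneousComponent (m + n) (p * q) = p * homogeneousComponent n q := by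
  classical
  conv_lhs => rw [← sum_homogeneousComponent q]
  rw [Finset.mul_sum, map_sum]
  have key : ∀ i, homogeneousComponent (m + n) (p * homogeneousComponent i q)
      = if i = n then p * homogeneousComponent n q else 0 := by
    intro i
    have hi : (p * homogeneousComponent i q).IsHomogeneous (m + i) :=
      hp.mul (homogeneousComponent_isHomogeneous i q)
    by_cases h : i = n
    · subst h
      simp only [if_true]
      exact homogeneousComponent_of_mem hi |>.trans (by simp)
    · rw [if_neg h, homogeneousComponent_of_mem hi, if_neg (by omega)]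
  simp only [key]
  rw [Finset.sum_ite_eq']
  split_ifs with h
  · rfl
  · have : homogeneousComponent n q = 0 := by
      apply homogeneousComponent_eq_zero
      simpa using h
    rw [this, mul_zero]

theorem hc_mul_of_lt {p q : S3 K} {m k : ℕ} (hp : p.IsHomogeneous m) (hk : k < m) :
    homogeneousComponent k (p * q) = 0 := by
  classical
  conv_lhs => rw [← sum_homogeneousComponent q]
  rw [Finset.mul_sum, map_sum]
  apply Finset.sum_eq_zero
  intro i _
  have hi : (p * homogeneousComponent i q).IsHomogeneous (m + i) :=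
    hp.mul (homogeneousComponent_isHomogeneous i q)
  rw [homogeneousComponent_of_mem hi, if_neg (by omega)]

/-- `X` is a regular triple. -/
theorem reg_X_aux (s : Set (Fin 3)) (i : Fin 3) (hi : i ∉ s) (g : S3 K)
    (h : X i * g ∈ Ideal.span ((X : Fin 3 → S3 K) '' s)) :
    g ∈ Ideal.span ((X : Fin 3 → S3 K) '' s) := by
  classical
  rw [mem_ideal_span_X_image] at h ⊢
  intro m hm
  have hm' : (Finsupp.single i 1 + m) ∈ (X i * g).support := by
    rw [MvPolynomial.mem_support_iff, coeff_X_mul]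
    exact MvPolynomial.mem_support_iff.mp hm
  obtain ⟨j, hj, hne⟩ := h _ hm'
  refine ⟨j, hj, ?_⟩
  have hji : i ≠ j := fun e => hi (e ▸ hj)
  simpa [Finsupp.single_apply, hji] using hne

theorem regTriple_X : RegTriple (X 0 : S3 K) (X 1) (X 2) := by
  refine ⟨X_ne_zero _, ?_, ?_⟩
  · intro g u h
    have := reg_X_aux ({0} : Set (Fin 3)) 1 (by simp) g (by
      rw [Set.image_singleton, Ideal.mem_span_singleton']
      exact ⟨u, by rw [h, mul_comm]⟩)
    rw [Set.image_singleton, Ideal.mem_span_singleton'] at this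
    obtain ⟨v, hv⟩ := this
    exact ⟨v, by rw [← hv, mul_comm]⟩
  · intro g u v h
    have := reg_X_aux ({0, 1} : Set (Fin 3)) 2 (by simp) g (by
      rw [Set.image_pair, Ideal.mem_span_pair]
      exact ⟨u, v, by rw [h]; ring⟩)
    rw [Set.image_pair, Ideal.mem_span_pair] at this
    obtain ⟨a, b, hab⟩ := this
    exact ⟨a, b, by rw [← hab]; ring⟩

/-! ### graded pieces of ideals -/

theorem mem_piece {I : Ideal (S3 K)} {d : ℕ} {p : S3 K} :
    p ∈ piece I d ↔ p ∈ I ∧ p.IsHomogeneous d := Iff.rfl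

theorem piece_le (I : Ideal (S3 K)) (d : ℕ) : piece I d ≤ Sd K d := inf_le_right

instance piece_finite (I : Ideal (S3 K)) (d : ℕ) : Module.Finite K (piece I d) :=
  Submodule.finiteDimensional_of_le (piece_le I d)

/-- multiples of `a` by forms of degree `m` -/
noncomputable def mulS (a : S3 K) (m : ℕ) : Submodule K (S3 K) := (Sd K m).map (LinearMap.mulLeft K a)

theorem mem_mulS {a x : S3 K} {m : ℕ} : x ∈ mulS a m ↔ ∃ h, h.IsHomogeneous m ∧ a * h = x := by
  simp [mulS, Submodule.mem_map]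

theorem mul_mem_mulS {a h : S3 K} {m : ℕ} (hh : h.IsHomogeneous m) : a * h ∈ mulS a m :=
  mem_mulS.mpr ⟨h, hh, rfl⟩

instance mulS_finite (a : S3 K) (m : ℕ) : Module.Finite K (mulS a m) := by
  unfold mulS; infer_instance

theorem finrank_mulS {a : S3 K} (ha : a ≠ 0) (m : ℕ) :
    finrank K (mulS a m) = finrank K (Sd K m) := by
  have hinj : Function.Injective (LinearMap.mulLeft K a) := by
    intro x y hxy
    simpa [ha] using hxy
  exact (LinearEquiv.finrank_eq (Submodule.equivMapOfInjective _ hinj (Sd K m))).symm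

/-- Dimension bound for the degree pieces of a two-generated ideal. -/
theorem twoGen {a b : S3 K} (ha : a ≠ 0) (hb : b ≠ 0) {α β : ℕ}
    (hA : a.IsHomogeneous α) (hB : b.IsHomogeneous β) (k m n : ℕ) (hm : m = β + k) (hn : n = α + k) :
    finrank K (mulS a m ⊔ mulS b n : Submodule K (S3 K)) + finrank K (Sd K k)
      ≤ finrank K (Sd K m) + finrank K (Sd K n) := by
  subst hm hn
  have h := Submodule.finrank_sup_add_finrank_inf_eq (mulS a (β + k)) (mulS b (α + k))
  have hle : mulS (a * b) k ≤ mulS a (β + k) ⊓ mulS b (α + k) := by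
    intro x hx
    obtain ⟨h', hh', rfl⟩ := mem_mulS.mp hx
    refine ⟨?_, ?_⟩
    · rw [mul_assoc]
      exact mul_mem_mulS (hB.mul hh')
    · rw [mul_comm a b, mul_assoc]
      exact mul_mem_mulS (hA.mul hh')
  have h2 : finrank K (mulS (a * b) k) ≤ finrank K (mulS a (β + k) ⊓ mulS b (α + k) : Submodule K (S3 K)) :=
    Submodule.finrank_mono hle
  rw [finrank_mulS (mul_ne_zero ha hb)] at h2
  rw [finrank_mulS ha, finrank_mulS hb] at h
  omega

/-! ### graded syzygies -/

section graded
variable {t0 t1 t2 : S3 K} {δ : ℕ}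

theorem syz_graded (h : RegTriple t0 t1 t2) (h0 : t0.IsHomogeneous δ) (h1 : t1.IsHomogeneous δ)
    (h2 : t2.IsHomogeneous δ) {e : ℕ} {v0 v1 v2 : S3 K}
    (hv0 : v0.IsHomogeneous (δ + e)) (hv1 : v1.IsHomogeneous (δ + e)) (hv2 : v2.IsHomogeneous (δ + e))
    (hs : v0 * t0 + v1 * t1 + v2 * t2 = 0) :
    ∃ B0 B1 B2 : S3 K, B0.IsHomogeneous e ∧ B1.IsHomogeneous e ∧ B2.IsHomogeneous e ∧
      v0 = t1 * B2 - t2 * B1 ∧ v1 = t2 * B0 - t0 * B2 ∧ v2 = t0 * B1 - t1 * B0 := by
  obtain ⟨B0, B1, B2, e0, e1, e2⟩ := h.syz hs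
  refine ⟨homogeneousComponent e B0, homogeneousComponent e B1, homogeneousComponent e B2,
    homogeneousComponent_isHomogeneous _ _, homogeneousComponent_isHomogeneous _ _,
    homogeneousComponent_isHomogeneous _ _, ?_, ?_, ?_⟩
  · have := congrArg (homogeneousComponent (δ + e)) e0
    rwa [homogeneousComponent_eq_self hv0, map_sub, hc_mul_of_homog h1, hc_mul_of_homog h2] at this
  · have := congrArg (homogeneousComponent (δ + e)) e1
    rwa [homogeneousComponent_eq_self hv1, map_sub, hc_mul_of_homog h2, hc_mul_of_homog h0] at this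
  · have := congrArg (homogeneousComponent (δ + e)) e2
    rwa [homogeneousComponent_eq_self hv2, map_sub, hc_mul_of_homog h0, hc_mul_of_homog h1] at this

theorem syz_low (h : RegTriple t0 t1 t2) (h0 : t0.IsHomogeneous δ) (h1 : t1.IsHomogeneous δ)
    (h2 : t2.IsHomogeneous δ) {e : ℕ} (he : e < δ) {v0 v1 v2 : S3 K}
    (hv0 : v0.IsHomogeneous e) (hv1 : v1.IsHomogeneous e) (hv2 : v2.IsHomogeneous e)
    (hs : v0 * t0 + v1 * t1 + v2 * t2 = 0) : v0 = 0 ∧ v1 = 0 ∧ v2 = 0 := by
  obtain ⟨B0, B1, B2, e0, e1, e2⟩ := h.syz hs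
  refine ⟨?_, ?_, ?_⟩
  · have := congrArg (homogeneousComponent e) e0
    rwa [homogeneousComponent_eq_self hv0, map_sub, hc_mul_of_lt h1 he, hc_mul_of_lt h2 he,
      sub_zero] at this
  · have := congrArg (homogeneousComponent e) e1
    rwa [homogeneousComponent_eq_self hv1, map_sub, hc_mul_of_lt h2 he, hc_mul_of_lt h0 he,
      sub_zero] at this
  · have := congrArg (homogeneousComponent e) e2
    rwa [homogeneousComponent_eq_self hv2, map_sub, hc_mul_of_lt h0 he, hc_mul_of_lt h1 he,
      sub_zero] at this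

theorem cross_low (h : RegTriple t0 t1 t2) (h0 : t0.IsHomogeneous δ) (h1 : t1.IsHomogeneous δ)
    (h2 : t2.IsHomogeneous δ) {e : ℕ} (he : e < δ) {v0 v1 v2 : S3 K}
    (hv0 : v0.IsHomogeneous e) (hv1 : v1.IsHomogeneous e) (hv2 : v2.IsHomogeneous e)
    (h12 : t1 * v2 = t2 * v1) (h20 : t2 * v0 = t0 * v2) (h01 : t0 * v1 = t1 * v0) :
    v0 = 0 ∧ v1 = 0 ∧ v2 = 0 := by
  obtain ⟨c, e0, e1, e2⟩ := h.cross h12 h20 h01
  refine ⟨?_, ?_, ?_⟩
  · have := congrArg (homogeneousComponent e) e0
    rwa [homogeneousComponent_eq_self hv0, hc_mul_of_lt h0 he] at this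
  · have := congrArg (homogeneousComponent e) e1
    rwa [homogeneousComponent_eq_self hv1, hc_mul_of_lt h1 he] at this
  · have := congrArg (homogeneousComponent e) e2
    rwa [homogeneousComponent_eq_self hv2, hc_mul_of_lt h2 he] at this

end graded

/-! ### ideals generated by three forms -/

/-- Membership in the span of three elements. -/
theorem mem_span_three {f0 f1 f2 x : S3 K} :
    x ∈ Ideal.span ({f0, f1, f2} : Set (S3 K)) ↔ ∃ a b c, x = a * f0 + b * f1 + c * f2 := by
  rw [Ideal.mem_span_insert]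
  constructor
  · rintro ⟨a, z, hz, rfl⟩
    obtain ⟨b, c, rfl⟩ := Ideal.mem_span_pair.mp hz
    exact ⟨a, b, c, by ring⟩
  · rintro ⟨a, b, c, rfl⟩
    exact ⟨a, b * f1 + c * f2, Ideal.mem_span_pair.mpr ⟨b, c, rfl⟩, by ring⟩

/-- Components in a homogeneous element of the ideal generated by three forms of degree `δ`. -/
theorem homog_combo {f0 f1 f2 x a b c : S3 K} {δ e : ℕ}
    (h0 : f0.IsHomogeneous δ) (h1 : f1.IsHomogeneous δ) (h2 : f2.IsHomogeneous δ)
    (hx : x.IsHomogeneous (δ + e)) (hc : x = a * f0 + b * f1 + c * f2) :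
    x = homogeneousComponent e a * f0 + homogeneousComponent e b * f1
      + homogeneousComponent e c * f2 := by
  have := congrArg (homogeneousComponent (δ + e)) hc
  rw [homogeneousComponent_eq_self hx, mul_comm a, mul_comm b, mul_comm c, map_add, map_add,
    hc_mul_of_homog h0, hc_mul_of_homog h1, hc_mul_of_homog h2] at this
  rw [this]; ring

theorem homog_combo_low {f0 f1 f2 x a b c : S3 K} {δ e : ℕ}
    (h0 : f0.IsHomogeneous δ) (h1 : f1.IsHomogeneous δ) (h2 : f2.IsHomogeneous δ)
    (he : e < δ) (hx : x.IsHomogeneous e) (hc : x = a * f0 + b * f1 + c * f2) : x = 0 := by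
  have := congrArg (homogeneousComponent e) hc
  rw [homogeneousComponent_eq_self hx, mul_comm a, mul_comm b, mul_comm c, map_add, map_add,
    hc_mul_of_lt h0 he, hc_mul_of_lt h1 he, hc_mul_of_lt h2 he] at this
  simpa using this

/-- A regular triple of cubic forms. -/
structure CubicReg (f0 f1 f2 : S3 K) : Prop where
  reg : RegTriple f0 f1 f2
  h0 : f0.IsHomogeneous 3
  h1 : f1.IsHomogeneous 3
  h2 : f2.IsHomogeneous 3

/-- The ideal generated by three elements. -/
noncomputable def idl (f0 f1 f2 : S3 K) : Ideal (S3 K) := Ideal.span {f0, f1, f2}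

/-- The socle of `S/(f)` vanishes in degrees at most five. -/
theorem noSocle {f0 f1 f2 : S3 K} (hf : CubicReg f0 f1 f2) {d : ℕ} (hd : d ≤ 5) {g : S3 K}
    (hg : g.IsHomogeneous d)
    (h0 : X 0 * g ∈ idl f0 f1 f2) (h1 : X 1 * g ∈ idl f0 f1 f2) (h2 : X 2 * g ∈ idl f0 f1 f2) :
    g ∈ idl f0 f1 f2 := by
  have hX : ∀ i : Fin 3, (X i * g).IsHomogeneous (1 + d) := fun i => (isHomogeneous_X _ i).mul hg
  by_cases hd2 : d < 2
  · -- degree too small
    obtain ⟨a, b, c, habc⟩ := mem_span_three.mp h0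
    have : X 0 * g = 0 := homog_combo_low hf.h0 hf.h1 hf.h2 (by omega) (hX 0) habc
    have hg0 : g = 0 := (mul_eq_zero.mp this).resolve_left (X_ne_zero _)
    rw [hg0]; exact Ideal.zero_mem _
  obtain ⟨d', rfl⟩ : ∃ d', d = d' + 2 := ⟨d - 2, by omega⟩
  have hXd : ∀ i : Fin 3, (X i * g).IsHomogeneous (3 + d') := by
    intro i
    have := hX i
    rwa [show 1 + (d' + 2) = 3 + d' by omega] at this
  obtain ⟨a, b, c, habc⟩ := mem_span_three.mp h0
  have e0 := homog_combo hf.h0 hf.h1 hf.h2 (hXd 0) habc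
  obtain ⟨a', b', c', habc'⟩ := mem_span_three.mp h1
  have e1 := homog_combo hf.h0 hf.h1 hf.h2 (hXd 1) habc'
  obtain ⟨a'', b'', c'', habc''⟩ := mem_span_three.mp h2
  have e2 := homog_combo hf.h0 hf.h1 hf.h2 (hXd 2) habc''
  set A00 := homogeneousComponent d' a
  set A01 := homogeneousComponent d' b
  set A02 := homogeneousComponent d' c
  set A10 := homogeneousComponent d' a'
  set A11 := homogeneousComponent d' b'
  set A12 := homogeneousComponent d' c'
  set A20 := homogeneousComponent d' a''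
  set A21 := homogeneousComponent d' b''
  set A22 := homogeneousComponent d' c''
  have hA : ∀ z : S3 K, (homogeneousComponent d' z).IsHomogeneous d' :=
    fun z => homogeneousComponent_isHomogeneous _ _
  have hAX : ∀ (i : Fin 3) (z : S3 K), (X i * homogeneousComponent d' z).IsHomogeneous (1 + d') :=
    fun i z => (isHomogeneous_X _ i).mul (hA z)
  -- the vectors v_l
  have hv : ∀ (i j : Fin 3) (y z : S3 K),
      (X i * homogeneousComponent d' y - X j * homogeneousComponent d' z).IsHomogeneous (1 + d') :=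
    fun i j y z => (hAX i y).sub (hAX j z)
  have s0 : (X 1 * A20 - X 2 * A10) * f0 + (X 1 * A21 - X 2 * A11) * f1
      + (X 1 * A22 - X 2 * A12) * f2 = 0 := by
    linear_combination (X 1) * (-e2) + (X 2) * e1
  have s1 : (X 2 * A00 - X 0 * A20) * f0 + (X 2 * A01 - X 0 * A21) * f1
      + (X 2 * A02 - X 0 * A22) * f2 = 0 := by
    linear_combination (X 2) * (-e0) + (X 0) * e2
  have s2 : (X 0 * A10 - X 1 * A00) * f0 + (X 0 * A11 - X 1 * A01) * f1
      + (X 0 * A12 - X 1 * A02) * f2 = 0 := by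
    linear_combination (X 0) * (-e1) + (X 1) * e0
  have hfin : ∃ E0 E1 E2 : S3 K, g = E0 * f0 + E1 * f1 + E2 * f2 := by
    by_cases hd3 : 1 + d' < 3
    · -- all v vanish, B = 0
      obtain ⟨z00, z01, z02⟩ := syz_low hf.reg hf.h0 hf.h1 hf.h2 hd3 (hv _ _ _ _) (hv _ _ _ _)
        (hv _ _ _ _) s0
      obtain ⟨z10, z11, z12⟩ := syz_low hf.reg hf.h0 hf.h1 hf.h2 hd3 (hv _ _ _ _) (hv _ _ _ _)
        (hv _ _ _ _) s1
      obtain ⟨z20, z21, z22⟩ := syz_low hf.reg hf.h0 hf.h1 hf.h2 hd3 (hv _ _ _ _) (hv _ _ _ _)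
        (hv _ _ _ _) s2
      exact socle_chase (x0 := X 0) (x1 := X 1) (x2 := X 2) regTriple_X e0 e1 e2
        (B00 := 0) (B01 := 0) (B02 := 0) (B10 := 0) (B11 := 0) (B12 := 0)
        (B20 := 0) (B21 := 0) (B22 := 0)
        (by simpa using z00) (by simpa using z01) (by simpa using z02)
        (by simpa using z10) (by simpa using z11) (by simpa using z12)
        (by simpa using z20) (by simpa using z21) (by simpa using z22)
        (by simp) (by simp) (by simp)
    · obtain ⟨e', he'⟩ : ∃ e', 1 + d' = 3 + e' := ⟨d' - 2, by omega⟩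
      have hv' : ∀ (i j : Fin 3) (y z : S3 K),
          (X i * homogeneousComponent d' y - X j * homogeneousComponent d' z).IsHomogeneous
            (3 + e') := fun i j y z => he' ▸ hv i j y z
      obtain ⟨B00, B01, B02, hB00, hB01, hB02, z00, z01, z02⟩ :=
        syz_graded hf.reg hf.h0 hf.h1 hf.h2 (hv' _ _ _ _) (hv' _ _ _ _) (hv' _ _ _ _) s0
      obtain ⟨B10, B11, B12, hB10, hB11, hB12, z10, z11, z12⟩ :=
        syz_graded hf.reg hf.h0 hf.h1 hf.h2 (hv' _ _ _ _) (hv' _ _ _ _) (hv' _ _ _ _) s1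
      obtain ⟨B20, B21, B22, hB20, hB21, hB22, z20, z21, z22⟩ :=
        syz_graded hf.reg hf.h0 hf.h1 hf.h2 (hv' _ _ _ _) (hv' _ _ _ _) (hv' _ _ _ _) s2
      -- the divergence has small degree and cross product zero
      have hW : ∀ y0 y1 y2 : S3 K, y0.IsHomogeneous e' → y1.IsHomogeneous e' → y2.IsHomogeneous e' →
          (y0 * X 0 + y1 * X 1 + y2 * X 2).IsHomogeneous (e' + 1) := by
        intro y0 y1 y2 h0 h1 h2
        exact ((h0.mul (isHomogeneous_X _ 0)).add (h1.mul (isHomogeneous_X _ 1))).add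
          (h2.mul (isHomogeneous_X _ 2))
      have hlt : e' + 1 < 3 := by omega
      obtain ⟨w0, w1, w2⟩ := cross_low hf.reg hf.h0 hf.h1 hf.h2 hlt
        (hW B00 B10 B20 hB00 hB10 hB20) (hW B01 B11 B21 hB01 hB11 hB21)
        (hW B02 B12 B22 hB02 hB12 hB22)
        (by
          linear_combination (-X 0) * z00 + (-X 1) * z10 + (-X 2) * z20)
        (by
          linear_combination (-X 0) * z01 + (-X 1) * z11 + (-X 2) * z21)
        (by
          linear_combination (-X 0) * z02 + (-X 1) * z12 + (-X 2) * z22)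
      exact socle_chase (x0 := X 0) (x1 := X 1) (x2 := X 2) regTriple_X e0 e1 e2
        z00 z01 z02 z10 z11 z12 z20 z21 z22 w0 w1 w2
  obtain ⟨E0, E1, E2, hE⟩ := hfin
  exact mem_span_three.mpr ⟨E0, E1, E2, hE⟩

end Vale.Agent.P200
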