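import Mathlib
import Vale.Agent.Lib.P200_Poly

/-!
Dimensions of the graded pieces of the ideal generated by a regular triple of cubics.
-/

open MvPolynomial Module

namespace Vale.Agent.P200

variable {K : Type*} [Field K]

/-- every form of positive degree is a combination of the variables -/
theorem Sd_succ_mem {d : ℕ} {p : S3 K} (hp : p.IsHomogeneous (d + 1)) :
    p ∈ mulS (X 0) d ⊔ mulS (X 1) d ⊔ mulS (X 2) d := by
  classical
  rw [p.as_sum]
  refine Submodule.sum_mem _ (fun m hm => ?_)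
  have hdeg : m.degree = d + 1 := by
    by_contra hne
    exact (MvPolynomial.mem_support_iff.mp hm) (hp.coeff_eq_zero hne)
  have hi : ∃ i, m i ≠ 0 := by
    by_contra hall
    push Not at hall
    rw [Finsupp.degree_eq_sum] at hdeg
    simp [hall] at hdeg
  obtain ⟨i, hi⟩ := hi
  have hle : Finsupp.single i 1 ≤ m := by
    rw [Finsupp.single_le_iff]; omega
  have hsub : m = Finsupp.single i 1 + (m - Finsupp.single i 1) := by
    rw [add_comm, tsub_add_cancel_of_le hle]
  have hdeg' : (m - Finsupp.single i 1).degree = d := by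
    have := congrArg Finsupp.degree hsub
    rw [map_add, hdeg] at this
    simp at this
    omega
  have hmono : (monomial (m - Finsupp.single i 1) (coeff m p) : S3 K).IsHomogeneous d :=
    isHomogeneous_monomial _ hdeg'
  have hfac : ∀ c : K, (monomial m c : S3 K) = X i * monomial (m - Finsupp.single i 1) c := by
    intro c
    rw [X, monomial_mul, one_mul, ← hsub]
  rw [hfac]
  have key : X i * monomial (m - Finsupp.single i 1) (coeff m p) ∈ mulS (X i) d :=
    mul_mem_mulS hmono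
  fin_cases i
  · exact Submodule.mem_sup_left (Submodule.mem_sup_left key)
  · exact Submodule.mem_sup_left (Submodule.mem_sup_right key)
  · exact Submodule.mem_sup_right key

theorem exists_X_decomp {d : ℕ} {p : S3 K} (hp : p.IsHomogeneous (d + 1)) :
    ∃ h0 h1 h2 : S3 K, h0.IsHomogeneous d ∧ h1.IsHomogeneous d ∧ h2.IsHomogeneous d ∧
      p = X 0 * h0 + X 1 * h1 + X 2 * h2 := by
  have := Sd_succ_mem hp
  obtain ⟨y, hy, z, hz, rfl⟩ := Submodule.mem_sup.mp this
  obtain ⟨x, hx, w, hw, rfl⟩ := Submodule.mem_sup.mp hy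
  obtain ⟨h0, hh0, rfl⟩ := mem_mulS.mp hx
  obtain ⟨h1, hh1, rfl⟩ := mem_mulS.mp hw
  obtain ⟨h2, hh2, rfl⟩ := mem_mulS.mp hz
  exact ⟨h0, h1, h2, hh0, hh1, hh2, rfl⟩

/-! ### the map `(a,b,c) ↦ a f0 + b f1 + c f2` -/

/-- the map from triples of forms of degree `e` to the ideal -/
noncomputable def phi (f0 f1 f2 : S3 K) (e : ℕ) : (Sd K e × Sd K e × Sd K e) →ₗ[K] S3 K :=
  ((LinearMap.mulLeft K f0).comp (Sd K e).subtype).coprod
    (((LinearMap.mulLeft K f1).comp (Sd K e).subtype).coprod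
      ((LinearMap.mulLeft K f2).comp (Sd K e).subtype))

theorem phi_apply (f0 f1 f2 : S3 K) (e : ℕ) (x : Sd K e × Sd K e × Sd K e) :
    phi f0 f1 f2 e x = f0 * x.1 + (f1 * x.2.1 + f2 * x.2.2) := by
  simp [phi, LinearMap.coprod_apply]

theorem range_phi {f0 f1 f2 : S3 K} (hf : CubicReg f0 f1 f2) (e : ℕ) :
    LinearMap.range (phi f0 f1 f2 e) = piece (idl f0 f1 f2) (3 + e) := by
  ext x
  constructor
  · rintro ⟨y, rfl⟩
    rw [phi_apply]
    refine ⟨?_, ?_⟩
    · refine mem_span_three.mpr ⟨y.1, y.2.1, y.2.2, by ring⟩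
    · exact (hf.h0.mul y.1.2).add ((hf.h1.mul y.2.1.2).add (hf.h2.mul y.2.2.2))
  · rintro ⟨hx, hxh⟩
    obtain ⟨a, b, c, habc⟩ := mem_span_three.mp hx
    have e0 := homog_combo hf.h0 hf.h1 hf.h2 hxh habc
    refine ⟨(⟨_, homogeneousComponent_isHomogeneous e a⟩, ⟨_, homogeneousComponent_isHomogeneous e b⟩,
      ⟨_, homogeneousComponent_isHomogeneous e c⟩), ?_⟩
    rw [phi_apply, e0]
    simp only
    ring

theorem ker_phi_low {f0 f1 f2 : S3 K} (hf : CubicReg f0 f1 f2) {e : ℕ} (he : e < 3) :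
    LinearMap.ker (phi f0 f1 f2 e) = ⊥ := by
  rw [LinearMap.ker_eq_bot']
  intro x hx
  rw [phi_apply] at hx
  obtain ⟨h0, h1, h2⟩ := syz_low hf.reg hf.h0 hf.h1 hf.h2 he x.1.2 x.2.1.2 x.2.2.2
    (by linear_combination hx)
  ext : 1
  · exact Subtype.ext h0
  · ext : 1
    · exact Subtype.ext h1
    · exact Subtype.ext h2

theorem finrank_triple (e : ℕ) :
    finrank K (Sd K e × Sd K e × Sd K e) = 3 * finrank K (Sd K e) := by
  rw [Module.finrank_prod, Module.finrank_prod]; ring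

theorem finrank_piece_low {f0 f1 f2 : S3 K} (hf : CubicReg f0 f1 f2) {e : ℕ} (he : e < 3) :
    finrank K (piece (idl f0 f1 f2) (3 + e)) = 3 * finrank K (Sd K e) := by
  rw [← range_phi hf, ← finrank_triple]
  exact LinearMap.finrank_range_of_inj (LinearMap.ker_eq_bot.mp (ker_phi_low hf he))

/-- the Koszul map -/
noncomputable def psi {f0 f1 f2 : S3 K} (hf : CubicReg f0 f1 f2) (k : ℕ) :
    (Sd K k × Sd K k × Sd K k) →ₗ[K] (Sd K (3 + k) × Sd K (3 + k) × Sd K (3 + k)) where
  toFun B := (⟨f1 * B.2.2 - f2 * B.2.1, (hf.h1.mul B.2.2.2).sub (hf.h2.mul B.2.1.2)⟩,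
    ⟨f2 * B.1 - f0 * B.2.2, (hf.h2.mul B.1.2).sub (hf.h0.mul B.2.2.2)⟩,
    ⟨f0 * B.2.1 - f1 * B.1, (hf.h0.mul B.2.1.2).sub (hf.h1.mul B.1.2)⟩)
  map_add' x y := by
    ext : 1
    · apply Subtype.ext
      simp only [Prod.fst_add, Prod.snd_add, Submodule.coe_add]
      ring
    · ext : 1
      · apply Subtype.ext
        simp only [Prod.fst_add, Prod.snd_add, Submodule.coe_add]
        ring
      · apply Subtype.ext
        simp only [Prod.fst_add, Prod.snd_add, Submodule.coe_add]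
        ring
  map_smul' c x := by
    ext : 1
    · apply Subtype.ext
      simp only [Prod.smul_fst, Prod.smul_snd, Submodule.coe_smul, RingHom.id_apply, mul_smul_comm,
        smul_sub]
    · ext : 1
      · apply Subtype.ext
        simp only [Prod.smul_fst, Prod.smul_snd, Submodule.coe_smul, RingHom.id_apply, mul_smul_comm,
          smul_sub]
      · apply Subtype.ext
        simp only [Prod.smul_fst, Prod.smul_snd, Submodule.coe_smul, RingHom.id_apply, mul_smul_comm,
          smul_sub]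

theorem psi_inj {f0 f1 f2 : S3 K} (hf : CubicReg f0 f1 f2) {k : ℕ} (hk : k < 3) :
    Function.Injective (psi hf k) := by
  rw [← LinearMap.ker_eq_bot, LinearMap.ker_eq_bot']
  intro B hB
  have e0 : f1 * (B.2.2 : S3 K) - f2 * B.2.1 = 0 := congrArg (fun z => ((z.1 : Sd K (3 + k)) : S3 K)) hB
  have e1 : f2 * (B.1 : S3 K) - f0 * B.2.2 = 0 := congrArg (fun z => ((z.2.1 : Sd K (3 + k)) : S3 K)) hB
  have e2 : f0 * (B.2.1 : S3 K) - f1 * B.1 = 0 := congrArg (fun z => ((z.2.2 : Sd K (3 + k)) : S3 K)) hB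
  obtain ⟨h0, h1, h2⟩ := cross_low hf.reg hf.h0 hf.h1 hf.h2 hk B.1.2 B.2.1.2 B.2.2.2
    (by linear_combination e0) (by linear_combination e1) (by linear_combination e2)
  ext : 1
  · exact Subtype.ext h0
  · ext : 1
    · exact Subtype.ext h1
    · exact Subtype.ext h2

theorem range_psi {f0 f1 f2 : S3 K} (hf : CubicReg f0 f1 f2) (k : ℕ) :
    LinearMap.range (psi hf k) = LinearMap.ker (phi f0 f1 f2 (3 + k)) := by
  ext x
  rw [LinearMap.mem_ker, phi_apply]
  constructor
  · rintro ⟨B, rfl⟩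
    show f0 * (f1 * (B.2.2 : S3 K) - f2 * B.2.1) + (f1 * (f2 * (B.1 : S3 K) - f0 * B.2.2)
      + f2 * (f0 * (B.2.1 : S3 K) - f1 * B.1)) = 0
    ring
  · intro hx
    obtain ⟨B0, B1, B2, hB0, hB1, hB2, e0, e1, e2⟩ :=
      syz_graded hf.reg hf.h0 hf.h1 hf.h2 x.1.2 x.2.1.2 x.2.2.2 (by linear_combination hx)
    refine ⟨(⟨B0, hB0⟩, ⟨B1, hB1⟩, ⟨B2, hB2⟩), ?_⟩
    ext : 1
    · exact Subtype.ext e0.symm
    · ext : 1
      · exact Subtype.ext e1.symm
      · exact Subtype.ext e2.symm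

theorem finrank_piece_high {f0 f1 f2 : S3 K} (hf : CubicReg f0 f1 f2) {k : ℕ} (hk : k < 3) :
    finrank K (piece (idl f0 f1 f2) (3 + (3 + k))) + 3 * finrank K (Sd K k)
      = 3 * finrank K (Sd K (3 + k)) := by
  rw [← range_phi hf, ← finrank_triple, ← finrank_triple]
  have h1 := LinearMap.finrank_range_add_finrank_ker (phi f0 f1 f2 (3 + k))
  have h2 : finrank K (LinearMap.ker (phi f0 f1 f2 (3 + k))) = finrank K (Sd K k × Sd K k × Sd K k) := by
    rw [← range_psi hf]
    exact LinearMap.finrank_range_of_inj (psi_inj hf hk)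
  omega

section dims
variable {f0 f1 f2 : S3 K} (hf : CubicReg f0 f1 f2)
include hf

theorem finrank_piece3 : finrank K (piece (idl f0 f1 f2) 3) = 3 := by
  have := finrank_piece_low hf (e := 0) (by norm_num)
  rw [finrank_Sd0] at this
  simpa using this

theorem finrank_piece4 : finrank K (piece (idl f0 f1 f2) 4) = 9 := by
  have := finrank_piece_low hf (e := 1) (by norm_num)
  rw [finrank_Sd1] at this
  simpa using this

theorem finrank_piece5 : finrank K (piece (idl f0 f1 f2) 5) = 18 := by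
  have := finrank_piece_low hf (e := 2) (by norm_num)
  rw [finrank_Sd2] at this
  simpa using this

theorem finrank_piece6 : finrank K (piece (idl f0 f1 f2) 6) = 27 := by
  have := finrank_piece_high hf (k := 0) (by norm_num)
  rw [finrank_Sd0, show 3 + 0 = 3 from rfl, finrank_Sd3] at this
  have e : finrank K (piece (idl f0 f1 f2) 6) = finrank K (piece (idl f0 f1 f2) (3 + 3)) := rfl
  omega

theorem finrank_piece7 : finrank K (piece (idl f0 f1 f2) 7) = 36 := by
  have := finrank_piece_high hf (k := 1) (by norm_num)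
  rw [finrank_Sd1, show 3 + 1 = 4 from rfl, finrank_Sd4] at this
  have e : finrank K (piece (idl f0 f1 f2) 7) = finrank K (piece (idl f0 f1 f2) (3 + 4)) := rfl
  omega

theorem piece_eq_bot {d : ℕ} (hd : d < 3) : piece (idl f0 f1 f2) d = ⊥ := by
  rw [eq_bot_iff]
  rintro x ⟨hx, hxh⟩
  obtain ⟨a, b, c, habc⟩ := mem_span_three.mp hx
  exact homog_combo_low hf.h0 hf.h1 hf.h2 hd hxh habc

theorem finrank_piece_small {d : ℕ} (hd : d < 3) : finrank K (piece (idl f0 f1 f2) d) = 0 := by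
  rw [piece_eq_bot hf hd]; simp

theorem Sd7_le_piece : Sd K 7 ≤ piece (idl f0 f1 f2) 7 := by
  have h1 : piece (idl f0 f1 f2) 7 = Sd K 7 := by
    apply Submodule.eq_of_le_of_finrank_eq (piece_le _ _)
    rw [finrank_piece7 hf, finrank_Sd7]
  exact h1.ge

/-- `S_7 = S_4 F_3`. -/
theorem Sd7_le_mul : Sd K 7 ≤ Sd K 4 * piece (idl f0 f1 f2) 3 := by
  intro x hx
  obtain ⟨hxI, hxh⟩ := Sd7_le_piece hf hx
  obtain ⟨a, b, c, habc⟩ := mem_span_three.mp hxI
  have e0 := homog_combo (e := 4) hf.h0 hf.h1 hf.h2 hxh habc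
  rw [e0]
  have hmem : ∀ (i : S3 K) (z : S3 K), i ∈ idl f0 f1 f2 → i.IsHomogeneous 3 →
      homogeneousComponent 4 z * i ∈ Sd K 4 * piece (idl f0 f1 f2) 3 := fun i z hi hih =>
    Submodule.mul_mem_mul (homogeneousComponent_isHomogeneous 4 z) ⟨hi, hih⟩
  refine Submodule.add_mem _ (Submodule.add_mem _ ?_ ?_) ?_
  · exact hmem _ _ (Ideal.subset_span (by simp)) hf.h0
  · exact hmem _ _ (Ideal.subset_span (by simp)) hf.h1
  · exact hmem _ _ (Ideal.subset_span (by simp)) hf.h2

end dims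

/-! ### the monomial triple -/

theorem reg_X3_aux (s : Set (Fin 3)) (i : Fin 3) (hi : i ∉ s) (g : S3 K)
    (h : X i ^ 3 * g ∈ Ideal.span ((fun j => (X j : S3 K) ^ 3) '' s)) :
    g ∈ Ideal.span ((fun j => (X j : S3 K) ^ 3) '' s) := by
  classical
  have e : ((fun j => (X j : S3 K) ^ 3) '' s)
      = (fun m => monomial m (1 : K)) '' ((fun j => Finsupp.single j 3) '' s) := by
    rw [Set.image_image]
    apply Set.image_congr
    intro j _
    rw [X_pow_eq_monomial]
  rw [e, mem_ideal_span_monomial_image] at h ⊢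
  intro m hm
  have hm' : (Finsupp.single i 3 + m) ∈ (X i ^ 3 * g).support := by
    rw [MvPolynomial.mem_support_iff, X_pow_eq_monomial, coeff_monomial_mul, one_mul]
    exact MvPolynomial.mem_support_iff.mp hm
  obtain ⟨si, ⟨j, hj, rfl⟩, hle⟩ := h _ hm'
  refine ⟨_, ⟨j, hj, rfl⟩, ?_⟩
  have hji : i ≠ j := fun e => hi (e ▸ hj)
  rw [Finsupp.single_le_iff] at hle ⊢
  simpa [Finsupp.single_apply, hji] using hle

theorem regTriple_X3 : RegTriple ((X 0 : S3 K) ^ 3) (X 1 ^ 3) (X 2 ^ 3) := by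
  refine ⟨pow_ne_zero _ (X_ne_zero _), ?_, ?_⟩
  · intro g u h
    have := reg_X3_aux ({0} : Set (Fin 3)) 1 (by simp) g (by
      rw [Set.image_singleton, Ideal.mem_span_singleton']
      exact ⟨u, by rw [h, mul_comm]⟩)
    rw [Set.image_singleton, Ideal.mem_span_singleton'] at this
    obtain ⟨v, hv⟩ := this
    exact ⟨v, by rw [← hv, mul_comm]⟩
  · intro g u v h
    have := reg_X3_aux ({0, 1} : Set (Fin 3)) 2 (by simp) g (by
      rw [Set.image_pair, Ideal.mem_span_pair]
      exact ⟨u, v, by rw [h]; ring⟩)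
    rw [Set.image_pair, Ideal.mem_span_pair] at this
    obtain ⟨a, b, hab⟩ := this
    exact ⟨a, b, by rw [← hab]; ring⟩

theorem cubicReg_X3 : CubicReg ((X 0 : S3 K) ^ 3) (X 1 ^ 3) (X 2 ^ 3) where
  reg := regTriple_X3
  h0 := by simpa using (isHomogeneous_X K (0 : Fin 3)).pow 3
  h1 := by simpa using (isHomogeneous_X K (1 : Fin 3)).pow 3
  h2 := by simpa using (isHomogeneous_X K (2 : Fin 3)).pow 3

end Vale.Agent.P200
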