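import Mathlib
import Vale.Agent.Lib.P200_Dims

/-!
Linear forms, coprime pairs of quadrics, covering lemma.
-/

open MvPolynomial Module

namespace Vale.Agent.P200

variable {K : Type*} [Field K]

theorem eq_C_of_totalDegree_zero {p : S3 K} (hp : p.totalDegree = 0) : ∃ c, p = C c :=
  ⟨_, (totalDegree_eq_zero_iff_eq_C (p := p)).mp hp⟩

theorem eq_C_of_homog0 {p : S3 K} (hp : p.IsHomogeneous 0) : ∃ c, p = C c :=
  eq_C_of_totalDegree_zero ((totalDegree_zero_iff_isHomogeneous (Fin 3)).mpr hp)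

/-- non-zero linear forms are prime -/
theorem prime_linear {l : S3 K} (hl : l.IsHomogeneous 1) (h0 : l ≠ 0) : Prime l := by
  have hirr : Irreducible l := by
    apply irreducible_of_totalDegree_eq_one (hl.totalDegree h0)
    intro x hx
    obtain ⟨m, hm⟩ := MvPolynomial.ne_zero_iff.mp h0
    have hx0 : x ≠ 0 := by
      rintro rfl
      exact hm (zero_dvd_iff.mp (hx m))
    exact isUnit_iff_ne_zero.mpr hx0
  exact hirr.prime

theorem linear_dvd {a b : S3 K} (ha : a.IsHomogeneous 1) (hb : b.IsHomogeneous 1) (hb0 : b ≠ 0)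
    (h : a ∣ b) : ∃ κ : K, κ ≠ 0 ∧ a = C κ * b := by
  obtain ⟨r, rfl⟩ := h
  have ha0 : a ≠ 0 := left_ne_zero_of_mul hb0
  have hr0 : r ≠ 0 := right_ne_zero_of_mul hb0
  have h1 := totalDegree_mul_of_isDomain ha0 hr0
  rw [hb.totalDegree hb0, ha.totalDegree ha0] at h1
  obtain ⟨ρ, rfl⟩ := eq_C_of_totalDegree_zero (p := r) (by omega)
  have hρ : ρ ≠ 0 := by
    rintro rfl
    simp at hr0
  refine ⟨ρ⁻¹, inv_ne_zero hρ, ?_⟩
  rw [mul_comm a, ← mul_assoc, ← C_mul, inv_mul_cancel₀ hρ, C_1, one_mul]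

/-- A pair of elements with only the trivial linear syzygy. -/
structure Good (q q' : S3 K) : Prop where
  hq : q.IsHomogeneous 2
  hq' : q'.IsHomogeneous 2
  rel : ∀ l l' : S3 K, l.IsHomogeneous 1 → l'.IsHomogeneous 1 → l * q = l' * q' → l = 0 ∧ l' = 0

namespace Good
variable {q q' : S3 K}

theorem ne_left (h : Good q q') : q ≠ 0 := by
  rintro rfl
  have := h.rel (X 0) 0 (isHomogeneous_X _ _) (isHomogeneous_zero _ _ _) (by simp)
  exact X_ne_zero _ this.1

theorem ne_right (h : Good q q') : q' ≠ 0 := by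
  rintro rfl
  have := h.rel 0 (X 0) (isHomogeneous_zero _ _ _) (isHomogeneous_X _ _) (by simp)
  exact X_ne_zero _ this.2

theorem isRelPrime (h : Good q q') : IsRelPrime q q' := by
  intro d hd hd'
  obtain ⟨r, hr⟩ := hd
  obtain ⟨r', hr'⟩ := hd'
  have hq0 := h.ne_left
  have hd0 : d ≠ 0 := by
    rintro rfl
    exact hq0 (by simpa using hr)
  have hr0 : r ≠ 0 := by
    rintro rfl
    exact hq0 (by simpa using hr)
  have hrel : r' * q = r * q' := by
    rw [hr, hr']; ring
  -- components of degree 1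
  have e1 : homogeneousComponent 1 r' * q = homogeneousComponent 1 r * q' := by
    have := congrArg (homogeneousComponent (2 + 1)) hrel
    rw [mul_comm r', mul_comm r, hc_mul_of_homog h.hq, hc_mul_of_homog h.hq'] at this
    rw [mul_comm, this, mul_comm]
  obtain ⟨a1, a1'⟩ := h.rel _ _ (homogeneousComponent_isHomogeneous 1 r')
    (homogeneousComponent_isHomogeneous 1 r) e1
  have e0 : homogeneousComponent 0 r' * q = homogeneousComponent 0 r * q' := by
    have := congrArg (homogeneousComponent (2 + 0)) hrel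
    rw [mul_comm r', mul_comm r, hc_mul_of_homog h.hq, hc_mul_of_homog h.hq'] at this
    rw [mul_comm, this, mul_comm]
  obtain ⟨a0, a0'⟩ := h.rel (X 0 * homogeneousComponent 0 r') (X 0 * homogeneousComponent 0 r)
    ((isHomogeneous_X _ _).mul (homogeneousComponent_isHomogeneous 0 r'))
    ((isHomogeneous_X _ _).mul (homogeneousComponent_isHomogeneous 0 r))
    (by rw [mul_assoc, mul_assoc, e0])
  have z0 : homogeneousComponent 0 r = 0 :=
    (mul_eq_zero.mp a0').resolve_left (X_ne_zero _)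
  -- degrees
  by_contra hnu
  have hdeg : 1 ≤ d.totalDegree := by
    by_contra hlt
    obtain ⟨c, rfl⟩ := eq_C_of_totalDegree_zero (p := d) (by omega)
    apply hnu
    have hc : c ≠ 0 := by
      rintro rfl
      simp at hd0
    exact (isUnit_iff_ne_zero.mpr hc).map C
  have hsum := totalDegree_mul_of_isDomain hd0 hr0
  rw [← hr, h.hq.totalDegree hq0] at hsum
  have hle : r.totalDegree ≤ 1 := by omega
  have hrsum := sum_homogeneousComponent r
  have : r = 0 := by
    rw [← hrsum]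
    apply Finset.sum_eq_zero
    intro i hi
    have hi' : i ≤ 1 := by
      have := Finset.mem_range.mp hi
      omega
    interval_cases i
    · exact z0
    · exact a1'
  exact hr0 this

theorem hrel (h : Good q q') (s t : S3 K) (hst : s * q = t * q') :
    ∃ D, s = D * q' ∧ t = D * q := by
  have hd : q' ∣ s * q := ⟨t, by rw [hst]; ring⟩
  obtain ⟨D, rfl⟩ : q' ∣ s := h.isRelPrime.symm.dvd_of_dvd_mul_right hd
  refine ⟨D, by ring, ?_⟩
  have : q' * (t - D * q) = 0 := by linear_combination -hst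
  have := (mul_eq_zero.mp this).resolve_left h.ne_right
  linear_combination this

end Good

/-! ### exact dimension for coprime pairs -/

theorem twoGen_eq {a b : S3 K} (ha : a ≠ 0) (hb : b ≠ 0) {α β : ℕ}
    (hA : a.IsHomogeneous α) (hB : b.IsHomogeneous β)
    (hr : ∀ s t : S3 K, s * a = t * b → ∃ D, s = D * b ∧ t = D * a) (k m n : ℕ)
    (hm : m = β + k) (hn : n = α + k) :
    finrank K (mulS a m ⊔ mulS b n : Submodule K (S3 K)) + finrank K (Sd K k)
      = finrank K (Sd K m) + finrank K (Sd K n) := by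
  subst hm hn
  have h := Submodule.finrank_sup_add_finrank_inf_eq (mulS a (β + k)) (mulS b (α + k))
  have hle : mulS a (β + k) ⊓ mulS b (α + k) ≤ mulS (a * b) k := by
    rintro x ⟨hx1, hx2⟩
    obtain ⟨s, hs, rfl⟩ := mem_mulS.mp hx1
    obtain ⟨t, ht, hst⟩ := mem_mulS.mp hx2
    obtain ⟨D, hD1, hD2⟩ := hr s t (by rw [mul_comm s, ← hst, mul_comm])
    have e : s = b * homogeneousComponent k D := by
      have := congrArg (homogeneousComponent (β + k)) hD1
      rw [homogeneousComponent_eq_self hs, mul_comm D, hc_mul_of_homog hB] at this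
      exact this
    rw [e, ← mul_assoc]
    exact mul_mem_mulS (homogeneousComponent_isHomogeneous k D)
  have hge : mulS (a * b) k ≤ mulS a (β + k) ⊓ mulS b (α + k) := by
    intro x hx
    obtain ⟨h', hh', rfl⟩ := mem_mulS.mp hx
    refine ⟨?_, ?_⟩
    · rw [mul_assoc]
      exact mul_mem_mulS (hB.mul hh')
    · rw [mul_comm a b, mul_assoc]
      exact mul_mem_mulS (hA.mul hh')
  have heq := le_antisymm hle hge
  rw [heq, finrank_mulS (mul_ne_zero ha hb), finrank_mulS ha, finrank_mulS hb] at h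
  exact h

/-- independent linear forms are coprime -/
theorem hrel_linear {l l' : S3 K} (hl : l.IsHomogeneous 1) (hl' : l'.IsHomogeneous 1) (h0 : l ≠ 0)
    (h0' : l' ≠ 0) (hind : l ∉ Submodule.span K {l'}) (s t : S3 K) (hst : s * l = t * l') :
    ∃ D, s = D * l' ∧ t = D * l := by
  have hp := prime_linear hl' h0'
  have hnd : ¬ l' ∣ l := by
    intro hd
    obtain ⟨κ, hκ, e⟩ := linear_dvd hl' hl h0 hd
    apply hind
    rw [Submodule.mem_span_singleton]
    refine ⟨κ⁻¹, ?_⟩
    rw [e, smul_eq_C_mul, ← mul_assoc, ← C_mul, inv_mul_cancel₀ hκ, C_1, one_mul]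
  have hd : l' ∣ s * l := ⟨t, by rw [hst]; ring⟩
  obtain ⟨D, rfl⟩ := (hp.dvd_or_dvd hd).resolve_right hnd
  refine ⟨D, by ring, ?_⟩
  have : l' * (t - D * l) = 0 := by linear_combination -hst
  have := (mul_eq_zero.mp this).resolve_left h0'
  linear_combination this

/-- two independent linear forms generate a five dimensional space of quadrics -/
theorem finrank_two_linear {l l' : S3 K} (hl : l.IsHomogeneous 1) (hl' : l'.IsHomogeneous 1)
    (h0 : l ≠ 0) (h0' : l' ≠ 0) (hind : l ∉ Submodule.span K {l'}) :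
    finrank K (mulS l 1 ⊔ mulS l' 1 : Submodule K (S3 K)) = 5 := by
  have := twoGen_eq h0 h0' hl hl' (hrel_linear hl hl' h0 h0' hind) 0 1 1 rfl rfl
  rw [finrank_Sd0, finrank_Sd1] at this
  omega

/-! ### the structure of bad pairs -/

/-- A bad independent pair of quadrics has a common linear factor. -/
theorem not_good_decomp {q q' : S3 K} (hq : q.IsHomogeneous 2) (hq' : q'.IsHomogeneous 2)
    (h0 : q ≠ 0) (hind : q' ∉ Submodule.span K {q}) (hng : ¬ Good q q') :
    ∃ l l' c : S3 K, l.IsHomogeneous 1 ∧ l'.IsHomogeneous 1 ∧ c.IsHomogeneous 1 ∧ c ≠ 0 ∧ l ≠ 0 ∧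
      l' ≠ 0 ∧ q = l' * c ∧ q' = l * c ∧ l ∉ Submodule.span K {l'} := by
  have hq'0 : q' ≠ 0 := by
    rintro rfl
    exact hind (Submodule.zero_mem _)
  have hex : ∃ l l' : S3 K, l.IsHomogeneous 1 ∧ l'.IsHomogeneous 1 ∧ l * q = l' * q' ∧
      ¬ (l = 0 ∧ l' = 0) := by
    by_contra hall
    push Not at hall
    apply hng
    exact ⟨hq, hq', fun l l' h1 h2 h3 => hall l l' h1 h2 h3⟩
  obtain ⟨l, l', hl, hl', hrel, hne⟩ := hex
  have hl0 : l ≠ 0 := by
    rintro rfl
    apply hne
    refine ⟨rfl, ?_⟩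
    have : l' * q' = 0 := by rw [← hrel, zero_mul]
    exact (mul_eq_zero.mp this).resolve_right hq'0
  have hl'0 : l' ≠ 0 := by
    rintro rfl
    have : l * q = 0 := by rw [hrel, zero_mul]
    exact hl0 ((mul_eq_zero.mp this).resolve_right h0)
  have hp := prime_linear hl' hl'0
  have hnd : ¬ l' ∣ l := by
    intro hd
    obtain ⟨κ, hκ, e⟩ := linear_dvd hl' hl hl0 hd
    apply hind
    rw [Submodule.mem_span_singleton]
    refine ⟨κ⁻¹, ?_⟩
    -- l q = l' q' = C κ l q'
    have : l * (q - C κ * q') = 0 := by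
      rw [e] at hrel
      linear_combination hrel
    have h2 : q = C κ * q' := by
      have := (mul_eq_zero.mp this).resolve_left hl0
      linear_combination this
    rw [h2, smul_eq_C_mul, ← mul_assoc, ← C_mul, inv_mul_cancel₀ hκ, C_1, one_mul]
  have hd : l' ∣ l * q := ⟨q', hrel⟩
  obtain ⟨c0, hc0⟩ := (hp.dvd_or_dvd hd).resolve_left hnd
  -- take the component of degree one of `c0`
  have hqc : q = l' * homogeneousComponent 1 c0 := by
    have := congrArg (homogeneousComponent (1 + 1)) hc0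
    rw [hc_mul_of_homog hl'] at this
    rwa [show 1 + 1 = 2 from rfl, homogeneousComponent_eq_self hq] at this
  set c := homogeneousComponent 1 c0 with hc
  have hch : c.IsHomogeneous 1 := homogeneousComponent_isHomogeneous 1 c0
  have hc00 : c ≠ 0 := by
    intro h
    rw [h, mul_zero] at hqc
    exact h0 hqc
  have hq'c : q' = l * c := by
    have : l' * (q' - l * c) = 0 := by
      rw [hqc] at hrel
      linear_combination -hrel
    have := (mul_eq_zero.mp this).resolve_left hl'0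
    linear_combination this
  refine ⟨l, l', c, hl, hl', hch, hc00, hl0, hl'0, hqc, hq'c, ?_⟩
  intro hmem
  obtain ⟨κ, hκ⟩ := Submodule.mem_span_singleton.mp hmem
  apply hind
  rw [Submodule.mem_span_singleton]
  refine ⟨κ, ?_⟩
  rw [hq'c, hqc, ← hκ, smul_mul_assoc]

theorem le_or_le_of_cover {V : Type*} [AddCommGroup V] [Module K V] {W A B : Submodule K V}
    (h : ∀ x ∈ W, x ∈ A ∨ x ∈ B) : W ≤ A ∨ W ≤ B := by
  by_contra hc
  push Not at hc
  obtain ⟨hA, hB⟩ := hc
  obtain ⟨x, hx, hxA⟩ := Set.not_subset.mp hA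
  obtain ⟨y, hy, hyB⟩ := Set.not_subset.mp hB
  have hxB : x ∈ B := (h x hx).resolve_left hxA
  have hyA : y ∈ A := (h y hy).resolve_right hyB
  rcases h (x + y) (W.add_mem hx hy) with h1 | h1
  · exact hxA ((A.add_mem_iff_left hyA).mp h1)
  · exact hyB ((B.add_mem_iff_right hxB).mp h1)

/-- Covering lemma: a space of quadrics without good pairs containing two independent elements
consists of multiples of one linear form. -/
theorem no_good_cover {W : Submodule K (S3 K)} (hW : W ≤ Sd K 2)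
    (hng : ∀ q ∈ W, ∀ q' ∈ W, ¬ Good q q') {q1 q2 : S3 K} (h1 : q1 ∈ W) (h2 : q2 ∈ W)
    (h10 : q1 ≠ 0) (h21 : q2 ∉ Submodule.span K {q1}) :
    ∃ c : S3 K, c.IsHomogeneous 1 ∧ c ≠ 0 ∧ W ≤ mulS c 1 := by
  obtain ⟨l, l', c, hl, hl', hc, hc0, hl0, hl'0, e1, e2, _⟩ :=
    not_good_decomp (hW h1) (hW h2) h10 h21 (hng _ h1 _ h2)
  have cover : ∀ x ∈ W, x ∈ mulS l' 1 ∨ x ∈ mulS c 1 := by
    intro x hx
    by_cases hxs : x ∈ Submodule.span K {q1}
    · left
      obtain ⟨κ, rfl⟩ := Submodule.mem_span_singleton.mp hxs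
      rw [e1, ← mul_smul_comm, smul_eq_C_mul]
      exact mul_mem_mulS (hc.C_mul κ)
    · obtain ⟨l2, l2', c2, hl2, hl2', hc2, hc20, hl20, hl2'0, e3, e4, _⟩ :=
        not_good_decomp (hW h1) (hW hx) h10 hxs (hng _ h1 _ hx)
      have hd : c2 ∣ l' * c := ⟨l2', by rw [← e1, e3]; ring⟩
      rcases (prime_linear hc2 hc20).dvd_or_dvd hd with hdd | hdd
      · left
        obtain ⟨κ, _, e⟩ := linear_dvd hc2 hl' hl'0 hdd
        rw [e4, e, show l2 * (C κ * l') = l' * (C κ * l2) by ring]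
        exact mul_mem_mulS (by simpa using (isHomogeneous_C _ κ).mul hl2)
      · right
        obtain ⟨κ, _, e⟩ := linear_dvd hc2 hc hc0 hdd
        rw [e4, e, show l2 * (C κ * c) = c * (C κ * l2) by ring]
        exact mul_mem_mulS (by simpa using (isHomogeneous_C _ κ).mul hl2)
  rcases le_or_le_of_cover cover with h | h
  · exact ⟨l', hl', hl'0, h⟩
  · exact ⟨c, hc, hc0, h⟩

/-! ### degree pieces of the ideal of a good pair -/

/-- degree `k+2` forms in the ideal of a pair -/
noncomputable def Qk (q q' : S3 K) (k : ℕ) : Submodule K (S3 K) := mulS q k ⊔ mulS q' k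

theorem mem_Qk {q q' : S3 K} {k : ℕ} {z : S3 K} :
    z ∈ Qk q q' k ↔ ∃ s t : S3 K, s.IsHomogeneous k ∧ t.IsHomogeneous k ∧ z = q * s + q' * t := by
  unfold Qk
  rw [Submodule.mem_sup]
  constructor
  · rintro ⟨y, hy, w, hw, rfl⟩
    obtain ⟨s, hs, rfl⟩ := mem_mulS.mp hy
    obtain ⟨t, ht, rfl⟩ := mem_mulS.mp hw
    exact ⟨s, t, hs, ht, rfl⟩
  · rintro ⟨s, t, hs, ht, rfl⟩
    exact ⟨_, mul_mem_mulS hs, _, mul_mem_mulS ht, rfl⟩

theorem Qk_mul {q q' : S3 K} {j k : ℕ} {h z : S3 K} (hh : h.IsHomogeneous j) (hz : z ∈ Qk q q' k) :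
    h * z ∈ Qk q q' (j + k) := by
  obtain ⟨s, t, hs, ht, rfl⟩ := mem_Qk.mp hz
  exact mem_Qk.mpr ⟨h * s, h * t, hh.mul hs, hh.mul ht, by ring⟩

instance Qk_finite (q q' : S3 K) (k : ℕ) : Module.Finite K (Qk q q' k) := by
  unfold Qk; infer_instance

namespace Good
variable {q q' : S3 K}

theorem finrank_Qk1 (h : Good q q') : finrank K (Qk q q' 1) = 6 := by
  have h1 := Submodule.finrank_sup_add_finrank_inf_eq (mulS q 1) (mulS q' 1)
  have hinf : mulS q 1 ⊓ mulS q' 1 = ⊥ := by
    rw [eq_bot_iff]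
    rintro x ⟨hx1, hx2⟩
    obtain ⟨s, hs, rfl⟩ := mem_mulS.mp hx1
    obtain ⟨t, ht, hst⟩ := mem_mulS.mp hx2
    have := h.rel s t hs ht (by rw [mul_comm s, ← hst, mul_comm])
    rw [this.1, mul_zero]
    exact Submodule.zero_mem _
  rw [hinf, finrank_bot, finrank_mulS h.ne_left, finrank_mulS h.ne_right, finrank_Sd1] at h1
  unfold Qk
  omega

theorem finrank_Qk5 (h : Good q q') : finrank K (Qk q q' 5) ≤ 32 := by
  have := twoGen h.ne_left h.ne_right h.hq h.hq' 3 5 5 rfl rfl
  rw [finrank_Sd3, finrank_Sd5] at this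
  unfold Qk
  omega

/-- no socle modulo a good pair -/
theorem noSocle {k : ℕ} (h : Good q q') {r : S3 K} (hr : r.IsHomogeneous (k + 2))
    (hX : ∀ i : Fin 3, X i * r ∈ Qk q q' (k + 1)) : r ∈ Qk q q' k := by
  obtain ⟨s0, t0, _, _, e0⟩ := mem_Qk.mp (hX 0)
  obtain ⟨s1, t1, _, _, e1⟩ := mem_Qk.mp (hX 1)
  obtain ⟨s2, t2, _, _, e2⟩ := mem_Qk.mp (hX 2)
  obtain ⟨E, E', hE⟩ := noSocle_of_relPrime (x0 := X 0) (x1 := X 1) (x2 := X 2)
    (q := q) (q' := q') regTriple_X h.ne_right h.hrel (c := r)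
    (a0 := s0) (b0 := t0) (a1 := s1) (b1 := t1) (a2 := s2) (b2 := t2)
    (by rw [e0]; ring) (by rw [e1]; ring) (by rw [e2]; ring)
  refine mem_Qk.mpr ⟨homogeneousComponent k E, homogeneousComponent k E',
    homogeneousComponent_isHomogeneous k E, homogeneousComponent_isHomogeneous k E', ?_⟩
  have := congrArg (homogeneousComponent (2 + k)) hE
  rw [show 2 + k = k + 2 by omega, homogeneousComponent_eq_self hr, map_add, mul_comm E, mul_comm E',
    show k + 2 = 2 + k by omega, hc_mul_of_homog h.hq, hc_mul_of_homog h.hq'] at this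
  exact this

end Good

/-- span of two forms of degree two in terms of the pieces `Qk`: constants -/
theorem mem_Qk_zero_iff {q q' z : S3 K} :
    z ∈ Qk q q' 0 ↔ z ∈ Submodule.span K {q, q'} := by
  rw [mem_Qk, Submodule.mem_span_pair]
  constructor
  · rintro ⟨s, t, hs, ht, rfl⟩
    obtain ⟨a, rfl⟩ := eq_C_of_homog0 hs
    obtain ⟨b, rfl⟩ := eq_C_of_homog0 ht
    exact ⟨a, b, by rw [smul_eq_C_mul, smul_eq_C_mul]; ring⟩
  · rintro ⟨a, b, rfl⟩
    refine ⟨C a, C b, isHomogeneous_C _ _, isHomogeneous_C _ _, ?_⟩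
    rw [smul_eq_C_mul, smul_eq_C_mul]; ring

/-! ### persistence -/

/-- If multiplication of `V` by linear forms is, modulo `Q_3`, the same as multiplication by one
fixed linear form then the same holds in all degrees. -/
theorem persist {q q' l : S3 K} {V : Submodule K (S3 K)} (hl : l.IsHomogeneous 1)
    (h : ∀ (i : Fin 3), ∀ v ∈ V, X i * v ∈ V.map (LinearMap.mulLeft K l) ⊔ Qk q q' 1) (k : ℕ) :
    Sd K k * V ≤ V.map (LinearMap.mulLeft K (l ^ k)) ⊔ Qk q q' k := by
  induction k with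
  | zero =>
    rw [Submodule.mul_le]
    intro c hc v hv
    obtain ⟨a, rfl⟩ := eq_C_of_homog0 hc
    apply Submodule.mem_sup_left
    refine ⟨a • v, V.smul_mem a hv, ?_⟩
    simp [smul_eq_C_mul]
  | succ k ih =>
    rw [Submodule.mul_le]
    intro x hx v hv
    obtain ⟨h0, h1, h2, hh0, hh1, hh2, rfl⟩ := exists_X_decomp hx
    have step : ∀ (i : Fin 3) (y : S3 K), y.IsHomogeneous k →
        (X i * y) * v ∈ V.map (LinearMap.mulLeft K (l ^ (k + 1))) ⊔ Qk q q' (k + 1) := by
      intro i y hy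
      obtain ⟨w, hw, z, hz, e⟩ := Submodule.mem_sup.mp (h i v hv)
      obtain ⟨v', hv', rfl⟩ := hw
      have e2 : (X i * y) * v = l * (y * v') + y * z := by
        have : (X i * y) * v = y * (X i * v) := by ring
        rw [this, ← e, LinearMap.mulLeft_apply]
        ring
      rw [e2]
      refine Submodule.add_mem _ ?_ (Submodule.mem_sup_right (Qk_mul hy hz))
      have hih := ih (Submodule.mul_mem_mul hy hv')
      obtain ⟨w2, hw2, z2, hz2, e3⟩ := Submodule.mem_sup.mp hih
      obtain ⟨v2, hv2, rfl⟩ := hw2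
      rw [← e3, mul_add]
      refine Submodule.add_mem _ (Submodule.mem_sup_left ⟨v2, hv2, ?_⟩) (Submodule.mem_sup_right ?_)
      · simp only [LinearMap.mulLeft_apply]
        ring
      · have := Qk_mul hl hz2
        rwa [add_comm] at this
    rw [add_mul, add_mul]
    exact Submodule.add_mem _ (Submodule.add_mem _ (step 0 _ hh0) (step 1 _ hh1)) (step 2 _ hh2)

end Vale.Agent.P200
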