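import Mathlib
import Vale.Agent.Lib.P200_Low

/-!
Abstract linear algebra for the top step: a finite dimensional commutative algebra with two
distinguished elements and a functional whose kernel contains no nonzero invariant subspace.
-/

open Module

set_option linter.unusedSectionVars false
set_option linter.deprecated false

namespace Vale.Agent.P200G

section Abs
variable {K : Type*} [Field K] {O : Type*} [CommRing O] [Algebra K O] [FiniteDimensional K O]

theorem finrank_sup_single {p : Submodule K O} {v : O} (hv : v ∉ p) :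
    finrank K (p ⊔ Submodule.span K {v} : Submodule K O) = finrank K p + 1 := by
  have hv0 : v ≠ 0 := by
    rintro rfl
    exact hv (Submodule.zero_mem _)
  have h := Submodule.finrank_sup_add_finrank_inf_eq p (Submodule.span K {v})
  have hinf : p ⊓ Submodule.span K {v} = ⊥ := by
    rw [eq_bot_iff]
    rintro x ⟨hx1, hx2⟩
    obtain ⟨a, rfl⟩ := Submodule.mem_span_singleton.mp hx2
    by_cases ha : a = 0
    · simp [ha]
    · exact absurd ((Submodule.smul_mem_iff _ ha).mp hx1) hv
  rw [hinf, finrank_bot, finrank_span_singleton hv0] at h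
  omega

variable (ξ η : O)

/-- The space `W + ξ W + η W`. -/
noncomputable def stp (W : Submodule K O) : Submodule K O :=
  W ⊔ W.map (LinearMap.mulLeft K ξ) ⊔ W.map (LinearMap.mulLeft K η)

variable {ξ η}

theorem mem_stp {W : Submodule K O} {v : O} :
    v ∈ stp ξ η W ↔ ∃ a ∈ W, ∃ b ∈ W, ∃ c ∈ W, v = a + ξ * b + η * c := by
  unfold stp
  constructor
  · intro hv
    obtain ⟨y, hy, z, hz, rfl⟩ := Submodule.mem_sup.mp hv
    obtain ⟨a, ha, w, hw, rfl⟩ := Submodule.mem_sup.mp hy
    obtain ⟨b, hb, rfl⟩ := hw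
    obtain ⟨c, hc, rfl⟩ := hz
    exact ⟨a, ha, b, hb, c, hc, rfl⟩
  · rintro ⟨a, ha, b, hb, c, hc, rfl⟩
    exact Submodule.add_mem _ (Submodule.add_mem _ (Submodule.mem_sup_left (Submodule.mem_sup_left ha))
      (Submodule.mem_sup_left (Submodule.mem_sup_right ⟨b, hb, rfl⟩)))
      (Submodule.mem_sup_right ⟨c, hc, rfl⟩)

theorem le_stp (W : Submodule K O) : W ≤ stp ξ η W := fun v hv =>
  mem_stp.mpr ⟨v, hv, 0, W.zero_mem, 0, W.zero_mem, by simp⟩

theorem xi_mem_stp {W : Submodule K O} {v : O} (hv : v ∈ W) : ξ * v ∈ stp ξ η W :=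
  mem_stp.mpr ⟨0, W.zero_mem, v, hv, 0, W.zero_mem, by simp⟩

theorem eta_mem_stp {W : Submodule K O} {v : O} (hv : v ∈ W) : η * v ∈ stp ξ η W :=
  mem_stp.mpr ⟨0, W.zero_mem, 0, W.zero_mem, v, hv, by simp⟩

theorem stp_mono {W W' : Submodule K O} (h : W ≤ W') : stp ξ η W ≤ stp ξ η W' := by
  intro v hv
  obtain ⟨a, ha, b, hb, c, hc, rfl⟩ := mem_stp.mp hv
  exact mem_stp.mpr ⟨a, h ha, b, h hb, c, h hc, rfl⟩

variable (ξ η)

/-- Invariant subspaces. -/
def Inv (I : Submodule K O) : Prop := ∀ v ∈ I, ξ * v ∈ I ∧ η * v ∈ I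

/-- `W` generates `U` as an invariant subspace. -/
def GenIn (W U : Submodule K O) : Prop := ∀ I : Submodule K O, Inv ξ η I → W ≤ I → U ≤ I

/-- The invariant subspace generated by `W`. -/
noncomputable def gen (W : Submodule K O) : Submodule K O :=
  sInf {I | Inv ξ η I ∧ W ≤ I}

variable {ξ η}

theorem inv_gen (W : Submodule K O) : Inv ξ η (gen ξ η W) := by
  intro v hv
  simp only [gen, Submodule.mem_sInf, Set.mem_setOf_eq] at hv ⊢
  exact ⟨fun I hI => (hI.1 v (hv I hI)).1, fun I hI => (hI.1 v (hv I hI)).2⟩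

theorem le_gen (W : Submodule K O) : W ≤ gen ξ η W := by
  intro v hv
  simp only [gen, Submodule.mem_sInf, Set.mem_setOf_eq]
  exact fun I hI => hI.2 hv

theorem genIn_gen (W : Submodule K O) : GenIn ξ η W (gen ξ η W) := by
  intro I hI hWI v hv
  simp only [gen, Submodule.mem_sInf, Set.mem_setOf_eq] at hv
  exact hv I ⟨hI, hWI⟩

theorem Inv.stp_le {I : Submodule K O} (hI : Inv ξ η I) : stp ξ η I ≤ I := by
  intro v hv
  obtain ⟨a, ha, b, hb, c, hc, rfl⟩ := mem_stp.mp hv
  exact I.add_mem (I.add_mem ha (hI b hb).1) (hI c hc).2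

theorem inv_of_stp_le {I : Submodule K O} (h : stp ξ η I ≤ I) : Inv ξ η I :=
  fun _ hv => ⟨h (xi_mem_stp hv), h (eta_mem_stp hv)⟩

/-- The multiplier subspace `{v | q * v ∈ I}` is invariant. -/
theorem inv_colon {I : Submodule K O} (hI : Inv ξ η I) (q : O) :
    Inv ξ η (I.comap (LinearMap.mulLeft K q)) := by
  intro v hv
  have hv' : q * v ∈ I := hv
  refine ⟨?_, ?_⟩
  · show q * (ξ * v) ∈ I
    rw [show q * (ξ * v) = ξ * (q * v) by ring]
    exact (hI _ hv').1
  · show q * (η * v) ∈ I
    rw [show q * (η * v) = η * (q * v) by ring]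
    exact (hI _ hv').2

theorem inv_bot : Inv ξ η (⊥ : Submodule K O) := by
  intro v hv
  rw [Submodule.mem_bot] at hv
  subst hv
  simp

theorem inv_top : Inv ξ η (⊤ : Submodule K O) := fun _ _ => ⟨trivial, trivial⟩

section lemB

variable {τ : O →ₗ[K] K}
  (hN : ∀ I : Submodule K O, Inv ξ η I → I ≤ LinearMap.ker τ → I = ⊥)

include hN

theorem lemmaB {U W : Submodule K O} (hU : Inv ξ η U) (hWU : W ≤ U) (hWτ : W ≤ LinearMap.ker τ)
    (hgen : GenIn ξ η W U) {ξ' η' : O}
    (hinv : ∀ I : Submodule K O, (∀ v ∈ I, ξ' * v ∈ I ∧ η' * v ∈ I) → Inv ξ η I)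
    (hinv' : ∀ I : Submodule K O, Inv ξ η I → ∀ v ∈ I, ξ' * v ∈ I ∧ η' * v ∈ I)
    (hξ' : ∀ w ∈ W, ξ' * w ∈ W) (hη' : ∀ w ∈ W, η' * w ∈ stp ξ η W)
    {s w₀ : O} (hs : s ∉ W) (hstp : stp ξ η W = W ⊔ Submodule.span K {s}) (hw₀ : w₀ ∈ W)
    (hs' : s = η' * w₀) :
    ∃ γ : K, ∀ v ∈ U, (ξ' - γ • (1 : O)) * v = 0 := by
  classical
  -- coordinates on stp W
  have hcoord : ∀ v ∈ stp ξ η W, ∃ κ : K, ∃ w ∈ W, v = w + κ • s := by
    intro v hv
    rw [hstp] at hv
    obtain ⟨w, hw, y, hy, rfl⟩ := Submodule.mem_sup.mp hv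
    obtain ⟨κ, rfl⟩ := Submodule.mem_span_singleton.mp hy
    exact ⟨κ, w, hw, rfl⟩
  obtain ⟨γ, w', hw', hξs⟩ : ∃ γ : K, ∃ w' ∈ W, ξ' * s = w' + γ • s := by
    have : ξ' * s ∈ stp ξ η W := by
      rw [hs', show ξ' * (η' * w₀) = η' * (ξ' * w₀) by ring]
      exact hη' _ (hξ' _ hw₀)
    obtain ⟨κ, w, hw, e⟩ := hcoord _ this
    exact ⟨κ, w, hw, e⟩
  refine ⟨γ, ?_⟩
  set L : O := ξ' - γ • (1 : O) with hL
  have hLw : ∀ w ∈ W, L * w ∈ W := by
    intro w hw
    rw [hL, sub_mul, smul_mul_assoc, one_mul]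
    exact W.sub_mem (hξ' w hw) (W.smul_mem _ hw)
  have hLs : L * s ∈ W := by
    rw [hL, sub_mul, smul_mul_assoc, one_mul, hξs, add_sub_cancel_right]
    exact hw'
  have hLstp : ∀ v ∈ stp ξ η W, L * v ∈ W := by
    intro v hv
    obtain ⟨κ, w, hw, rfl⟩ := hcoord v hv
    rw [mul_add, mul_smul_comm]
    exact W.add_mem (hLw w hw) (W.smul_mem _ hLs)
  -- stable image
  let Y : ℕ → Submodule K O := fun k => (stp ξ η W).map (LinearMap.mulLeft K (L ^ k))
  have hmemY : ∀ k, ∀ x, x ∈ Y k ↔ ∃ v ∈ stp ξ η W, L ^ k * v = x := by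
    intro k x
    simp only [Y, Submodule.mem_map, LinearMap.mulLeft_apply]
  have hYanti : ∀ k, Y (k + 1) ≤ Y k := by
    intro k x hx
    obtain ⟨v, hv, rfl⟩ := (hmemY _ _).mp hx
    refine (hmemY _ _).mpr ⟨L * v, le_stp _ (hLstp v hv), ?_⟩
    ring
  have hYanti' : Antitone Y := antitone_nat_of_succ_le hYanti
  obtain ⟨n, hn⟩ := IsArtinian.monotone_stabilizes
    (⟨fun k => OrderDual.toDual (Y k), fun i j hij => hYanti' hij⟩ : ℕ →o (Submodule K O)ᵒᵈ)
  have hstab : ∀ m, n ≤ m → Y n = Y m := fun m hm => hn m hm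
  have hLkw : ∀ j : ℕ, ∀ x ∈ W, L ^ j * x ∈ W := by
    intro j
    induction j with
    | zero => intro x hx; simpa using hx
    | succ j ihj =>
      intro x hx
      rw [pow_succ', mul_assoc]
      exact hLw _ (ihj x hx)
  set N := n + 1 with hNdef
  have hXW : Y N ≤ W := by
    intro x hx
    obtain ⟨v, hv, rfl⟩ := (hmemY _ _).mp hx
    rw [hNdef, pow_succ, mul_assoc]
    exact hLkw n _ (hLstp v hv)
  have hYN : ∀ x, x ∈ Y N → ∃ x' ∈ Y N, L ^ N * x' = x := by
    intro x hx
    have heq : Y N = Y (N + N) := by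
      rw [← hstab N (by omega), ← hstab (N + N) (by omega)]
    rw [heq] at hx
    obtain ⟨v, hv, rfl⟩ := (hmemY _ _).mp hx
    refine ⟨L ^ N * v, (hmemY _ _).mpr ⟨v, hv, rfl⟩, ?_⟩
    rw [pow_add]; ring
  have hXinv : Inv ξ η (Y N) := by
    apply hinv
    intro x hx
    obtain ⟨x', hx', rfl⟩ := hYN x hx
    obtain ⟨v, hv, e⟩ := (hmemY _ _).mp hx'
    have hx'W : x' ∈ W := hXW hx'
    refine ⟨?_, ?_⟩
    · refine (hmemY _ _).mpr ⟨ξ' * x', le_stp _ (hξ' _ hx'W), by ring⟩
    · refine (hmemY _ _).mpr ⟨η' * x', hη' _ hx'W, by ring⟩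
  have hXbot : Y N = ⊥ := hN _ hXinv (hXW.trans hWτ)
  have hNil : ∀ v ∈ U, L ^ N * v = 0 := by
    have hI : Inv ξ η ((⊥ : Submodule K O).comap (LinearMap.mulLeft K (L ^ N))) :=
      inv_colon inv_bot _
    have hle : W ≤ (⊥ : Submodule K O).comap (LinearMap.mulLeft K (L ^ N)) := by
      intro w hw
      have : L ^ N * w ∈ Y N := (hmemY _ _).mpr ⟨w, le_stp _ hw, rfl⟩
      rw [hXbot, Submodule.mem_bot] at this
      simpa using this
    intro v hv
    have := hgen _ hI hle hv
    simpa using this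
  have hUinv := hinv' U hU
  set LU : Submodule K O := U.map (LinearMap.mulLeft K L) with hLU
  have hmemLU : ∀ x, x ∈ LU ↔ ∃ u ∈ U, L * u = x := by
    intro x
    simp only [hLU, Submodule.mem_map, LinearMap.mulLeft_apply]
  have hξ'LU : ∀ x ∈ LU, ξ' * x ∈ LU ∧ η' * x ∈ LU := by
    intro x hx
    obtain ⟨u, hu, rfl⟩ := (hmemLU _).mp hx
    exact ⟨(hmemLU _).mpr ⟨ξ' * u, (hUinv u hu).1, by ring⟩,
      (hmemLU _).mpr ⟨η' * u, (hUinv u hu).2, by ring⟩⟩
  have hs0 : s ≠ 0 := by
    rintro rfl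
    exact hs W.zero_mem
  by_cases hsLU : s ∈ W ⊔ LU
  · -- Nakayama
    exfalso
    have hIinv : Inv ξ η (W ⊔ LU) := by
      apply hinv
      intro x hx
      obtain ⟨w, hw, y, hy, rfl⟩ := Submodule.mem_sup.mp hx
      refine ⟨?_, ?_⟩
      · rw [mul_add]
        exact Submodule.add_mem _ (Submodule.mem_sup_left (hξ' w hw))
          (Submodule.mem_sup_right (hξ'LU y hy).1)
      · rw [mul_add]
        refine Submodule.add_mem _ ?_ (Submodule.mem_sup_right (hξ'LU y hy).2)
        obtain ⟨κ, w1, hw1, e⟩ := hcoord _ (hη' w hw)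
        rw [e]
        exact Submodule.add_mem _ (Submodule.mem_sup_left hw1) (Submodule.smul_mem _ _ hsLU)
    have hle := hgen _ hIinv le_sup_left
    have hk : ∀ k : ℕ, ∀ u ∈ U, ∃ w ∈ W, ∃ u' ∈ U, u = w + L ^ k * u' := by
      intro k
      induction k with
      | zero =>
        intro u hu
        exact ⟨0, W.zero_mem, u, hu, by simp⟩
      | succ k ih =>
        intro u hu
        obtain ⟨w, hw, u', hu', e⟩ := ih u hu
        obtain ⟨w1, hw1, y, hy, e1⟩ := Submodule.mem_sup.mp (hle hu')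
        obtain ⟨u2, hu2, rfl⟩ := (hmemLU _).mp hy
        refine ⟨w + L ^ k * w1, W.add_mem hw (hLkw k w1 hw1), u2, hu2, ?_⟩
        rw [e, ← e1]
        ring
    have hUW : U ≤ W := by
      intro u hu
      obtain ⟨w, hw, u', hu', e⟩ := hk N u hu
      rw [hNil u' hu', add_zero] at e
      rwa [e]
    have hUbot : U = ⊥ := hN U hU (hUW.trans hWτ)
    have hWbot : W = ⊥ := by
      rw [eq_bot_iff, ← hUbot]
      exact hWU
    have hsW : s ∈ W ⊔ Submodule.span K {s} := Submodule.mem_sup_right (Submodule.mem_span_singleton_self _)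
    rw [← hstp, hWbot] at hsW
    obtain ⟨a, ha, b, hb, c, hc, e⟩ := mem_stp.mp hsW
    rw [Submodule.mem_bot] at ha hb hc
    subst ha hb hc
    simp at e
    exact hs0 e
  · -- intersection
    have hIinv : Inv ξ η (W ⊓ LU) := by
      apply hinv
      rintro x ⟨hxW, hxL⟩
      refine ⟨⟨hξ' x hxW, (hξ'LU x hxL).1⟩, ?_, (hξ'LU x hxL).2⟩
      obtain ⟨κ, w1, hw1, e⟩ := hcoord _ (hη' x hxW)
      by_cases hκ : κ = 0
      · rw [e, hκ, zero_smul, add_zero]
        exact hw1
      · exfalso
        apply hsLU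
        have hsval : s = κ⁻¹ • (η' * x - w1) := by
          rw [e, add_sub_cancel_left, smul_smul, inv_mul_cancel₀ hκ, one_smul]
        rw [hsval]
        refine Submodule.smul_mem _ _ (Submodule.sub_mem _ ?_ (Submodule.mem_sup_left hw1))
        exact Submodule.mem_sup_right (hξ'LU x hxL).2
    have hIbot : W ⊓ LU = ⊥ := hN _ hIinv (inf_le_left.trans hWτ)
    have hI : Inv ξ η ((⊥ : Submodule K O).comap (LinearMap.mulLeft K L)) := inv_colon inv_bot _
    have hle : W ≤ (⊥ : Submodule K O).comap (LinearMap.mulLeft K L) := by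
      intro w hw
      have : L * w ∈ W ⊓ LU := ⟨hLw w hw, (hmemLU _).mpr ⟨w, hWU hw, rfl⟩⟩
      rw [hIbot, Submodule.mem_bot] at this
      simpa using this
    intro v hv
    have := hgen _ hI hle hv
    simpa using this

theorem lemma1 {U W : Submodule K O} (hU : Inv ξ η U) (hWU : W ≤ U) (hWτ : W ≤ LinearMap.ker τ)
    (hgen : GenIn ξ η W U) (hr : finrank K (stp ξ η W) = finrank K W + 1)
    (hne : W ≠ U ⊓ LinearMap.ker τ) :
    ∃ α β γ : K, (α ≠ 0 ∨ β ≠ 0) ∧ ∀ v ∈ U, (α • ξ + β • η - γ • (1 : O)) * v = 0 := by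
  classical
  have hnotle : ¬ stp ξ η W ≤ W := by
    intro h
    have := Submodule.finrank_mono h
    omega
  obtain ⟨s, hs, hsW⟩ : ∃ s ∈ stp ξ η W, s ∉ W := by
    by_contra hall
    push Not at hall
    exact hnotle hall
  have hsup_of : ∀ s' ∈ stp ξ η W, s' ∉ W → stp ξ η W = W ⊔ Submodule.span K {s'} := by
    intro s' hs' hs'W
    symm
    apply Submodule.eq_of_le_of_finrank_le
    · exact sup_le (le_stp W) ((Submodule.span_singleton_le_iff_mem _ _).mpr hs')
    · rw [finrank_sup_single hs'W, hr]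
  have hstp := hsup_of s hs hsW
  obtain ⟨f₀, hf₀s, hf₀W⟩ := Submodule.exists_dual_map_eq_bot_of_notMem hsW inferInstance
  set f : O →ₗ[K] K := (f₀ s)⁻¹ • f₀ with hf
  have hfs : f s = 1 := by
    simp only [hf, LinearMap.smul_apply, smul_eq_mul]
    exact inv_mul_cancel₀ hf₀s
  have hfW : ∀ w ∈ W, f w = 0 := by
    intro w hw
    have : f₀ w ∈ W.map f₀ := ⟨w, hw, rfl⟩
    rw [hf₀W] at this
    have h0 : f₀ w = 0 := this
    simp [hf, h0]
  have hcoord : ∀ v ∈ stp ξ η W, ∃ w ∈ W, v = w + f v • s := by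
    intro v hv
    rw [hstp] at hv
    obtain ⟨w, hw, y, hy, rfl⟩ := Submodule.mem_sup.mp hv
    obtain ⟨κ, rfl⟩ := Submodule.mem_span_singleton.mp hy
    refine ⟨w, hw, ?_⟩
    simp [hfW w hw, hfs]
  have hmemW : ∀ v ∈ stp ξ η W, f v = 0 → v ∈ W := by
    intro v hv h0
    obtain ⟨w, hw, e⟩ := hcoord v hv
    rw [h0, zero_smul, add_zero] at e
    rwa [e]
  let Λ : W →ₗ[K] K × K :=
    ((f.comp (LinearMap.mulLeft K ξ)).prod (f.comp (LinearMap.mulLeft K η))).comp W.subtype
  have hΛ : ∀ w : W, Λ w = (f (ξ * w), f (η * w)) := fun _ => rfl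
  by_cases hsurj : LinearMap.range Λ = ⊤
  · -- the functionals are independent: `stp W` is invariant
    exfalso
    obtain ⟨w1, hw1⟩ : ∃ w1 : W, Λ w1 = (1, 0) := by
      have : ((1 : K), (0 : K)) ∈ LinearMap.range Λ := by rw [hsurj]; trivial
      exact this
    obtain ⟨w2, hw2⟩ : ∃ w2 : W, Λ w2 = (0, 1) := by
      have : ((0 : K), (1 : K)) ∈ LinearMap.range Λ := by rw [hsurj]; trivial
      exact this
    rw [hΛ, Prod.mk.injEq] at hw1 hw2
    obtain ⟨a, ha, ea⟩ := hcoord _ (xi_mem_stp w1.2)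
    obtain ⟨b, hb, eb⟩ := hcoord _ (eta_mem_stp w1.2)
    obtain ⟨c, hc, ec⟩ := hcoord _ (xi_mem_stp w2.2)
    obtain ⟨e, he, ee⟩ := hcoord _ (eta_mem_stp w2.2)
    rw [hw1.1, one_smul] at ea
    rw [hw1.2, zero_smul, add_zero] at eb
    rw [hw2.1, zero_smul, add_zero] at ec
    rw [hw2.2, one_smul] at ee
    have hξs : ξ * s ∈ stp ξ η W := by
      have : ξ * s = η * c - ξ * e := by
        have h1 : s = η * w2 - e := by rw [ee]; ring
        rw [← ec]
        nth_rewrite 1 [h1]
        ring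
      rw [this]
      exact Submodule.sub_mem _ (eta_mem_stp hc) (xi_mem_stp he)
    have hηs : η * s ∈ stp ξ η W := by
      have : η * s = ξ * b - η * a := by
        have h1 : s = ξ * w1 - a := by rw [ea]; ring
        rw [← eb]
        nth_rewrite 1 [h1]
        ring
      rw [this]
      exact Submodule.sub_mem _ (xi_mem_stp hb) (eta_mem_stp ha)
    have hinvstp : Inv ξ η (stp ξ η W) := by
      intro v hv
      obtain ⟨w, hw, e'⟩ := hcoord v hv
      rw [e', mul_add, mul_add, mul_smul_comm, mul_smul_comm]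
      exact ⟨Submodule.add_mem _ (xi_mem_stp hw) (Submodule.smul_mem _ _ hξs),
        Submodule.add_mem _ (eta_mem_stp hw) (Submodule.smul_mem _ _ hηs)⟩
    have hUle : U ≤ stp ξ η W := hgen _ hinvstp (le_stp W)
    have hfU := Submodule.finrank_mono hUle
    have hWne : ¬ U ≤ LinearMap.ker τ := by
      intro h
      have hUbot := hN U hU h
      have hWbot : W = ⊥ := by
        rw [eq_bot_iff, ← hUbot]
        exact hWU
      rw [hWbot] at hstp
      have hsbot : s ∈ (⊥ : Submodule K O) ⊔ Submodule.span K {s} :=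
        Submodule.mem_sup_right (Submodule.mem_span_singleton_self _)
      rw [← hstp] at hsbot
      obtain ⟨a', ha', b', hb', c', hc', e'⟩ := mem_stp.mp hsbot
      rw [Submodule.mem_bot] at ha' hb' hc'
      subst ha' hb' hc'
      apply hsW
      rw [hWbot, Submodule.mem_bot, e']
      simp
    have hlt : U ⊓ LinearMap.ker τ < U := by
      refine lt_of_le_of_ne inf_le_left ?_
      intro h
      exact hWne (inf_eq_left.mp h)
    have hflt := Submodule.finrank_lt_finrank_of_lt hlt
    apply hne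
    apply Submodule.eq_of_le_of_finrank_le (le_inf hWU hWτ)
    omega
  · -- dependent functionals
    obtain ⟨g, hg0, hg⟩ := Submodule.exists_le_ker_of_lt_top _ (lt_top_iff_ne_top.mpr hsurj)
    set α := g (1, 0) with hα
    set β := g (0, 1) with hβ
    have hgval : ∀ p q : K, g (p, q) = p * α + q * β := by
      intro p q
      have : ((p, q) : K × K) = p • ((1 : K), (0 : K)) + q • ((0 : K), (1 : K)) := by
        ext <;> simp
      rw [this, map_add, map_smul, map_smul, smul_eq_mul, smul_eq_mul]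
    have hαβ : α ≠ 0 ∨ β ≠ 0 := by
      by_contra hh
      push Not at hh
      apply hg0
      ext <;> simp [← hα, ← hβ, hh.1, hh.2]
    have hrel : ∀ w ∈ W, f ((α • ξ + β • η) * w) = 0 := by
      intro w hw
      have h1 : g (Λ ⟨w, hw⟩) = 0 := hg ⟨_, rfl⟩
      rw [hΛ, hgval] at h1
      have e : (α • ξ + β • η) * w = α • (ξ * w) + β • (η * w) := by
        rw [add_mul, smul_mul_assoc, smul_mul_assoc]
      rw [e, map_add, map_smul, map_smul, smul_eq_mul, smul_eq_mul]
      linear_combination h1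
    have hξ'W : ∀ w ∈ W, (α • ξ + β • η) * w ∈ W := by
      intro w hw
      apply hmemW _ _ (hrel w hw)
      have e : (α • ξ + β • η) * w = α • (ξ * w) + β • (η * w) := by
        rw [add_mul, smul_mul_assoc, smul_mul_assoc]
      rw [e]
      exact Submodule.add_mem _ (Submodule.smul_mem _ _ (xi_mem_stp hw))
        (Submodule.smul_mem _ _ (eta_mem_stp hw))
    -- conclude with `lemmaB`
    have hinv2 : ∀ I : Submodule K O, Inv ξ η I →
        ∀ v ∈ I, (α • ξ + β • η) * v ∈ I := by
      intro I hI v hv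
      have e : (α • ξ + β • η) * v = α • (ξ * v) + β • (η * v) := by
        rw [add_mul, smul_mul_assoc, smul_mul_assoc]
      rw [e]
      exact I.add_mem (I.smul_mem _ (hI v hv).1) (I.smul_mem _ (hI v hv).2)
    by_cases hα0 : α ≠ 0
    · -- `η' = η`
      obtain ⟨w₀, hw₀, hηw⟩ : ∃ w₀ ∈ W, η * w₀ ∉ W := by
        by_contra hall
        push Not at hall
        apply hnotle
        apply (inv_of_stp_le (I := W) ?_ : Inv ξ η W).stp_le
        apply Inv.stp_le
        intro v hv
        refine ⟨?_, hall v hv⟩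
        have : ξ * v = α⁻¹ • ((α • ξ + β • η) * v - β • (η * v)) := by
          rw [add_mul, smul_mul_assoc, smul_mul_assoc, add_sub_cancel_right, smul_smul,
            inv_mul_cancel₀ hα0, one_smul]
        rw [this]
        exact W.smul_mem _ (W.sub_mem (hξ'W v hv) (W.smul_mem _ (hall v hv)))
      obtain ⟨γ, hγ⟩ := lemmaB hN hU hWU hWτ hgen (ξ' := α • ξ + β • η) (η' := η)
        (by
          intro I hI v hv
          refine ⟨?_, (hI v hv).2⟩
          have : ξ * v = α⁻¹ • ((α • ξ + β • η) * v - β • (η * v)) := by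
            rw [add_mul, smul_mul_assoc, smul_mul_assoc, add_sub_cancel_right, smul_smul,
              inv_mul_cancel₀ hα0, one_smul]
          rw [this]
          exact I.smul_mem _ (I.sub_mem (hI v hv).1 (I.smul_mem _ (hI v hv).2)))
        (fun I hI v hv => ⟨hinv2 I hI v hv, (hI v hv).2⟩)
        hξ'W (fun w hw => eta_mem_stp hw) hηw (hsup_of _ (eta_mem_stp hw₀) hηw) hw₀ rfl
      exact ⟨α, β, γ, hαβ, hγ⟩
    · -- `η' = ξ`
      have hα00 : α = 0 := by
        by_contra h
        exact hα0 h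
      have hβ0 : β ≠ 0 := by
        rcases hαβ with h | h
        · exact absurd hα00 h
        · exact h
      have hηform : ∀ v : O, η * v = β⁻¹ • ((α • ξ + β • η) * v) := by
        intro v
        rw [hα00, zero_smul, zero_add, smul_mul_assoc, smul_smul, inv_mul_cancel₀ hβ0, one_smul]
      obtain ⟨w₀, hw₀, hξw⟩ : ∃ w₀ ∈ W, ξ * w₀ ∉ W := by
        by_contra hall
        push Not at hall
        apply hnotle
        apply Inv.stp_le
        intro v hv
        refine ⟨hall v hv, ?_⟩
        rw [hηform]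
        exact W.smul_mem _ (hξ'W v hv)
      obtain ⟨γ, hγ⟩ := lemmaB hN hU hWU hWτ hgen (ξ' := α • ξ + β • η) (η' := ξ)
        (by
          intro I hI v hv
          refine ⟨(hI v hv).2, ?_⟩
          rw [hηform]
          exact I.smul_mem _ (hI v hv).1)
        (fun I hI v hv => ⟨hinv2 I hI v hv, (hI v hv).1⟩)
        hξ'W (fun w hw => xi_mem_stp hw) hξw (hsup_of _ (xi_mem_stp hw₀) hξw) hw₀ rfl
      exact ⟨α, β, γ, hαβ, hγ⟩

end lemB

/-! ### linear elements -/

variable (ξ η) in
/-- The element `α ξ + β η + γ`. -/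
noncomputable def lin : (K × K × K) →ₗ[K] O where
  toFun v := v.1 • ξ + v.2.1 • η + v.2.2 • (1 : O)
  map_add' x y := by
    simp only [Prod.fst_add, Prod.snd_add]
    module
  map_smul' c x := by
    simp only [Prod.smul_fst, Prod.smul_snd, RingHom.id_apply, smul_eq_mul]
    module

theorem lin_apply (v : K × K × K) : lin ξ η v = v.1 • ξ + v.2.1 • η + v.2.2 • (1 : O) := rfl

theorem lin_mul (x y : K × K × K) : lin ξ η x * lin ξ η y =
    (x.1 * y.1) • (ξ * ξ) + (x.1 * y.2.1 + x.2.1 * y.1) • (ξ * η) + (x.2.1 * y.2.1) • (η * η)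
      + (x.1 * y.2.2 + x.2.2 * y.1) • ξ + (x.2.1 * y.2.2 + x.2.2 * y.2.1) • η
      + (x.2.2 * y.2.2) • (1 : O) := by
  simp only [lin_apply, Algebra.smul_def, map_mul, map_add, mul_one]
  ring

variable (ξ η) in
/-- Independence of `1, ξ, η, ξ², ξ η, η²`. -/
def Indep6 : Prop :=
  ∀ c0 c1 c2 c3 c4 c5 : K,
    c0 • (1 : O) + c1 • ξ + c2 • η + c3 • (ξ * ξ) + c4 • (ξ * η) + c5 • (η * η) = 0 →
      c0 = 0 ∧ c1 = 0 ∧ c2 = 0 ∧ c3 = 0 ∧ c4 = 0 ∧ c5 = 0

theorem lin_eq_zero (hQ : Indep6 (K := K) ξ η) {v : K × K × K} (h : lin ξ η v = 0) : v = 0 := by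
  rw [lin_apply] at h
  obtain ⟨h0, h1, h2, -, -, -⟩ := hQ v.2.2 v.1 v.2.1 0 0 0 (by
    rw [← h]
    simp only [zero_smul, add_zero]
    abel)
  ext <;> simp [h0, h1, h2]

theorem lin_mul_eq_zero (hQ : Indep6 (K := K) ξ η) {x y : K × K × K}
    (h : lin ξ η x * lin ξ η y = 0) : x = 0 ∨ y = 0 := by
  rw [lin_mul] at h
  obtain ⟨h0, h1, h2, h3, h4, h5⟩ := hQ _ _ _ _ _ _ (by
    rw [← h]
    abel)
  obtain ⟨x1, x2, x3⟩ := x
  obtain ⟨y1, y2, y3⟩ := y
  simp only at h0 h1 h2 h3 h4 h5
  simp only [Prod.mk_eq_zero]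
  by_cases hx1 : x1 = 0
  · subst hx1
    by_cases hx2 : x2 = 0
    · subst hx2
      by_cases hx3 : x3 = 0
      · exact Or.inl ⟨rfl, rfl, hx3⟩
      · right
        refine ⟨?_, ?_, ?_⟩
        · simpa [hx3] using h1
        · simpa [hx3] using h2
        · simpa [hx3] using h0
    · right
      have hy2 : y2 = 0 := by simpa [hx2] using h5
      refine ⟨?_, hy2, ?_⟩
      · simpa [hx2] using h4
      · simpa [hx2, hy2] using h2
  · right
    have hy1 : y1 = 0 := by simpa [hx1] using h3
    refine ⟨hy1, ?_, ?_⟩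
    · simpa [hx1, hy1] using h4
    · simpa [hx1, hy1] using h1

/-- The formal version of the determinant lemma. -/
noncomputable def formL (v : K × K × K) : MvPolynomial (Fin 3) K :=
  MvPolynomial.C v.1 * MvPolynomial.X 0 + MvPolynomial.C v.2.1 * MvPolynomial.X 1
    + MvPolynomial.C v.2.2 * MvPolynomial.X 2

theorem formL_homog (v : K × K × K) : (formL v).IsHomogeneous 1 := by
  unfold formL
  exact ((MvPolynomial.isHomogeneous_C_mul_X _ _).add (MvPolynomial.isHomogeneous_C_mul_X _ _)).add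
    (MvPolynomial.isHomogeneous_C_mul_X _ _)

theorem formL_eq_zero {v : K × K × K} (h : formL v = 0) : v = 0 := by
  have h0 := congrArg (MvPolynomial.eval ![(1 : K), 0, 0]) h
  have h1 := congrArg (MvPolynomial.eval ![(0 : K), 1, 0]) h
  have h2 := congrArg (MvPolynomial.eval ![(0 : K), 0, 1]) h
  simp [formL] at h0 h1 h2
  ext <;> simp [h0, h1, h2]

theorem formL_inj {v v' : K × K × K} (h : formL v = formL v') : v = v' := by
  have : formL (v - v') = 0 := by
    simp only [formL, Prod.fst_sub, Prod.snd_sub, map_sub]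
    simp only [formL] at h
    linear_combination h
  exact sub_eq_zero.mp (formL_eq_zero this)

theorem formL_smul (κ : K) (v : K × K × K) : formL (κ • v) = MvPolynomial.C κ * formL v := by
  simp only [formL, Prod.smul_fst, Prod.smul_snd, smul_eq_mul, map_mul]
  ring

theorem formL_dvd {a b : K × K × K} (ha : a ≠ 0) (hb : b ≠ 0) (h : formL a ∣ formL b) :
    ∃ κ : K, κ ≠ 0 ∧ a = κ • b := by
  have hb0 : formL b ≠ 0 := fun e => hb (formL_eq_zero e)
  obtain ⟨κ, hκ, e⟩ := P200.linear_dvd (formL_homog a) (formL_homog b) hb0 h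
  refine ⟨κ, hκ, formL_inj ?_⟩
  rw [formL_smul, e]

theorem det_zero_linear (a b c d : K × K × K) (h : formL a * formL d = formL b * formL c) :
    (∃ p q : K, (p ≠ 0 ∨ q ≠ 0) ∧ p • a + q • b = 0 ∧ p • c + q • d = 0) ∨
    (∃ p q : K, (p ≠ 0 ∨ q ≠ 0) ∧ p • a + q • c = 0 ∧ p • b + q • d = 0) := by
  have hcancel : ∀ {x y z : K × K × K}, x ≠ 0 → formL x * formL y = formL x * formL z → y = z := by
    intro x y z hx e
    have hx0 : formL x ≠ 0 := fun e0 => hx (formL_eq_zero e0)
    exact formL_inj (mul_left_cancel₀ hx0 e)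
  have hzero : ∀ {x y : K × K × K}, formL x * formL y = 0 → x = 0 ∨ y = 0 := by
    intro x y e
    rcases mul_eq_zero.mp e with e | e
    · exact Or.inl (formL_eq_zero e)
    · exact Or.inr (formL_eq_zero e)
  have hL0 : formL (0 : K × K × K) = 0 := by simp [formL]
  by_cases ha : a = 0
  · subst ha
    rw [hL0, zero_mul] at h
    rcases hzero h.symm with rfl | rfl
    · exact Or.inr ⟨1, 0, Or.inl one_ne_zero, by simp, by simp⟩
    · exact Or.inl ⟨1, 0, Or.inl one_ne_zero, by simp, by simp⟩
  · have hp : Prime (formL a) :=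
      P200.prime_linear (formL_homog a) (fun e => ha (formL_eq_zero e))
    have hdvd : formL a ∣ formL b * formL c := ⟨formL d, h.symm⟩
    rcases hp.dvd_or_dvd hdvd with hb | hc
    · by_cases hb0 : b = 0
      · subst hb0
        rw [hL0, zero_mul] at h
        rcases hzero h with e | rfl
        · exact absurd e ha
        · exact Or.inl ⟨0, 1, Or.inr one_ne_zero, by simp, by simp⟩
      · obtain ⟨κ, hκ, e⟩ := formL_dvd ha hb0 hb
        have hcd : c = κ • d := by
          apply hcancel hb0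
          rw [formL_smul, mul_left_comm, ← h, e, formL_smul]
          ring
        refine Or.inl ⟨1, -κ, Or.inl one_ne_zero, ?_, ?_⟩
        · rw [e]; simp
        · rw [hcd]; simp
    · by_cases hc0 : c = 0
      · subst hc0
        rw [hL0, mul_zero] at h
        rcases hzero h with e | rfl
        · exact absurd e ha
        · exact Or.inr ⟨0, 1, Or.inr one_ne_zero, by simp, by simp⟩
      · obtain ⟨κ, hκ, e⟩ := formL_dvd ha hc0 hc
        have hbd : b = κ • d := by
          apply hcancel hc0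
          rw [formL_smul, mul_comm (formL c) (formL b), ← h, e, formL_smul]
          ring
        refine Or.inr ⟨1, -κ, Or.inl one_ne_zero, ?_, ?_⟩
        · rw [e]; simp
        · rw [hbd]; simp

/-! ### theorem 2 -/

variable (ξ η) in
/-- The subspace of `v` with `τ v = τ (ξ v) = τ (η v) = 0`. -/
noncomputable def H1 (τ : O →ₗ[K] K) : Submodule K O :=
  LinearMap.ker τ ⊓ (LinearMap.ker τ).comap (LinearMap.mulLeft K ξ)
    ⊓ (LinearMap.ker τ).comap (LinearMap.mulLeft K η)

theorem mem_H1 {τ : O →ₗ[K] K} {v : O} :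
    v ∈ H1 ξ η τ ↔ τ v = 0 ∧ τ (ξ * v) = 0 ∧ τ (η * v) = 0 := by
  simp only [H1, Submodule.mem_inf, LinearMap.mem_ker, Submodule.mem_comap, LinearMap.mulLeft_apply]
  tauto

theorem finrank_H1 (τ : O →ₗ[K] K) : finrank K O ≤ finrank K (H1 ξ η τ) + 3 := by
  let Ψ : O →ₗ[K] K × K × K :=
    τ.prod ((τ.comp (LinearMap.mulLeft K ξ)).prod (τ.comp (LinearMap.mulLeft K η)))
  have hker : LinearMap.ker Ψ = H1 ξ η τ := by
    ext v
    rw [mem_H1, LinearMap.mem_ker]
    have e : Ψ v = (τ v, τ (ξ * v), τ (η * v)) := rfl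
    rw [e, Prod.mk_eq_zero, Prod.mk_eq_zero]
  have h := LinearMap.finrank_range_add_finrank_ker Ψ
  have h3 : finrank K (LinearMap.range Ψ) ≤ finrank K (K × K × K) :=
    Submodule.finrank_le _
  have h4 : finrank K (K × K × K) = 3 := by
    simp [Module.finrank_prod]
  rw [hker] at h
  omega

theorem finrank_ker_tau (τ : O →ₗ[K] K) : finrank K O ≤ finrank K (LinearMap.ker τ) + 1 := by
  have h := LinearMap.finrank_range_add_finrank_ker τ
  have h3 : finrank K (LinearMap.range τ) ≤ finrank K K := Submodule.finrank_le _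
  rw [Module.finrank_self] at h3
  omega

theorem stp_le_ker_of_le_H1 {τ : O →ₗ[K] K} {W : Submodule K O} (h : W ≤ H1 ξ η τ) :
    stp ξ η W ≤ LinearMap.ker τ := by
  intro v hv
  obtain ⟨a, ha, b, hb, c, hc, rfl⟩ := mem_stp.mp hv
  rw [LinearMap.mem_ker, map_add, map_add, (mem_H1.mp (h ha)).1, (mem_H1.mp (h hb)).2.1,
    (mem_H1.mp (h hc)).2.2]
  simp

/-- If `W` generates and `q` kills `W` then `q = 0`. -/
theorem ann_eq_zero {W : Submodule K O} (hgen : GenIn ξ η W ⊤) {q : O} (h : ∀ w ∈ W, q * w = 0) :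
    q = 0 := by
  have hI : Inv ξ η ((⊥ : Submodule K O).comap (LinearMap.mulLeft K q)) := inv_colon inv_bot _
  have := hgen _ hI (by
    intro w hw
    simpa using h w hw) (Submodule.mem_top (x := (1 : O)))
  simpa using this

/-- The bound coming from the commutation relations. -/
theorem koszul_bound (W : Submodule K O) :
    finrank K (stp ξ η (stp ξ η W)) + 3 * finrank K W ≤
      3 * finrank K (stp ξ η W) +
        finrank K (W ⊓ W.comap (LinearMap.mulLeft K ξ) ⊓ W.comap (LinearMap.mulLeft K η) :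
          Submodule K O) := by
  set W₁ := stp ξ η W with hW₁
  set W₀ : Submodule K O := W ⊓ W.comap (LinearMap.mulLeft K ξ) ⊓ W.comap (LinearMap.mulLeft K η)
    with hW₀
  -- the map onto `stp W₁`
  let Ψ : (W₁ × W₁ × W₁) →ₗ[K] O :=
    { toFun := fun x => ξ * (x.2.1 : O) - η * (x.1 : O) + (x.2.2 : O)
      map_add' := by
        intro x y
        simp only [Prod.fst_add, Prod.snd_add, Submodule.coe_add]
        ring
      map_smul' := by
        intro c x
        simp only [Prod.smul_fst, Prod.smul_snd, Submodule.coe_smul, RingHom.id_apply,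
          Algebra.smul_def]
        ring }
  have hΨ : ∀ x, Ψ x = ξ * (x.2.1 : O) - η * (x.1 : O) + (x.2.2 : O) := fun _ => rfl
  have hrange : LinearMap.range Ψ = stp ξ η W₁ := by
    ext v
    constructor
    · rintro ⟨x, rfl⟩
      rw [hΨ]
      refine mem_stp.mpr ⟨x.2.2, x.2.2.2, x.2.1, x.2.1.2, -(x.1 : O), W₁.neg_mem x.1.2, ?_⟩
      ring
    · intro hv
      obtain ⟨a, ha, b, hb, c, hc, rfl⟩ := mem_stp.mp hv
      refine ⟨(⟨-c, W₁.neg_mem hc⟩, ⟨b, hb⟩, ⟨a, ha⟩), ?_⟩
      rw [hΨ]
      simp only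
      ring
  -- the map from `W × W × W`
  let Θ : (W × W × W) →ₗ[K] (W₁ × W₁ × W₁) :=
    { toFun := fun x =>
        (⟨(x.1 : O) + ξ * (x.2.2 : O), W₁.add_mem (le_stp W x.1.2) (xi_mem_stp x.2.2.2)⟩,
         ⟨(x.2.1 : O) + η * (x.2.2 : O), W₁.add_mem (le_stp W x.2.1.2) (eta_mem_stp x.2.2.2)⟩,
         ⟨η * (x.1 : O) - ξ * (x.2.1 : O), W₁.sub_mem (eta_mem_stp x.1.2) (xi_mem_stp x.2.1.2)⟩)
      map_add' := by
        intro x y
        ext : 1
        · apply Subtype.ext
          simp only [Prod.fst_add, Prod.snd_add, Submodule.coe_add]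
          ring
        ext : 1
        · apply Subtype.ext
          simp only [Prod.fst_add, Prod.snd_add, Submodule.coe_add]
          ring
        · apply Subtype.ext
          simp only [Prod.fst_add, Prod.snd_add, Submodule.coe_add]
          ring
      map_smul' := by
        intro c x
        ext : 1
        · apply Subtype.ext
          simp only [Prod.smul_fst, Prod.smul_snd, Submodule.coe_smul, RingHom.id_apply,
            Algebra.smul_def]
          ring
        ext : 1
        · apply Subtype.ext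
          simp only [Prod.smul_fst, Prod.smul_snd, Submodule.coe_smul, RingHom.id_apply,
            Algebra.smul_def]
          ring
        · apply Subtype.ext
          simp only [Prod.smul_fst, Prod.smul_snd, Submodule.coe_smul, RingHom.id_apply,
            Algebra.smul_def]
          ring }
  have hΘ1 : ∀ x, ((Θ x).1 : O) = (x.1 : O) + ξ * (x.2.2 : O) := fun _ => rfl
  have hΘ2 : ∀ x, ((Θ x).2.1 : O) = (x.2.1 : O) + η * (x.2.2 : O) := fun _ => rfl
  have hΘ3 : ∀ x, ((Θ x).2.2 : O) = η * (x.1 : O) - ξ * (x.2.1 : O) := fun _ => rfl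
  have hcomp : LinearMap.range Θ ≤ LinearMap.ker Ψ := by
    rintro _ ⟨x, rfl⟩
    rw [LinearMap.mem_ker, hΨ, hΘ1, hΘ2, hΘ3]
    ring
  -- the kernel of Θ injects in W₀
  let ι : LinearMap.ker Θ →ₗ[K] W₀ :=
    { toFun := fun x => ⟨((x : W × W × W).2.2 : O), by
        have hx : Θ x = 0 := x.2
        have h1 : ((Θ x).1 : O) = 0 := by rw [hx]; rfl
        have h2 : ((Θ x).2.1 : O) = 0 := by rw [hx]; rfl
        rw [hΘ1] at h1
        rw [hΘ2] at h2
        refine ⟨⟨(x : W × W × W).2.2.2, ?_⟩, ?_⟩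
        · show ξ * (((x : W × W × W).2.2 : O)) ∈ W
          rw [show ξ * (((x : W × W × W).2.2 : O)) = -((x : W × W × W).1 : O) by
            linear_combination h1]
          exact W.neg_mem (x : W × W × W).1.2
        · show η * (((x : W × W × W).2.2 : O)) ∈ W
          rw [show η * (((x : W × W × W).2.2 : O)) = -((x : W × W × W).2.1 : O) by
            linear_combination h2]
          exact W.neg_mem (x : W × W × W).2.1.2⟩
      map_add' := fun _ _ => rfl
      map_smul' := fun _ _ => rfl }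
  have hι : Function.Injective ι := by
    rw [injective_iff_map_eq_zero]
    intro x hx
    have hval : ((x : W × W × W).2.2 : O) = 0 := congrArg (fun z : W₀ => (z : O)) hx
    have hx0 : Θ x = 0 := x.2
    have h1 : ((Θ x).1 : O) = 0 := by rw [hx0]; rfl
    have h2 : ((Θ x).2.1 : O) = 0 := by rw [hx0]; rfl
    rw [hΘ1, hval, mul_zero, add_zero] at h1
    rw [hΘ2, hval, mul_zero, add_zero] at h2
    apply Subtype.ext
    ext : 1
    · exact Subtype.ext h1
    ext : 1
    · exact Subtype.ext h2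
    · exact Subtype.ext hval
  have h1 := LinearMap.finrank_range_add_finrank_ker Ψ
  have h2 := LinearMap.finrank_range_add_finrank_ker Θ
  have h3 := Submodule.finrank_mono hcomp
  have h4 := LinearMap.finrank_le_finrank_of_injective hι
  rw [hrange] at h1
  simp only [Module.finrank_prod] at h1 h2
  omega

section main2

variable {τ : O →ₗ[K] K}
  (hN : ∀ I : Submodule K O, Inv ξ η I → I ≤ LinearMap.ker τ → I = ⊥)
  (hQ : Indep6 (K := K) ξ η)

include hN in
/-- A nonzero element killed by two independent linear elements spans an invariant line. -/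
theorem two_kill {x y : K × K × K} (hi : ∀ s t : K, s • x + t • y = 0 → s = 0 ∧ t = 0) {w : O}
    (hw0 : w ≠ 0) (hxw : lin ξ η x * w = 0) (hyw : lin ξ η y * w = 0) (hw : w ∈ LinearMap.ker τ) :
    False := by
  let Φ : (K × K × K) →ₗ[K] O := (LinearMap.mulRight K w).comp (lin ξ η)
  have hΦ : ∀ v, Φ v = lin ξ η v * w := fun _ => rfl
  have hli : LinearIndependent K ![x, y] := LinearIndependent.pair_iff.mpr hi
  have hspan : Submodule.span K (Set.range ![x, y]) ≤ LinearMap.ker Φ := by
    rw [Submodule.span_le]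
    rintro _ ⟨i, rfl⟩
    fin_cases i
    · exact hxw
    · exact hyw
  have h2 : finrank K (Submodule.span K (Set.range ![x, y])) = 2 := by
    rw [finrank_span_eq_card hli]
    simp
  have h3 := Submodule.finrank_mono hspan
  have h4 := LinearMap.finrank_range_add_finrank_ker Φ
  have h5 : finrank K (K × K × K) = 3 := by simp [Module.finrank_prod]
  have hle : finrank K (LinearMap.range Φ) ≤ 1 := by omega
  have hmem : ∀ v, lin ξ η v * w ∈ LinearMap.range Φ := fun v => ⟨v, rfl⟩
  have hwr : w ∈ LinearMap.range Φ := by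
    have := hmem (0, 0, 1)
    simpa [lin_apply] using this
  have hspanw : Submodule.span K {w} = LinearMap.range Φ := by
    apply Submodule.eq_of_le_of_finrank_le
    · exact (Submodule.span_singleton_le_iff_mem _ _).mpr hwr
    · rw [finrank_span_singleton hw0]
      exact hle
  have hinv : Inv ξ η (Submodule.span K {w}) := by
    intro v hv
    obtain ⟨c, rfl⟩ := Submodule.mem_span_singleton.mp hv
    rw [mul_smul_comm, mul_smul_comm]
    refine ⟨Submodule.smul_mem _ _ ?_, Submodule.smul_mem _ _ ?_⟩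
    · rw [hspanw]
      have := hmem (1, 0, 0)
      simpa [lin_apply] using this
    · rw [hspanw]
      have := hmem (0, 1, 0)
      simpa [lin_apply] using this
  have hbot := hN _ hinv ((Submodule.span_singleton_le_iff_mem _ _).mpr hw)
  rw [Submodule.span_singleton_eq_bot] at hbot
  exact hw0 hbot

include hN hQ in
/-- The case of a two dimensional `W` with `W₀ = 0`. -/
theorem case_two {W : Submodule K O} (hdim : finrank K W = 2)
    (hW : W ≤ LinearMap.ker τ) (hgen : GenIn ξ η W ⊤) (hr : finrank K (stp ξ η W) ≤ 4) : False := by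
  classical
  let b := Module.finBasisOfFinrankEq K W hdim
  set w1 : O := (b 0 : O) with hw1
  set w2 : O := (b 1 : O) with hw2
  have hw1W : w1 ∈ W := (b 0).2
  have hw2W : w2 ∈ W := (b 1).2
  have hindep : ∀ s t : K, s • w1 + t • w2 = 0 → s = 0 ∧ t = 0 := by
    intro s t e
    have hli := b.linearIndependent
    have hp : LinearIndependent K ![b 0, b 1] := by
      convert hli using 1
      ext i
      fin_cases i <;> rfl
    refine LinearIndependent.pair_iff.mp hp s t ?_
    apply Subtype.ext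
    simpa using e
  have hspanW : ∀ w ∈ W, ∃ s t : K, w = s • w1 + t • w2 := by
    intro w hw
    have h := b.sum_repr ⟨w, hw⟩
    rw [Fin.sum_univ_two] at h
    refine ⟨b.repr ⟨w, hw⟩ 0, b.repr ⟨w, hw⟩ 1, ?_⟩
    have := congrArg (fun z : W => (z : O)) h
    simpa using this.symm
  let Φ : (K × K × K) × (K × K × K) →ₗ[K] O :=
    ((LinearMap.mulRight K w1).comp (lin ξ η)).coprod ((LinearMap.mulRight K w2).comp (lin ξ η))
  have hΦ : ∀ v, Φ v = lin ξ η v.1 * w1 + lin ξ η v.2 * w2 := fun _ => rfl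
  have hrange : LinearMap.range Φ ≤ stp ξ η W := by
    rintro _ ⟨v, rfl⟩
    rw [hΦ]
    have hlin : ∀ (u : K × K × K) (w : O), w ∈ W → lin ξ η u * w ∈ stp ξ η W := by
      intro u w hw
      rw [lin_apply, add_mul, add_mul, smul_mul_assoc, smul_mul_assoc, smul_mul_assoc, one_mul]
      exact Submodule.add_mem _ (Submodule.add_mem _ (Submodule.smul_mem _ _ (xi_mem_stp hw))
        (Submodule.smul_mem _ _ (eta_mem_stp hw))) (Submodule.smul_mem _ _ (le_stp W hw))
    exact Submodule.add_mem _ (hlin _ _ hw1W) (hlin _ _ hw2W)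
  have h1 := LinearMap.finrank_range_add_finrank_ker Φ
  have h2 := Submodule.finrank_mono hrange
  have h3 : finrank K ((K × K × K) × (K × K × K)) = 6 := by simp [Module.finrank_prod]
  have hker : 1 < finrank K (LinearMap.ker Φ) := by omega
  have hker0 : 0 < finrank K (LinearMap.ker Φ) := by omega
  obtain ⟨r1, hr1⟩ : ∃ r1 : LinearMap.ker Φ, r1 ≠ 0 :=
    Module.finrank_pos_iff_exists_ne_zero.mp hker0
  obtain ⟨r2, hr2⟩ := exists_linearIndependent_pair_of_one_lt_finrank hker hr1
  have hpair := LinearIndependent.pair_iff.mp hr2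
  set a : K × K × K := (r1 : (K × K × K) × (K × K × K)).1 with ha
  set b' : K × K × K := (r1 : (K × K × K) × (K × K × K)).2 with hb'
  set c : K × K × K := (r2 : (K × K × K) × (K × K × K)).1 with hc
  set d : K × K × K := (r2 : (K × K × K) × (K × K × K)).2 with hd
  have hpair' : ∀ s t : K, s • a + t • c = 0 → s • b' + t • d = 0 → s = 0 ∧ t = 0 := by
    intro s t e1 e2
    apply hpair s t
    apply Subtype.ext
    apply Prod.ext
    · simpa using e1
    · simpa using e2
  have rel1 : lin ξ η a * w1 + lin ξ η b' * w2 = 0 := by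
    have : Φ r1 = 0 := r1.2
    rwa [hΦ] at this
  have rel2 : lin ξ η c * w1 + lin ξ η d * w2 = 0 := by
    have : Φ r2 = 0 := r2.2
    rwa [hΦ] at this
  have hD : lin ξ η a * lin ξ η d - lin ξ η b' * lin ξ η c = 0 := by
    apply ann_eq_zero hgen
    intro w hw
    obtain ⟨s, t, rfl⟩ := hspanW w hw
    simp only [Algebra.smul_def] at *
    linear_combination (algebraMap K O s) * lin ξ η d * rel1 - (algebraMap K O s) * lin ξ η b' * rel2
      + (algebraMap K O t) * lin ξ η a * rel2 - (algebraMap K O t) * lin ξ η c * rel1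
  -- formal identity
  have hform : formL a * formL d = formL b' * formL c := by
    rw [lin_mul, lin_mul] at hD
    obtain ⟨h0, h1', h2', h3', h4, h5⟩ := hQ
      (a.2.2 * d.2.2 - b'.2.2 * c.2.2)
      (a.1 * d.2.2 + a.2.2 * d.1 - (b'.1 * c.2.2 + b'.2.2 * c.1))
      (a.2.1 * d.2.2 + a.2.2 * d.2.1 - (b'.2.1 * c.2.2 + b'.2.2 * c.2.1))
      (a.1 * d.1 - b'.1 * c.1)
      (a.1 * d.2.1 + a.2.1 * d.1 - (b'.1 * c.2.1 + b'.2.1 * c.1))
      (a.2.1 * d.2.1 - b'.2.1 * c.2.1) (by
        rw [← hD]
        simp only [sub_smul, add_smul]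
        abel)
    have e0 := congrArg (MvPolynomial.C (σ := Fin 3)) h0
    have e1 := congrArg (MvPolynomial.C (σ := Fin 3)) h1'
    have e2 := congrArg (MvPolynomial.C (σ := Fin 3)) h2'
    have e3 := congrArg (MvPolynomial.C (σ := Fin 3)) h3'
    have e4 := congrArg (MvPolynomial.C (σ := Fin 3)) h4
    have e5 := congrArg (MvPolynomial.C (σ := Fin 3)) h5
    simp only [map_sub, map_add, map_mul, map_zero] at e0 e1 e2 e3 e4 e5
    simp only [formL]
    linear_combination e0 * MvPolynomial.X 2 * MvPolynomial.X 2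
      + e1 * MvPolynomial.X 0 * MvPolynomial.X 2 + e2 * MvPolynomial.X 1 * MvPolynomial.X 2
      + e3 * MvPolynomial.X 0 * MvPolynomial.X 0 + e4 * MvPolynomial.X 0 * MvPolynomial.X 1
      + e5 * MvPolynomial.X 1 * MvPolynomial.X 1
  have hw1ker : w1 ∈ LinearMap.ker τ := hW hw1W
  have hw2ker : w2 ∈ LinearMap.ker τ := hW hw2W
  rcases det_zero_linear a b' c d hform with ⟨p, q, hpq, e1, e2⟩ | ⟨p, q, hpq, e1, e2⟩
  · -- columns proportional
    by_cases hq : q = 0
    · subst hq
      have hp : p ≠ 0 := by simpa using hpq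
      have ha0 : a = 0 := by
        have : p • a = 0 := by simpa using e1
        exact (smul_eq_zero.mp this).resolve_left hp
      have hc0 : c = 0 := by
        have : p • c = 0 := by simpa using e2
        exact (smul_eq_zero.mp this).resolve_left hp
      have hw20 : w2 ≠ 0 := by
        rintro e
        have := (hindep 0 1 (by simp [e])).2
        exact one_ne_zero this
      refine two_kill hN (x := b') (y := d) ?_ hw20 ?_ ?_ hw2ker
      · intro s t e
        exact hpair' s t (by simp [ha0, hc0]) e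
      · rw [ha0, map_zero, zero_mul, zero_add] at rel1
        exact rel1
      · rw [hc0, map_zero, zero_mul, zero_add] at rel2
        exact rel2
    · have hb'val : b' = (-(p / q)) • a := by
        have : q • b' = -(p • a) := by
          rw [eq_neg_iff_add_eq_zero, add_comm]
          exact e1
        calc b' = q⁻¹ • (q • b') := by rw [smul_smul, inv_mul_cancel₀ hq, one_smul]
          _ = (-(p / q)) • a := by
            rw [this, smul_neg, smul_smul, neg_smul, div_eq_inv_mul]
      have hdval : d = (-(p / q)) • c := by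
        have : q • d = -(p • c) := by
          rw [eq_neg_iff_add_eq_zero, add_comm]
          exact e2
        calc d = q⁻¹ • (q • d) := by rw [smul_smul, inv_mul_cancel₀ hq, one_smul]
          _ = (-(p / q)) • c := by
            rw [this, smul_neg, smul_smul, neg_smul, div_eq_inv_mul]
      set κ : K := -(p / q) with hκ
      have hw0 : w1 + κ • w2 ≠ 0 := by
        intro e
        have := (hindep 1 κ (by simpa using e)).1
        exact one_ne_zero this
      refine two_kill hN (x := a) (y := c) ?_ hw0 ?_ ?_ ?_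
      · intro s t e
        refine hpair' s t e ?_
        rw [hb'val, hdval, smul_comm s, smul_comm t, ← smul_add, e, smul_zero]
      · rw [hb'val, map_smul] at rel1
        rw [← rel1]
        simp only [Algebra.smul_def]
        ring
      · rw [hdval, map_smul] at rel2
        rw [← rel2]
        simp only [Algebra.smul_def]
        ring
      · exact Submodule.add_mem _ hw1ker (Submodule.smul_mem _ _ hw2ker)
  · -- rows proportional: contradiction
    obtain ⟨h1p, h1q⟩ := hpair' p q e1 e2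
    rcases hpq with h | h
    · exact h h1p
    · exact h h1q

include hN hQ in
/-- The three functionals `τ`, `τ ξ`, `τ η` are independent. -/
theorem finrank_H1' : finrank K (H1 ξ η τ) + 3 ≤ finrank K O := by
  let Ψ : O →ₗ[K] K × K × K :=
    τ.prod ((τ.comp (LinearMap.mulLeft K ξ)).prod (τ.comp (LinearMap.mulLeft K η)))
  have hΨ : ∀ v, Ψ v = (τ v, τ (ξ * v), τ (η * v)) := fun _ => rfl
  have hker : LinearMap.ker Ψ = H1 ξ η τ := by
    ext v
    rw [mem_H1, LinearMap.mem_ker, hΨ, Prod.mk_eq_zero, Prod.mk_eq_zero]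
  have hsurj : LinearMap.range Ψ = ⊤ := by
    by_contra hne
    obtain ⟨g, hg0, hg⟩ := Submodule.exists_le_ker_of_lt_top _ (lt_top_iff_ne_top.mpr hne)
    set c0 := g (1, 0, 0) with hc0
    set c1 := g (0, 1, 0) with hc1
    set c2 := g (0, 0, 1) with hc2
    have hgval : ∀ p q r : K, g (p, q, r) = p * c0 + q * c1 + r * c2 := by
      intro p q r
      have : ((p, q, r) : K × K × K) = p • ((1 : K), (0 : K), (0 : K))
          + q • ((0 : K), (1 : K), (0 : K)) + r • ((0 : K), (0 : K), (1 : K)) := by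
        ext <;> simp
      rw [this, map_add, map_add, map_smul, map_smul, map_smul, smul_eq_mul, smul_eq_mul,
        smul_eq_mul]
    set ℓ : O := c0 • (1 : O) + c1 • ξ + c2 • η with hℓ
    have hτℓ : ∀ v, τ (ℓ * v) = 0 := by
      intro v
      have h1 : g (Ψ v) = 0 := hg ⟨v, rfl⟩
      rw [hΨ, hgval] at h1
      have e : ℓ * v = c0 • v + c1 • (ξ * v) + c2 • (η * v) := by
        rw [hℓ, add_mul, add_mul, smul_mul_assoc, smul_mul_assoc, smul_mul_assoc, one_mul]
      rw [e, map_add, map_add, map_smul, map_smul, map_smul, smul_eq_mul, smul_eq_mul, smul_eq_mul]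
      linear_combination h1
    have hI : Inv ξ η (LinearMap.range (LinearMap.mulLeft K ℓ)) := by
      rintro _ ⟨v, rfl⟩
      refine ⟨⟨ξ * v, ?_⟩, ⟨η * v, ?_⟩⟩
      · simp only [LinearMap.mulLeft_apply]
        ring
      · simp only [LinearMap.mulLeft_apply]
        ring
    have hbot := hN _ hI (by
      rintro _ ⟨v, rfl⟩
      exact hτℓ v)
    have hℓ0 : ℓ = 0 := by
      have : ℓ * 1 ∈ LinearMap.range (LinearMap.mulLeft K ℓ) := ⟨1, rfl⟩
      rw [hbot, Submodule.mem_bot, mul_one] at this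
      exact this
    obtain ⟨h0, h1, h2, -, -, -⟩ := hQ c0 c1 c2 0 0 0 (by
      rw [← hℓ0, hℓ]
      simp)
    apply hg0
    apply LinearMap.ext
    rintro ⟨p, q, r⟩
    rw [hgval, h0, h1, h2]
    simp
  have h := LinearMap.finrank_range_add_finrank_ker Ψ
  rw [hker, hsurj, finrank_top] at h
  have h4 : finrank K (K × K × K) = 3 := by
    simp [Module.finrank_prod]
  omega

theorem lin_mul_mem {I : Submodule K O} (hI : Inv ξ η I) (x : K × K × K) {v : O} (hv : v ∈ I) :
    lin ξ η x * v ∈ I := by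
  rw [lin_apply, add_mul, add_mul, smul_mul_assoc, smul_mul_assoc, smul_mul_assoc, one_mul]
  exact I.add_mem (I.add_mem (I.smul_mem _ (hI v hv).1) (I.smul_mem _ (hI v hv).2))
    (I.smul_mem _ hv)

theorem lin_mul_mem_stp {W : Submodule K O} (x : K × K × K) {v : O} (hv : v ∈ W) :
    lin ξ η x * v ∈ stp ξ η W := by
  rw [lin_apply, add_mul, add_mul, smul_mul_assoc, smul_mul_assoc, smul_mul_assoc, one_mul]
  exact Submodule.add_mem _ (Submodule.add_mem _ (Submodule.smul_mem _ _ (xi_mem_stp hv))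
    (Submodule.smul_mem _ _ (eta_mem_stp hv))) (Submodule.smul_mem _ _ (le_stp W hv))

include hN hQ in
/-- Theorem 2: a generating subspace of `H1` of dimension at least two, other than `H1`, grows by
at least three. -/
theorem thm2 : ∀ n : ℕ, ∀ W : Submodule K O, finrank K W = n → W ≤ H1 ξ η τ → 2 ≤ n →
    W ≠ H1 ξ η τ → GenIn ξ η W ⊤ → n + 3 ≤ finrank K (stp ξ η W) := by
  intro n
  induction n using Nat.strong_induction_on with
  | _ n ih =>
  intro W hn hWH h2 hne hgen
  by_contra hlt
  push Not at hlt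
  have hle1 := Submodule.finrank_mono (le_stp (ξ := ξ) (η := η) W)
  have hker := stp_le_ker_of_le_H1 hWH
  have hWker : W ≤ LinearMap.ker τ := (le_stp W).trans hker
  have hWne : W ≠ ⊥ := by
    rintro rfl
    simp at hn
    omega
  have hnotinv : ∀ I : Submodule K O, I ≤ LinearMap.ker τ → I ≠ ⊥ →
      finrank K I + 1 ≤ finrank K (stp ξ η I) := by
    intro I hI hI0
    by_contra hh
    have heq := Submodule.eq_of_le_of_finrank_le (le_stp (ξ := ξ) (η := η) I) (by omega)
    exact hI0 (hN I (inv_of_stp_le heq.ge) hI)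
  have hr0 := hnotinv W hWker hWne
  have hkilltop : ∀ α β γ : K, (α ≠ 0 ∨ β ≠ 0) →
      (∀ v ∈ (⊤ : Submodule K O), (α • ξ + β • η - γ • (1 : O)) * v = 0) → False := by
    intro α β γ h hv
    have h1 := hv 1 trivial
    rw [mul_one] at h1
    have h2 : lin ξ η (α, β, -γ) = 0 := by
      rw [lin_apply, ← h1]
      simp only [neg_smul]
      abel
    have h3 := lin_eq_zero hQ h2
    simp only [Prod.mk_eq_zero] at h3
    rcases h with h | h
    · exact h h3.1
    · exact h h3.2.1
  have hr1 : finrank K (stp ξ η W) ≠ n + 1 := by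
    intro hh
    have hne' : W ≠ ⊤ ⊓ LinearMap.ker τ := by
      rw [top_inf_eq]
      intro e
      have hinv : Inv ξ η (LinearMap.ker τ) := by
        intro v hv
        have : v ∈ H1 ξ η τ := hWH (e ▸ hv)
        exact ⟨(mem_H1.mp this).2.1, (mem_H1.mp this).2.2⟩
      exact hWne (by rw [e]; exact hN _ hinv le_rfl)
    obtain ⟨α, β, γ, hαβ, hv⟩ := lemma1 hN inv_top le_top hWker hgen (by rw [hh, hn]) hne'
    exact hkilltop α β γ hαβ hv
  have hr2 : finrank K (stp ξ η W) = n + 2 := by omega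
  have hkos := koszul_bound (ξ := ξ) (η := η) W
  set W₀ : Submodule K O := W ⊓ W.comap (LinearMap.mulLeft K ξ) ⊓ W.comap (LinearMap.mulLeft K η)
    with hW₀
  have hmemW₀ : ∀ v, v ∈ W₀ ↔ v ∈ W ∧ ξ * v ∈ W ∧ η * v ∈ W := by
    intro v
    simp only [hW₀, Submodule.mem_inf, Submodule.mem_comap, LinearMap.mulLeft_apply]
    tauto
  have hW₀W : W₀ ≤ W := fun v hv => ((hmemW₀ v).mp hv).1
  have hstpW₀ : stp ξ η W₀ ≤ W := by
    intro v hv
    obtain ⟨a, ha, b, hb, c, hc, rfl⟩ := mem_stp.mp hv
    exact W.add_mem (W.add_mem (hW₀W ha) ((hmemW₀ b).mp hb).2.1) ((hmemW₀ c).mp hc).2.2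
  have hW₀H : W₀ ≤ H1 ξ η τ := hW₀W.trans hWH
  have hW₀ker : W₀ ≤ LinearMap.ker τ := hW₀W.trans hWker
  set n₀ := finrank K W₀ with hn₀
  by_cases hd3 : n₀ + 3 ≤ n
  · -- the case `d ≥ 3`
    set W₁ := stp ξ η W with hW₁
    have hW₁ne : W₁ ≠ ⊥ := by
      intro e
      apply hWne
      rw [eq_bot_iff, ← e]
      exact le_stp W
    have h' := hnotinv W₁ hker hW₁ne
    have e1 : finrank K (stp ξ η W₁) = finrank K W₁ + 1 := by omega
    have hne'' : W₁ ≠ ⊤ ⊓ LinearMap.ker τ := by
      rw [top_inf_eq]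
      intro e
      have h1 := finrank_H1' hN hQ
      have h2' := finrank_ker_tau τ
      rw [← e] at h2'
      apply hne
      apply Submodule.eq_of_le_of_finrank_le hWH
      omega
    obtain ⟨α, β, γ, hαβ, hv⟩ := lemma1 hN inv_top le_top hker
      (fun I hI hle => hgen I hI ((le_stp W).trans hle)) e1 hne''
    exact hkilltop α β γ hαβ hv
  by_cases hW₀bot : W₀ = ⊥
  · have hn00 : n₀ = 0 := by
      rw [hn₀, hW₀bot]
      simp
    exact case_two hN hQ (by omega) hWker hgen (by omega)
  have hr₀ := hnotinv W₀ hW₀ker hW₀bot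
  have hle₀ := Submodule.finrank_mono hstpW₀
  have hn₀pos : 0 < n₀ := by
    exact Nat.pos_of_ne_zero (fun h => hW₀bot (Submodule.finrank_eq_zero.mp h))
  set A := stp ξ η W₀ with hA
  by_cases hAn : finrank K A = n
  · -- `A = W`
    have hAW : A = W := Submodule.eq_of_le_of_finrank_le (show A ≤ W from hstpW₀) (by omega)
    have hgen₀ : GenIn ξ η W₀ ⊤ := by
      intro I hI hle
      apply hgen I hI
      rw [← hAW]
      exact (stp_mono hle).trans hI.stp_le
    by_cases hA1 : finrank K A = n₀ + 1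
    · have hne₀ : W₀ ≠ ⊤ ⊓ LinearMap.ker τ := by
        rw [top_inf_eq]
        intro e
        have : W ≤ W₀ := by rw [e]; exact hWker
        have := Submodule.finrank_mono this
        omega
      obtain ⟨α, β, γ, hαβ, hv⟩ := lemma1 hN inv_top le_top hW₀ker hgen₀ hA1 hne₀
      exact hkilltop α β γ hαβ hv
    · by_cases h2n₀ : 2 ≤ n₀
      · have h3 : n₀ + 3 ≤ finrank K A := ih n₀ (by omega) W₀ rfl hW₀H h2n₀ (by
          intro e
          have : W ≤ W₀ := by rw [e]; exact hWH
          have := Submodule.finrank_mono this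
          omega) hgen₀
        omega
      · -- `W₀` is a line
        have hn₀1 : n₀ = 1 := by omega
        obtain ⟨w₀', hw₀'0, hw₀'⟩ := finrank_eq_one_iff'.mp hn₀1
        set w₀ : O := (w₀' : O) with hw₀def
        have hw₀mem : w₀ ∈ W₀ := w₀'.2
        have hspan : ∀ w ∈ W₀, ∃ c : K, w = c • w₀ := by
          intro w hw
          obtain ⟨c, hc⟩ := hw₀' ⟨w, hw⟩
          refine ⟨c, ?_⟩
          have := congrArg (fun z : W₀ => (z : O)) hc
          simpa using this.symm
        let v : Fin 6 → O := ![w₀, ξ * w₀, η * w₀, ξ * ξ * w₀, ξ * η * w₀, η * η * w₀]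
        have hv : LinearIndependent K v := by
          rw [Fintype.linearIndependent_iff]
          intro g hg
          rw [Fin.sum_univ_six] at hg
          simp only [v, Matrix.cons_val] at hg
          have hq : (g 0 • (1 : O) + g 1 • ξ + g 2 • η + g 3 • (ξ * ξ) + g 4 • (ξ * η)
              + g 5 • (η * η)) = 0 := by
            apply ann_eq_zero hgen₀
            intro w hw
            obtain ⟨c, rfl⟩ := hspan w hw
            simp only [Algebra.smul_def] at hg ⊢
            linear_combination (algebraMap K O c) * hg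
          obtain ⟨h0, h1, h2', h3, h4, h5⟩ := hQ _ _ _ _ _ _ hq
          intro i
          fin_cases i <;> assumption
        have hle : Submodule.span K (Set.range v) ≤ stp ξ η W := by
          rw [Submodule.span_le]
          have hw0A : w₀ ∈ W := hW₀W hw₀mem
          have hxA : ξ * w₀ ∈ W := ((hmemW₀ _).mp hw₀mem).2.1
          have hyA : η * w₀ ∈ W := ((hmemW₀ _).mp hw₀mem).2.2
          rintro _ ⟨i, rfl⟩
          fin_cases i
          · exact le_stp W hw0A
          · exact le_stp W hxA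
          · exact le_stp W hyA
          · show ξ * ξ * w₀ ∈ stp ξ η W
            rw [mul_assoc]
            exact xi_mem_stp hxA
          · show ξ * η * w₀ ∈ stp ξ η W
            rw [mul_assoc]
            exact xi_mem_stp hyA
          · show η * η * w₀ ∈ stp ξ η W
            rw [mul_assoc]
            exact eta_mem_stp hyA
        have h6 : finrank K (Submodule.span K (Set.range v)) = 6 := by
          rw [finrank_span_eq_card hv]
          simp
        have := Submodule.finrank_mono hle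
        omega
  · -- `W₀ ⊂ A ⊂ W`
    have hA1 : finrank K A = n₀ + 1 := by omega
    have hnn : n = n₀ + 2 := by omega
    set U := gen ξ η W₀ with hU
    have hUinv : Inv ξ η U := inv_gen W₀
    have hW₀U : W₀ ≤ U := le_gen W₀
    have hAU : A ≤ U := (stp_mono hW₀U).trans hUinv.stp_le
    have hAker : A ≤ LinearMap.ker τ := hstpW₀.trans hWker
    have hne₀ : W₀ ≠ U ⊓ LinearMap.ker τ := by
      intro e
      have : A ≤ W₀ := by
        rw [e]
        exact le_inf hAU hAker
      have := Submodule.finrank_mono this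
      omega
    obtain ⟨α, β, γ, hαβ, hUkill⟩ := lemma1 hN hUinv hW₀U hW₀ker (genIn_gen W₀) hA1 hne₀
    have hAne : A ≠ ⊥ := by
      intro e
      rw [e] at hA1
      simp at hA1
    have hstpA := hnotinv A hAker hAne
    have hstpAW : stp ξ η A ≤ stp ξ η W := stp_mono hstpW₀
    have hstpAU : stp ξ η A ≤ U := (stp_mono hAU).trans hUinv.stp_le
    obtain ⟨w₂, hw₂, hw₂A⟩ : ∃ w₂ ∈ W, w₂ ∉ A := by
      by_contra hall
      push Not at hall
      have := Submodule.finrank_mono (show W ≤ A from hall)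
      omega
    have hWsup : W = A ⊔ Submodule.span K {w₂} := by
      symm
      apply Submodule.eq_of_le_of_finrank_le
      · exact sup_le hstpW₀ ((Submodule.span_singleton_le_iff_mem _ _).mpr hw₂)
      · rw [finrank_sup_single hw₂A]
        omega
    obtain ⟨x, hx0, hxU⟩ : ∃ x : K × K × K, x ≠ 0 ∧ lin ξ η x * w₂ ∈ U := by
      by_contra hall
      push Not at hall
      let Φ : (K × K × K) →ₗ[K] O := (LinearMap.mulRight K w₂).comp (lin ξ η)
      have hΦ : ∀ x, Φ x = lin ξ η x * w₂ := fun _ => rfl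
      have hinj : Function.Injective Φ := by
        rw [injective_iff_map_eq_zero]
        intro x hx
        by_contra hx0
        apply hall x hx0
        rw [← hΦ, hx]
        exact U.zero_mem
      have h3 := LinearMap.finrank_range_of_inj hinj
      have h3' : finrank K (K × K × K) = 3 := by simp [Module.finrank_prod]
      have hdisj : LinearMap.range Φ ⊓ stp ξ η A = ⊥ := by
        rw [eq_bot_iff]
        rintro y ⟨⟨x, rfl⟩, hy⟩
        by_contra hy0
        have hx0 : x ≠ 0 := by
          rintro rfl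
          exact hy0 (by simp)
        exact hall x hx0 (hstpAU hy)
      have hsum := Submodule.finrank_sup_add_finrank_inf_eq (LinearMap.range Φ) (stp ξ η A)
      rw [hdisj, finrank_bot] at hsum
      have hle : LinearMap.range Φ ⊔ stp ξ η A ≤ stp ξ η W := by
        refine sup_le ?_ hstpAW
        rintro _ ⟨x, rfl⟩
        rw [hΦ]
        exact lin_mul_mem_stp x hw₂
      have := Submodule.finrank_mono hle
      omega
    have hI := inv_colon hUinv (lin ξ η x)
    have hWI : W ≤ U.comap (LinearMap.mulLeft K (lin ξ η x)) := by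
      rw [hWsup]
      refine sup_le ?_ ((Submodule.span_singleton_le_iff_mem _ _).mpr hxU)
      intro a ha
      exact lin_mul_mem hUinv x (hAU ha)
    have h1mem : lin ξ η x * 1 ∈ U := hgen _ hI hWI (Submodule.mem_top (x := (1 : O)))
    rw [mul_one] at h1mem
    have hprod := hUkill _ h1mem
    have h2' : lin ξ η (α, β, -γ) = α • ξ + β • η - γ • (1 : O) := by
      rw [lin_apply]
      simp only [neg_smul]
      abel
    rw [← h2'] at hprod
    rcases lin_mul_eq_zero hQ hprod with h | h
    · simp only [Prod.mk_eq_zero] at h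
      rcases hαβ with h' | h'
      · exact h' h.1
      · exact h' h.2.1
    · exact hx0 h

end main2

end Abs

end Vale.Agent.P200G
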