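import Mathlib

/-!
Numerical functions attached to the monomial complete intersection `(x^a, y^b)`.
-/

open Finset

namespace Vale.Agent.P200G

/-- triangular numbers -/
def tri : ℕ → ℕ
  | 0 => 0
  | n + 1 => tri n + (n + 1)

theorem tri_succ (n : ℕ) : tri (n + 1) = tri n + (n + 1) := rfl

theorem tri_eq_choose (k : ℕ) : (k + 2).choose 2 = tri (k + 1) := by
  induction k with
  | zero => decide
  | succ k ih =>
    rw [Nat.choose_succ_succ' (k + 2) 1, ih, tri_succ (k + 1)]
    simp
    omega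

/-- number of admissible `j` in row `i`, in degree `k` -/
def rowLen (b k i : ℕ) : ℕ := min b (k + 1 - i)

/-- the Hilbert function of `S/(x^a, y^b)` -/
def HR (a b k : ℕ) : ℕ := ∑ i ∈ range a, rowLen b k i

/-- indicator of the extra element of row `i` in degree `d + 1` -/
def ind (b d i : ℕ) : ℕ := if i ≤ d + 1 ∧ d + 1 - i < b then 1 else 0

/-- number of rows at least `i` which grow from degree `d` to `d + 1` -/
def Ag (a b d i : ℕ) : ℕ := ∑ i' ∈ Ico i a, ind b d i'

/-- number of monomials of degree `d` in the rows above `i` -/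
def Cap (a b d i : ℕ) : ℕ := ∑ i' ∈ Ico (i + 1) a, rowLen b d i'

/-- the rank of the monomial `x^i y^j z^(d-i-j)` among those of degree `d`. -/
def rk (a b d i j : ℕ) : ℕ := Cap a b d i + (rowLen b d i - 1 - j)

theorem rowLen_succ (b d i : ℕ) : rowLen b (d + 1) i = rowLen b d i + ind b d i := by
  unfold rowLen ind
  split_ifs with h <;> omega

theorem ind_le_one (b d i : ℕ) : ind b d i ≤ 1 := by
  unfold ind
  split_ifs <;> omega

theorem Cap_succ (a b d i : ℕ) : Cap a b (d + 1) i = Cap a b d i + Ag a b d (i + 1) := by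
  unfold Cap Ag
  rw [← sum_add_distrib]
  exact sum_congr rfl (fun i' _ => rowLen_succ b d i')

theorem HR_succ (a b d : ℕ) : HR a b (d + 1) = HR a b d + Ag a b d 0 := by
  unfold HR Ag
  rw [range_eq_Ico, ← sum_add_distrib]
  exact sum_congr rfl (fun i' _ => rowLen_succ b d i')

theorem Ag_succ_le (a b d i : ℕ) :
    Ag a b (d + 1) i ≤ Ag a b d i + (if d + 2 < a then 1 else 0) := by
  unfold Ag
  have h1 : ∀ i' ∈ Ico i a, ind b (d + 1) i' ≤ ind b d i' + (if i' = d + 2 then 1 else 0) := by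
    intro i' _
    unfold ind
    split_ifs <;> omega
  refine (sum_le_sum h1).trans ?_
  rw [sum_add_distrib]
  apply Nat.add_le_add_left
  rw [sum_ite_eq']
  split_ifs with h2 h3 h3
  · exact le_rfl
  · exact absurd (mem_Ico.mp h2).2 h3
  · exact Nat.zero_le _
  · exact le_rfl

theorem Ag_le_succ (a b d i : ℕ) : Ag a b d i ≤ Ag a b d (i + 1) + 1 := by
  unfold Ag
  by_cases hi : i < a
  · rw [sum_eq_sum_Ico_succ_bot hi]
    have := ind_le_one b d i
    omega
  · rw [Ico_eq_empty (by omega), Ico_eq_empty (by omega)]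
    simp

theorem Ag_eq_succ (a b d : ℕ) {i : ℕ} (hi : i < a) :
    Ag a b d i = ind b d i + Ag a b d (i + 1) := by
  unfold Ag
  rw [sum_eq_sum_Ico_succ_bot hi]

theorem Ag_le_zero (a b d i : ℕ) : Ag a b d i ≤ Ag a b d 0 := by
  unfold Ag
  apply sum_le_sum_of_subset
  intro x hx
  simp only [mem_Ico] at hx ⊢
  omega

theorem Cap_shift {a b d : ℕ} (i : ℕ) (h : d + 2 < a) : Cap a b (d + 1) (i + 1) = Cap a b d i := by
  obtain ⟨a', rfl⟩ : ∃ a', a = a' + 1 := ⟨a - 1, by omega⟩
  unfold Cap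
  have e1 : ∑ i' ∈ Ico (i + 1 + 1) (a' + 1), rowLen b (d + 1) i'
      = ∑ i' ∈ Ico (i + 1) a', rowLen b d i' := by
    rw [← sum_Ico_add' (fun i' => rowLen b (d + 1) i') (i + 1) a' 1]
    refine sum_congr rfl (fun x _ => ?_)
    unfold rowLen
    congr 1
    omega
  rw [e1]
  by_cases hia : i + 1 ≤ a'
  · rw [sum_Ico_succ_top hia]
    have : rowLen b d a' = 0 := by
      unfold rowLen
      have : d + 1 - a' = 0 := by omega
      rw [this]
      simp
    omega
  · rw [Ico_eq_empty (by omega), Ico_eq_empty (by omega)]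

theorem Ag_shift {a b d : ℕ} (i : ℕ) (h : d + 2 < a) : Ag a b (d + 1) (i + 1) = Ag a b d i := by
  obtain ⟨a', rfl⟩ : ∃ a', a = a' + 1 := ⟨a - 1, by omega⟩
  unfold Ag
  have e1 : ∑ i' ∈ Ico (i + 1) (a' + 1), ind b (d + 1) i'
      = ∑ i' ∈ Ico i a', ind b d i' := by
    rw [← sum_Ico_add' (fun i' => ind b (d + 1) i') i a' 1]
    refine sum_congr rfl (fun x _ => ?_)
    unfold ind
    have e2 : d + 1 + 1 - (x + 1) = d + 1 - x := by omega
    rw [e2]
    have : x + 1 ≤ d + 1 + 1 ↔ x ≤ d + 1 := by omega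
    simp only [this]
  rw [e1]
  by_cases hia : i ≤ a'
  · rw [sum_Ico_succ_top hia]
    have : ind b d a' = 0 := by
      unfold ind
      rw [if_neg]
      omega
    omega
  · rw [Ico_eq_empty (by omega), Ico_eq_empty (by omega)]

theorem Cap_shift_zero {a b d : ℕ} (h : d + 2 < a) : Cap a b (d + 1) 0 = HR a b d := by
  obtain ⟨a', rfl⟩ : ∃ a', a = a' + 1 := ⟨a - 1, by omega⟩
  unfold Cap HR
  have e1 : ∑ i' ∈ Ico (0 + 1) (a' + 1), rowLen b (d + 1) i'
      = ∑ i' ∈ Ico 0 a', rowLen b d i' := by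
    rw [← sum_Ico_add' (fun i' => rowLen b (d + 1) i') 0 a' 1]
    refine sum_congr rfl (fun x _ => ?_)
    unfold rowLen
    congr 1
    omega
  rw [e1, range_eq_Ico, sum_Ico_succ_top (Nat.zero_le _)]
  have : rowLen b d a' = 0 := by
    unfold rowLen
    have : d + 1 - a' = 0 := by omega
    rw [this]
    simp
  omega

theorem Cap_le_rk (a b d i j : ℕ) : Cap a b d i ≤ rk a b d i j := Nat.le_add_right _ _

theorem rk_succ {a b d i j : ℕ} (hi : i < a) (hj : j < b) (hij : i + j ≤ d) :
    rk a b (d + 1) i j = rk a b d i j + Ag a b d i := by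
  unfold rk
  rw [Cap_succ, rowLen_succ, Ag_eq_succ a b d hi]
  have : j + 1 ≤ rowLen b d i := by
    unfold rowLen
    omega
  omega

/-! ### the Hilbert function of `(f1, f2)` -/

theorem HR_identity (a b k : ℕ) :
    HR a b k + tri (k + 1 - a) + tri (k + 1 - b) = tri (k + 1) + tri (k + 1 - a - b) := by
  induction a with
  | zero => simp [HR]
  | succ a ih =>
    have hHR : HR (a + 1) b k = HR a b k + rowLen b k a := by
      unfold HR
      rw [sum_range_succ]
    have e1 : tri (k + 1 - a) = tri (k + 1 - (a + 1)) + (k + 1 - a) := by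
      rcases Nat.eq_zero_or_pos (k + 1 - a) with h | h
      · rw [h, show k + 1 - (a + 1) = 0 by omega]
        rfl
      · obtain ⟨m, hm⟩ : ∃ m, k + 1 - a = m + 1 := ⟨k + 1 - a - 1, by omega⟩
        rw [hm, show k + 1 - (a + 1) = m by omega, tri_succ]
    have e2 : tri (k + 1 - a - b) = tri (k + 1 - (a + 1) - b) + (k + 1 - a - b) := by
      rcases Nat.eq_zero_or_pos (k + 1 - a - b) with h | h
      · rw [h, show k + 1 - (a + 1) - b = 0 by omega]
        rfl
      · obtain ⟨m, hm⟩ : ∃ m, k + 1 - a - b = m + 1 := ⟨k + 1 - a - b - 1, by omega⟩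
        rw [hm, show k + 1 - (a + 1) - b = m by omega, tri_succ]
    rw [hHR]
    have h3 : rowLen b k a + (k + 1 - a - b) = k + 1 - a := by
      unfold rowLen
      omega
    omega

theorem HR_mono (a b : ℕ) {k l : ℕ} (h : k ≤ l) : HR a b k ≤ HR a b l := by
  unfold HR
  apply sum_le_sum
  intro i _
  unfold rowLen
  omega

theorem Ag_high {a b d : ℕ} (h : a + b ≤ d + 2) : Ag a b d 0 = 0 := by
  unfold Ag
  apply sum_eq_zero
  intro i hi
  have := (mem_Ico.mp hi).2
  unfold ind
  rw [if_neg]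
  omega

/-- the ideal `(f1,f2,z)` is one dimensional below in degree `a + b - 2` -/
theorem Ag_top {a b d : ℕ} (ha : 1 ≤ a) (hb : 1 ≤ b) (h : d + 3 = a + b) : Ag a b d 0 = 1 := by
  unfold Ag
  rw [show Ico 0 a = insert (a - 1) (Ico 0 (a - 1)) by
    ext x
    simp only [mem_Ico, mem_insert]
    omega]
  rw [sum_insert (by simp)]
  have h1 : ind b d (a - 1) = 1 := by
    unfold ind
    rw [if_pos]
    omega
  have h0 : ∑ x ∈ Ico 0 (a - 1), ind b d x = 0 := by
    apply sum_eq_zero
    intro i hi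
    have := (mem_Ico.mp hi).2
    unfold ind
    rw [if_neg]
    omega
  rw [h1, h0]

theorem Ag_top2 {a b d : ℕ} (ha : 2 ≤ a) (hb : 2 ≤ b) (h : d + 4 = a + b) : Ag a b d 0 = 2 := by
  unfold Ag
  rw [show Ico 0 a = insert (a - 1) (insert (a - 2) (Ico 0 (a - 2))) by
    ext x
    simp only [mem_Ico, mem_insert]
    omega]
  rw [sum_insert (by simp; omega), sum_insert (by simp)]
  have h1 : ind b d (a - 1) = 1 := by
    unfold ind
    rw [if_pos]
    omega
  have h2 : ind b d (a - 2) = 1 := by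
    unfold ind
    rw [if_pos]
    omega
  have h0 : ∑ x ∈ Ico 0 (a - 2), ind b d x = 0 := by
    apply sum_eq_zero
    intro i hi
    have := (mem_Ico.mp hi).2
    unfold ind
    rw [if_neg]
    omega
  rw [h1, h2, h0]
  rfl

/-- below `a` everything in the polynomial ring in two variables survives -/
theorem Ag_low {a b d : ℕ} (hab : a ≤ b) (h : d + 1 < a) : Ag a b d 0 = d + 2 := by
  unfold Ag
  have : ∀ i ∈ Ico 0 a, ind b d i = if i ∈ Ico 0 (d + 2) then 1 else 0 := by
    intro i _
    unfold ind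
    simp only [mem_Ico]
    split_ifs <;> omega
  rw [sum_congr rfl this]
  rw [sum_ite_mem, sum_const, smul_eq_mul, mul_one]
  rw [show Ico 0 a ∩ Ico 0 (d + 2) = Ico 0 (d + 2) by
    ext x
    simp only [mem_inter, mem_Ico]
    omega]
  simp

theorem Ag_mid {a b d : ℕ} (h : d + 2 < b) : Ag a b d 0 ≤ Ag a b (d + 1) 0 := by
  unfold Ag
  apply sum_le_sum
  intro i _
  unfold ind
  split_ifs <;> omega

theorem Ag_any (a b d : ℕ) : Ag a b d 0 ≤ Ag a b (d + 1) 0 + 1 := by
  unfold Ag
  have h1 : ∀ i ∈ Ico 0 a, ind b d i ≤ ind b (d + 1) i + (if i = d + 2 - b then 1 else 0) := by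
    intro i _
    unfold ind
    split_ifs <;> omega
  refine (sum_le_sum h1).trans ?_
  rw [sum_add_distrib]
  apply Nat.add_le_add_left
  rw [sum_ite_eq']
  split_ifs <;> omega

theorem rowLen_pos_of_le {b k i : ℕ} (hb : 0 < b) (h : i ≤ k) : 0 < rowLen b k i := by
  unfold rowLen
  omega

theorem HR_zero {a b : ℕ} (ha : 1 ≤ a) (hb : 1 ≤ b) : HR a b 0 = 1 := by
  obtain ⟨a', rfl⟩ : ∃ a', a = a' + 1 := ⟨a - 1, by omega⟩
  unfold HR
  rw [sum_range_succ']
  have : ∑ i ∈ range a', rowLen b 0 (i + 1) = 0 := by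
    apply sum_eq_zero
    intro i _
    unfold rowLen
    have : 0 + 1 - (i + 1) = 0 := by omega
    rw [this]
    simp
  rw [this]
  unfold rowLen
  omega

/-- The numerical heart of the induction step. -/
theorem numeric_step {a b e : ℕ} {u u1 w w1 y y1 : ℕ} {i : ℕ}
    (hu : u = u1 + w) (hy : u + w1 ≤ y) (hy1 : y1 + w1 ≤ y)
    (hIH : ∀ i', Cap a b e i' < u1 → u1 + Ag a b e i' ≤ y1)
    (hT : 1 ≤ w → min (w + (if e + 2 < a then 1 else 0)) (Ag a b (e + 1) 0) ≤ w1)
    (hu1 : u1 ≤ HR a b e) :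
    Cap a b (e + 1) i < u → u + Ag a b (e + 1) i ≤ y := by
  intro hc
  by_cases h1 : Ag a b (e + 1) i ≤ w1
  · omega
  have hA0 := Ag_le_zero a b (e + 1) i
  have hb := Ag_succ_le a b e i
  have hc1 := Ag_le_succ a b e i
  have hcap := Cap_succ a b e i
  by_cases hw : 1 ≤ w
  · have h2 := hT hw
    have h3 : w + (if e + 2 < a then 1 else 0) ≤ w1 := by
      rcases min_le_iff.mp h2 with h | h
      · exact h
      · omega
    have h4 : Cap a b e i < u1 := by
      split_ifs at h3 hb <;> omega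
    have h5 := hIH i h4
    split_ifs at h3 hb <;> omega
  · have hw0 : w = 0 := by omega
    subst hw0
    have hu' : u = u1 := by omega
    subst hu'
    by_cases hε : e + 2 < a
    · cases i with
      | zero =>
        rw [Cap_shift_zero hε] at hc
        omega
      | succ i =>
        rw [Cap_shift i hε] at hc
        have h5 := hIH i hc
        rw [Ag_shift i hε]
        omega
    · rw [if_neg hε] at hb
      have h5 := hIH i (by omega)
      omega

end Vale.Agent.P200G
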