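import Mathlib
import Vale.Agent.Lib.P200G_Num

/-!
Growth of subspaces of forms in two variables.
-/

open MvPolynomial Module

namespace Vale.Agent.P200G

variable {K : Type*} [Field K]

/-- The polynomial ring in two variables. -/
abbrev T2 (K : Type*) [Field K] := MvPolynomial (Fin 2) K

/-- Forms of degree `d` in two variables. -/
abbrev Td (K : Type*) [Field K] (d : ℕ) : Submodule K (T2 K) := homogeneousSubmodule (Fin 2) K d

instance Td_finite (d : ℕ) : Module.Finite K (Td K d) :=
  Module.Finite.iff_fg.mpr (homogeneousSubmodule_fg (Fin 2) K d)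

theorem finrank_Td (d : ℕ) : finrank K (Td K d) = d + 1 := by
  classical
  have e1 : Td K d = AddMonoidAlgebra.supported _ K {m : Fin 2 →₀ ℕ | m.degree = d} :=
    homogeneousSubmodule_eq_finsupp_supported (Fin 2) K d
  rw [e1]
  let T : Set (Fin 2 →₀ ℕ) := {m : Fin 2 →₀ ℕ | m.degree = d}
  have hT : T = ↑((Finset.univ : Finset (Fin 2)).finsuppAntidiag d) := by
    ext m
    simp [T, Finset.mem_finsuppAntidiag, Finsupp.degree_eq_sum]
  letI : Fintype T := by rw [hT]; exact FinsetCoe.fintype _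
  rw [LinearEquiv.finrank_eq (AddMonoidAlgebra.supportedEquivFinsupp (R := K) (S := K) T)]
  rw [Module.finrank_finsupp_self]
  have : Fintype.card T = ((Finset.univ : Finset (Fin 2)).finsuppAntidiag d).card := by
    rw [← Fintype.card_coe]
    exact Fintype.card_congr (Equiv.setCongr (by simpa using hT))
  rw [this, Finset.card_finsuppAntidiag_nat_eq_choose]
  simp [add_comm]

theorem hcT_mul {p q : T2 K} {m : ℕ} (hp : p.IsHomogeneous m) (n : ℕ) :
    homogeneousComponent (m + n) (p * q) = p * homogeneousComponent n q := by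
  classical
  conv_lhs => rw [← sum_homogeneousComponent q]
  rw [Finset.mul_sum, map_sum]
  have key : ∀ i, homogeneousComponent (m + n) (p * homogeneousComponent i q)
      = if i = n then p * homogeneousComponent n q else 0 := by
    intro i
    have hi : (p * homogeneousComponent i q).IsHomogeneous (m + i) :=
      hp.mul (homogeneousComponent_isHomogeneous i q)
    by_cases h : i = n
    · subst h
      simp only [if_true]
      exact homogeneousComponent_of_mem hi |>.trans (by simp)
    · rw [if_neg h, homogeneousComponent_of_mem hi, if_neg (by omega)]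
  simp only [key]
  rw [Finset.sum_ite_eq']
  split_ifs with h
  · rfl
  · have : homogeneousComponent n q = 0 := by
      apply homogeneousComponent_eq_zero
      simpa using h
    rw [this, mul_zero]

theorem hcT_mul_lt {p q : T2 K} {m k : ℕ} (hp : p.IsHomogeneous m) (hk : k < m) :
    homogeneousComponent k (p * q) = 0 := by
  classical
  conv_lhs => rw [← sum_homogeneousComponent q]
  rw [Finset.mul_sum, map_sum]
  apply Finset.sum_eq_zero
  intro i _
  have hi : (p * homogeneousComponent i q).IsHomogeneous (m + i) :=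
    hp.mul (homogeneousComponent_isHomogeneous i q)
  rw [homogeneousComponent_of_mem hi, if_neg (by omega)]

/-- every form of positive degree is a combination of the variables -/
theorem T_succ_decomp {d : ℕ} {p : T2 K} (hp : p.IsHomogeneous (d + 1)) :
    ∃ h0 h1 : T2 K, h0.IsHomogeneous d ∧ h1.IsHomogeneous d ∧ p = X 0 * h0 + X 1 * h1 := by
  classical
  have key : ∀ m ∈ p.support, ∃ h0 h1 : T2 K, h0.IsHomogeneous d ∧ h1.IsHomogeneous d ∧
      monomial m (coeff m p) = X 0 * h0 + X 1 * h1 := by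
    intro m hm
    have hdeg : m.degree = d + 1 := by
      by_contra hne
      exact (MvPolynomial.mem_support_iff.mp hm) (hp.coeff_eq_zero hne)
    have hi : ∃ i, m i ≠ 0 := by
      by_contra hall
      push Not at hall
      rw [Finsupp.degree_eq_sum] at hdeg
      simp [hall] at hdeg
    obtain ⟨i, hi⟩ := hi
    have hle : Finsupp.single i 1 ≤ m := by
      rw [Finsupp.single_le_iff]; omega
    have hsub : m = Finsupp.single i 1 + (m - Finsupp.single i 1) := by
      rw [add_comm, tsub_add_cancel_of_le hle]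
    have hdeg' : (m - Finsupp.single i 1).degree = d := by
      have := congrArg Finsupp.degree hsub
      rw [map_add, hdeg] at this
      simp at this
      omega
    have hmono : (monomial (m - Finsupp.single i 1) (coeff m p) : T2 K).IsHomogeneous d :=
      isHomogeneous_monomial _ hdeg'
    have hfac : (monomial m (coeff m p) : T2 K)
        = X i * monomial (m - Finsupp.single i 1) (coeff m p) := by
      rw [X, monomial_mul, one_mul, ← hsub]
    fin_cases i
    · exact ⟨_, 0, hmono, isHomogeneous_zero _ _ _, by simpa using hfac⟩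
    · exact ⟨0, _, isHomogeneous_zero _ _ _, hmono, by simpa using hfac⟩
  choose! h0 h1 hh0 hh1 he using key
  refine ⟨∑ m ∈ p.support, h0 m, ∑ m ∈ p.support, h1 m, ?_, ?_, ?_⟩
  · exact IsHomogeneous.sum _ _ _ hh0
  · exact IsHomogeneous.sum _ _ _ hh1
  · rw [Finset.mul_sum, Finset.mul_sum, ← Finset.sum_add_distrib]
    conv_lhs => rw [p.as_sum]
    exact Finset.sum_congr rfl he

/-- `x` divides `y b` only if it divides `b`. -/
theorem X0_dvd {b a : T2 K} (h : X 1 * b = X 0 * a) : ∃ g, b = X 0 * g := by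
  classical
  have hmem : X 1 * b ∈ Ideal.span ((X : Fin 2 → T2 K) '' {0}) := by
    rw [h, Set.image_singleton]
    exact Ideal.mul_mem_right _ _ (Ideal.mem_span_singleton_self _)
  rw [mem_ideal_span_X_image] at hmem
  have : b ∈ Ideal.span ((X : Fin 2 → T2 K) '' {0}) := by
    rw [mem_ideal_span_X_image]
    intro m hm
    have hm' : (Finsupp.single 1 1 + m) ∈ (X 1 * b).support := by
      rw [MvPolynomial.mem_support_iff, coeff_X_mul]
      exact MvPolynomial.mem_support_iff.mp hm
    obtain ⟨j, hj, hne⟩ := hmem _ hm'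
    refine ⟨j, hj, ?_⟩
    have hj0 : j = 0 := hj
    subst hj0
    simpa [Finsupp.single_apply] using hne
  rw [Set.image_singleton, Ideal.mem_span_singleton'] at this
  obtain ⟨v, hv⟩ := this
  exact ⟨v, by rw [← hv, mul_comm]⟩

/-- `h ∣ q x` and `h ∣ q y` imply `h ∣ q`. -/
theorem dvd_of_dvd_XY {h q : T2 K} (hh : h ≠ 0) (h0 : h ∣ q * X 0) (h1 : h ∣ q * X 1) : h ∣ q := by
  obtain ⟨u, hu⟩ := h0
  obtain ⟨v, hv⟩ := h1
  have e : X 1 * u = X 0 * v := by
    apply mul_left_cancel₀ hh
    linear_combination X 0 * hv - X 1 * hu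
  obtain ⟨g, hg⟩ := X0_dvd e
  refine ⟨g, ?_⟩
  have : X 0 * (q - h * g) = 0 := by
    rw [hg] at hu
    linear_combination hu
  have hx : (X 0 : T2 K) ≠ 0 := X_ne_zero _
  have := (mul_eq_zero.mp this).resolve_left hx
  linear_combination this

theorem dvd_of_dvd_all {h p : T2 K} (hh : h ≠ 0) (k : ℕ) :
    (∀ g : T2 K, g.IsHomogeneous k → h ∣ p * g) → h ∣ p := by
  induction k with
  | zero =>
    intro H
    simpa using H 1 (isHomogeneous_one _ _)
  | succ k ih =>
    intro H
    apply ih
    intro g hg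
    apply dvd_of_dvd_XY hh
    · rw [mul_assoc]
      apply H
      have := hg.mul (isHomogeneous_X K (0 : Fin 2))
      exact this
    · rw [mul_assoc]
      apply H
      have := hg.mul (isHomogeneous_X K (1 : Fin 2))
      exact this

/-- The image of `V` under the two variables. -/
noncomputable def XY (V : Submodule K (T2 K)) : Submodule K (T2 K) :=
  V.map (LinearMap.mulLeft K (X 0)) ⊔ V.map (LinearMap.mulLeft K (X 1))

theorem mem_XY {V : Submodule K (T2 K)} {v : T2 K} :
    v ∈ XY V ↔ ∃ a ∈ V, ∃ b ∈ V, v = X 0 * a + X 1 * b := by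
  unfold XY
  rw [Submodule.mem_sup]
  constructor
  · rintro ⟨y, ⟨a, ha, rfl⟩, z, ⟨b, hb, rfl⟩, rfl⟩
    exact ⟨a, ha, b, hb, rfl⟩
  · rintro ⟨a, ha, b, hb, rfl⟩
    exact ⟨_, ⟨a, ha, rfl⟩, _, ⟨b, hb, rfl⟩, rfl⟩

theorem XY_le {V : Submodule K (T2 K)} {d : ℕ} (hV : V ≤ Td K d) : XY V ≤ Td K (d + 1) := by
  intro v hv
  obtain ⟨a, ha, b, hb, rfl⟩ := mem_XY.mp hv
  have h1 := (isHomogeneous_X K (0 : Fin 2)).mul (hV ha)
  have h2 := (isHomogeneous_X K (1 : Fin 2)).mul (hV hb)
  rw [add_comm] at h1 h2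
  exact h1.add h2

theorem finrank_mulX (V : Submodule K (T2 K)) [Module.Finite K V] {q : T2 K} (hq : q ≠ 0) :
    finrank K (V.map (LinearMap.mulLeft K q)) = finrank K V := by
  have hinj : Function.Injective (LinearMap.mulLeft K q) := by
    intro x y hxy
    simpa [hq] using hxy
  exact (LinearEquiv.finrank_eq (Submodule.equivMapOfInjective _ hinj V)).symm

/-- The key dimension formula. -/
theorem finrank_XY_formula {V : Submodule K (T2 K)} [Module.Finite K V]
    (U : Submodule K (T2 K)) [Module.Finite K U]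
    (hU : ∀ g, g ∈ U ↔ X 0 * g ∈ V ∧ X 1 * g ∈ V) :
    finrank K (XY V) + finrank K U = 2 * finrank K V := by
  have hinf : V.map (LinearMap.mulLeft K (X 0)) ⊓ V.map (LinearMap.mulLeft K (X 1))
      = U.map (LinearMap.mulLeft K (X 0 * X 1)) := by
    apply le_antisymm
    · rintro v ⟨⟨a, ha, e1⟩, ⟨b, hb, e2⟩⟩
      simp only [LinearMap.mulLeft_apply] at e1 e2
      obtain ⟨g, hg⟩ := X0_dvd (b := b) (a := a) (by rw [e1, e2])
      have hag : a = X 1 * g := by
        have : X 0 * (a - X 1 * g) = 0 := by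
          rw [hg] at e2
          linear_combination e1 - e2
        have := (mul_eq_zero.mp this).resolve_left (X_ne_zero _)
        linear_combination this
      refine ⟨g, (hU g).mpr ⟨hg ▸ hb, ?_⟩, ?_⟩
      · rw [← hag]; exact ha
      · simp only [LinearMap.mulLeft_apply]
        rw [← e1, hag]
        ring
    · rintro v ⟨g, hg, rfl⟩
      obtain ⟨h1, h2⟩ := (hU g).mp hg
      simp only [LinearMap.mulLeft_apply]
      refine ⟨⟨X 1 * g, h2, ?_⟩, ⟨X 0 * g, h1, ?_⟩⟩
      · simp only [LinearMap.mulLeft_apply]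
        ring
      · simp only [LinearMap.mulLeft_apply]
        ring
  have h := Submodule.finrank_sup_add_finrank_inf_eq (V.map (LinearMap.mulLeft K (X 0)))
    (V.map (LinearMap.mulLeft K (X 1)))
  rw [hinf, finrank_mulX U (mul_ne_zero (X_ne_zero _) (X_ne_zero _)), finrank_mulX V (X_ne_zero _),
    finrank_mulX V (X_ne_zero _)] at h
  unfold XY
  rw [two_mul]
  exact h

/-- Multiples of `h` by forms of degree `m`. -/
noncomputable def mulT (h : T2 K) (m : ℕ) : Submodule K (T2 K) :=
  (Td K m).map (LinearMap.mulLeft K h)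

theorem mem_mulT {h v : T2 K} {m : ℕ} : v ∈ mulT h m ↔ ∃ g, g.IsHomogeneous m ∧ h * g = v := by
  simp [mulT, Submodule.mem_map]

theorem XY_mulT (h : T2 K) (m : ℕ) : XY (mulT h m) = mulT h (m + 1) := by
  apply le_antisymm
  · intro v hv
    obtain ⟨a, ha, b, hb, rfl⟩ := mem_XY.mp hv
    obtain ⟨g, hg, rfl⟩ := mem_mulT.mp ha
    obtain ⟨g', hg', rfl⟩ := mem_mulT.mp hb
    refine mem_mulT.mpr ⟨X 0 * g + X 1 * g', ?_, by ring⟩
    have h1 := (isHomogeneous_X K (0 : Fin 2)).mul hg
    have h2 := (isHomogeneous_X K (1 : Fin 2)).mul hg'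
    rw [add_comm] at h1 h2
    exact h1.add h2
  · intro v hv
    obtain ⟨g, hg, rfl⟩ := mem_mulT.mp hv
    obtain ⟨g0, g1, h0, h1, rfl⟩ := T_succ_decomp hg
    exact mem_XY.mpr ⟨h * g0, mem_mulT.mpr ⟨g0, h0, rfl⟩, h * g1, mem_mulT.mpr ⟨g1, h1, rfl⟩,
      by ring⟩

theorem line_eq_mulT {V : Submodule K (T2 K)} {d : ℕ} (hV : V ≤ Td K d) [Module.Finite K V]
    (h1 : finrank K V = 1) : ∃ h : T2 K, h.IsHomogeneous d ∧ h ≠ 0 ∧ V = mulT h 0 := by
  obtain ⟨⟨h, hh⟩, hh0, hall⟩ := finrank_eq_one_iff'.mp h1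
  have hne : h ≠ 0 := fun e => hh0 (Subtype.ext e)
  refine ⟨h, hV hh, hne, ?_⟩
  apply le_antisymm
  · intro v hv
    obtain ⟨c, hc⟩ := hall ⟨v, hv⟩
    have e : c • h = v := congrArg (fun z : V => (z : T2 K)) hc
    refine mem_mulT.mpr ⟨C c, isHomogeneous_C _ _, ?_⟩
    rw [← e, smul_eq_C_mul, mul_comm]
  · intro v hv
    obtain ⟨g, hg, rfl⟩ := mem_mulT.mp hv
    have : g.totalDegree = 0 := (totalDegree_zero_iff_isHomogeneous (Fin 2)).mpr hg
    obtain ⟨c, rfl⟩ : ∃ c, g = C c := ⟨_, (totalDegree_eq_zero_iff_eq_C (p := g)).mp this⟩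
    rw [mul_comm, ← smul_eq_C_mul]
    exact V.smul_mem _ hh

/-- Macaulay's theorem in two variables, with the case of equality. -/
theorem mac2 : ∀ (d : ℕ) (V : Submodule K (T2 K)), V ≤ Td K d → V ≠ ⊥ →
    ∃ _ : Module.Finite K V, ∃ _ : Module.Finite K (XY V),
    finrank K V + 1 ≤ finrank K (XY V) ∧
      (finrank K (XY V) = finrank K V + 1 →
        ∃ (m : ℕ) (h : T2 K), m ≤ d ∧ h.IsHomogeneous (d - m) ∧ h ≠ 0 ∧ V = mulT h m) := by
  intro d
  induction d with
  | zero =>
    intro V hV hV0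
    have hVf : Module.Finite K V := Submodule.finiteDimensional_of_le hV
    have hXYf : Module.Finite K (XY V) := Submodule.finiteDimensional_of_le (XY_le hV)
    refine ⟨hVf, hXYf, ?_⟩
    have hU0 : ∀ g : T2 K, g ∈ (⊥ : Submodule K (T2 K)) ↔ X 0 * g ∈ V ∧ X 1 * g ∈ V := by
      intro g
      rw [Submodule.mem_bot]
      constructor
      · rintro rfl
        simp
      · rintro ⟨h1, -⟩
        have h2 := hV h1
        have h3 : (X 0 * g : T2 K).IsHomogeneous 0 := h2
        have h4 := homogeneousComponent_eq_self h3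
        rw [hcT_mul_lt (isHomogeneous_X K (0 : Fin 2)) (by omega)] at h4
        exact (mul_eq_zero.mp h4.symm).resolve_left (X_ne_zero _)
    have hform := finrank_XY_formula (V := V) ⊥ hU0
    rw [finrank_bot] at hform
    have hpos : 0 < finrank K V := Nat.pos_of_ne_zero (fun h => hV0 (Submodule.finrank_eq_zero.mp h))
    refine ⟨by omega, fun heq => ?_⟩
    obtain ⟨h, hh, hne, e⟩ := line_eq_mulT hV (by omega)
    exact ⟨0, h, le_rfl, by simpa using hh, hne, e⟩
  | succ d ih =>
    intro V hV hV0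
    have hVf : Module.Finite K V := Submodule.finiteDimensional_of_le hV
    have hXYf : Module.Finite K (XY V) := Submodule.finiteDimensional_of_le (XY_le hV)
    refine ⟨hVf, hXYf, ?_⟩
    -- the colon space
    let U : Submodule K (T2 K) := V.comap (LinearMap.mulLeft K (X 0)) ⊓
      V.comap (LinearMap.mulLeft K (X 1))
    have hU : ∀ g, g ∈ U ↔ X 0 * g ∈ V ∧ X 1 * g ∈ V := by
      intro g
      simp only [U, Submodule.mem_inf, Submodule.mem_comap, LinearMap.mulLeft_apply]
    have hUle : U ≤ Td K d := by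
      intro g hg
      obtain ⟨h1, -⟩ := (hU g).mp hg
      have h2 : (X 0 * g : T2 K).IsHomogeneous (1 + d) := by
        rw [add_comm]
        exact hV h1
      have h3 := homogeneousComponent_eq_self h2
      rw [hcT_mul (isHomogeneous_X K (0 : Fin 2))] at h3
      have h4 : homogeneousComponent d g = g :=
        mul_left_cancel₀ (X_ne_zero _) h3
      rw [← h4]
      exact homogeneousComponent_isHomogeneous _ _
    have hUf : Module.Finite K U := Submodule.finiteDimensional_of_le hUle
    have hform := finrank_XY_formula (V := V) U hU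
    have hpos : 0 < finrank K V := Nat.pos_of_ne_zero (fun h => hV0 (Submodule.finrank_eq_zero.mp h))
    by_cases hU0 : U = ⊥
    · have : finrank K U = 0 := by rw [hU0]; simp
      refine ⟨by omega, fun heq => ?_⟩
      obtain ⟨h, hh, hne, e⟩ := line_eq_mulT hV (by omega)
      exact ⟨0, h, by omega, by simpa using hh, hne, e⟩
    · obtain ⟨_, _, h1, h2⟩ := ih U hUle hU0
      have hXYU : XY U ≤ V := by
        intro v hv
        obtain ⟨a, ha, b, hb, rfl⟩ := mem_XY.mp hv
        exact V.add_mem ((hU a).mp ha).1 ((hU b).mp hb).2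
      have h3 := Submodule.finrank_mono hXYU
      refine ⟨by omega, fun heq => ?_⟩
      have h4 : finrank K (XY U) = finrank K U + 1 := by omega
      obtain ⟨m, h, hm, hh, hne, e⟩ := h2 h4
      refine ⟨m + 1, h, by omega, by rwa [show d + 1 - (m + 1) = d - m by omega], hne, ?_⟩
      rw [← XY_mulT, ← e]
      exact (Submodule.eq_of_le_of_finrank_le hXYU (by omega)).symm

section growth

variable {a b : ℕ} {Fb : ℕ → Submodule K (T2 K)} {f1 f2 : T2 K}

/-- The growth statement modulo two coprime forms. -/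
theorem T_growth (hab : a ≤ b) (hFle : ∀ k, Fb k ≤ Td K k)
    (hFdim : ∀ k, finrank K (Fb (k + 1)) + Ag a b k 0 = k + 2)
    (hf1 : ∀ k g, g ∈ Td K k → f1 * g ∈ Fb (a + k))
    (hf2 : ∀ k g, g ∈ Td K k → f2 * g ∈ Fb (b + k))
    (hcop : ∀ h : T2 K, h ∣ f1 → h ∣ f2 → IsUnit h)
    {d : ℕ} {V : Submodule K (T2 K)} (hV : V ≤ Td K (d + 1)) (hFV : Fb (d + 1) ≤ V)
    (hw : finrank K (Fb (d + 1)) < finrank K V) :
    min (finrank K V - finrank K (Fb (d + 1)) + (if d + 2 < a then 1 else 0)) (Ag a b (d + 1) 0)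
      ≤ finrank K (XY V ⊔ Fb (d + 2) : Submodule K (T2 K)) - finrank K (Fb (d + 2)) := by
  have hFf : ∀ k, Module.Finite K (Fb k) := fun k => Submodule.finiteDimensional_of_le (hFle k)
  have hV0 : V ≠ ⊥ := by
    rintro rfl
    simp at hw
  obtain ⟨hVf, hXYf, h1, h2⟩ := mac2 (d + 1) V hV hV0
  have hn1 := hFdim d
  have hn2 : finrank K (Fb (d + 2)) + Ag a b (d + 1) 0 = d + 3 := hFdim (d + 1)
  have hle1 : XY V ≤ XY V ⊔ Fb (d + 2) := le_sup_left
  have hf3 := Submodule.finrank_mono hle1
  have hF2le : Fb (d + 2) ≤ XY V ⊔ Fb (d + 2) := le_sup_right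
  have hf4 := Submodule.finrank_mono hF2le
  by_cases hcase1 : d + 2 < a
  · rw [if_pos hcase1]
    have e1 := Ag_low (d := d) (by omega : a ≤ b) (by omega : d + 1 < a)
    have e2 := Ag_low (d := d + 1) (by omega : a ≤ b) (by omega : d + 1 + 1 < a)
    apply min_le_of_left_le
    omega
  rw [if_neg hcase1]
  by_cases hcase2 : d + 2 < b
  · have e := Ag_mid (a := a) (d := d) hcase2
    apply min_le_of_left_le
    omega
  have e := Ag_any a b d
  by_cases hcase3 : finrank K V + 2 ≤ finrank K (XY V ⊔ Fb (d + 2) : Submodule K (T2 K))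
  · apply min_le_of_left_le
    omega
  -- the extremal case
  have heq1 : finrank K (XY V) = finrank K V + 1 := by omega
  have heq2 : XY V = XY V ⊔ Fb (d + 2) :=
    Submodule.eq_of_le_of_finrank_le hle1 (by omega)
  have hFXY : Fb (d + 2) ≤ XY V := by
    rw [heq2]
    exact le_sup_right
  obtain ⟨m, h, hm, hh, hne, e3⟩ := h2 heq1
  have hXY : XY V = mulT h (m + 1) := by rw [e3, XY_mulT]
  have hdvd : ∀ p : T2 K, p ∈ Fb (d + 2) → h ∣ p := by
    intro p hp
    rw [hXY] at hFXY
    obtain ⟨g, -, rfl⟩ := mem_mulT.mp (hFXY hp)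
    exact dvd_mul_right _ _
  have hd1 : h ∣ f1 := by
    apply dvd_of_dvd_all hne (d + 2 - a)
    intro g hg
    apply hdvd
    have := hf1 (d + 2 - a) g hg
    rwa [show a + (d + 2 - a) = d + 2 by omega] at this
  have hd2 : h ∣ f2 := by
    apply dvd_of_dvd_all hne (d + 2 - b)
    intro g hg
    apply hdvd
    have := hf2 (d + 2 - b) g hg
    rwa [show b + (d + 2 - b) = d + 2 by omega] at this
  have hunit := hcop h hd1 hd2
  -- `h` is a constant
  have hdeg : h.totalDegree = d + 1 - m := hh.totalDegree hne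
  have hdeg0 : h.totalDegree = 0 := by
    obtain ⟨r, hr⟩ := hunit.exists_right_inv
    have h5 := totalDegree_mul_of_isDomain hne (right_ne_zero_of_mul (by rw [hr]; exact one_ne_zero))
    rw [hr, totalDegree_one] at h5
    omega
  have hm' : m = d + 1 := by omega
  subst hm'
  obtain ⟨c, rfl⟩ : ∃ c, h = C c := ⟨_, (totalDegree_eq_zero_iff_eq_C (p := h)).mp hdeg0⟩
  have hc : c ≠ 0 := by
    rintro rfl
    simp at hne
  -- so `XY V` is everything
  have htop : XY V = Td K (d + 2) := by
    rw [hXY]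
    apply le_antisymm
    · intro v hv
      obtain ⟨g, hg, rfl⟩ := mem_mulT.mp hv
      have := (isHomogeneous_C (Fin 2) c).mul hg
      simpa using this
    · intro v hv
      refine mem_mulT.mpr ⟨C c⁻¹ * v, ?_, ?_⟩
      · have := (isHomogeneous_C (Fin 2) c⁻¹).mul hv
        simpa using this
      · rw [← mul_assoc, ← C_mul, mul_inv_cancel₀ hc, C_1, one_mul]
  apply min_le_of_right_le
  have h6 := finrank_Td (K := K) (d + 2)
  rw [← heq2, htop, h6]
  omega

end growth

end Vale.Agent.P200G
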