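import Vale.Agent.Lib.P200G_Hilb
import Vale.Agent.Lib.P200G_T2

/-!
Growth modulo two forms in three variables: the lexicographic growth bound for subspaces containing
the degree `d` part of `(f1, f2)`, by induction on `d` along a regular linear form.
-/

open MvPolynomial Module

namespace Vale.Agent.P200G

open Vale.Agent.P200

variable {K : Type*} [Field K]

/-- The linear form `z + α x + β y`. -/
noncomputable def zf (α β : K) : S3 K := X 2 + C α * X 0 + C β * X 1

theorem zf_homog (α β : K) : (zf α β).IsHomogeneous 1 :=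
  ((isHomogeneous_X _ _).add (isHomogeneous_C_mul_X _ _)).add (isHomogeneous_C_mul_X _ _)

theorem zf_ne (α β : K) : zf α β ≠ 0 := by
  intro h
  have := congrArg (MvPolynomial.eval ![(0 : K), 0, 1]) h
  simp [zf] at this

/-- The projection modulo the linear form. -/
noncomputable def piz (α β : K) : S3 K →ₐ[K] T2 K :=
  aeval ![X 0, X 1, -(C α * X 0 + C β * X 1)]

/-- The inclusion of the forms in `x, y`. -/
noncomputable def iot : T2 K →ₐ[K] S3 K := aeval ![X 0, X 1]

section
variable {α β : K}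

theorem piz_X0 : piz α β (X 0) = X 0 := by simp [piz]
theorem piz_X1 : piz α β (X 1) = X 1 := by simp [piz]
theorem piz_X2 : piz α β (X 2) = -(C α * X 0 + C β * X 1) := by simp [piz]

theorem piz_C (c : K) : piz α β (C c) = C c := by
  simp [piz]

theorem piz_zf : piz α β (zf α β) = 0 := by
  simp only [zf, map_add, map_mul, piz_X0, piz_X1, piz_X2, piz_C]
  ring

theorem piz_homog {p : S3 K} {d : ℕ} (hp : p.IsHomogeneous d) : (piz α β p).IsHomogeneous d := by
  have := hp.aeval (n := 1) ![(X 0 : T2 K), X 1, -(C α * X 0 + C β * X 1)] (by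
    intro i
    fin_cases i
    · exact isHomogeneous_X _ _
    · exact isHomogeneous_X _ _
    · exact ((isHomogeneous_C_mul_X _ _).add (isHomogeneous_C_mul_X _ _)).neg)
  rw [one_mul] at this
  exact this

theorem iot_homog {p : T2 K} {d : ℕ} (hp : p.IsHomogeneous d) : (iot p).IsHomogeneous d := by
  have := hp.aeval (n := 1) ![(X 0 : S3 K), X 1] (by
    intro i
    fin_cases i
    · exact isHomogeneous_X _ _
    · exact isHomogeneous_X _ _)
  rw [one_mul] at this
  exact this

theorem piz_iot (p : T2 K) : piz α β (iot p) = p := by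
  have : (piz α β).comp iot = AlgHom.id K (T2 K) := by
    apply MvPolynomial.algHom_ext
    intro i
    fin_cases i
    · simp [iot, piz_X0]
    · simp [iot, piz_X1]
  exact congrArg (fun f => f p) this

/-- Modulo the linear form every polynomial is a polynomial in `x, y`. -/
theorem exists_iot_add (g : S3 K) : ∃ r, g = iot (piz α β g) + zf α β * r := by
  induction g using MvPolynomial.induction_on with
  | C c =>
    refine ⟨0, ?_⟩
    rw [piz_C]
    simp [iot]
  | add p q hp hq =>
    obtain ⟨r, hr⟩ := hp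
    obtain ⟨r', hr'⟩ := hq
    refine ⟨r + r', ?_⟩
    rw [map_add, map_add]
    linear_combination hr + hr'
  | mul_X p i hp =>
    obtain ⟨r, hr⟩ := hp
    have key : ∃ s, (X i : S3 K) = iot (piz α β (X i)) + zf α β * s := by
      fin_cases i
      · exact ⟨0, by simp [iot, piz_X0]⟩
      · exact ⟨0, by simp [iot, piz_X1]⟩
      · refine ⟨1, ?_⟩
        simp only [Fin.reduceFinMk]
        rw [piz_X2]
        simp [iot, zf]
        ring
    obtain ⟨s, hs⟩ := key
    refine ⟨r * X i + iot (piz α β p) * s, ?_⟩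
    rw [map_mul, map_mul]
    linear_combination (X i) * hr + iot (piz α β p) * hs

theorem ker_piz {g : S3 K} (h : piz α β g = 0) : ∃ r, g = zf α β * r := by
  obtain ⟨r, hr⟩ := exists_iot_add (α := α) (β := β) g
  rw [h, map_zero, zero_add] at hr
  exact ⟨r, hr⟩

theorem ker_piz_homog {g : S3 K} {k : ℕ} (hg : g.IsHomogeneous (k + 1)) (h : piz α β g = 0) :
    ∃ r : S3 K, r.IsHomogeneous k ∧ g = zf α β * r := by
  obtain ⟨r, hr⟩ := ker_piz h
  refine ⟨homogeneousComponent k r, homogeneousComponent_isHomogeneous _ _, ?_⟩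
  have := congrArg (homogeneousComponent (1 + k)) hr
  rw [hc_mul_of_homog (zf_homog α β), add_comm 1 k, homogeneousComponent_eq_self hg] at this
  exact this

theorem zf_mul_inj {g g' : S3 K} (h : zf α β * g = zf α β * g') : g = g' :=
  mul_left_cancel₀ (zf_ne α β) h

end

/-- Elements of `S_1 W`. -/
theorem mem_S1mul {W : Submodule K (S3 K)} {x : S3 K} :
    x ∈ Sd K 1 * W ↔ ∃ w0 ∈ W, ∃ w1 ∈ W, ∃ w2 ∈ W, x = X 0 * w0 + X 1 * w1 + X 2 * w2 := by
  constructor
  · intro hx
    refine Submodule.mul_induction_on hx ?_ ?_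
    · intro l hl w hw
      obtain ⟨h0, h1, h2, hh0, hh1, hh2, rfl⟩ := exists_X_decomp (d := 0) hl
      obtain ⟨c0, rfl⟩ := eq_C_of_homog0 hh0
      obtain ⟨c1, rfl⟩ := eq_C_of_homog0 hh1
      obtain ⟨c2, rfl⟩ := eq_C_of_homog0 hh2
      refine ⟨c0 • w, W.smul_mem _ hw, c1 • w, W.smul_mem _ hw, c2 • w, W.smul_mem _ hw, ?_⟩
      simp only [smul_eq_C_mul]
      ring
    · rintro x y ⟨a0, ha0, a1, ha1, a2, ha2, rfl⟩ ⟨b0, hb0, b1, hb1, b2, hb2, rfl⟩
      refine ⟨a0 + b0, W.add_mem ha0 hb0, a1 + b1, W.add_mem ha1 hb1, a2 + b2, W.add_mem ha2 hb2, ?_⟩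
      ring
  · rintro ⟨w0, h0, w1, h1, w2, h2, rfl⟩
    refine Submodule.add_mem _ (Submodule.add_mem _ ?_ ?_) ?_
    · exact Submodule.mul_mem_mul (isHomogeneous_X _ _) h0
    · exact Submodule.mul_mem_mul (isHomogeneous_X _ _) h1
    · exact Submodule.mul_mem_mul (isHomogeneous_X _ _) h2

theorem linear_mul_mem {l x : S3 K} (hl : l.IsHomogeneous 1) {W : Submodule K (S3 K)} (hx : x ∈ W) :
    l * x ∈ Sd K 1 * W := Submodule.mul_mem_mul hl hx

theorem S1mul_le {W : Submodule K (S3 K)} {d : ℕ} (hW : W ≤ Sd K d) : Sd K 1 * W ≤ Sd K (d + 1) := by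
  rw [Submodule.mul_le]
  intro l hl w hw
  have := (show l.IsHomogeneous 1 from hl).mul (hW hw)
  rwa [add_comm] at this

section E

variable {f1 f2 : S3 K} {a b : ℕ} {α β : K}

/-- The ideal `(f1, f2)`. -/
noncomputable abbrev Qi (f1 f2 : S3 K) : Ideal (S3 K) := Ideal.span ({f1, f2} : Set (S3 K))

/-- The degree `k + 1` elements of `W` divisible by the linear form, after division. -/
noncomputable def colz (α β : K) (W : Submodule K (S3 K)) (k : ℕ) : Submodule K (S3 K) :=
  W.comap (LinearMap.mulLeft K (zf α β)) ⊓ Sd K k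

theorem mem_colz {W : Submodule K (S3 K)} {k : ℕ} {g : S3 K} :
    g ∈ colz α β W k ↔ zf α β * g ∈ W ∧ g.IsHomogeneous k := by
  simp [colz, Submodule.mem_inf, Submodule.mem_comap, LinearMap.mulLeft_apply]

theorem colz_le (W : Submodule K (S3 K)) (k : ℕ) : colz α β W k ≤ Sd K k := inf_le_right

instance colz_finite (W : Submodule K (S3 K)) (k : ℕ) : Module.Finite K (colz α β W k) :=
  Submodule.finiteDimensional_of_le (colz_le W k)

/-- The dimension formula along the linear form. -/
theorem finrank_split {W : Submodule K (S3 K)} {k : ℕ} (hW : W ≤ Sd K (k + 1)) :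
    haveI : Module.Finite K W := Submodule.finiteDimensional_of_le hW
    finrank K W = finrank K (colz α β W k) + finrank K (W.map (piz α β).toLinearMap) := by
  haveI : Module.Finite K W := Submodule.finiteDimensional_of_le hW
  let L : W →ₗ[K] T2 K := (piz α β).toLinearMap.comp W.subtype
  have hrange : LinearMap.range L = W.map (piz α β).toLinearMap := by
    rw [LinearMap.range_comp, Submodule.range_subtype]
  let ψ : colz α β W k →ₗ[K] W :=
    { toFun := fun g => ⟨zf α β * (g : S3 K), (mem_colz.mp g.2).1⟩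
      map_add' := by
        intro x y
        apply Subtype.ext
        simp only [Submodule.coe_add]
        ring
      map_smul' := by
        intro c x
        apply Subtype.ext
        simp only [Submodule.coe_smul, RingHom.id_apply, mul_smul_comm] }
  have hψ : Function.Injective ψ := by
    intro x y hxy
    apply Subtype.ext
    exact zf_mul_inj (congrArg (fun z : W => (z : S3 K)) hxy)
  have hrψ : LinearMap.range ψ = LinearMap.ker L := by
    ext w
    constructor
    · rintro ⟨g, rfl⟩
      rw [LinearMap.mem_ker]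
      show piz α β (zf α β * (g : S3 K)) = 0
      rw [map_mul, piz_zf, zero_mul]
    · intro hw
      rw [LinearMap.mem_ker] at hw
      obtain ⟨r, hr, e⟩ := ker_piz_homog (α := α) (β := β) (hW w.2) hw
      refine ⟨⟨r, mem_colz.mpr ⟨e ▸ w.2, hr⟩⟩, ?_⟩
      apply Subtype.ext
      exact e.symm
  have h1 := LinearMap.finrank_range_add_finrank_ker L
  rw [hrange, ← hrψ, LinearMap.finrank_range_of_inj hψ] at h1
  omega

variable (hreg : RegTriple f1 f2 (zf α β)) (h1 : f1.IsHomogeneous a) (h2 : f2.IsHomogeneous b)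

include hreg in
theorem nzd_zf (g : S3 K) (h : zf α β * g ∈ Qi f1 f2) : g ∈ Qi f1 f2 := regTriple_nzd hreg g h

include hreg in
theorem colz_Q (k : ℕ) : colz α β (piece (Qi f1 f2) (k + 1)) k = piece (Qi f1 f2) k := by
  ext g
  rw [mem_colz]
  constructor
  · rintro ⟨⟨h, -⟩, hg⟩
    exact ⟨nzd_zf hreg g h, hg⟩
  · rintro ⟨h, hg⟩
    refine ⟨⟨Ideal.mul_mem_left _ _ h, ?_⟩, hg⟩
    have := (zf_homog α β).mul hg
    rwa [add_comm] at this

/-- The image of `(f1, f2)` modulo the linear form. -/
noncomputable def Fbar (α β : K) (f1 f2 : S3 K) (k : ℕ) : Submodule K (T2 K) :=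
  (piece (Qi f1 f2) k).map (piz α β).toLinearMap

theorem Fbar_le (k : ℕ) : Fbar α β f1 f2 k ≤ Td K k := by
  rintro _ ⟨x, hx, rfl⟩
  exact piz_homog hx.2

include hreg h1 h2 in
theorem Fbar_dim (k : ℕ) : finrank K (Fbar α β f1 f2 (k + 1)) + Ag a b k 0 = k + 2 := by
  have e1 := finrank_split (α := α) (β := β) (piece_le (Qi f1 f2) (k + 1))
  rw [colz_Q hreg] at e1
  have e2 : finrank K (piece (Qi f1 f2) k) + HR a b k = tri (k + 1) := finrank_two hreg h1 h2 k
  have e3 : finrank K (piece (Qi f1 f2) (k + 1)) + HR a b (k + 1) = tri (k + 1 + 1) :=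
    finrank_two hreg h1 h2 (k + 1)
  have e4 := HR_succ a b k
  have e5 := tri_succ (k + 1)
  unfold Fbar
  omega

include hreg h1 h2 in
theorem piz_f1_ne (ha : 1 ≤ a) (hab : a ≤ b) : piz α β f1 ≠ 0 := by
  intro h0
  obtain ⟨k, rfl⟩ : ∃ k, a = k + 1 := ⟨a - 1, by omega⟩
  obtain ⟨r, hr, e⟩ := ker_piz_homog h1 h0
  have hrQ : r ∈ Qi f1 f2 := nzd_zf hreg r (by
    rw [← e]
    exact Ideal.subset_span (by simp))
  obtain ⟨u, v, e2⟩ := Ideal.mem_span_pair.mp hrQ
  have e3 := congrArg (homogeneousComponent k) e2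
  rw [homogeneousComponent_eq_self hr, map_add, mul_comm u, mul_comm v,
    hc_mul_of_lt h1 (by omega), hc_mul_of_lt h2 (by omega), add_zero] at e3
  rw [← e3, mul_zero] at e
  exact hreg.ne e

include hreg in
theorem reg_T {g u : T2 K} (h : piz α β f2 * g = piz α β f1 * u) : ∃ v, g = piz α β f1 * v := by
  have h0 : piz α β (f2 * iot g - f1 * iot u) = 0 := by
    rw [map_sub, map_mul, map_mul, piz_iot, piz_iot, h, sub_self]
  obtain ⟨r, hr⟩ := ker_piz h0
  obtain ⟨x, y, e⟩ := hreg.reg3 r (-iot u) (iot g) (by linear_combination -hr)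
  obtain ⟨v, hv⟩ := hreg.reg2 (iot g - zf α β * y) (iot u + zf α β * x) (by
    rw [e] at hr
    linear_combination hr)
  refine ⟨piz α β v, ?_⟩
  have := congrArg (piz α β) hv
  rw [map_sub, map_mul, piz_zf, zero_mul, sub_zero, piz_iot, map_mul] at this
  exact this

include hreg h1 h2 in
theorem cop_T (ha : 1 ≤ a) (hab : a ≤ b) {h : T2 K} (hd1 : h ∣ piz α β f1) (hd2 : h ∣ piz α β f2) :
    IsUnit h := by
  obtain ⟨p, hp⟩ := hd1
  obtain ⟨q, hq⟩ := hd2
  obtain ⟨v, hv⟩ := reg_T hreg (g := p) (u := q) (by rw [hp, hq]; ring)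
  have hne := piz_f1_ne hreg h1 h2 ha hab
  have hp0 : p ≠ 0 := by
    rintro rfl
    exact hne (by rw [hp, mul_zero])
  have e : p * (h * v) = p * 1 := by
    rw [mul_one]
    nth_rewrite 2 [hv]
    rw [hp]
    ring
  exact IsUnit.of_mul_eq_one v (mul_left_cancel₀ hp0 e)

theorem map_plus (W : Submodule K (S3 K)) (k : ℕ) :
    (Sd K 1 * W ⊔ piece (Qi f1 f2) k).map (piz α β).toLinearMap
      = XY (W.map (piz α β).toLinearMap) ⊔ Fbar α β f1 f2 k := by
  rw [Submodule.map_sup]
  congr 1
  apply le_antisymm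
  · rintro _ ⟨x, hx, rfl⟩
    obtain ⟨w0, h0, w1, h1, w2, h2, rfl⟩ := mem_S1mul.mp hx
    have e : (piz α β).toLinearMap (X 0 * w0 + X 1 * w1 + X 2 * w2)
        = X 0 * (piz α β w0 - α • piz α β w2)
          + X 1 * (piz α β w1 - β • piz α β w2) := by
      show piz α β (X 0 * w0 + X 1 * w1 + X 2 * w2) = _
      rw [map_add, map_add, map_mul, map_mul, map_mul, piz_X0, piz_X1, piz_X2]
      simp only [smul_eq_C_mul]
      ring
    rw [e]
    refine mem_XY.mpr ⟨_, ?_, _, ?_, rfl⟩
    · exact Submodule.sub_mem _ ⟨w0, h0, rfl⟩ (Submodule.smul_mem _ _ ⟨w2, h2, rfl⟩)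
    · exact Submodule.sub_mem _ ⟨w1, h1, rfl⟩ (Submodule.smul_mem _ _ ⟨w2, h2, rfl⟩)
  · intro v hv
    obtain ⟨_, ⟨a, ha, rfl⟩, _, ⟨b, hb, rfl⟩, rfl⟩ := mem_XY.mp hv
    refine ⟨X 0 * a + X 1 * b, ?_, ?_⟩
    · exact Submodule.add_mem _ (linear_mul_mem (isHomogeneous_X _ _) ha)
        (linear_mul_mem (isHomogeneous_X _ _) hb)
    · show piz α β (X 0 * a + X 1 * b) = _
      rw [map_add, map_mul, map_mul, piz_X0, piz_X1]
      rfl

include hreg h1 h2 in
/-- The lexicographic growth bound modulo `(f1, f2)`. -/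
theorem growthE (ha : 2 ≤ a) (hab : a ≤ b) : ∀ (d : ℕ) (W : Submodule K (S3 K)), W ≤ Sd K d →
    piece (Qi f1 f2) d ≤ W → ∀ i, Cap a b d i < finrank K W - finrank K (piece (Qi f1 f2) d) →
    finrank K W - finrank K (piece (Qi f1 f2) d) + Ag a b d i ≤
      finrank K (Sd K 1 * W ⊔ piece (Qi f1 f2) (d + 1) : Submodule K (S3 K))
        - finrank K (piece (Qi f1 f2) (d + 1)) := by
  intro d
  induction d with
  | zero =>
    intro W hW hQW i hc
    haveI hWf : Module.Finite K W := Submodule.finiteDimensional_of_le hW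
    have e0 : finrank K (piece (Qi f1 f2) 0) + HR a b 0 = tri (0 + 1) := finrank_two hreg h1 h2 0
    have e1 : finrank K (piece (Qi f1 f2) 1) + HR a b (0 + 1) = tri (1 + 1) :=
      finrank_two hreg h1 h2 1
    have hR0 := HR_zero (a := a) (b := b) (by omega) (by omega)
    have hs := HR_succ a b 0
    have hA := Ag_low (a := a) (b := b) (d := 0) hab (by omega)
    have ht1 : tri (0 + 1) = 1 := rfl
    have ht2 : tri (1 + 1) = 3 := rfl
    have hle : finrank K W ≤ 1 := by
      have := Submodule.finrank_mono hW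
      rwa [finrank_Sd0] at this
    have hW1 : finrank K W = 1 := by omega
    have hWtop : W = Sd K 0 := Submodule.eq_of_le_of_finrank_le hW (by rw [hW1, finrank_Sd0])
    have h1W : (1 : S3 K) ∈ W := by
      rw [hWtop]
      exact isHomogeneous_one _ _
    have hS1 : Sd K 1 ≤ Sd K 1 * W ⊔ piece (Qi f1 f2) 1 := by
      intro l hl
      apply Submodule.mem_sup_left
      have := linear_mul_mem hl h1W
      rwa [mul_one] at this
    haveI : Module.Finite K (Sd K 1 * W ⊔ piece (Qi f1 f2) 1 : Submodule K (S3 K)) :=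
      Submodule.finiteDimensional_of_le (sup_le (S1mul_le hW) (piece_le _ _))
    have h3 := Submodule.finrank_mono hS1
    rw [finrank_Sd1] at h3
    have hA' := Ag_le_zero a b 0 i
    show finrank K W - finrank K (piece (Qi f1 f2) 0) + Ag a b 0 i ≤
      finrank K (Sd K 1 * W ⊔ piece (Qi f1 f2) 1 : Submodule K (S3 K)) -
        finrank K (piece (Qi f1 f2) 1)
    omega
  | succ e ih =>
    intro W hW hQW i
    show Cap a b (e + 1) i < finrank K W - finrank K (piece (Qi f1 f2) (e + 1)) →
      finrank K W - finrank K (piece (Qi f1 f2) (e + 1)) + Ag a b (e + 1) i ≤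
      finrank K (Sd K 1 * W ⊔ piece (Qi f1 f2) (e + 2) : Submodule K (S3 K))
        - finrank K (piece (Qi f1 f2) (e + 2))
    haveI hWf : Module.Finite K W := Submodule.finiteDimensional_of_le hW
    set W₁ := colz α β W e with hW₁
    set V := W.map (piz α β).toLinearMap with hV
    have hQW₁ : piece (Qi f1 f2) e ≤ W₁ := by
      intro g hg
      refine mem_colz.mpr ⟨hQW ⟨Ideal.mul_mem_left _ _ hg.1, ?_⟩, hg.2⟩
      have := (zf_homog α β).mul hg.2
      rwa [add_comm] at this
    have hsplit : finrank K W = finrank K W₁ + finrank K V := finrank_split hW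
    have hQsplit : finrank K (piece (Qi f1 f2) (e + 1))
        = finrank K (piece (Qi f1 f2) e) + finrank K (Fbar α β f1 f2 (e + 1)) := by
      have := finrank_split (α := α) (β := β) (piece_le (Qi f1 f2) (e + 1))
      rw [colz_Q hreg] at this
      exact this
    have hFV : Fbar α β f1 f2 (e + 1) ≤ V := Submodule.map_mono hQW
    haveI hVf : Module.Finite K V := by
      rw [hV]
      infer_instance
    have hf1 := Submodule.finrank_mono hQW₁
    have hf2 := Submodule.finrank_mono hFV
    set Wp : Submodule K (S3 K) := Sd K 1 * W ⊔ piece (Qi f1 f2) (e + 2) with hWp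
    have hWple : Wp ≤ Sd K (e + 2) := sup_le (S1mul_le hW) (piece_le _ _)
    haveI hWpf : Module.Finite K Wp := Submodule.finiteDimensional_of_le hWple
    set Wp1 := colz α β Wp (e + 1) with hWp1
    have hsplitp : finrank K Wp = finrank K Wp1 + finrank K (Wp.map (piz α β).toLinearMap) :=
      finrank_split hWple
    have hmapp : Wp.map (piz α β).toLinearMap = XY V ⊔ Fbar α β f1 f2 (e + 2) := map_plus W (e + 2)
    rw [hmapp] at hsplitp
    have hQsplit2 : finrank K (piece (Qi f1 f2) (e + 2))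
        = finrank K (piece (Qi f1 f2) (e + 1)) + finrank K (Fbar α β f1 f2 (e + 2)) := by
      have := finrank_split (α := α) (β := β) (piece_le (Qi f1 f2) (e + 2))
      rw [colz_Q hreg] at this
      exact this
    have hW_le : W ≤ Wp1 := by
      intro w hw
      exact mem_colz.mpr ⟨Submodule.mem_sup_left (linear_mul_mem (zf_homog α β) hw), hW hw⟩
    have hYle : Sd K 1 * W₁ ⊔ piece (Qi f1 f2) (e + 1) ≤ Wp1 := by
      refine sup_le ?_ ?_
      · rw [Submodule.mul_le]
        intro l hl g hg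
        obtain ⟨hg1, hg2⟩ := mem_colz.mp hg
        refine mem_colz.mpr ⟨?_, ?_⟩
        · rw [show zf α β * (l * g) = l * (zf α β * g) by ring]
          exact Submodule.mem_sup_left (linear_mul_mem hl hg1)
        · have := (show l.IsHomogeneous 1 from hl).mul hg2
          rwa [add_comm] at this
      · intro q hq
        refine mem_colz.mpr ⟨Submodule.mem_sup_right ⟨Ideal.mul_mem_left _ _ hq.1, ?_⟩, hq.2⟩
        have := (zf_homog α β).mul hq.2
        rwa [add_comm] at this
    have hf3 := Submodule.finrank_mono hW_le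
    haveI : Module.Finite K (Sd K 1 * W₁ ⊔ piece (Qi f1 f2) (e + 1) : Submodule K (S3 K)) :=
      Submodule.finiteDimensional_of_le (sup_le (S1mul_le (colz_le _ _)) (piece_le _ _))
    have hf4 := Submodule.finrank_mono hYle
    have hF2 : Fbar α β f1 f2 (e + 2) ≤ XY V ⊔ Fbar α β f1 f2 (e + 2) := le_sup_right
    haveI : Module.Finite K (Fbar α β f1 f2 (e + 2)) :=
      Submodule.finiteDimensional_of_le (Fbar_le _)
    haveI : Module.Finite K (XY V ⊔ Fbar α β f1 f2 (e + 2) : Submodule K (T2 K)) :=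
      Submodule.finiteDimensional_of_le (sup_le (XY_le (d := e + 1) (by
        rintro _ ⟨x, hx, rfl⟩
        exact piz_homog (hW hx))) (Fbar_le _))
    have hf5 := Submodule.finrank_mono hF2
    have hn : finrank K (piece (Qi f1 f2) e) + HR a b e = tri (e + 1) := finrank_two hreg h1 h2 e
    have hf6 : finrank K W₁ ≤ tri (e + 1) := by
      have := Submodule.finrank_mono (colz_le (α := α) (β := β) W e)
      rwa [finrank_Sd_tri] at this
    refine numeric_step (u1 := finrank K W₁ - finrank K (piece (Qi f1 f2) e))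
      (w := finrank K V - finrank K (Fbar α β f1 f2 (e + 1)))
      (w1 := finrank K (XY V ⊔ Fbar α β f1 f2 (e + 2) : Submodule K (T2 K))
        - finrank K (Fbar α β f1 f2 (e + 2)))
      (y1 := finrank K (Sd K 1 * W₁ ⊔ piece (Qi f1 f2) (e + 1) : Submodule K (S3 K))
        - finrank K (piece (Qi f1 f2) (e + 1))) ?_ ?_ ?_ ?_ ?_ ?_
    · omega
    · omega
    · omega
    · exact ih W₁ (colz_le _ _) hQW₁
    · intro hw
      apply T_growth hab Fbar_le (Fbar_dim hreg h1 h2)
        (f1 := piz α β f1) (f2 := piz α β f2) ?_ ?_ ?_ (d := e) (V := V) ?_ hFV (by omega)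
      · intro k g hg
        refine ⟨f1 * iot g, ⟨Ideal.mul_mem_right _ _ (Ideal.subset_span (by simp)), ?_⟩, ?_⟩
        · exact h1.mul (iot_homog hg)
        · show piz α β (f1 * iot g) = _
          rw [map_mul, piz_iot]
      · intro k g hg
        refine ⟨f2 * iot g, ⟨Ideal.mul_mem_right _ _ (Ideal.subset_span (by simp)), ?_⟩, ?_⟩
        · exact h2.mul (iot_homog hg)
        · show piz α β (f2 * iot g) = _
          rw [map_mul, piz_iot]
      · intro h hd1 hd2
        exact cop_T hreg h1 h2 (by omega) hab hd1 hd2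
      · rintro _ ⟨x, hx, rfl⟩
        exact piz_homog (hW hx)
    · omega

end E

end Vale.Agent.P200G
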