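import Vale.Agent.Lib.P200G_Grow
import Vale.Agent.Lib.P200G_E

/-!
Extension of the base field: regular sequences, dimensions and the growth statement descend.
-/

open MvPolynomial Module

namespace Vale.Agent.P200G

open Vale.Agent.P200

universe u

variable {K K' : Type u} [Field K] [Field K'] [Algebra K K']

/-- The extension of coefficients. -/
noncomputable abbrev phi (K K' : Type u) [Field K] [Field K'] [Algebra K K'] : S3 K →ₐ[K] S3 K' :=
  MvPolynomial.mapAlgHom (Algebra.ofId K K')

theorem phi_apply (p : S3 K) : phi K K' p = MvPolynomial.map (algebraMap K K') p := rfl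

theorem coeff_phi (p : S3 K) (n : Fin 3 →₀ ℕ) : coeff n (phi K K' p) = algebraMap K K' (coeff n p) := by
  rw [phi_apply, coeff_map]

theorem phi_injective : Function.Injective (phi K K') := by
  intro p q h
  ext n
  have := congrArg (coeff n) h
  rw [coeff_phi, coeff_phi] at this
  exact (algebraMap K K').injective this

theorem phi_X (t : Fin 3) : phi K K' (X t) = X t := by
  rw [phi_apply, map_X]

theorem phi_homog {p : S3 K} {d : ℕ} (hp : p.IsHomogeneous d) : (phi K K' p).IsHomogeneous d :=
  hp.map _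

/-- A polynomial whose coefficients are the images of the given one under a linear form. -/
noncomputable def cfun (l : K' →ₗ[K] K) (q : S3 K') : S3 K :=
  ∑ n ∈ q.support, monomial n (l (coeff n q))

theorem coeff_cfun (l : K' →ₗ[K] K) (q : S3 K') (n : Fin 3 →₀ ℕ) :
    coeff n (cfun l q) = l (coeff n q) := by
  classical
  unfold cfun
  rw [coeff_sum]
  simp only [coeff_monomial]
  rw [Finset.sum_ite_eq']
  split_ifs with h
  · rfl
  · rw [MvPolynomial.notMem_support_iff.mp h, map_zero]

theorem cfun_add (l : K' →ₗ[K] K) (p q : S3 K') : cfun l (p + q) = cfun l p + cfun l q := by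
  ext n
  simp only [coeff_cfun, coeff_add, map_add]

theorem cfun_mul_phi (l : K' →ₗ[K] K) (p : S3 K) (q : S3 K') :
    cfun l (phi K K' p * q) = p * cfun l q := by
  ext n
  rw [coeff_cfun, coeff_mul, coeff_mul, map_sum]
  refine Finset.sum_congr rfl (fun x _ => ?_)
  rw [coeff_phi, coeff_cfun, ← Algebra.smul_def, map_smul, smul_eq_mul]

theorem cfun_C_mul_phi (l : K' →ₗ[K] K) (c : K') (p : S3 K) :
    cfun l (C c * phi K K' p) = C (l c) * p := by
  ext n
  rw [coeff_cfun, coeff_C_mul, coeff_C_mul, coeff_phi, mul_comm, ← Algebra.smul_def, map_smul,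
    smul_eq_mul, mul_comm]

theorem cfun_sum {ι : Type*} (l : K' →ₗ[K] K) (s : Finset ι) (g : ι → S3 K') :
    cfun l (∑ i ∈ s, g i) = ∑ i ∈ s, cfun l (g i) := by
  ext n
  simp only [coeff_cfun, coeff_sum, map_sum]

theorem cfun_zero (l : K' →ₗ[K] K) : cfun l (0 : S3 K') = 0 := by
  ext n
  simp [coeff_cfun]

/-- The expansion of a polynomial along a basis of the extension. -/
theorem expansion {ι : Type*} (B : Basis ι K K') (q : S3 K') :
    ∃ L : Finset ι, q = ∑ i ∈ L, C (B i) * phi K K' (cfun (B.coord i) q) := by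
  classical
  refine ⟨q.support.biUnion (fun n => (B.repr (coeff n q)).support), ?_⟩
  ext n
  rw [coeff_sum]
  simp only [coeff_C_mul, coeff_phi, coeff_cfun]
  set x := coeff n q with hx
  have hsub : (B.repr x).support ⊆ q.support.biUnion (fun n => (B.repr (coeff n q)).support) := by
    intro i hi
    rw [Finset.mem_biUnion]
    refine ⟨n, ?_, hi⟩
    rw [MvPolynomial.mem_support_iff]
    intro h0
    have h1 : x = 0 := h0
    rw [Finsupp.mem_support_iff, h1, map_zero] at hi
    exact hi rfl
  have hB : ∀ i, B i * algebraMap K K' (B.coord i x) = B.repr x i • B i := by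
    intro i
    rw [Algebra.smul_def, mul_comm]
    rfl
  simp only [hB]
  rw [← Finset.sum_subset hsub]
  · have h2 := B.linearCombination_repr x
    rw [Finsupp.linearCombination_apply] at h2
    exact h2.symm
  · intro i _ hi
    rw [Finsupp.notMem_support_iff.mp hi, zero_smul]

theorem RegTriple_phi {f1 f2 f3 : S3 K} (hr : RegTriple f1 f2 f3) :
    RegTriple (phi K K' f1) (phi K K' f2) (phi K K' f3) := by
  let B := Basis.ofVectorSpace K K'
  refine ⟨?_, ?_, ?_⟩
  · intro h
    exact hr.ne (phi_injective (h.trans (map_zero _).symm))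
  · intro g u h
    have hi : ∀ i, ∃ v, cfun (B.coord i) g = f1 * v := by
      intro i
      refine hr.reg2 _ (cfun (B.coord i) u) ?_
      rw [← cfun_mul_phi, h, cfun_mul_phi]
    choose v hv using hi
    obtain ⟨L, hL⟩ := expansion B g
    refine ⟨∑ i ∈ L, C (B i) * phi K K' (v i), ?_⟩
    conv_lhs => rw [hL]
    rw [Finset.mul_sum]
    refine Finset.sum_congr rfl (fun i _ => ?_)
    rw [hv, map_mul]
    ring
  · intro g u v h
    have hi : ∀ i, ∃ u' v', cfun (B.coord i) g = f1 * u' + f2 * v' := by
      intro i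
      refine hr.reg3 _ (cfun (B.coord i) u) (cfun (B.coord i) v) ?_
      rw [← cfun_mul_phi, h, cfun_add, cfun_mul_phi, cfun_mul_phi]
    choose u' v' hv using hi
    obtain ⟨L, hL⟩ := expansion B g
    refine ⟨∑ i ∈ L, C (B i) * phi K K' (u' i), ∑ i ∈ L, C (B i) * phi K K' (v' i), ?_⟩
    conv_lhs => rw [hL]
    rw [Finset.mul_sum, Finset.mul_sum, ← Finset.sum_add_distrib]
    refine Finset.sum_congr rfl (fun i _ => ?_)
    rw [hv, map_add, map_mul, map_mul]
    ring

/-- The extension of a subspace. -/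
noncomputable def hat (K' : Type u) [Field K'] [Algebra K K'] (W : Submodule K (S3 K)) :
    Submodule K' (S3 K') :=
  Submodule.span K' ((phi K K') '' (W : Set (S3 K)))

theorem phi_mem_hat {W : Submodule K (S3 K)} {x : S3 K} (hx : x ∈ W) : phi K K' x ∈ hat K' W :=
  Submodule.subset_span ⟨x, hx, rfl⟩

theorem hat_mono {W W' : Submodule K (S3 K)} (h : W ≤ W') : hat K' W ≤ hat K' W' :=
  Submodule.span_mono (Set.image_mono h)

theorem finrank_hat (W : Submodule K (S3 K)) [Module.Finite K W] :
    finrank K' (hat K' W) = finrank K W := by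
  classical
  let b := Module.finBasis K W
  let B := Basis.ofVectorSpace K K'
  let v : Fin (finrank K W) → S3 K := fun i => (b i : S3 K)
  have hv : LinearIndependent K v := b.linearIndependent.map' W.subtype (Submodule.ker_subtype W)
  have hind : LinearIndependent K' (fun i => phi K K' (v i)) := by
    rw [Fintype.linearIndependent_iff]
    intro g hg i
    apply B.ext_elem
    intro j
    have h1 := congrArg (cfun (B.coord j)) hg
    rw [cfun_zero, cfun_sum] at h1
    have h2 : ∀ i' ∈ Finset.univ, cfun (B.coord j) (g i' • phi K K' (v i'))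
        = (B.coord j (g i')) • v i' := by
      intro i' _
      rw [smul_eq_C_mul, cfun_C_mul_phi, smul_eq_C_mul]
    rw [Finset.sum_congr rfl h2] at h1
    have h3 := Fintype.linearIndependent_iff.mp hv (fun i' => B.coord j (g i')) h1 i
    rw [map_zero]
    exact h3
  have hspan : Submodule.span K' (Set.range fun i => phi K K' (v i)) = hat K' W := by
    apply le_antisymm
    · rw [Submodule.span_le]
      rintro _ ⟨i, rfl⟩
      exact phi_mem_hat (b i).2
    · rw [hat, Submodule.span_le]
      rintro _ ⟨w, hw, rfl⟩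
      have e2 : w = ∑ i, b.repr ⟨w, hw⟩ i • v i := by
        have h := congrArg Subtype.val (b.sum_repr ⟨w, hw⟩)
        rw [AddSubmonoidClass.coe_finset_sum] at h
        simp only [Submodule.coe_smul] at h
        exact h.symm
      rw [e2, map_sum]
      refine Submodule.sum_mem _ (fun i _ => ?_)
      rw [map_smul, ← algebraMap_smul K' (b.repr ⟨w, hw⟩ i) (phi K K' (v i))]
      exact Submodule.smul_mem _ _ (Submodule.subset_span ⟨i, rfl⟩)
  rw [← hspan, finrank_span_eq_card hind]
  simp

theorem hat_le_Sd {W : Submodule K (S3 K)} {d : ℕ} (hW : W ≤ Sd K d) : hat K' W ≤ Sd K' d := by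
  rw [hat, Submodule.span_le]
  rintro _ ⟨w, hw, rfl⟩
  exact phi_homog (hW hw)

theorem X_mul_hat (t : Fin 3) {W : Submodule K (S3 K)} {x : S3 K'} (hx : x ∈ hat K' W) :
    X t * x ∈ hat K' (Sd K 1 * W) := by
  induction hx using Submodule.span_induction with
  | mem y hy =>
    obtain ⟨w, hw, rfl⟩ := hy
    rw [← phi_X (K := K) (K' := K'), ← map_mul]
    exact phi_mem_hat (linear_mul_mem (isHomogeneous_X _ _) hw)
  | zero => simp
  | add y z _ _ hy hz =>
    rw [mul_add]
    exact Submodule.add_mem _ hy hz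
  | smul r y _ hy =>
    rw [mul_smul_comm]
    exact Submodule.smul_mem _ _ hy

theorem S1mul_hat_le (W : Submodule K (S3 K)) :
    Sd K' 1 * hat K' W ≤ hat K' (Sd K 1 * W) := by
  intro x hx
  obtain ⟨w0, h0, w1, h1, w2, h2, rfl⟩ := mem_S1mul.mp hx
  exact Submodule.add_mem _ (Submodule.add_mem _ (X_mul_hat 0 h0) (X_mul_hat 1 h1)) (X_mul_hat 2 h2)

section descend

variable {f1 f2 f3 : S3 K} {a b c : ℕ} (hr : RegTriple f1 f2 f3)
  (h1 : f1.IsHomogeneous a) (h2 : f2.IsHomogeneous b) (h3 : f3.IsHomogeneous c)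

theorem phi_mem_idl {x : S3 K} (hx : x ∈ idl f1 f2 f3) :
    phi K K' x ∈ idl (phi K K' f1) (phi K K' f2) (phi K K' f3) := by
  unfold idl at hx ⊢
  have : (Ideal.span ({f1, f2, f3} : Set (S3 K))).map (phi K K') ≤
      Ideal.span ({phi K K' f1, phi K K' f2, phi K K' f3} : Set (S3 K')) := by
    rw [Ideal.map_span, Ideal.span_le]
    rintro _ ⟨y, hy, rfl⟩
    apply Ideal.subset_span
    rcases hy with rfl | rfl | rfl <;> simp
  exact this (Ideal.mem_map_of_mem _ hx)

include hr h1 h2 h3 in
theorem piece_hat (d : ℕ) : piece (idl (phi K K' f1) (phi K K' f2) (phi K K' f3)) d =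
    hat K' (piece (idl f1 f2 f3) d) := by
  symm
  apply Submodule.eq_of_le_of_finrank_eq
  · rw [hat, Submodule.span_le]
    rintro _ ⟨w, hw, rfl⟩
    exact ⟨phi_mem_idl hw.1, phi_homog hw.2⟩
  · rw [finrank_hat]
    have e1 := finrank_three hr h1 h2 h3 d
    have e2 := finrank_three (RegTriple_phi (K' := K') hr) (phi_homog h1) (phi_homog h2)
      (phi_homog h3) d
    omega

include hr h1 h2 h3 in
theorem finrank_idl_phi (d : ℕ) :
    finrank K' (piece (idl (phi K K' f1) (phi K K' f2) (phi K K' f3)) d) =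
      finrank K (piece (idl f1 f2 f3) d) := by
  have e1 := finrank_three hr h1 h2 h3 d
  have e2 := finrank_three (RegTriple_phi (K' := K') hr) (phi_homog h1) (phi_homog h2)
      (phi_homog h3) d
  omega

include hr h1 h2 h3 in
theorem grow_descend {d : ℕ}
    (hG : Grow (idl (phi K K' f1) (phi K K' f2) (phi K K' f3)) a b c d) :
    Grow (idl f1 f2 f3) a b c d := by
  intro W hW hFW m m₁ hm hsucc hrk
  have hWf : Module.Finite K W := Submodule.finiteDimensional_of_le hW
  have hYS := sup_le (S1mul_le hW) (piece_le (idl f1 f2 f3) (d + 1))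
  have hYf : Module.Finite K ↥(Sd K 1 * W ⊔ piece (idl f1 f2 f3) (d + 1)) :=
    Submodule.finiteDimensional_of_le hYS
  have h4 := hG (hat K' W) (hat_le_Sd hW) (by
    rw [piece_hat hr h1 h2 h3]
    exact hat_mono hFW) m m₁ hm hsucc (by
    rw [finrank_hat, finrank_idl_phi hr h1 h2 h3]
    exact hrk)
  have hle : Sd K' 1 * hat K' W ⊔ piece (idl (phi K K' f1) (phi K K' f2) (phi K K' f3)) (d + 1) ≤
      hat K' (Sd K 1 * W ⊔ piece (idl f1 f2 f3) (d + 1)) := by
    refine sup_le ((S1mul_hat_le W).trans (hat_mono le_sup_left)) ?_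
    rw [piece_hat hr h1 h2 h3]
    exact hat_mono le_sup_right
  have hf' : Module.Finite K' ↥(hat K' (Sd K 1 * W ⊔ piece (idl f1 f2 f3) (d + 1))) := by
    apply Submodule.finiteDimensional_of_le (hat_le_Sd hYS)
  have h5 := Submodule.finrank_mono hle
  rw [finrank_hat] at h5
  rw [finrank_idl_phi hr h1 h2 h3] at h4
  omega

end descend

end Vale.Agent.P200G
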