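import Vale.Agent.Lib.P200_Defs

/-!
Definitions for the Eisenbud-Green-Harris statement in three variables, degrees `(a, b, c)`.
-/

open MvPolynomial Module

namespace Vale.Agent.P200G

open Vale.Agent.P200

variable {K : Type*} [Field K]

/-- The ideal `(x^a, y^b, z^c)`. -/
noncomputable def powerIdealG (K : Type*) [Field K] (a b c : ℕ) : Ideal (S3 K) :=
  Ideal.span {X 0 ^ a, X 1 ^ b, X 2 ^ c}

/-- The number `q_d = dim I_d - dim P_d` with `P = (x^a, y^b, z^c)`. -/
noncomputable def excessG (a b c : ℕ) (I : Ideal (S3 K)) (d : ℕ) : ℕ :=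
  finrank K (piece I d) - finrank K (piece (powerIdealG K a b c) d)

/-- Exponent vectors `(i, j, k)` of the monomials `x^i y^j z^k` outside `P`. -/
abbrev ExpsG (a b c : ℕ) := Fin a × Fin b × Fin c

variable {a b c : ℕ}

/-- The degree of the monomial with a given exponent vector. -/
def expDegG (m : ExpsG a b c) : ℕ := (m.1 : ℕ) + (m.2.1 : ℕ) + (m.2.2 : ℕ)

/-- `m'` is greater than `m` in the lexicographic order with `x > y > z`. -/
def lexGreaterG (m' m : ExpsG a b c) : Prop :=
  m'.1 > m.1 ∨ (m'.1 = m.1 ∧ m'.2.1 > m.2.1) ∨ (m'.1 = m.1 ∧ m'.2.1 = m.2.1 ∧ m'.2.2 > m.2.2)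

instance (m' m : ExpsG a b c) : Decidable (lexGreaterG m' m) := by
  unfold lexGreaterG; infer_instance

/-- The number of monomials outside `P`, of the same degree as `m`, lexicographically greater
than `m`. -/
def lexRankG (m : ExpsG a b c) : ℕ :=
  (Finset.univ.filter fun m' : ExpsG a b c => expDegG m' = expDegG m ∧ lexGreaterG m' m).card

/-- The monomial `x^i y^j z^k`. -/
noncomputable def monomialOfG (K : Type*) [Field K] (m : ExpsG a b c) : S3 K :=
  X 0 ^ (m.1 : ℕ) * X 1 ^ (m.2.1 : ℕ) * X 2 ^ (m.2.2 : ℕ)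

/-- The space `J_d`: the span of `P_d` and of the `q_d` lexicographically greatest monomials of
degree `d` outside `P`. -/
noncomputable def lexPartG (a b c : ℕ) (I : Ideal (S3 K)) (d : ℕ) : Submodule K (S3 K) :=
  piece (powerIdealG K a b c) d ⊔
    Submodule.span K {p | ∃ m : ExpsG a b c, expDegG m = d ∧ lexRankG m < excessG a b c I d ∧
      p = monomialOfG K m}

/-- The graded subspace `J`, the sum of the `J_d`. -/
noncomputable def lexPlusPowersG (a b c : ℕ) (I : Ideal (S3 K)) : Submodule K (S3 K) :=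
  ⨆ d, lexPartG a b c I d

end Vale.Agent.P200G
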