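import Vale.Agent.Lib.P200_Low
import Vale.Agent.Lib.P200G_Num

/-!
Homogeneous components, the Hilbert recursion for regular sequences and the socle of a complete
intersection in three variables.
-/

open MvPolynomial Module

namespace Vale.Agent.P200G

open Vale.Agent.P200

variable {K : Type*} [Field K]

theorem hc_mul {p : S3 K} {m : ℕ} (hp : p.IsHomogeneous m) (q : S3 K) (n : ℕ) :
    homogeneousComponent n (p * q) =
      if m ≤ n then p * homogeneousComponent (n - m) q else 0 := by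
  split_ifs with h
  · obtain ⟨k, rfl⟩ := Nat.exists_eq_add_of_le h
    rw [Nat.add_sub_cancel_left]
    exact hc_mul_of_homog hp k
  · exact hc_mul_of_lt hp (by omega)

/-- Homogeneous ideals, in elementary form. -/
def HomI (I : Ideal (S3 K)) : Prop := ∀ p ∈ I, ∀ n, homogeneousComponent n p ∈ I

theorem homI_bot : HomI (⊥ : Ideal (S3 K)) := by
  intro p hp n
  rw [Ideal.mem_bot] at hp ⊢
  subst hp
  simp

theorem mem_sup_span_singleton {I : Ideal (S3 K)} {t x : S3 K} :
    x ∈ I ⊔ Ideal.span {t} ↔ ∃ q ∈ I, ∃ r, x = q + t * r := by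
  rw [Submodule.mem_sup]
  constructor
  · rintro ⟨q, hq, y, hy, rfl⟩
    obtain ⟨r, rfl⟩ := Ideal.mem_span_singleton'.mp hy
    exact ⟨q, hq, r, by ring⟩
  · rintro ⟨q, hq, r, rfl⟩
    exact ⟨q, hq, t * r, Ideal.mem_span_singleton'.mpr ⟨r, by ring⟩, rfl⟩

theorem homI_sup {I : Ideal (S3 K)} (hI : HomI I) {t : S3 K} {δ : ℕ} (ht : t.IsHomogeneous δ) :
    HomI (I ⊔ Ideal.span {t}) := by
  intro p hp n
  obtain ⟨q, hq, r, rfl⟩ := mem_sup_span_singleton.mp hp
  rw [map_add, hc_mul ht]
  refine Ideal.add_mem _ (Ideal.mem_sup_left (hI q hq n)) ?_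
  split_ifs
  · exact Ideal.mem_sup_right (Ideal.mul_mem_right _ _ (Ideal.mem_span_singleton_self _))
  · exact Ideal.zero_mem _

theorem rec_low {I : Ideal (S3 K)} (hI : HomI I) {t : S3 K} {δ k : ℕ} (ht : t.IsHomogeneous δ)
    (hk : k < δ) : piece (I ⊔ Ideal.span {t}) k = piece I k := by
  apply le_antisymm
  · rintro x ⟨hx, hxh⟩
    refine ⟨?_, hxh⟩
    obtain ⟨q, hq, r, e⟩ := mem_sup_span_singleton.mp hx
    have := congrArg (homogeneousComponent k) e
    rw [homogeneousComponent_eq_self hxh, map_add, hc_mul ht, if_neg (by omega), add_zero] at this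
    change x ∈ I
    rw [this]
    exact hI q hq k
  · rintro x ⟨hx, hxh⟩
    exact ⟨Ideal.mem_sup_left hx, hxh⟩

/-- The Hilbert recursion for a regular element. -/
theorem rec_dim {I : Ideal (S3 K)} (hI : HomI I) {t : S3 K} {δ : ℕ} (ht : t.IsHomogeneous δ)
    (hnzd : ∀ g, t * g ∈ I → g ∈ I) (k : ℕ) :
    finrank K (piece (I ⊔ Ideal.span {t}) (δ + k)) + finrank K (piece I k)
      = finrank K (piece I (δ + k)) + finrank K (Sd K k) := by
  let Θ : (piece I (δ + k) × Sd K k) →ₗ[K] S3 K :=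
    (piece I (δ + k)).subtype.coprod ((LinearMap.mulLeft K t).comp (Sd K k).subtype)
  have hΘ : ∀ x, Θ x = (x.1 : S3 K) + t * (x.2 : S3 K) := fun _ => rfl
  have hrange : LinearMap.range Θ = piece (I ⊔ Ideal.span {t}) (δ + k) := by
    ext y
    constructor
    · rintro ⟨x, rfl⟩
      rw [hΘ]
      refine ⟨mem_sup_span_singleton.mpr ⟨_, x.1.2.1, _, rfl⟩, ?_⟩
      exact x.1.2.2.add (ht.mul x.2.2)
    · rintro ⟨hy, hyh⟩
      obtain ⟨q, hq, r, e⟩ := mem_sup_span_singleton.mp hy
      have e2 := congrArg (homogeneousComponent (δ + k)) e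
      rw [homogeneousComponent_eq_self hyh, map_add, hc_mul_of_homog ht] at e2
      refine ⟨(⟨_, hI q hq (δ + k), homogeneousComponent_isHomogeneous _ _⟩,
        ⟨_, homogeneousComponent_isHomogeneous k r⟩), ?_⟩
      rw [hΘ, e2]
  let ι : piece I k →ₗ[K] (piece I (δ + k) × Sd K k) :=
    { toFun := fun g => (⟨-(t * (g : S3 K)), I.neg_mem (Ideal.mul_mem_left _ _ g.2.1),
        (ht.mul g.2.2).neg⟩, ⟨g, g.2.2⟩)
      map_add' := by
        intro x y
        ext : 1
        · apply Subtype.ext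
          simp only [Submodule.coe_add, Prod.fst_add]
          ring
        · rfl
      map_smul' := by
        intro c x
        ext : 1
        · apply Subtype.ext
          simp only [Submodule.coe_smul, Prod.smul_fst, RingHom.id_apply, mul_smul_comm, smul_neg]
        · rfl }
  have hι : Function.Injective ι := by
    rw [injective_iff_map_eq_zero]
    intro g hg
    have := congrArg (fun z => ((z.2 : Sd K k) : S3 K)) hg
    exact Subtype.ext this
  have hrι : LinearMap.range ι = LinearMap.ker Θ := by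
    ext x
    constructor
    · rintro ⟨g, rfl⟩
      rw [LinearMap.mem_ker, hΘ]
      show -(t * (g : S3 K)) + t * (g : S3 K) = 0
      ring
    · intro hx
      rw [LinearMap.mem_ker, hΘ] at hx
      have h1 : t * (x.2 : S3 K) ∈ I := by
        rw [show t * (x.2 : S3 K) = -(x.1 : S3 K) by linear_combination hx]
        exact I.neg_mem x.1.2.1
      refine ⟨⟨x.2, hnzd _ h1, x.2.2⟩, ?_⟩
      ext : 1
      · apply Subtype.ext
        show -(t * (x.2 : S3 K)) = x.1
        linear_combination -hx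
      · rfl
  have h1 := LinearMap.finrank_range_add_finrank_ker Θ
  rw [hrange, ← hrι, LinearMap.finrank_range_of_inj hι, Module.finrank_prod] at h1
  exact h1

theorem finrank_Sd_tri (k : ℕ) : finrank K (Sd K k) = tri (k + 1) := by
  rw [finrank_Sd, ← tri_eq_choose]
  exact Nat.choose_symm_of_eq_add (by omega)

theorem finrank_piece_bot (k : ℕ) : finrank K (piece (⊥ : Ideal (S3 K)) k) = 0 := by
  have : piece (⊥ : Ideal (S3 K)) k = ⊥ := by
    rw [eq_bot_iff]
    rintro x ⟨hx, -⟩
    exact hx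
  rw [this]
  simp

section dims

variable {f1 f2 f3 : S3 K} {a b c : ℕ}

theorem homI_one (h1 : f1.IsHomogeneous a) : HomI (Ideal.span {f1}) := by
  have := homI_sup (homI_bot (K := K)) h1
  rwa [bot_sup_eq] at this

theorem span_pair_eq : Ideal.span ({f1, f2} : Set (S3 K)) = Ideal.span {f1} ⊔ Ideal.span {f2} := by
  rw [Ideal.span_insert]

theorem homI_two (h1 : f1.IsHomogeneous a) (h2 : f2.IsHomogeneous b) :
    HomI (Ideal.span ({f1, f2} : Set (S3 K))) := by
  rw [span_pair_eq]
  exact homI_sup (homI_one h1) h2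

theorem idl_eq : idl f1 f2 f3 = Ideal.span ({f1, f2} : Set (S3 K)) ⊔ Ideal.span {f3} := by
  unfold idl
  rw [← Ideal.span_union]
  congr 1
  ext x
  simp only [Set.mem_insert_iff, Set.mem_union, Set.mem_singleton_iff]
  tauto

theorem homI_idl (h1 : f1.IsHomogeneous a) (h2 : f2.IsHomogeneous b) (h3 : f3.IsHomogeneous c) :
    HomI (idl f1 f2 f3) := by
  rw [idl_eq]
  exact homI_sup (homI_two h1 h2) h3

theorem finrank_one (h1 : f1.IsHomogeneous a) (h0 : f1 ≠ 0) (k : ℕ) :
    finrank K (piece (Ideal.span {f1}) k) = tri (k + 1 - a) := by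
  have hnzd : ∀ g, f1 * g ∈ (⊥ : Ideal (S3 K)) → g ∈ (⊥ : Ideal (S3 K)) := by
    intro g hg
    rw [Ideal.mem_bot] at hg ⊢
    exact (mul_eq_zero.mp hg).resolve_left h0
  by_cases hk : k < a
  · have := rec_low (homI_bot (K := K)) h1 hk
    rw [bot_sup_eq] at this
    rw [this, finrank_piece_bot, show k + 1 - a = 0 by omega]
    rfl
  · obtain ⟨k', rfl⟩ := Nat.exists_eq_add_of_le (not_lt.mp hk)
    have := rec_dim (homI_bot (K := K)) h1 hnzd k'
    rw [bot_sup_eq, finrank_piece_bot, finrank_piece_bot, finrank_Sd_tri] at this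
    rw [show a + k' + 1 - a = k' + 1 by omega]
    omega

theorem regPair_nzd (hr : RegTriple f1 f2 f3) (g : S3 K) (h : f2 * g ∈ Ideal.span {f1}) :
    g ∈ Ideal.span {f1} := by
  obtain ⟨u, hu⟩ := Ideal.mem_span_singleton'.mp h
  obtain ⟨v, hv⟩ := hr.reg2 g u (by rw [← hu]; ring)
  exact Ideal.mem_span_singleton'.mpr ⟨v, by rw [hv]; ring⟩

theorem regTriple_nzd (hr : RegTriple f1 f2 f3) (g : S3 K)
    (h : f3 * g ∈ Ideal.span ({f1, f2} : Set (S3 K))) :
    g ∈ Ideal.span ({f1, f2} : Set (S3 K)) := by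
  obtain ⟨u, v, huv⟩ := Ideal.mem_span_pair.mp h
  obtain ⟨u', v', e⟩ := hr.reg3 g u v (by rw [← huv]; ring)
  exact Ideal.mem_span_pair.mpr ⟨u', v', by rw [e]; ring⟩

/-- the dimension of the pieces of `(f1, f2)` -/
theorem finrank_two (hr : RegTriple f1 f2 f3) (h1 : f1.IsHomogeneous a) (h2 : f2.IsHomogeneous b)
    (k : ℕ) : finrank K (piece (Ideal.span ({f1, f2} : Set (S3 K))) k) + HR a b k = tri (k + 1) := by
  have hid := HR_identity a b k
  rw [span_pair_eq]
  by_cases hk : k < b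
  · rw [rec_low (homI_one h1) h2 hk, finrank_one h1 hr.ne]
    rw [show k + 1 - b = 0 by omega, show k + 1 - a - b = 0 by omega] at hid
    have : tri 0 = 0 := rfl
    omega
  · obtain ⟨k', rfl⟩ := Nat.exists_eq_add_of_le (not_lt.mp hk)
    have := rec_dim (homI_one h1) h2 (regPair_nzd hr) k'
    rw [finrank_one h1 hr.ne, finrank_one h1 hr.ne, finrank_Sd_tri] at this
    rw [show b + k' + 1 - b = k' + 1 by omega, show b + k' + 1 - a - b = k' + 1 - a by omega] at hid
    omega

/-- the number of monomials outside `(x^a, y^b, z^c)` in degree `k` -/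
def HF (a b c k : ℕ) : ℕ := HR a b k - (if c ≤ k then HR a b (k - c) else 0)

theorem HF_le (a b c k : ℕ) : (if c ≤ k then HR a b (k - c) else 0) ≤ HR a b k := by
  split_ifs
  · exact HR_mono a b (by omega)
  · omega

theorem finrank_three (hr : RegTriple f1 f2 f3) (h1 : f1.IsHomogeneous a) (h2 : f2.IsHomogeneous b)
    (h3 : f3.IsHomogeneous c) (k : ℕ) :
    finrank K (piece (idl f1 f2 f3) k) + HF a b c k = tri (k + 1) := by
  have hQ := finrank_two hr h1 h2 k
  have hle := HF_le a b c k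
  unfold HF
  rw [idl_eq]
  by_cases hk : k < c
  · rw [rec_low (homI_two h1 h2) h3 hk]
    rw [if_neg (by omega)] at hle ⊢
    omega
  · obtain ⟨k', rfl⟩ := Nat.exists_eq_add_of_le (not_lt.mp hk)
    have := rec_dim (homI_two h1 h2) h3 (regTriple_nzd hr) k'
    have hQ' := finrank_two hr h1 h2 k'
    rw [finrank_Sd_tri] at this
    rw [if_pos (by omega), show c + k' - c = k' by omega] at hle ⊢
    omega

end dims

/-! ### socle -/

/-- Wiebe type statement: below the degree of the determinant there is no socle. -/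
theorem noSocleG {t0 t1 t2 : S3 K} (hreg : RegTriple t0 t1 t2) {δ0 δ1 δ2 : ℕ}
    (h0 : t0.IsHomogeneous (δ0 + 1)) (h1 : t1.IsHomogeneous (δ1 + 1))
    (h2 : t2.IsHomogeneous (δ2 + 1)) {n : ℕ} (hn : n < δ0 + (δ1 + δ2)) {g : S3 K}
    (hg : g.IsHomogeneous n) (hx0 : X 0 * g ∈ idl t0 t1 t2) (hx1 : X 1 * g ∈ idl t0 t1 t2)
    (hx2 : X 2 * g ∈ idl t0 t1 t2) : g ∈ idl t0 t1 t2 := by
  obtain ⟨M00, M01, M02, hM00, hM01, hM02, ht0⟩ := exists_X_decomp h0
  obtain ⟨M10, M11, M12, hM10, hM11, hM12, ht1⟩ := exists_X_decomp h1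
  obtain ⟨M20, M21, M22, hM20, hM21, hM22, ht2⟩ := exists_X_decomp h2
  obtain ⟨A00, A01, A02, e0⟩ := mem_span_three.mp hx0
  obtain ⟨A10, A11, A12, e1⟩ := mem_span_three.mp hx1
  obtain ⟨A20, A21, A22, e2⟩ := mem_span_three.mp hx2
  -- syzygies
  obtain ⟨B00, B01, B02, z00, z01, z02⟩ := hreg.syz
    (v0 := X 1 * A20 - X 2 * A10) (v1 := X 1 * A21 - X 2 * A11) (v2 := X 1 * A22 - X 2 * A12)
    (by linear_combination (X 1) * (-e2) + (X 2) * e1)
  obtain ⟨B10, B11, B12, z10, z11, z12⟩ := hreg.syz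
    (v0 := X 2 * A00 - X 0 * A20) (v1 := X 2 * A01 - X 0 * A21) (v2 := X 2 * A02 - X 0 * A22)
    (by linear_combination (X 2) * (-e0) + (X 0) * e2)
  obtain ⟨B20, B21, B22, z20, z21, z22⟩ := hreg.syz
    (v0 := X 0 * A10 - X 1 * A00) (v1 := X 0 * A11 - X 1 * A01) (v2 := X 0 * A12 - X 1 * A02)
    (by linear_combination (X 0) * (-e1) + (X 1) * e0)
  -- divergence is a multiple of `t`
  obtain ⟨ε, hε0, hε1, hε2⟩ := hreg.cross
    (v0 := B00 * X 0 + B10 * X 1 + B20 * X 2)
    (v1 := B01 * X 0 + B11 * X 1 + B21 * X 2)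
    (v2 := B02 * X 0 + B12 * X 1 + B22 * X 2)
    (by linear_combination (-X 0) * z00 + (-X 1) * z10 + (-X 2) * z20)
    (by linear_combination (-X 0) * z01 + (-X 1) * z11 + (-X 2) * z21)
    (by linear_combination (-X 0) * z02 + (-X 1) * z12 + (-X 2) * z22)
  -- the determinant and the cofactors
  set Δ : S3 K := M00 * (M11 * M22 - M12 * M21) - M01 * (M10 * M22 - M12 * M20)
    + M02 * (M10 * M21 - M11 * M20) with hΔ
  have hΔh : Δ.IsHomogeneous (δ0 + (δ1 + δ2)) := by
    exact ((hM00.mul ((hM11.mul hM22).sub (hM12.mul hM21))).sub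
      (hM01.mul ((hM10.mul hM22).sub (hM12.mul hM20)))).add
      (hM02.mul ((hM10.mul hM21).sub (hM11.mul hM20)))
  have hchase := socle_chase (x0 := X 0) (x1 := X 1) (x2 := X 2) (f0 := t0) (f1 := t1) (f2 := t2)
    (g := g + ε * Δ)
    (A00 := A00 + ε * (M11 * M22 - M12 * M21))
    (A01 := A01 + ε * (-(M01 * M22 - M02 * M21)))
    (A02 := A02 + ε * (M01 * M12 - M02 * M11))
    (A10 := A10 + ε * (-(M10 * M22 - M12 * M20)))
    (A11 := A11 + ε * (M00 * M22 - M02 * M20))
    (A12 := A12 + ε * (-(M00 * M12 - M02 * M10)))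
    (A20 := A20 + ε * (M10 * M21 - M11 * M20))
    (A21 := A21 + ε * (-(M00 * M21 - M01 * M20)))
    (A22 := A22 + ε * (M00 * M11 - M01 * M10))
    regTriple_X
    (by rw [hΔ]; linear_combination e0 - ε * (M11 * M22 - M12 * M21) * ht0
          + ε * (M01 * M22 - M02 * M21) * ht1 - ε * (M01 * M12 - M02 * M11) * ht2)
    (by rw [hΔ]; linear_combination e1 + ε * (M10 * M22 - M12 * M20) * ht0
          - ε * (M00 * M22 - M02 * M20) * ht1 + ε * (M00 * M12 - M02 * M10) * ht2)
    (by rw [hΔ]; linear_combination e2 - ε * (M10 * M21 - M11 * M20) * ht0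
          + ε * (M00 * M21 - M01 * M20) * ht1 - ε * (M00 * M11 - M01 * M10) * ht2)
    (B00 := B00 - ε * M00) (B01 := B01 - ε * M10) (B02 := B02 - ε * M20)
    (B10 := B10 - ε * M01) (B11 := B11 - ε * M11) (B12 := B12 - ε * M21)
    (B20 := B20 - ε * M02) (B21 := B21 - ε * M12) (B22 := B22 - ε * M22)
    (by linear_combination z00 + ε * M20 * ht1 - ε * M10 * ht2)
    (by linear_combination z01 + ε * M00 * ht2 - ε * M20 * ht0)
    (by linear_combination z02 + ε * M10 * ht0 - ε * M00 * ht1)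
    (by linear_combination z10 + ε * M21 * ht1 - ε * M11 * ht2)
    (by linear_combination z11 + ε * M01 * ht2 - ε * M21 * ht0)
    (by linear_combination z12 + ε * M11 * ht0 - ε * M01 * ht1)
    (by linear_combination z20 + ε * M22 * ht1 - ε * M12 * ht2)
    (by linear_combination z21 + ε * M02 * ht2 - ε * M22 * ht0)
    (by linear_combination z22 + ε * M12 * ht0 - ε * M02 * ht1)
    (by linear_combination hε0 + ε * ht0)
    (by linear_combination hε1 + ε * ht1)
    (by linear_combination hε2 + ε * ht2)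
  obtain ⟨E0, E1, E2, hE⟩ := hchase
  have hcomp := congrArg (homogeneousComponent n) hE
  rw [map_add, homogeneousComponent_eq_self hg, mul_comm ε Δ, hc_mul hΔh, if_neg (by omega),
    add_zero, map_add, map_add, mul_comm E0, mul_comm E1, mul_comm E2, hc_mul h0, hc_mul h1,
    hc_mul h2] at hcomp
  rw [hcomp]
  refine Ideal.add_mem _ (Ideal.add_mem _ ?_ ?_) ?_
  · split_ifs
    · exact Ideal.mul_mem_right _ _ (Ideal.subset_span (by simp))
    · exact Ideal.zero_mem _
  · split_ifs
    · exact Ideal.mul_mem_right _ _ (Ideal.subset_span (by simp))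
    · exact Ideal.zero_mem _
  · split_ifs
    · exact Ideal.mul_mem_right _ _ (Ideal.subset_span (by simp))
    · exact Ideal.zero_mem _

end Vale.Agent.P200G
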