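import Vale.Agent.Lib.P200G_Defs
import Vale.Agent.Lib.P200G_Hilb

/-!
Counting: lexicographic ranks of monomials.
-/

open Finset

namespace Vale.Agent.P200G

variable {a b c : ℕ}

/-- The pairs of exponents lexicographically greater than `(i, j)` with total at most `D`. -/
def PP (a b D i j : ℕ) : Finset (ℕ × ℕ) :=
  (range a ×ˢ range b).filter fun p => p.1 + p.2 ≤ D ∧ (p.1 > i ∨ (p.1 = i ∧ p.2 > j))

/-- The pairs of exponents with total at most `D`. -/
def PT (a b D : ℕ) : Finset (ℕ × ℕ) :=
  (range a ×ˢ range b).filter fun p => p.1 + p.2 ≤ D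

theorem card_row (b D i : ℕ) :
    ((range b).filter fun j => i + j ≤ D).card = rowLen b D i := by
  have : ((range b).filter fun j => i + j ≤ D) = range (rowLen b D i) := by
    ext j
    simp only [mem_filter, mem_range, rowLen]
    omega
  rw [this, card_range]

theorem card_PT (a b D : ℕ) : (PT a b D).card = HR a b D := by
  unfold PT HR
  rw [card_filter, sum_product]
  refine sum_congr rfl (fun i _ => ?_)
  rw [← card_row b D i, card_filter]

theorem card_PP {D i j : ℕ} (hi : i < a) (hij : i + j ≤ D) (hj : j < b) :
    (PP a b D i j).card = rk a b D i j := by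
  unfold PP rk Cap
  rw [card_filter, sum_product]
  have hinner : ∀ i' ∈ range a, (∑ j' ∈ range b,
      if i' + j' ≤ D ∧ (i' > i ∨ (i' = i ∧ j' > j)) then 1 else 0)
      = if i' > i then rowLen b D i' else if i' = i then rowLen b D i - 1 - j else 0 := by
    intro i' _
    split_ifs with h1 h2
    · rw [← card_row b D i', card_filter]
      refine sum_congr rfl (fun j' _ => ?_)
      have : (i' + j' ≤ D ∧ (i' > i ∨ (i' = i ∧ j' > j))) ↔ i' + j' ≤ D := by
        constructor
        · exact fun h => h.1
        · exact fun h => ⟨h, Or.inl h1⟩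
      simp only [this]
    · subst h2
      rw [← card_filter (s := range b) (p := fun j' => i' + j' ≤ D ∧ (i' > i' ∨ (i' = i' ∧ j' > j)))]
      have : ((range b).filter fun j' => i' + j' ≤ D ∧ (i' > i' ∨ (i' = i' ∧ j' > j)))
          = Ico (j + 1) (rowLen b D i') := by
        ext j'
        simp only [mem_filter, mem_range, mem_Ico, rowLen, lt_min_iff, gt_iff_lt, lt_self_iff_false,
          false_or, true_and]
        constructor
        · rintro ⟨h1', h2', h3'⟩
          exact ⟨by omega, h1', by omega⟩
        · rintro ⟨h1', h2', h3'⟩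
          exact ⟨h2', by omega, by omega⟩
      rw [this, Nat.card_Ico]
      omega
    · apply sum_eq_zero
      intro j' _
      rw [if_neg]
      omega
  rw [sum_congr rfl hinner, range_eq_Ico]
  rw [← sum_Ico_consecutive _ (Nat.zero_le i) hi.le, sum_eq_sum_Ico_succ_bot hi]
  rw [sum_eq_zero (s := Ico 0 i)]
  · rw [if_neg (by omega), if_pos rfl, zero_add, add_comm]
    congr 1
    refine sum_congr rfl (fun i' hi' => ?_)
    rw [if_pos]
    have := (mem_Ico.mp hi').1
    omega
  · intro i' hi'
    have := (mem_Ico.mp hi').2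
    rw [if_neg (by omega), if_neg (by omega)]

theorem PP_mono {D i j i₁ j₁ : ℕ} (h : i₁ > i ∨ (i₁ = i ∧ j₁ ≥ j)) :
    PP a b D i₁ j₁ ⊆ PP a b D i j := by
  intro p hp
  simp only [PP, mem_filter] at hp ⊢
  refine ⟨hp.1, hp.2.1, ?_⟩
  omega

/-- The pair of the first two exponents. -/
def pairOf (m : ExpsG a b c) : ℕ × ℕ := ((m.1 : ℕ), (m.2.1 : ℕ))

theorem pair_injOn_deg {D : ℕ} {m m' : ExpsG a b c} (h : expDegG m = D) (h' : expDegG m' = D)
    (hp : pairOf m = pairOf m') : m = m' := by
  obtain ⟨i, j, k⟩ := m
  obtain ⟨i', j', k'⟩ := m'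
  simp only [pairOf, Prod.mk.injEq] at hp
  simp only [expDegG] at h h'
  ext <;> simp <;> omega

/-- The rank is at most the number of pairs. -/
theorem lexRank_le (m : ExpsG a b c) :
    lexRankG m ≤ (PP a b (expDegG m) m.1 m.2.1).card := by
  unfold lexRankG
  apply card_le_card_of_injOn pairOf
  · intro m' hm'
    simp only [coe_filter, mem_univ, true_and, Set.mem_ofPred_eq] at hm'
    obtain ⟨hd, hg⟩ := hm'
    simp only [PP, coe_filter, mem_product, mem_range, Set.mem_ofPred_eq, pairOf]
    refine ⟨⟨m'.1.2, m'.2.1.2⟩, ?_, ?_⟩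
    · simp only [expDegG] at hd ⊢
      omega
    · rcases hg with h | h | h
      · left
        exact h
      · right
        exact ⟨congrArg Fin.val h.1, h.2⟩
      · exfalso
        have h2 : (m'.2.2 : ℕ) > m.2.2 := h.2.2
        have h3 : (m'.1 : ℕ) = m.1 := congrArg Fin.val h.1
        have h4 : (m'.2.1 : ℕ) = m.2.1 := congrArg Fin.val h.2.1
        simp only [expDegG] at hd
        omega
  · intro x hx y hy e
    simp only [coe_filter, mem_univ, true_and, Set.mem_ofPred_eq] at hx hy
    exact pair_injOn_deg hx.1 hy.1 e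

/-- In degree less than `c` the rank is exactly the number of pairs. -/
theorem le_lexRank (m : ExpsG a b c) (hd : expDegG m < c) :
    (PP a b (expDegG m) m.1 m.2.1).card ≤ lexRankG m := by
  unfold lexRankG
  apply card_le_card_of_surjOn pairOf
  intro p hp
  simp only [PP, coe_filter, mem_product, mem_range, Set.mem_ofPred_eq] at hp
  obtain ⟨⟨h1, h2⟩, h3, h4⟩ := hp
  refine ⟨(⟨p.1, h1⟩, ⟨p.2, h2⟩, ⟨expDegG m - p.1 - p.2, by omega⟩), ?_, rfl⟩
  simp only [coe_filter, mem_univ, true_and, Set.mem_ofPred_eq]
  refine ⟨?_, ?_⟩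
  · simp only [expDegG] at h3 ⊢
    omega
  · rcases h4 with h | h
    · exact Or.inl h
    · exact Or.inr (Or.inl ⟨Fin.ext h.1, h.2⟩)

/-- the monomials of a given degree -/
def expsOf (a b c k : ℕ) : Finset (ExpsG a b c) := univ.filter fun m => expDegG m = k

theorem card_expsOf (hc : 0 < c) (k : ℕ) : (expsOf a b c k).card = HF a b c k := by
  have hsub : (if c ≤ k then PT a b (k - c) else ∅) ⊆ PT a b k := by
    intro p hp
    split_ifs at hp with h
    · simp only [PT, mem_filter] at hp ⊢
      exact ⟨hp.1, by omega⟩
    · simp at hp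
  have himg : (expsOf a b c k).image pairOf = PT a b k \ (if c ≤ k then PT a b (k - c) else ∅) := by
    ext p
    simp only [mem_image, expsOf, mem_filter, mem_univ, true_and, mem_sdiff]
    constructor
    · rintro ⟨m, hm, rfl⟩
      simp only [expDegG] at hm
      have hk := m.2.2.2
      refine ⟨?_, ?_⟩
      · simp only [PT, mem_filter, mem_product, mem_range, pairOf]
        exact ⟨⟨m.1.2, m.2.1.2⟩, by omega⟩
      · split_ifs with h
        · simp only [PT, mem_filter, mem_product, mem_range, pairOf, not_and, not_le]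
          intro _
          omega
        · simp
    · rintro ⟨hp, hp2⟩
      simp only [PT, mem_filter, mem_product, mem_range] at hp
      obtain ⟨⟨h1, h2⟩, h3⟩ := hp
      have hlt : k - p.1 - p.2 < c := by
        by_cases h : c ≤ k
        · rw [if_pos h] at hp2
          simp only [PT, mem_filter, mem_product, mem_range, not_and, not_le] at hp2
          have := hp2 ⟨h1, h2⟩
          omega
        · omega
      refine ⟨(⟨p.1, h1⟩, ⟨p.2, h2⟩, ⟨k - p.1 - p.2, hlt⟩), ?_, rfl⟩
      simp only [expDegG]
      omega
  have hinj : Set.InjOn (pairOf (a := a) (b := b) (c := c)) (expsOf a b c k : Set (ExpsG a b c)) := by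
    intro x hx y hy e
    simp only [expsOf, coe_filter, mem_univ, true_and, Set.mem_ofPred_eq] at hx hy
    exact pair_injOn_deg hx hy e
  rw [← card_image_of_injOn hinj, himg, card_sdiff_of_subset hsub, card_PT]
  unfold HF
  congr 1
  split_ifs with h
  · rw [card_PT]
  · simp

/-! ### the complement -/

/-- The complementary exponent vector. -/
def compE (m : ExpsG a b c) : ExpsG a b c :=
  (⟨a - 1 - m.1, by have := m.1.2; omega⟩, ⟨b - 1 - m.2.1, by have := m.2.1.2; omega⟩,
    ⟨c - 1 - m.2.2, by have := m.2.2.2; omega⟩)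

theorem compE_compE (m : ExpsG a b c) : compE (compE m) = m := by
  obtain ⟨i, j, k⟩ := m
  have hi := i.2
  have hj := j.2
  have hk := k.2
  ext <;> simp [compE] <;> omega

theorem expDeg_compE (m : ExpsG a b c) : expDegG (compE m) + expDegG m = a + b + c - 3 := by
  have hi := m.1.2
  have hj := m.2.1.2
  have hk := m.2.2.2
  simp only [expDegG, compE]
  omega

theorem lexGreater_compE (m' m : ExpsG a b c) :
    lexGreaterG (compE m') (compE m) ↔ lexGreaterG m m' := by
  have hi := m.1.2
  have hj := m.2.1.2
  have hk := m.2.2.2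
  have hi' := m'.1.2
  have hj' := m'.2.1.2
  have hk' := m'.2.2.2
  simp only [lexGreaterG, compE, Fin.lt_def, gt_iff_lt, Fin.ext_iff]
  omega

theorem lexGreater_trichotomy (m m' : ExpsG a b c) (h : expDegG m = expDegG m') :
    lexGreaterG m' m ∨ m' = m ∨ lexGreaterG m m' := by
  simp only [lexGreaterG, gt_iff_lt, Fin.lt_def]
  by_cases h1 : m'.1 = m.1
  · by_cases h2 : m'.2.1 = m.2.1
    · right; left
      have h3 := congrArg Fin.val h1
      have h4 := congrArg Fin.val h2
      simp only [expDegG] at h
      ext <;> omega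
    · have h3 : (m'.2.1 : ℕ) ≠ m.2.1 := fun e => h2 (Fin.ext e)
      have h4 : (m'.2.1 : ℕ) < m.2.1 ∨ (m.2.1 : ℕ) < m'.2.1 := by omega
      rcases h4 with h4 | h4
      · right; right; right; left; exact ⟨h1.symm, h4⟩
      · left; right; left; exact ⟨h1, h4⟩
  · have h3 : (m'.1 : ℕ) ≠ m.1 := fun e => h1 (Fin.ext e)
    have h4 : (m'.1 : ℕ) < m.1 ∨ (m.1 : ℕ) < m'.1 := by omega
    rcases h4 with h4 | h4
    · right; right; left; exact h4
    · left; left; exact h4

theorem lexGreater_irrefl (m : ExpsG a b c) : ¬ lexGreaterG m m := by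
  simp [lexGreaterG]

theorem lexGreater_asymm {m m' : ExpsG a b c} (h : lexGreaterG m' m) : ¬ lexGreaterG m m' := by
  simp only [lexGreaterG, gt_iff_lt, Fin.lt_def, Fin.ext_iff] at h ⊢
  omega

/-- `rank m + rank (complement m) + 1` is the number of monomials of that degree. -/
theorem rank_compE (hc : 0 < c) (m : ExpsG a b c) :
    lexRankG m + lexRankG (compE m) + 1 = HF a b c (expDegG m) := by
  have hbij : lexRankG (compE m) =
      (univ.filter fun m' : ExpsG a b c => expDegG m' = expDegG m ∧ lexGreaterG m m').card := by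
    unfold lexRankG
    apply card_bij (fun x _ => compE x)
    · intro x hx
      simp only [mem_filter, mem_univ, true_and] at hx ⊢
      have e1 := expDeg_compE x
      have e2 := expDeg_compE m
      refine ⟨by omega, ?_⟩
      rw [← lexGreater_compE]
      rw [compE_compE]
      exact hx.2
    · intro x _ y _ e
      have := congrArg compE e
      rwa [compE_compE, compE_compE] at this
    · intro y hy
      simp only [mem_filter, mem_univ, true_and] at hy
      refine ⟨compE y, ?_, compE_compE y⟩
      simp only [mem_filter, mem_univ, true_and]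
      have e1 := expDeg_compE y
      have e2 := expDeg_compE m
      refine ⟨by omega, ?_⟩
      rw [lexGreater_compE]
      exact hy.2
  rw [hbij, ← card_expsOf hc]
  unfold lexRankG expsOf
  have hunion : (univ.filter fun m' : ExpsG a b c => expDegG m' = expDegG m)
      = insert m ((univ.filter fun m' : ExpsG a b c => expDegG m' = expDegG m ∧ lexGreaterG m' m) ∪
        (univ.filter fun m' : ExpsG a b c => expDegG m' = expDegG m ∧ lexGreaterG m m')) := by
    ext x
    simp only [mem_filter, mem_univ, true_and, mem_insert, mem_union]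
    constructor
    · intro hx
      rcases lexGreater_trichotomy m x hx.symm with h | h | h
      · exact Or.inr (Or.inl ⟨hx, h⟩)
      · exact Or.inl h
      · exact Or.inr (Or.inr ⟨hx, h⟩)
    · rintro (rfl | h | h)
      · rfl
      · exact h.1
      · exact h.1
  rw [hunion, card_insert_of_notMem, card_union_of_disjoint]
  · rw [disjoint_left]
    intro x hx hx'
    simp only [mem_filter, mem_univ, true_and] at hx hx'
    exact lexGreater_asymm hx.2 hx'.2
  · intro h
    simp only [mem_union, mem_filter, mem_univ, true_and] at h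
    rcases h with h | h
    · exact lexGreater_irrefl m h
    · exact lexGreater_irrefl m h

theorem HF_symm (hc : 0 < c) {k l : ℕ} (hkl : k + l = a + b + c - 3) :
    HF a b c k = HF a b c l := by
  rw [← card_expsOf hc, ← card_expsOf hc]
  apply card_bij (fun x _ => compE x)
  · intro x hx
    simp only [expsOf, mem_filter, mem_univ, true_and] at hx ⊢
    have := expDeg_compE x
    omega
  · intro x _ y _ e
    have := congrArg compE e
    rwa [compE_compE, compE_compE] at this
  · intro y hy
    simp only [expsOf, mem_filter, mem_univ, true_and] at hy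
    refine ⟨compE y, ?_, compE_compE y⟩
    simp only [expsOf, mem_filter, mem_univ, true_and]
    have := expDeg_compE y
    omega

end Vale.Agent.P200G
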