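import Vale.Agent.Lib.P200_Dual
import Vale.Agent.Lib.P200G_Lex

/-!
Macaulay duality for the complete intersection `(f1, f2, f3)` of degrees `(a, b, c)`.
-/

open MvPolynomial Module

namespace Vale.Agent.P200G

open Vale.Agent.P200

variable {K : Type*} [Field K]

/-- A dualizing functional in degree `s`. -/
structure TauG (f1 f2 f3 : S3 K) (s : ℕ) (τ : S3 K →ₗ[K] K) : Prop where
  van : ∀ x, x ∈ piece (idl f1 f2 f3) s → τ x = 0
  nd : ∀ x : S3 K, x.IsHomogeneous s → τ x = 0 → x ∈ idl f1 f2 f3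

section main
variable {f1 f2 f3 : S3 K} {a b c : ℕ} (hr : RegTriple f1 f2 f3) (h1 : f1.IsHomogeneous a)
  (h2 : f2.IsHomogeneous b) (h3 : f3.IsHomogeneous c) (ha : 1 ≤ a) (hb : 1 ≤ b) (hc : 1 ≤ c)
  {s : ℕ} (hs : s + 3 = a + b + c)

theorem HF_zero (ha : 1 ≤ a) (hb : 1 ≤ b) (hc : 1 ≤ c) : HF a b c 0 = 1 := by
  unfold HF
  rw [HR_zero ha hb, if_neg (by omega)]

include hr h1 h2 h3 ha hb hc hs in
theorem finrank_top : finrank K (piece (idl f1 f2 f3) s) + 1 = finrank K (Sd K s) := by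
  have e := finrank_three hr h1 h2 h3 s
  have e1 : HF a b c s = 1 := by
    rw [HF_symm (k := s) (l := 0) (by omega) (by omega), HF_zero ha hb hc]
  rw [finrank_Sd_tri, ← e, e1]

include hr h1 h2 h3 ha hb hc hs in
theorem exists_tauG : ∃ τ, TauG f1 f2 f3 s τ := by
  have hdim := finrank_top (s := s) hr h1 h2 h3 ha hb hc hs
  obtain ⟨h, hh, hhF⟩ := exists_not_mem_of_finrank_lt (A := piece (idl f1 f2 f3) s) (W := Sd K s)
    (by omega)
  obtain ⟨τ, hτh, hτF⟩ := Submodule.exists_dual_map_eq_bot_of_notMem hhF inferInstance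
  have hvan : ∀ x, x ∈ piece (idl f1 f2 f3) s → τ x = 0 := by
    intro x hx
    have : τ x ∈ (piece (idl f1 f2 f3) s).map τ := ⟨x, hx, rfl⟩
    rw [hτF] at this
    exact this
  refine ⟨τ, hvan, ?_⟩
  intro x hx hτx
  have hsup : Sd K s ≤ piece (idl f1 f2 f3) s ⊔ Submodule.span K {h} := by
    have hle : piece (idl f1 f2 f3) s ⊔ Submodule.span K {h} ≤ Sd K s :=
      sup_le (piece_le _ _) ((Submodule.span_singleton_le_iff_mem _ _).mpr hh)
    have heq := Submodule.eq_of_le_of_finrank_le hle (by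
      rw [finrank_sup_singleton hhF]
      omega)
    exact heq.ge
  obtain ⟨y, hy, z, hz, rfl⟩ := Submodule.mem_sup.mp (hsup hx)
  obtain ⟨κ, rfl⟩ := Submodule.mem_span_singleton.mp hz
  rw [map_add, hvan y hy, zero_add, map_smul, smul_eq_mul] at hτx
  have hκ : κ = 0 := (mul_eq_zero.mp hτx).resolve_right hτh
  rw [hκ, zero_smul, add_zero]
  exact hy.1

variable {τ : S3 K →ₗ[K] K}

include hr h1 h2 h3 ha hb hc hs in
/-- Nondegeneracy of the pairing. -/
theorem nondegG (hτ : TauG f1 f2 f3 s τ) (n : ℕ) : ∀ (e : ℕ) (g : S3 K), e + n = s →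
    g.IsHomogeneous e →
    (∀ a : S3 K, a.IsHomogeneous n → τ (a * g) = 0) → g ∈ idl f1 f2 f3 := by
  obtain ⟨a', rfl⟩ : ∃ a', a = a' + 1 := ⟨a - 1, by omega⟩
  obtain ⟨b', rfl⟩ : ∃ b', b = b' + 1 := ⟨b - 1, by omega⟩
  obtain ⟨c', rfl⟩ : ∃ c', c = c' + 1 := ⟨c - 1, by omega⟩
  induction n with
  | zero =>
    intro e g he hg h
    have e6 : e = s := by omega
    subst e6
    apply hτ.nd g hg
    simpa using h 1 (isHomogeneous_one _ _)
  | succ n ih =>
    intro e g he hg h
    apply noSocleG hr h1 h2 h3 (n := e) (by omega) hg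
    all_goals
      apply ih (e + 1) _ (by omega)
      · rw [add_comm]
        exact (isHomogeneous_X _ _).mul hg
      · intro a ha
        rw [← mul_assoc]
        exact h _ (ha.mul (isHomogeneous_X _ _))

omit hs in
theorem tau_mulG (hτ : TauG f1 f2 f3 s τ) {x y : S3 K} {i j : ℕ} (hij : i + j = s)
    (hx : x.IsHomogeneous i) (hy : y.IsHomogeneous j) (hI : x ∈ idl f1 f2 f3 ∨ y ∈ idl f1 f2 f3) :
    τ (x * y) = 0 := by
  apply hτ.van
  refine ⟨?_, ?_⟩
  · rcases hI with h | h
    · exact Ideal.mul_mem_right _ _ h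
    · exact Ideal.mul_mem_left _ _ h
  · have := hx.mul hy
    rwa [hij] at this

include hr h1 h2 h3 ha hb hc hs in
theorem dual_stepG (hτ : TauG f1 f2 f3 s τ) {d e : ℕ} (hde : d + e + 1 = s)
    {W : Submodule K (S3 K)} (hW : W ≤ Sd K d) :
    ∃ R : Submodule K (S3 K), R ≤ Sd K e ∧ piece (idl f1 f2 f3) e ≤ R ∧
      finrank K (Sd K e) + finrank K (piece (idl f1 f2 f3) (d + 1))
        ≤ finrank K R + finrank K (Sd K 1 * W ⊔ piece (idl f1 f2 f3) (d + 1) : Submodule K (S3 K)) ∧
      finrank K (Sd K 1 * R ⊔ piece (idl f1 f2 f3) (e + 1) : Submodule K (S3 K)) + finrank K W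
        ≤ finrank K (Sd K (e + 1)) + finrank K (piece (idl f1 f2 f3) d) := by
  have : Module.Finite K W := Submodule.finiteDimensional_of_le hW
  set Y : Submodule K (S3 K) := Sd K 1 * W ⊔ piece (idl f1 f2 f3) (d + 1) with hY
  have hYS : Y ≤ Sd K (d + 1) := by
    refine sup_le ?_ (piece_le _ _)
    rw [Submodule.mul_le]
    intro x hx w hw
    have : (x * w).IsHomogeneous (1 + d) := (show x.IsHomogeneous 1 from hx).mul (hW hw)
    rwa [add_comm] at this
  have hYf : Module.Finite K Y := by rw [hY]; infer_instance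
  set R := perp τ (Sd K e) Y with hR
  have hRS : R ≤ Sd K e := fun x hx => hx.1
  have hRf : Module.Finite K R := Submodule.finiteDimensional_of_le hRS
  refine ⟨R, hRS, ?_, ?_, ?_⟩
  · intro x hx
    refine ⟨hx.2, fun y hy => ?_⟩
    exact tau_mulG hτ (i := d + 1) (j := e) (by omega) (hYS hy) hx.2 (Or.inr hx.1)
  · exact pair_bound τ (K0 := piece (idl f1 f2 f3) (d + 1)) le_sup_right (by
      intro x hx y hy
      exact tau_mulG hτ (i := d + 1) (j := e) (by omega) hx.2 hy (Or.inl hx.1))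
  · set R2 := perp τ (Sd K (e + 1)) W with hR2
    have hR2S : R2 ≤ Sd K (e + 1) := fun x hx => hx.1
    have hle : Sd K 1 * R ⊔ piece (idl f1 f2 f3) (e + 1) ≤ R2 := by
      refine sup_le ?_ ?_
      · rw [Submodule.mul_le]
        intro l hl y hy
        refine ⟨?_, ?_⟩
        · have : (l * y).IsHomogeneous (1 + e) := (show l.IsHomogeneous 1 from hl).mul (hRS hy)
          rwa [add_comm] at this
        · intro x hx
          rw [show x * (l * y) = (l * x) * y by ring]
          refine hy.2 _ (Submodule.mem_sup_left ?_)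
          exact Submodule.mul_mem_mul hl hx
      · intro y hy
        refine ⟨hy.2, fun x hx => ?_⟩
        exact tau_mulG hτ (i := d) (j := e + 1) (by omega) (hW hx) hy.2 (Or.inr hy.1)
    have hR2f : Module.Finite K R2 := Submodule.finiteDimensional_of_le hR2S
    have hb' := pair_bound τ (Z := Sd K (e + 1)) (B := W) (K0 := R2) hR2S (by
      intro x hx y hy
      rw [mul_comm]
      exact hx.2 y hy)
    have hperp : perp τ W (Sd K (e + 1)) ≤ piece (idl f1 f2 f3) d := by
      intro y hy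
      refine ⟨?_, hW hy.1⟩
      exact nondegG hr h1 h2 h3 ha hb hc hs hτ (e + 1) d y (by omega) (hW hy.1)
        (fun x hx => hy.2 x hx)
    have h1' := Submodule.finrank_mono hperp
    have h2' := Submodule.finrank_mono hle
    omega

end main

end Vale.Agent.P200G
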