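import Vale.Agent.Lib.P200G_Grow

/-!
Assembly: from the growth statement to the closure of the lexicographic segments under
multiplication.
-/

open MvPolynomial Module

namespace Vale.Agent.P200G

open Vale.Agent.P200

universe u

variable {K : Type u} [Field K]

theorem regG_aux (e : Fin 3 → ℕ) (s : Set (Fin 3)) (i : Fin 3) (hi : i ∉ s) (g : S3 K)
    (h : X i ^ e i * g ∈ Ideal.span ((fun j => (X j : S3 K) ^ e j) '' s)) :
    g ∈ Ideal.span ((fun j => (X j : S3 K) ^ e j) '' s) := by
  classical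
  have e' : ((fun j => (X j : S3 K) ^ e j) '' s)
      = (fun m => monomial m (1 : K)) '' ((fun j => Finsupp.single j (e j)) '' s) := by
    rw [Set.image_image]
    apply Set.image_congr
    intro j _
    rw [X_pow_eq_monomial]
  rw [e', mem_ideal_span_monomial_image] at h ⊢
  intro m hm
  have hm' : (Finsupp.single i (e i) + m) ∈ (X i ^ e i * g).support := by
    rw [MvPolynomial.mem_support_iff, X_pow_eq_monomial, coeff_monomial_mul, one_mul]
    exact MvPolynomial.mem_support_iff.mp hm
  obtain ⟨si, ⟨j, hj, rfl⟩, hle⟩ := h _ hm'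
  refine ⟨_, ⟨j, hj, rfl⟩, ?_⟩
  have hji : i ≠ j := fun e => hi (e ▸ hj)
  rw [Finsupp.single_le_iff] at hle ⊢
  simpa [Finsupp.single_apply, hji] using hle

theorem regTriple_powers (a b c : ℕ) : RegTriple ((X 0 : S3 K) ^ a) (X 1 ^ b) (X 2 ^ c) := by
  refine ⟨pow_ne_zero _ (X_ne_zero _), ?_, ?_⟩
  · intro g u h
    have := regG_aux ![a, b, c] ({0} : Set (Fin 3)) 1 (by simp) g (by
      rw [Set.image_singleton, Ideal.mem_span_singleton']
      refine ⟨u, ?_⟩
      simp only [Matrix.cons_val_zero, Matrix.cons_val_one]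
      rw [h, mul_comm])
    rw [Set.image_singleton, Ideal.mem_span_singleton'] at this
    obtain ⟨v, hv⟩ := this
    simp only [Matrix.cons_val_zero] at hv
    exact ⟨v, by rw [← hv, mul_comm]⟩
  · intro g u v h
    have := regG_aux ![a, b, c] ({0, 1} : Set (Fin 3)) 2 (by simp) g (by
      rw [Set.image_pair, Ideal.mem_span_pair]
      refine ⟨u, v, ?_⟩
      simp only [Matrix.cons_val_zero, Matrix.cons_val_one, Matrix.cons_val]
      rw [h]
      ring)
    rw [Set.image_pair, Ideal.mem_span_pair] at this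
    obtain ⟨x, y, hxy⟩ := this
    simp only [Matrix.cons_val_zero, Matrix.cons_val_one] at hxy
    exact ⟨x, y, by rw [← hxy]; ring⟩

theorem isHomogeneous_monomialOfG {a b c : ℕ} (m : ExpsG a b c) :
    (monomialOfG K m).IsHomogeneous (expDegG m) := by
  unfold monomialOfG expDegG
  exact ((isHomogeneous_X_pow _ _).mul (isHomogeneous_X_pow _ _)).mul (isHomogeneous_X_pow _ _)

section closure

variable {f1 f2 f3 : S3 K} {a b c : ℕ} (hr : RegTriple f1 f2 f3)
  (h1 : f1.IsHomogeneous a) (h2 : f2.IsHomogeneous b) (h3 : f3.IsHomogeneous c)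
  (hG : ∀ d, Grow (idl f1 f2 f3) a b c d) {I : Ideal (S3 K)} (hI : idl f1 f2 f3 ≤ I)

include hr h1 h2 h3 in
theorem finrank_powerG (d : ℕ) :
    finrank K (piece (powerIdealG K a b c) d) = finrank K (piece (idl f1 f2 f3) d) := by
  have e1 := finrank_three hr h1 h2 h3 d
  have e2 := finrank_three (regTriple_powers (K := K) a b c)
    (isHomogeneous_X_pow _ _) (isHomogeneous_X_pow _ _) (isHomogeneous_X_pow _ _) d
  have e3 : powerIdealG K a b c = idl (X 0 ^ a) (X 1 ^ b) (X 2 ^ c) := rfl
  rw [e3]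
  omega

include hr h1 h2 h3 hG hI in
theorem excess_step' {m m₁ : ExpsG a b c} {d : ℕ} (hm : expDegG m = d)
    (hrk : lexRankG m < excessG a b c I d) (hsucc : SuccE m m₁) :
    lexRankG m₁ < excessG a b c I (d + 1) := by
  unfold excessG at hrk ⊢
  rw [finrank_powerG hr h1 h2 h3] at hrk ⊢
  have hFW : piece (idl f1 f2 f3) d ≤ piece I d := fun x hx => ⟨hI hx.1, hx.2⟩
  have hg := hG d (piece I d) (piece_le _ _) hFW m m₁ hm hsucc hrk
  have hle : Sd K 1 * piece I d ⊔ piece (idl f1 f2 f3) (d + 1) ≤ piece I (d + 1) := by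
    refine sup_le ?_ ?_
    · rw [Submodule.mul_le]
      intro l hl x hx
      refine ⟨Ideal.mul_mem_left _ _ hx.1, ?_⟩
      have : (l * x).IsHomogeneous (1 + d) := (show l.IsHomogeneous 1 from hl).mul hx.2
      rwa [add_comm] at this
    · intro x hx
      exact ⟨hI hx.1, hx.2⟩
  have hle2 := Submodule.finrank_mono hle
  omega

omit hr h1 h2 h3 hG hI in
theorem top_auxG {x y t : S3 K} {d : ℕ} (ht : t ∈ powerIdealG K a b c) (hx : x = t * y)
    (hh : x.IsHomogeneous (d + 1)) : x ∈ lexPartG a b c I (d + 1) := by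
  apply Submodule.mem_sup_left
  refine ⟨?_, hh⟩
  rw [hx]
  exact Ideal.mul_mem_right _ _ ht

include hr h1 h2 h3 hG hI in
theorem step_auxG {m m₁ : ExpsG a b c} {d : ℕ} (hm : expDegG m = d)
    (hrk : lexRankG m < excessG a b c I d) (hsucc : SuccE m m₁) :
    monomialOfG K m₁ ∈ lexPartG a b c I (d + 1) := by
  apply Submodule.mem_sup_right
  apply Submodule.subset_span
  refine ⟨m₁, ?_, excess_step' hr h1 h2 h3 hG hI hm hrk hsucc, rfl⟩
  rw [hsucc.deg, hm]

include hr h1 h2 h3 hG hI in
theorem X_mul_monomialG (t : Fin 3) (m : ExpsG a b c) {d : ℕ} (hm : expDegG m = d)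
    (hrk : lexRankG m < excessG a b c I d) : X t * monomialOfG K m ∈ lexPartG a b c I (d + 1) := by
  have hh : (X t * monomialOfG K m).IsHomogeneous (d + 1) := by
    have := (isHomogeneous_X K t).mul (isHomogeneous_monomialOfG (K := K) m)
    rw [hm, add_comm] at this
    exact this
  obtain ⟨i, j, k⟩ := m
  have ht : t = 0 ∨ t = 1 ∨ t = 2 := by fin_cases t <;> simp
  rcases ht with rfl | rfl | rfl
  · by_cases hi : (i : ℕ) + 1 = a
    · apply top_auxG (t := X 0 ^ a) (y := X 1 ^ (j : ℕ) * X 2 ^ (k : ℕ)) _ _ hh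
      · exact Ideal.subset_span (by simp)
      · simp only [monomialOfG, ← hi]
        ring
    · have hi' : (i : ℕ) + 1 < a := by have := i.2; omega
      have e : X 0 * monomialOfG K (i, j, k) = monomialOfG K ((⟨(i : ℕ) + 1, hi'⟩, j, k) : ExpsG a b c) := by
        simp only [monomialOfG]
        ring
      rw [e]
      exact step_auxG hr h1 h2 h3 hG hI hm hrk (Or.inl ⟨rfl, rfl, rfl⟩)
  · by_cases hj : (j : ℕ) + 1 = b
    · apply top_auxG (t := X 1 ^ b) (y := X 0 ^ (i : ℕ) * X 2 ^ (k : ℕ)) _ _ hh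
      · exact Ideal.subset_span (by simp)
      · simp only [monomialOfG, ← hj]
        ring
    · have hj' : (j : ℕ) + 1 < b := by have := j.2; omega
      have e : X 1 * monomialOfG K (i, j, k) = monomialOfG K ((i, ⟨(j : ℕ) + 1, hj'⟩, k) : ExpsG a b c) := by
        simp only [monomialOfG]
        ring
      rw [e]
      exact step_auxG hr h1 h2 h3 hG hI hm hrk (Or.inr (Or.inl ⟨rfl, rfl, rfl⟩))
  · by_cases hk : (k : ℕ) + 1 = c
    · apply top_auxG (t := X 2 ^ c) (y := X 0 ^ (i : ℕ) * X 1 ^ (j : ℕ)) _ _ hh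
      · exact Ideal.subset_span (by simp)
      · simp only [monomialOfG, ← hk]
        ring
    · have hk' : (k : ℕ) + 1 < c := by have := k.2; omega
      have e : X 2 * monomialOfG K (i, j, k) = monomialOfG K ((i, j, ⟨(k : ℕ) + 1, hk'⟩) : ExpsG a b c) := by
        simp only [monomialOfG]
        ring
      rw [e]
      exact step_auxG hr h1 h2 h3 hG hI hm hrk (Or.inr (Or.inr ⟨rfl, rfl, rfl⟩))

include hr h1 h2 h3 hG hI in
theorem X_mul_lexPartG (t : Fin 3) {d : ℕ} {x : S3 K} (hx : x ∈ lexPartG a b c I d) :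
    X t * x ∈ lexPartG a b c I (d + 1) := by
  have hle : lexPartG a b c I d ≤ (lexPartG a b c I (d + 1)).comap (LinearMap.mulLeft K (X t)) := by
    refine sup_le ?_ ?_
    · intro y hy
      apply Submodule.mem_sup_left
      refine ⟨Ideal.mul_mem_left _ _ hy.1, ?_⟩
      have := (isHomogeneous_X K t).mul hy.2
      rwa [add_comm] at this
    · rw [Submodule.span_le]
      rintro y ⟨m, hm, hrk, rfl⟩
      exact X_mul_monomialG hr h1 h2 h3 hG hI t m hm hrk
  exact hle hx

include hr h1 h2 h3 hG hI in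
theorem X_mul_lexPlusPowersG (t : Fin 3) {x : S3 K} (hx : x ∈ lexPlusPowersG a b c I) :
    X t * x ∈ lexPlusPowersG a b c I := by
  unfold lexPlusPowersG at hx ⊢
  induction hx using Submodule.iSup_induction' with
  | mem d y hy =>
    exact Submodule.mem_iSup_of_mem (d + 1) (X_mul_lexPartG hr h1 h2 h3 hG hI t hy)
  | zero => simp
  | add y z _ _ hy hz =>
    rw [mul_add]
    exact Submodule.add_mem _ hy hz

include hr h1 h2 h3 hG hI in
theorem mul_lexPlusPowersG (r : S3 K) : ∀ x ∈ lexPlusPowersG a b c I,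
    r * x ∈ lexPlusPowersG a b c I := by
  induction r using MvPolynomial.induction_on with
  | C k =>
    intro x hx
    rw [← smul_eq_C_mul]
    exact Submodule.smul_mem _ _ hx
  | add p q hp hq =>
    intro x hx
    rw [add_mul]
    exact Submodule.add_mem _ (hp x hx) (hq x hx)
  | mul_X p t hp =>
    intro x hx
    rw [mul_assoc]
    exact hp _ (X_mul_lexPlusPowersG hr h1 h2 h3 hG hI t hx)

include hr h1 h2 h3 hG hI in
theorem isIdeal_of_grow : ∃ L : Ideal (S3 K), L.restrictScalars K = lexPlusPowersG a b c I := by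
  refine ⟨Ideal.span (lexPlusPowersG a b c I : Set (S3 K)), ?_⟩
  apply le_antisymm
  · intro x hx
    have hx' : x ∈ Ideal.span (lexPlusPowersG a b c I : Set (S3 K)) := hx
    induction hx' using Submodule.span_induction with
    | mem y hy => exact hy
    | zero => exact Submodule.zero_mem _
    | add y z _ _ hy hz => exact Submodule.add_mem _ (hy (by assumption)) (hz (by assumption))
    | smul r y _ hy => exact mul_lexPlusPowersG hr h1 h2 h3 hG hI r y (hy (by assumption))
  · intro x hx
    exact Ideal.subset_span hx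

end closure

end Vale.Agent.P200G
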