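import Vale.Agent.Lib.P200G_Z
import Vale.Agent.Lib.P200G_Main
import Vale.Agent.Lib.P200G_Base

/-!
The final theorem: EGH in three variables for degrees `(a, b, a + b - 3)`.
-/

open MvPolynomial Module

namespace Vale.Agent.P200G

open Vale.Agent.P200

universe u

variable {K : Type u} [Field K]

theorem grow_infinite [Infinite K] {f1 f2 f3 : S3 K} {a b c : ℕ} (hr : RegTriple f1 f2 f3)
    (h1 : f1.IsHomogeneous a) (h2 : f2.IsHomogeneous b) (h3 : f3.IsHomogeneous c) (ha : 3 ≤ a)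
    (hab : a ≤ b) (hc : c + 3 = a + b) (d : ℕ) : Grow (idl f1 f2 f3) a b c d := by
  obtain ⟨c', rfl⟩ : ∃ c', c = c' + 1 := ⟨c - 1, by omega⟩
  obtain ⟨α, β, hreg⟩ := exists_zf hr h3
  obtain ⟨O, _, _, ρ, hρ⟩ := exists_dehom (homI_two h1 h2) (zf_homog α β) (nzd_zf hreg)
  exact grow_all hρ hreg hr h1 h2 h3 ha hab hc d

theorem grow_any {f1 f2 f3 : S3 K} {a b c : ℕ} (hr : RegTriple f1 f2 f3)
    (h1 : f1.IsHomogeneous a) (h2 : f2.IsHomogeneous b) (h3 : f3.IsHomogeneous c) (ha : 3 ≤ a)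
    (hab : a ≤ b) (hc : c + 3 = a + b) (d : ℕ) : Grow (idl f1 f2 f3) a b c d :=
  grow_descend (K' := AlgebraicClosure K) hr h1 h2 h3
    (grow_infinite (RegTriple_phi hr) (phi_homog h1) (phi_homog h2) (phi_homog h3) ha hab hc d)

theorem regTriple_of_reg (f : Fin 3 → S3 K)
    (hreg : ∀ (i : Fin 3) (g : S3 K), f i * g ∈ Ideal.span (f '' {j | j < i}) →
      g ∈ Ideal.span (f '' {j | j < i})) :
    RegTriple (f 0) (f 1) (f 2) := by
  refine ⟨?_, ?_, ?_⟩
  · intro h0
    have e : ({j | j < (0 : Fin 3)} : Set (Fin 3)) = ∅ := by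
      ext j; simp
    have := hreg 0 1 (by rw [h0, zero_mul]; exact Ideal.zero_mem _)
    rw [e, Set.image_empty, Ideal.span_empty, Ideal.mem_bot] at this
    exact one_ne_zero this
  · intro g u h
    have e : ({j | j < (1 : Fin 3)} : Set (Fin 3)) = {0} := by
      ext j; fin_cases j <;> simp
    have := hreg 1 g (by
      rw [e, Set.image_singleton, Ideal.mem_span_singleton']
      exact ⟨u, by rw [h, mul_comm]⟩)
    rw [e, Set.image_singleton, Ideal.mem_span_singleton'] at this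
    obtain ⟨v, hv⟩ := this
    exact ⟨v, by rw [← hv, mul_comm]⟩
  · intro g u v h
    have e : ({j | j < (2 : Fin 3)} : Set (Fin 3)) = {0, 1} := by
      ext j; fin_cases j <;> simp
    have := hreg 2 g (by
      rw [e, Set.image_pair, Ideal.mem_span_pair]
      exact ⟨u, v, by rw [h]; ring⟩)
    rw [e, Set.image_pair, Ideal.mem_span_pair] at this
    obtain ⟨x, y, hxy⟩ := this
    exact ⟨x, y, by rw [← hxy]; ring⟩

/-- The main theorem of this development. -/
theorem lexPlusPowersG_isIdeal (a b c : ℕ) (ha : 3 ≤ a) (hab : a ≤ b) (hc : c + 3 = a + b)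
    (I : Ideal (S3 K)) (f : Fin 3 → S3 K)
    (h0 : (f 0).IsHomogeneous a) (h1 : (f 1).IsHomogeneous b) (h2 : (f 2).IsHomogeneous c)
    (hreg : ∀ (i : Fin 3) (g : S3 K), f i * g ∈ Ideal.span (f '' {j | j < i}) →
      g ∈ Ideal.span (f '' {j | j < i}))
    (hI : ∀ i, f i ∈ I) :
    ∃ L : Ideal (S3 K), L.restrictScalars K = lexPlusPowersG a b c I := by
  have hr := regTriple_of_reg f hreg
  have hle : idl (f 0) (f 1) (f 2) ≤ I := by
    unfold idl
    rw [Ideal.span_le]
    rintro x (rfl | rfl | rfl)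
    · exact hI 0
    · exact hI 1
    · exact hI 2
  exact isIdeal_of_grow hr h0 h1 h2 (grow_any hr h0 h1 h2 ha hab hc) hle

end Vale.Agent.P200G
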