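import Vale.Agent.Lib.P200G_Abs
import Vale.Agent.Lib.P200G_E

/-!
Dehomogenisation at a regular linear form: the artinian algebra `O`.
-/

open MvPolynomial Module

namespace Vale.Agent.P200G

open Vale.Agent.P200

universe u

variable {K : Type u} [Field K]

/-- A surjection onto a `K`-algebra, which sends `z` to one and whose kernel on forms is `Q`. -/
structure Dehom (Q : Ideal (S3 K)) (z : S3 K) {O : Type u} [CommRing O] [Algebra K O]
    (ρ : S3 K →ₐ[K] O) : Prop where
  surj : Function.Surjective ρ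
  rz : ρ z = 1
  ker : ∀ (d : ℕ) (g : S3 K), g.IsHomogeneous d → ρ g = 0 → g ∈ Q
  van : ∀ x ∈ Q, ρ x = 0

/-- the existence of the dehomogenisation -/
theorem exists_dehom {Q : Ideal (S3 K)} (hQ : HomI Q) {z : S3 K} (hz : z.IsHomogeneous 1)
    (hnzd : ∀ g, z * g ∈ Q → g ∈ Q) :
    ∃ (O : Type u) (_ : CommRing O) (_ : Algebra K O) (ρ : S3 K →ₐ[K] O), Dehom Q z ρ := by
  classical
  let R := S3 K ⧸ Q
  let zb : R := Ideal.Quotient.mk Q z
  let B := Localization.Away zb
  let s : B := IsLocalization.Away.invSelf zb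
  have hs : algebraMap R B zb * s = 1 := IsLocalization.Away.mul_invSelf zb
  let φ : S3 K →ₐ[K] B := aeval (fun i => algebraMap R B (Ideal.Quotient.mk Q (X i)) * s)
  have hmk : ∀ c : K, algebraMap R B (Ideal.Quotient.mk Q (C c)) = algebraMap K B c := by
    intro c
    rw [IsScalarTower.algebraMap_apply K R B c]
    rfl
  have hmono : ∀ (m : Fin 3 →₀ ℕ) (c : K), φ (monomial m c)
      = algebraMap R B (Ideal.Quotient.mk Q (monomial m c)) * s ^ m.degree := by
    intro m c
    have e : (monomial m c : S3 K) = C c * (X 0 ^ m 0 * X 1 ^ m 1 * X 2 ^ m 2) := by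
      rw [monomial_eq, Finsupp.prod_fintype _ _ (by simp), Fin.prod_univ_three]
    have e2 : m.degree = m 0 + m 1 + m 2 := by
      rw [Finsupp.degree_eq_sum, Fin.sum_univ_three]
    rw [e, e2, map_mul, map_mul, map_mul, map_mul, map_mul, map_mul, map_mul, map_mul, map_mul,
      map_pow, map_pow, map_pow, map_pow, map_pow, map_pow, map_pow, map_pow, map_pow, hmk]
    have e3 : φ (C c) = algebraMap K B c := by
      simp [φ, algHom_C]
    have e4 : ∀ i, φ (X i) = algebraMap R B (Ideal.Quotient.mk Q (X i)) * s := by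
      intro i
      simp [φ]
    rw [e3, e4, e4, e4, pow_add, pow_add]
    ring
  have hkey : ∀ (d : ℕ) (g : S3 K), g.IsHomogeneous d →
      φ g = algebraMap R B (Ideal.Quotient.mk Q g) * s ^ d := by
    intro d g hg
    conv_lhs => rw [g.as_sum]
    conv_rhs => rw [g.as_sum]
    rw [map_sum, map_sum, map_sum, Finset.sum_mul]
    refine Finset.sum_congr rfl (fun m hm => ?_)
    have hdeg : m.degree = d := by
      by_contra hne
      exact (MvPolynomial.mem_support_iff.mp hm) (hg.coeff_eq_zero hne)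
    rw [hmono, hdeg]
  have hz1 : φ z = 1 := by
    rw [hkey 1 z hz, pow_one]
    exact hs
  have hvan : ∀ x ∈ Q, φ x = 0 := by
    intro x hx
    rw [← sum_homogeneousComponent x, map_sum]
    apply Finset.sum_eq_zero
    intro i _
    rw [hkey i _ (homogeneousComponent_isHomogeneous i x)]
    have : Ideal.Quotient.mk Q (homogeneousComponent i x) = 0 :=
      Ideal.Quotient.eq_zero_iff_mem.mpr (hQ x hx i)
    rw [this, map_zero, zero_mul]
  have hinj : Function.Injective (algebraMap R B) := by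
    apply IsLocalization.injective B (M := Submonoid.powers zb)
    rw [Submonoid.powers_le, mem_nonZeroDivisors_iff]
    constructor
    · intro x hx
      obtain ⟨g, rfl⟩ := Ideal.Quotient.mk_surjective x
      rw [← map_mul, Ideal.Quotient.eq_zero_iff_mem] at hx
      apply Ideal.Quotient.eq_zero_iff_mem.mpr
      exact hnzd g hx
    · intro x hx
      obtain ⟨g, rfl⟩ := Ideal.Quotient.mk_surjective x
      rw [← map_mul, Ideal.Quotient.eq_zero_iff_mem] at hx
      apply Ideal.Quotient.eq_zero_iff_mem.mpr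
      apply hnzd
      rwa [mul_comm]
  have hker : ∀ (d : ℕ) (g : S3 K), g.IsHomogeneous d → φ g = 0 → g ∈ Q := by
    intro d g hg h0
    rw [hkey d g hg] at h0
    have h1 : algebraMap R B (Ideal.Quotient.mk Q g) = 0 := by
      have h2 : (algebraMap R B zb * s) ^ d = 1 := by rw [hs, one_pow]
      calc algebraMap R B (Ideal.Quotient.mk Q g)
          = algebraMap R B (Ideal.Quotient.mk Q g) * (algebraMap R B zb * s) ^ d := by
            rw [h2, mul_one]
        _ = (algebraMap R B (Ideal.Quotient.mk Q g) * s ^ d) * algebraMap R B zb ^ d := by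
            rw [mul_pow]; ring
        _ = 0 := by rw [h0, zero_mul]
    have h2 := hinj (h1.trans (map_zero _).symm)
    exact Ideal.Quotient.eq_zero_iff_mem.mp h2
  refine ⟨φ.range, inferInstance, inferInstance, φ.rangeRestrict, ?_⟩
  refine ⟨φ.rangeRestrict_surjective, ?_, ?_, ?_⟩
  · apply Subtype.ext
    exact hz1
  · intro d g hg h0
    exact hker d g hg (congrArg Subtype.val h0)
  · intro x hx
    apply Subtype.ext
    exact hvan x hx

section filtration

variable {f1 f2 f3 : S3 K} {a b c : ℕ} {α β : K} {O : Type u} [CommRing O] [Algebra K O]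
  {ρ : S3 K →ₐ[K] O}

/-- The image of the forms of degree `d`. -/
noncomputable def Ok (ρ : S3 K →ₐ[K] O) (d : ℕ) : Submodule K O := (Sd K d).map ρ.toLinearMap

theorem mem_Ok {d : ℕ} {v : O} : v ∈ Ok ρ d ↔ ∃ g : S3 K, g.IsHomogeneous d ∧ ρ g = v := by
  simp [Ok, Submodule.mem_map]

instance Ok_finite (d : ℕ) : Module.Finite K (Ok ρ d) := by
  unfold Ok
  infer_instance

variable (hρ : Dehom (Qi f1 f2) (zf α β) ρ)

include hρ in
theorem rho_zf_mul (g : S3 K) : ρ (zf α β * g) = ρ g := by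
  rw [map_mul, hρ.rz, one_mul]

include hρ in
theorem Ok_mono_succ (d : ℕ) : Ok ρ d ≤ Ok ρ (d + 1) := by
  intro v hv
  obtain ⟨g, hg, rfl⟩ := mem_Ok.mp hv
  refine mem_Ok.mpr ⟨zf α β * g, ?_, rho_zf_mul hρ g⟩
  have := (zf_homog α β).mul hg
  rwa [add_comm] at this

include hρ in
theorem Ok_mono {d d' : ℕ} (h : d ≤ d') : Ok ρ d ≤ Ok ρ d' := by
  induction d', h using Nat.le_induction with
  | base => exact le_rfl
  | succ n _ ih => exact ih.trans (Ok_mono_succ hρ n)

include hρ in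
/-- Dimension of the image of a subspace containing the `Q` part. -/
theorem finrank_map_piece {W : Submodule K (S3 K)} {d : ℕ} (hW : W ≤ Sd K d)
    (hQ : piece (Qi f1 f2) d ≤ W) :
    finrank K (W.map ρ.toLinearMap) + finrank K (piece (Qi f1 f2) d) = finrank K W := by
  haveI : Module.Finite K W := Submodule.finiteDimensional_of_le hW
  let L : W →ₗ[K] O := ρ.toLinearMap.comp W.subtype
  have hrange : LinearMap.range L = W.map ρ.toLinearMap := by
    rw [LinearMap.range_comp, Submodule.range_subtype]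
  let j : piece (Qi f1 f2) d →ₗ[K] W := Submodule.inclusion hQ
  have hj : Function.Injective j := Submodule.inclusion_injective hQ
  have hrj : LinearMap.range j = LinearMap.ker L := by
    ext w
    constructor
    · rintro ⟨q, rfl⟩
      rw [LinearMap.mem_ker]
      exact hρ.van _ q.2.1
    · intro hw
      rw [LinearMap.mem_ker] at hw
      exact ⟨⟨w, hρ.ker d w (hW w.2) hw, hW w.2⟩, rfl⟩
  have h1 := LinearMap.finrank_range_add_finrank_ker L
  rw [hrange, ← hrj, LinearMap.finrank_range_of_inj hj] at h1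
  exact h1

variable (hreg : RegTriple f1 f2 (zf α β)) (h1 : f1.IsHomogeneous a) (h2 : f2.IsHomogeneous b)

include hρ hreg h1 h2 in
theorem finrank_Ok (d : ℕ) : finrank K (Ok ρ d) = HR a b d := by
  have e1 := finrank_map_piece hρ (le_refl (Sd K d)) (piece_le _ _)
  have e2 : finrank K (piece (Qi f1 f2) d) + HR a b d = tri (d + 1) := finrank_two hreg h1 h2 d
  rw [finrank_Sd_tri] at e1
  unfold Ok
  omega

include hρ hreg h1 h2 in
/-- High degree forms are divisible by the linear form modulo `Q`. -/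
theorem Ok_succ_le {k : ℕ} (hk : a + b ≤ k + 2) : Ok ρ (k + 1) ≤ Ok ρ k := by
  have hA := Ag_high hk
  have hdim := Fbar_dim hreg h1 h2 k
  have htop : Fbar α β f1 f2 (k + 1) = Td K (k + 1) := by
    apply Submodule.eq_of_le_of_finrank_le (Fbar_le _)
    rw [finrank_Td]
    omega
  intro v hv
  obtain ⟨g, hg, rfl⟩ := mem_Ok.mp hv
  have hπ : piz α β g ∈ Fbar α β f1 f2 (k + 1) := by
    rw [htop]
    exact piz_homog hg
  obtain ⟨q, hq, e⟩ := hπ
  have e' : piz α β q = piz α β g := e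
  obtain ⟨r, hr, e2⟩ := ker_piz_homog (α := α) (β := β) (hg.sub hq.2) (by
    rw [map_sub, e', sub_self])
  refine mem_Ok.mpr ⟨r, hr, ?_⟩
  have e3 : g = q + zf α β * r := by rw [← e2]; ring
  rw [e3, map_add, hρ.van _ hq.1, zero_add, rho_zf_mul hρ]

include hρ hreg h1 h2 in
theorem Ok_le_top {σ : ℕ} (hσ : σ + 2 = a + b) (k : ℕ) : Ok ρ k ≤ Ok ρ σ := by
  by_cases h : k ≤ σ
  · exact Ok_mono hρ h
  · obtain ⟨n, rfl⟩ : ∃ n, k = σ + n := ⟨k - σ, by omega⟩
    clear h
    induction n with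
    | zero => exact le_rfl
    | succ n ih =>
      exact (Ok_succ_le hρ hreg h1 h2 (k := σ + n) (by omega)).trans ih

include hρ hreg h1 h2 in
theorem Ok_top {σ : ℕ} (hσ : σ + 2 = a + b) : Ok ρ σ = ⊤ := by
  rw [eq_top_iff]
  intro v _
  obtain ⟨p, rfl⟩ := hρ.surj v
  rw [← sum_homogeneousComponent p, map_sum]
  refine Submodule.sum_mem _ (fun i _ => ?_)
  exact Ok_le_top hρ hreg h1 h2 hσ i
    (mem_Ok.mpr ⟨_, homogeneousComponent_isHomogeneous i p, rfl⟩)

include hρ hreg h1 h2 in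
theorem finite_O {σ : ℕ} (hσ : σ + 2 = a + b) : Module.Finite K O := by
  have htop := Ok_top hρ hreg h1 h2 hσ
  let L : Sd K σ →ₗ[K] O := ρ.toLinearMap.comp (Sd K σ).subtype
  apply Module.Finite.of_surjective L
  rw [← LinearMap.range_eq_top, LinearMap.range_comp, Submodule.range_subtype]
  exact htop

/-- The socle condition in `T`. -/
theorem socle_step (hρ : Dehom (Qi f1 f2) (zf α β) ρ) (hreg : RegTriple f1 f2 (zf α β))
    (h1 : f1.IsHomogeneous a) (h2 : f2.IsHomogeneous b) (ha : 1 ≤ a) (hb : 1 ≤ b) {k : ℕ}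
    (hk : k + 2 < a + b) {g : S3 K}
    (hg : g.IsHomogeneous k) (h0 : ρ (X 0 * g) ∈ Ok ρ k) (h1' : ρ (X 1 * g) ∈ Ok ρ k) :
    g ∈ idl f1 f2 (zf α β) := by
  have hmem : ∀ (i : Fin 3), ρ (X i * g) ∈ Ok ρ k → X i * g ∈ idl f1 f2 (zf α β) := by
    intro i hi
    obtain ⟨g', hg', e⟩ := mem_Ok.mp hi
    have hh : (X i * g - zf α β * g').IsHomogeneous (1 + k) :=
      ((isHomogeneous_X K i).mul hg).sub ((zf_homog α β).mul hg')
    have h0' := hρ.ker _ _ hh (by rw [map_sub, rho_zf_mul hρ, e, sub_self])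
    obtain ⟨u, v, huv⟩ := Ideal.mem_span_pair.mp h0'
    refine mem_span_three.mpr ⟨u, v, g', ?_⟩
    linear_combination -huv
  have hx0 := hmem 0 h0
  have hx1 := hmem 1 h1'
  have hx2 : X 2 * g ∈ idl f1 f2 (zf α β) := by
    have e : X 2 * g = zf α β * g - C α * (X 0 * g) - C β * (X 1 * g) := by
      unfold zf
      ring
    rw [e]
    refine Ideal.sub_mem _ (Ideal.sub_mem _ ?_ (Ideal.mul_mem_left _ _ hx0))
      (Ideal.mul_mem_left _ _ hx1)
    exact Ideal.mul_mem_right _ _ (Ideal.subset_span (by simp))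
  obtain ⟨a', rfl⟩ : ∃ a', a = a' + 1 := ⟨a - 1, by omega⟩
  obtain ⟨b', rfl⟩ : ∃ b', b = b' + 1 := ⟨b - 1, by omega⟩
  exact noSocleG hreg (δ2 := 0) h1 h2 (by simpa using zf_homog α β) (by omega) hg hx0 hx1 hx2

theorem idl_lower (hρ : Dehom (Qi f1 f2) (zf α β) ρ)
    (h1 : f1.IsHomogeneous a) (h2 : f2.IsHomogeneous b) {k : ℕ} {g : S3 K}
    (hg : g.IsHomogeneous (k + 1)) (hmem : g ∈ idl f1 f2 (zf α β)) : ρ g ∈ Ok ρ k := by
  rw [idl_eq] at hmem
  obtain ⟨q, hq, r, e⟩ := mem_sup_span_singleton.mp hmem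
  have e2 := congrArg (homogeneousComponent (1 + k)) e
  rw [add_comm 1 k, homogeneousComponent_eq_self hg, map_add, add_comm k 1,
    hc_mul_of_homog (zf_homog α β)] at e2
  refine mem_Ok.mpr ⟨homogeneousComponent k r, homogeneousComponent_isHomogeneous _ _, ?_⟩
  rw [e2, map_add, hρ.van _ (homI_two h1 h2 q hq _), zero_add, rho_zf_mul hρ]

theorem idl_zero (h1 : f1.IsHomogeneous a) (h2 : f2.IsHomogeneous b) (ha : 1 ≤ a) (hb : 1 ≤ b)
    {g : S3 K} (hg : g.IsHomogeneous 0) (hmem : g ∈ idl f1 f2 (zf α β)) : g = 0 := by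
  obtain ⟨u, v, w, e⟩ := mem_span_three.mp hmem
  have e2 := congrArg (homogeneousComponent 0) e
  rw [homogeneousComponent_eq_self hg, map_add, map_add, mul_comm u, mul_comm v, mul_comm w,
    hc_mul_of_lt h1 (by omega), hc_mul_of_lt h2 (by omega),
    hc_mul_of_lt (zf_homog α β) (by omega)] at e2
  simpa using e2

include hρ hreg h1 h2 in
/-- No nonzero invariant subspace in the hyperplane `Ok c`. -/
theorem noInv (ha : 1 ≤ a) (hb : 1 ≤ b) {c : ℕ} (hc : c + 3 = a + b) {I : Submodule K O}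
    (hI : Inv (ρ (X 0)) (ρ (X 1)) I) (hle : I ≤ Ok ρ c) : I = ⊥ := by
  classical
  by_contra hne
  have hex : ∃ k, I ≤ Ok ρ k := ⟨c, hle⟩
  have hmin := Nat.find_spec hex
  have hlt := fun m => Nat.find_min hex (m := m)
  have hfle : Nat.find hex ≤ c := Nat.find_min' hex hle
  set k := Nat.find hex with hk
  have hstep : ∀ g : S3 K, g.IsHomogeneous k → ρ g ∈ I → g ∈ idl f1 f2 (zf α β) := by
    intro g hg hv
    apply socle_step hρ hreg h1 h2 ha hb (by omega) hg
    · rw [map_mul]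
      exact hmin (hI _ hv).1
    · rw [map_mul]
      exact hmin (hI _ hv).2
  cases hkk : k with
  | zero =>
    obtain ⟨v, hv, hv0⟩ := (Submodule.ne_bot_iff _).mp hne
    rw [hkk] at hmin hstep
    obtain ⟨g, hg, rfl⟩ := mem_Ok.mp (hmin hv)
    have := idl_zero h1 h2 ha hb hg (hstep g hg hv)
    exact hv0 (by rw [this, map_zero])
  | succ m =>
    have hnot : ¬ I ≤ Ok ρ m := hlt m (by omega)
    obtain ⟨v, hv, hvm⟩ := Set.not_subset.mp hnot
    rw [hkk] at hmin hstep
    obtain ⟨g, hg, rfl⟩ := mem_Ok.mp (hmin hv)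
    exact hvm (idl_lower hρ h1 h2 hg (hstep g hg hv))

/-- the linear elements -/
theorem rho_X2 (hρ : Dehom (Qi f1 f2) (zf α β) ρ) :
    ρ (X 2) = 1 - α • ρ (X 0) - β • ρ (X 1) := by
  have h := hρ.rz
  unfold zf at h
  rw [map_add, map_add, map_mul, map_mul, algHom_C, algHom_C] at h
  rw [Algebra.smul_def, Algebra.smul_def]
  linear_combination h

theorem inv_mul (hρ : Dehom (Qi f1 f2) (zf α β) ρ) {I : Submodule K O}
    (hI : Inv (ρ (X 0)) (ρ (X 1)) I) (p : S3 K) : ∀ v ∈ I, ρ p * v ∈ I := by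
  induction p using MvPolynomial.induction_on with
  | C c =>
    intro v hv
    rw [algHom_C, ← Algebra.smul_def]
    exact I.smul_mem _ hv
  | add p q hp hq =>
    intro v hv
    rw [map_add, add_mul]
    exact I.add_mem (hp v hv) (hq v hv)
  | mul_X p i hp =>
    intro v hv
    rw [map_mul, mul_assoc]
    apply hp
    fin_cases i
    · exact (hI v hv).1
    · exact (hI v hv).2
    · show ρ (X 2) * v ∈ I
      rw [rho_X2 hρ, sub_mul, sub_mul, one_mul, smul_mul_assoc, smul_mul_assoc]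
      exact I.sub_mem (I.sub_mem hv (I.smul_mem _ (hI v hv).1)) (I.smul_mem _ (hI v hv).2)

theorem inv_eq_top_of_unit (hρ : Dehom (Qi f1 f2) (zf α β) ρ) {I : Submodule K O}
    (hI : Inv (ρ (X 0)) (ρ (X 1)) I) {w : O} (hw : w ∈ I) (hu : IsUnit w) : I = ⊤ := by
  rw [eq_top_iff]
  intro v _
  obtain ⟨w', hw'⟩ := hu.exists_left_inv
  obtain ⟨p, hp⟩ := hρ.surj (v * w')
  have := inv_mul hρ hI p w hw
  rwa [hp, mul_assoc, hw', mul_one] at this

section top

variable {e : ℕ} (hr3 : RegTriple f1 f2 f3) (h3 : f3.IsHomogeneous (e + 1))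
  (hc : e + 1 + 3 = a + b) (ha : 3 ≤ a) (hb : 3 ≤ b)

include hρ hreg h1 h2 hr3 h3 hc in
theorem f3_unit : IsUnit (ρ f3) := by
  haveI := finite_O hρ hreg h1 h2 (σ := e + 2) (by omega)
  have htop := Ok_top hρ hreg h1 h2 (σ := e + 2) (by omega)
  have hinj : Function.Injective (LinearMap.mulLeft K (ρ f3)) := by
    rw [injective_iff_map_eq_zero]
    intro x hx
    have hx' : ρ f3 * x = 0 := hx
    have hxt : x ∈ Ok ρ (e + 2) := by rw [htop]; trivial
    obtain ⟨g, hg, rfl⟩ := mem_Ok.mp hxt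
    rw [← map_mul] at hx'
    have h4 := hρ.ker _ _ (h3.mul hg) hx'
    have h5 := regTriple_nzd hr3 g h4
    exact hρ.van _ h5
  obtain ⟨u, hu⟩ := (LinearMap.injective_iff_surjective.mp hinj) 1
  exact IsUnit.of_mul_eq_one u hu

include hρ hreg h1 h2 hc ha hb in
theorem exists_tau : ∃ τ : O →ₗ[K] K, LinearMap.ker τ = Ok ρ (e + 1) := by
  haveI := finite_O hρ hreg h1 h2 (σ := e + 2) (by omega)
  have htop := Ok_top hρ hreg h1 h2 (σ := e + 2) (by omega)
  have h4 : finrank K O = HR a b (e + 2) := by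
    rw [← finrank_Ok hρ hreg h1 h2, htop, finrank_top]
  have h5 := finrank_Ok hρ hreg h1 h2 (e + 1)
  have h6 : HR a b (e + 2) = HR a b (e + 1) + Ag a b (e + 1) 0 := HR_succ a b (e + 1)
  have h7 : Ag a b (e + 1) 0 = 1 := Ag_top (by omega) (by omega) (by omega)
  have hlt : Ok ρ (e + 1) < ⊤ := by
    rw [lt_top_iff_ne_top]
    intro ht
    rw [ht, finrank_top] at h5
    omega
  obtain ⟨f, hf0, hf⟩ := Submodule.exists_le_ker_of_lt_top _ hlt
  refine ⟨f, (Submodule.eq_of_le_of_finrank_le hf ?_).symm⟩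
  have hker : LinearMap.ker f < ⊤ := by
    rw [lt_top_iff_ne_top]
    intro ht
    exact hf0 (LinearMap.ker_eq_top.mp ht)
  have := Submodule.finrank_lt_finrank_of_lt hker
  rw [finrank_top] at this
  omega

include hρ hreg h1 h2 hc ha hb in
theorem H1_eq {τ : O →ₗ[K] K} (hτ : LinearMap.ker τ = Ok ρ (e + 1)) :
    H1 (ρ (X 0)) (ρ (X 1)) τ = Ok ρ e := by
  haveI hfinO := finite_O hρ hreg h1 h2 (σ := e + 2) (by omega)
  apply le_antisymm
  · intro v hv
    obtain ⟨h4, h5, h6⟩ := mem_H1.mp hv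
    have hv1 : v ∈ Ok ρ (e + 1) := by
      rw [← hτ]
      exact h4
    obtain ⟨g, hg, rfl⟩ := mem_Ok.mp hv1
    apply idl_lower hρ h1 h2 hg
    apply socle_step hρ hreg h1 h2 (by omega) (by omega) (by omega) hg
    · rw [map_mul, ← hτ]
      exact h5
    · rw [map_mul, ← hτ]
      exact h6
  · intro v hv
    obtain ⟨g, hg, rfl⟩ := mem_Ok.mp hv
    refine mem_H1.mpr ⟨?_, ?_, ?_⟩
    · have : ρ g ∈ LinearMap.ker τ := by
        rw [hτ]
        exact Ok_mono_succ hρ e hv
      exact this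
    · have : ρ (X 0) * ρ g ∈ LinearMap.ker τ := by
        rw [hτ, ← map_mul]
        refine mem_Ok.mpr ⟨_, ?_, rfl⟩
        have := (isHomogeneous_X K (0 : Fin 3)).mul hg
        rwa [add_comm] at this
      exact this
    · have : ρ (X 1) * ρ g ∈ LinearMap.ker τ := by
        rw [hτ, ← map_mul]
        refine mem_Ok.mpr ⟨_, ?_, rfl⟩
        have := (isHomogeneous_X K (1 : Fin 3)).mul hg
        rwa [add_comm] at this
      exact this

include hρ h1 h2 ha hb in
theorem indep6 : Indep6 (K := K) (ρ (X 0)) (ρ (X 1)) := by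
  intro c0 c1 c2 c3 c4 c5 hzero
  set z := zf α β with hz
  let q : S3 K := C c0 * (z * z) + C c1 * (X 0 * z) + C c2 * (X 1 * z) + C c3 * (X 0 * X 0)
    + C c4 * (X 0 * X 1) + C c5 * (X 1 * X 1)
  have hzh : z.IsHomogeneous 1 := zf_homog α β
  have hX : ∀ i : Fin 3, (X i : S3 K).IsHomogeneous 1 := fun i => isHomogeneous_X K i
  have hterm : ∀ (κ : K) {l l' : S3 K}, l.IsHomogeneous 1 → l'.IsHomogeneous 1 →
      (C κ * (l * l')).IsHomogeneous 2 := by
    intro κ l l' hl hl'
    have := (isHomogeneous_C (Fin 3) κ).mul (hl.mul hl')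
    simpa using this
  have hq : q.IsHomogeneous 2 :=
    (((((hterm c0 hzh hzh).add (hterm c1 (hX 0) hzh)).add (hterm c2 (hX 1) hzh)).add
      (hterm c3 (hX 0) (hX 0))).add (hterm c4 (hX 0) (hX 1))).add (hterm c5 (hX 1) (hX 1))
  have hρq : ρ q = 0 := by
    rw [← hzero]
    simp only [q, map_add, map_mul, algHom_C, hρ.rz, Algebra.smul_def, mul_one]
  have hqQ := hρ.ker 2 q hq hρq
  have hq0 : q = 0 := by
    obtain ⟨u, v, huv⟩ := Ideal.mem_span_pair.mp hqQ
    have e3 := congrArg (homogeneousComponent 2) huv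
    rw [homogeneousComponent_eq_self hq, map_add, mul_comm u, mul_comm v,
      hc_mul_of_lt h1 (by omega), hc_mul_of_lt h2 (by omega), add_zero] at e3
    exact e3.symm
  have hev : ∀ x y t : K, c0 * (t * t) + c1 * (x * t) + c2 * (y * t) + c3 * (x * x) + c4 * (x * y)
      + c5 * (y * y) = 0 := by
    intro x y t
    have := congrArg (MvPolynomial.eval ![x, y, t - α * x - β * y]) hq0
    simp only [q, hz, zf, map_add, map_mul, map_zero, eval_C, eval_X] at this
    simp at this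
    linear_combination this
  have e1 := hev 1 0 0
  have e2 := hev 0 1 0
  have e3 := hev 0 0 1
  have e4 := hev 1 1 0
  have e5 := hev 1 0 1
  have e6 := hev 0 1 1
  simp only [mul_zero, zero_mul, mul_one, add_zero, zero_add] at e1 e2 e3 e4 e5 e6
  refine ⟨e3, ?_, ?_, e1, ?_, e2⟩
  · rw [e3, e1] at e5
    simpa using e5
  · rw [e3, e2] at e6
    simpa using e6
  · rw [e1, e2] at e4
    simpa using e4

/-- The image of `S_1 W + Q_(d+1)` is `stp (image of W)`. -/
theorem map_S1 [FiniteDimensional K O] (hρ : Dehom (Qi f1 f2) (zf α β) ρ)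
    (W : Submodule K (S3 K)) (k : ℕ) :
    (Sd K 1 * W ⊔ piece (Qi f1 f2) k).map ρ.toLinearMap
      = stp (ρ (X 0)) (ρ (X 1)) (W.map ρ.toLinearMap) := by
  apply le_antisymm
  · rintro _ ⟨x, hx, rfl⟩
    obtain ⟨y, hy, q, hq, rfl⟩ := Submodule.mem_sup.mp hx
    obtain ⟨w0, h0, w1, h1', w2, h2', rfl⟩ := mem_S1mul.mp hy
    show ρ (X 0 * w0 + X 1 * w1 + X 2 * w2 + q) ∈ _
    rw [map_add, hρ.van _ hq.1, add_zero, map_add, map_add, map_mul, map_mul, map_mul, rho_X2 hρ]
    refine mem_stp.mpr ⟨ρ w2, ⟨w2, h2', rfl⟩, ρ w0 - α • ρ w2, ?_, ρ w1 - β • ρ w2, ?_, ?_⟩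
    · refine Submodule.sub_mem _ ⟨w0, h0, rfl⟩ (Submodule.smul_mem _ _ ⟨w2, h2', rfl⟩)
    · refine Submodule.sub_mem _ ⟨w1, h1', rfl⟩ (Submodule.smul_mem _ _ ⟨w2, h2', rfl⟩)
    · simp only [Algebra.smul_def]
      ring
  · intro v hv
    obtain ⟨_, ⟨a', ha', rfl⟩, _, ⟨b', hb', rfl⟩, _, ⟨c', hc', rfl⟩, rfl⟩ := mem_stp.mp hv
    refine ⟨zf α β * a' + X 0 * b' + X 1 * c', ?_, ?_⟩
    · apply Submodule.mem_sup_left
      refine Submodule.add_mem _ (Submodule.add_mem _ ?_ ?_) ?_
      · exact linear_mul_mem (zf_homog α β) ha'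
      · exact linear_mul_mem (isHomogeneous_X _ _) hb'
      · exact linear_mul_mem (isHomogeneous_X _ _) hc'
    · show ρ (zf α β * a' + X 0 * b' + X 1 * c') = _
      rw [map_add, map_add, rho_zf_mul hρ, map_mul, map_mul]
      rfl

include hρ hreg h1 h2 hr3 h3 hc ha hb in
/-- The top step: if `f3` lies in `S_1 W + Q_(e+1)` then `W` grows by at least three, or is small or
everything. -/
theorem top_growth {W : Submodule K (S3 K)} (hW : W ≤ Sd K e) (hQW : piece (Qi f1 f2) e ≤ W)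
    (hf : f3 ∈ Sd K 1 * W ⊔ piece (Qi f1 f2) (e + 1)) :
    (W ≠ Sd K e → 2 ≤ finrank K W - finrank K (piece (Qi f1 f2) e) →
      finrank K W - finrank K (piece (Qi f1 f2) e) + 3 ≤
        finrank K (Sd K 1 * W ⊔ piece (Qi f1 f2) (e + 1) : Submodule K (S3 K))
          - finrank K (piece (Qi f1 f2) (e + 1))) ∧
    (finrank K W - finrank K (piece (Qi f1 f2) e) = 1 →
      3 ≤ finrank K (Sd K 1 * W ⊔ piece (Qi f1 f2) (e + 1) : Submodule K (S3 K))
          - finrank K (piece (Qi f1 f2) (e + 1))) := by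
  haveI hfinO := finite_O hρ hreg h1 h2 (σ := e + 2) (by omega)
  obtain ⟨τ, hτ⟩ := exists_tau hρ hreg h1 h2 hc ha hb
  have hH := H1_eq hρ hreg h1 h2 hc ha hb hτ
  have hN : ∀ I : Submodule K O, Inv (ρ (X 0)) (ρ (X 1)) I → I ≤ LinearMap.ker τ → I = ⊥ := by
    intro I hI hle
    rw [hτ] at hle
    exact noInv hρ hreg h1 h2 (by omega) (by omega) (c := e + 1) (by omega) hI hle
  have hQ6 := indep6 hρ h1 h2 ha hb
  set W' := W.map ρ.toLinearMap with hW'
  have hfW : finrank K W' + finrank K (piece (Qi f1 f2) e) = finrank K W :=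
    finrank_map_piece hρ hW hQW
  set Y : Submodule K (S3 K) := Sd K 1 * W ⊔ piece (Qi f1 f2) (e + 1) with hY
  have hYle : Y ≤ Sd K (e + 1) := sup_le (S1mul_le hW) (piece_le _ _)
  have hfY : finrank K (Y.map ρ.toLinearMap) + finrank K (piece (Qi f1 f2) (e + 1)) = finrank K Y :=
    finrank_map_piece hρ hYle le_sup_right
  have hmap : Y.map ρ.toLinearMap = stp (ρ (X 0)) (ρ (X 1)) W' := map_S1 hρ W (e + 1)
  rw [hmap] at hfY
  have hW'H : W' ≤ H1 (ρ (X 0)) (ρ (X 1)) τ := by
    rw [hH]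
    exact Submodule.map_mono hW
  have hgen : GenIn (ρ (X 0)) (ρ (X 1)) W' ⊤ := by
    intro I hI hle
    have h4 : ρ f3 ∈ stp (ρ (X 0)) (ρ (X 1)) W' := by
      rw [← hmap]
      exact ⟨f3, hf, rfl⟩
    have h5 : ρ f3 ∈ I := (stp_mono hle).trans hI.stp_le h4
    rw [inv_eq_top_of_unit hρ hI h5 (f3_unit hρ hreg h1 h2 hr3 h3 hc)]
  constructor
  · intro hne h2u
    have hne' : W' ≠ H1 (ρ (X 0)) (ρ (X 1)) τ := by
      intro e1
      apply hne
      apply le_antisymm hW
      intro g hg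
      have h4 : ρ g ∈ W' := by
        rw [e1, hH]
        exact mem_Ok.mpr ⟨g, hg, rfl⟩
      obtain ⟨w, hw, e2⟩ := h4
      have e2' : ρ w = ρ g := e2
      have h5 : g - w ∈ piece (Qi f1 f2) e :=
        ⟨hρ.ker e _ (hg.sub (hW hw)) (by rw [map_sub, e2', sub_self]), hg.sub (hW hw)⟩
      have h6 := W.add_mem (hQW h5) hw
      rwa [sub_add_cancel] at h6
    have := thm2 hN hQ6 _ W' rfl hW'H (by omega) hne' hgen
    omega
  · intro hu
    have h1' : finrank K W' = 1 := by omega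
    obtain ⟨⟨w, hwm⟩, hw0, hall⟩ := finrank_eq_one_iff'.mp h1'
    have hspan : ∀ v ∈ W', ∃ c : K, v = c • w := by
      intro v hv
      obtain ⟨c, hc'⟩ := hall ⟨v, hv⟩
      refine ⟨c, ?_⟩
      have := congrArg (fun z : W' => (z : O)) hc'
      simpa using this.symm
    let Φ : (K × K × K) →ₗ[K] O := (LinearMap.mulRight K w).comp (lin (ρ (X 0)) (ρ (X 1)))
    have hΦ : ∀ x, Φ x = lin (ρ (X 0)) (ρ (X 1)) x * w := fun _ => rfl
    have hinj : Function.Injective Φ := by
      rw [injective_iff_map_eq_zero]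
      intro x hx
      rw [hΦ] at hx
      apply lin_eq_zero hQ6
      apply ann_eq_zero hgen
      intro v hv
      obtain ⟨c', rfl⟩ := hspan v hv
      rw [mul_smul_comm, hx, smul_zero]
    have h4 := LinearMap.finrank_range_of_inj hinj
    have h5 : finrank K (K × K × K) = 3 := by simp [Module.finrank_prod]
    have hle : LinearMap.range Φ ≤ stp (ρ (X 0)) (ρ (X 1)) W' := by
      rintro _ ⟨x, rfl⟩
      rw [hΦ]
      exact lin_mul_mem_stp x hwm
    have h6 := Submodule.finrank_mono hle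
    omega

end top

end filtration

end Vale.Agent.P200G
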