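import Vale.Agent.Lib.P200G_Dual
import Vale.Agent.Lib.P200G_O

/-!
The growth statement for lexicographic ranks in all degrees.
-/

open MvPolynomial Module

namespace Vale.Agent.P200G

open Vale.Agent.P200

universe u

/-- `m₁` is obtained from `m` by raising one exponent by one. -/
def SuccE {a b c : ℕ} (m m₁ : ExpsG a b c) : Prop :=
  ((m₁.1 : ℕ) = m.1 + 1 ∧ (m₁.2.1 : ℕ) = m.2.1 ∧ (m₁.2.2 : ℕ) = m.2.2) ∨
  ((m₁.1 : ℕ) = m.1 ∧ (m₁.2.1 : ℕ) = m.2.1 + 1 ∧ (m₁.2.2 : ℕ) = m.2.2) ∨
  ((m₁.1 : ℕ) = m.1 ∧ (m₁.2.1 : ℕ) = m.2.1 ∧ (m₁.2.2 : ℕ) = m.2.2 + 1)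

theorem SuccE.deg {a b c : ℕ} {m m₁ : ExpsG a b c} (h : SuccE m m₁) :
    expDegG m₁ = expDegG m + 1 := by
  unfold expDegG
  rcases h with h | h | h <;> omega

theorem SuccE.comp {a b c : ℕ} {m m₁ : ExpsG a b c} (h : SuccE m m₁) :
    SuccE (compE m₁) (compE m) := by
  have hi := m.1.2
  have hj := m.2.1.2
  have hk := m.2.2.2
  have hi' := m₁.1.2
  have hj' := m₁.2.1.2
  have hk' := m₁.2.2.2
  unfold SuccE at h ⊢
  simp only [compE]
  omega

theorem lexRank_eq {a b c : ℕ} (m : ExpsG a b c) (hd : expDegG m < c) :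
    lexRankG m = rk a b (expDegG m) m.1 m.2.1 := by
  rw [← card_PP m.1.2 (by unfold expDegG; omega) m.2.1.2]
  exact le_antisymm (lexRank_le m) (le_lexRank m hd)

theorem rank_succ_le {a b c : ℕ} {m m₁ : ExpsG a b c} (hd : expDegG m < c) (h : SuccE m m₁) :
    lexRankG m₁ ≤ lexRankG m + Ag a b (expDegG m) m.1 := by
  have h1 := lexRank_le m₁
  rw [h.deg] at h1
  have h2 : PP a b (expDegG m + 1) m₁.1 m₁.2.1 ⊆ PP a b (expDegG m + 1) m.1 m.2.1 := by
    apply PP_mono
    rcases h with h | h | h <;> omega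
  have h3 := Finset.card_le_card h2
  have hij : (m.1 : ℕ) + m.2.1 ≤ expDegG m := by unfold expDegG; omega
  rw [card_PP m.1.2 (by omega) m.2.1.2, rk_succ m.1.2 m.2.1.2 hij] at h3
  rw [lexRank_eq m hd]
  omega

/-- The growth statement in degree `d`. -/
def Grow {K : Type u} [Field K] (F : Ideal (S3 K)) (a b c d : ℕ) : Prop :=
  ∀ W : Submodule K (S3 K), W ≤ Sd K d → piece F d ≤ W →
    ∀ m m₁ : ExpsG a b c, expDegG m = d → SuccE m m₁ →
      lexRankG m < finrank K W - finrank K (piece F d) →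
      lexRankG m₁ < finrank K (Sd K 1 * W ⊔ piece F (d + 1) : Submodule K (S3 K))
        - finrank K (piece F (d + 1))

section dual

variable {K : Type u} [Field K] {f1 f2 f3 : S3 K} {a b c : ℕ} (hr : RegTriple f1 f2 f3)
  (h1 : f1.IsHomogeneous a) (h2 : f2.IsHomogeneous b) (h3 : f3.IsHomogeneous c) (ha : 1 ≤ a)
  (hb : 1 ≤ b) (hc : 1 ≤ c) {s : ℕ} (hs : s + 3 = a + b + c)

include hr h1 h2 h3 ha hb hc hs in
theorem grow_dual {τ : S3 K →ₗ[K] K} (hτ : TauG f1 f2 f3 s τ) {d e : ℕ} (hde : d + e + 1 = s)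
    (hG : Grow (idl f1 f2 f3) a b c e) : Grow (idl f1 f2 f3) a b c d := by
  intro W hW hFW m m₁ hm hsucc hrk
  obtain ⟨R, hRS, hFR, hd1, hd2⟩ := dual_stepG hr h1 h2 h3 ha hb hc hs hτ hde hW
  have E1 := finrank_three hr h1 h2 h3 e
  have E2 := finrank_three hr h1 h2 h3 (e + 1)
  have E3 := finrank_three hr h1 h2 h3 d
  have E4 := finrank_three hr h1 h2 h3 (d + 1)
  rw [finrank_Sd_tri] at hd1 hd2
  have S1 : HF a b c e = HF a b c (d + 1) := HF_symm (by omega) (by omega)
  have S2 : HF a b c (e + 1) = HF a b c d := HF_symm (by omega) (by omega)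
  have R1 := rank_compE (by omega) m
  have R2 := rank_compE (by omega) m₁
  rw [hm] at R1
  rw [hsucc.deg, hm] at R2
  have : Module.Finite K W := Submodule.finiteDimensional_of_le hW
  have : Module.Finite K R := Submodule.finiteDimensional_of_le hRS
  have M1 := Submodule.finrank_mono hFW
  have M2 := Submodule.finrank_mono hFR
  have M3 := Submodule.finrank_mono (le_sup_right : piece (idl f1 f2 f3) (d + 1) ≤
    Sd K 1 * W ⊔ piece (idl f1 f2 f3) (d + 1))
  have M4 := Submodule.finrank_mono (le_sup_right : piece (idl f1 f2 f3) (e + 1) ≤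
    Sd K 1 * R ⊔ piece (idl f1 f2 f3) (e + 1))
  by_contra hcon
  have hdeg : expDegG (compE m₁) = e := by
    have := expDeg_compE m₁
    have h4 := hsucc.deg
    omega
  have hG' := hG R hRS hFR (compE m₁) (compE m) hdeg hsucc.comp (by omega)
  omega

end dual

section low

variable {K : Type u} [Field K] {f1 f2 f3 : S3 K} {a b c : ℕ} {α β : K} {O : Type u} [CommRing O]
  [Algebra K O] {ρ : S3 K →ₐ[K] O} (hρ : Dehom (Qi f1 f2) (zf α β) ρ)
  (hreg : RegTriple f1 f2 (zf α β)) (hr : RegTriple f1 f2 f3)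
  (h1 : f1.IsHomogeneous a) (h2 : f2.IsHomogeneous b) (h3 : f3.IsHomogeneous c) (ha : 3 ≤ a)
  (hab : a ≤ b) (hc : c + 3 = a + b)

include h1 h2 h3 in
omit hab in
theorem piece_low {k : ℕ} (hk : k < c) : piece (idl f1 f2 f3) k = piece (Qi f1 f2) k := by
  rw [idl_eq]
  exact rec_low (homI_two h1 h2) h3 hk

include hr h1 h2 h3 ha hab hc in
theorem finrank_c : finrank K (piece (idl f1 f2 f3) c) = finrank K (piece (Qi f1 f2) c) + 1 := by
  have e1 := finrank_three hr h1 h2 h3 c
  have e2 : finrank K (piece (Qi f1 f2) c) + HR a b c = tri (c + 1) := finrank_two hr h1 h2 c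
  have e3 : HR a b 0 = 1 := HR_zero (by omega) (by omega)
  have e4 := HR_mono a b (Nat.zero_le c)
  unfold HF at e1
  rw [if_pos le_rfl, Nat.sub_self, e3] at e1
  omega

include hρ hreg hr h1 h2 h3 ha hab hc in
theorem grow_low {d : ℕ} (hd : d + 1 ≤ c) : Grow (idl f1 f2 f3) a b c d := by
  intro W hW hFW m m₁ hm hsucc hrk
  have hWf : Module.Finite K W := Submodule.finiteDimensional_of_le hW
  rw [piece_low h1 h2 h3 (by omega : d < c)] at hFW hrk
  have hrm := lexRank_eq m (by omega)
  rw [hm] at hrm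
  have hcap : Cap a b d m.1 < finrank K W - finrank K (piece (Qi f1 f2) d) := by
    have := Cap_le_rk a b d m.1 m.2.1
    omega
  have hgr := growthE hreg h1 h2 (by omega) hab d W hW hFW m.1 hcap
  have hrs := rank_succ_le (by omega : expDegG m < c) hsucc
  rw [hm] at hrs
  have hSW := S1mul_le hW
  by_cases hdc : d + 1 < c
  · rw [piece_low h1 h2 h3 hdc]
    omega
  have hdc' : c = d + 1 := by omega
  subst hdc'
  have hFc := finrank_c hr h1 h2 h3 ha hab hc
  have hle := Submodule.finrank_mono (sup_le_sup_left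
    (show piece (Qi f1 f2) (d + 1) ≤ piece (idl f1 f2 f3) (d + 1) from
      fun x hx => ⟨by
        rw [idl_eq]
        exact Ideal.mem_sup_left hx.1, hx.2⟩) (Sd K 1 * W))
  by_cases hf : f3 ∈ Sd K 1 * W ⊔ piece (Qi f1 f2) (d + 1)
  · obtain ⟨htop1, htop2⟩ := top_growth hρ hreg h1 h2 hr h3 (by omega) ha (by omega) hW hFW hf
    by_cases hWtop : W = Sd K d
    · -- everything
      have hall : Sd K (d + 1) ≤ Sd K 1 * W ⊔ piece (idl f1 f2 f3) (d + 1) := by
        intro x hx
        obtain ⟨h0, h1', h2', hh0, hh1, hh2, rfl⟩ := exists_X_decomp (d := d) hx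
        apply Submodule.mem_sup_left
        rw [hWtop]
        exact Submodule.add_mem _ (Submodule.add_mem _
          (linear_mul_mem (isHomogeneous_X _ _) hh0)
          (linear_mul_mem (isHomogeneous_X _ _) hh1))
          (linear_mul_mem (isHomogeneous_X _ _) hh2)
      have hY := le_antisymm (sup_le (S1mul_le hW) (piece_le _ _)) hall
      rw [hY, finrank_Sd_tri]
      have e1 := finrank_three hr h1 h2 h3 (d + 1)
      have e2 := rank_compE (by omega) m₁
      rw [hsucc.deg, hm] at e2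
      omega
    · by_cases hu : 2 ≤ finrank K W - finrank K (piece (Qi f1 f2) d)
      · have hgr2 := htop1 hWtop hu
        have hA : Ag a b d m.1 ≤ 2 := by
          have := Ag_le_zero a b d m.1
          rw [Ag_top2 (by omega) (by omega) (by omega)] at this
          exact this
        omega
      · have hu1 : finrank K W - finrank K (piece (Qi f1 f2) d) = 1 := by omega
        have hgr2 := htop2 hu1
        have hr0 : lexRankG m = 0 := by omega
        have hi : (m.1 : ℕ) = a - 1 := by
          by_contra hne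
          have hm1 := m.1.2
          have hcap2 : Cap a b d m.1 = 0 := by
            have := Cap_le_rk a b d m.1 m.2.1
            omega
          have hmem : a - 1 ∈ Finset.Ico ((m.1 : ℕ) + 1) a := by
            rw [Finset.mem_Ico]
            omega
          have hle2 := Finset.single_le_sum (f := fun i' => rowLen b d i') (fun _ _ => Nat.zero_le _)
            hmem
          have hpos : 0 < rowLen b d (a - 1) := by
            unfold rowLen
            omega
          unfold Cap at hcap2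
          omega
        have hA : Ag a b d m.1 ≤ 1 := by
          rw [hi, Ag_eq_succ a b d (by omega)]
          have e5 : Ag a b d (a - 1 + 1) = 0 := by
            unfold Ag
            rw [Finset.Ico_eq_empty (by omega)]
            rfl
          have := ind_le_one b d (a - 1)
          omega
        omega
  · -- `f3` is new
    have hlt : Sd K 1 * W ⊔ piece (Qi f1 f2) (d + 1) < Sd K 1 * W ⊔ piece (idl f1 f2 f3) (d + 1) := by
      refine lt_of_le_of_ne (sup_le_sup_left (fun x hx => ⟨by
        rw [idl_eq]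
        exact Ideal.mem_sup_left hx.1, hx.2⟩) _) ?_
      intro heq
      apply hf
      rw [heq]
      apply Submodule.mem_sup_right
      refine ⟨Ideal.subset_span ?_, h3⟩
      simp
    have hlt2 := Submodule.finrank_lt_finrank_of_lt hlt
    omega

end low

section all

variable {K : Type u} [Field K] {f1 f2 f3 : S3 K} {a b c : ℕ} {α β : K} {O : Type u} [CommRing O]
  [Algebra K O] {ρ : S3 K →ₐ[K] O} (hρ : Dehom (Qi f1 f2) (zf α β) ρ)
  (hreg : RegTriple f1 f2 (zf α β)) (hr : RegTriple f1 f2 f3)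
  (h1 : f1.IsHomogeneous a) (h2 : f2.IsHomogeneous b) (h3 : f3.IsHomogeneous c) (ha : 3 ≤ a)
  (hab : a ≤ b) (hc : c + 3 = a + b)

include hρ hreg hr h1 h2 h3 ha hab hc in
/-- The growth statement in all degrees. -/
theorem grow_all (d : ℕ) : Grow (idl f1 f2 f3) a b c d := by
  by_cases hd : d + 1 ≤ c
  · exact grow_low hρ hreg hr h1 h2 h3 ha hab hc hd
  by_cases hd2 : d + 1 ≤ a + b + c - 3
  · obtain ⟨τ, hτ⟩ := exists_tauG (s := a + b + c - 3) hr h1 h2 h3 (by omega) (by omega) (by omega)
      (by omega)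
    exact grow_dual hr h1 h2 h3 (by omega) (by omega) (by omega) (s := a + b + c - 3) (by omega) hτ
      (e := a + b + c - 3 - 1 - d) (by omega)
      (grow_low hρ hreg hr h1 h2 h3 ha hab hc (by omega))
  · intro W _ _ m m₁ hm hsucc _
    exfalso
    have h4 := hsucc.deg
    have h5 := m₁.1.2
    have h6 := m₁.2.1.2
    have h7 := m₁.2.2.2
    unfold expDegG at h4
    unfold expDegG at hm
    omega

end all

end Vale.Agent.P200G
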