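import Vale.Agent.Lib.P200G_Grow

/-!
Over an infinite field there is a linear form `z + α x + β y` regular modulo `(f1, f2)`.
-/

open MvPolynomial Module

namespace Vale.Agent.P200G

open Vale.Agent.P200

variable {K : Type*} [Field K]

theorem exists_linear_eq {v : S3 K} (hv : v.IsHomogeneous 1) :
    ∃ c0 c1 c2 : K, v = C c0 * X 0 + C c1 * X 1 + C c2 * X 2 := by
  obtain ⟨h0, h1, h2, hh0, hh1, hh2, rfl⟩ := exists_X_decomp (d := 0) hv
  have key : ∀ h : S3 K, h.IsHomogeneous 0 → ∃ c : K, h = C c := by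
    intro h hh
    exact ⟨_, totalDegree_eq_zero_iff_eq_C.mp (hh.totalDegree_le.antisymm (Nat.zero_le _)
      |> fun e => e)⟩
  obtain ⟨c0, rfl⟩ := key h0 hh0
  obtain ⟨c1, rfl⟩ := key h1 hh1
  obtain ⟨c2, rfl⟩ := key h2 hh2
  exact ⟨c0, c1, c2, by ring⟩

theorem exists_zf [Infinite K] {f1 f2 f3 : S3 K} {c : ℕ} (hr : RegTriple f1 f2 f3)
    (h3 : f3.IsHomogeneous (c + 1)) : ∃ α β : K, RegTriple f1 f2 (zf α β) := by
  classical
  set Q : Ideal (S3 K) := Ideal.span ({f1, f2} : Set (S3 K)) with hQ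
  have hfin : (associatedPrimes (S3 K) (S3 K ⧸ Q)).Finite := associatedPrimes.finite _ _
  have hun := biUnion_associatedPrimes_eq_zero_divisors (S3 K) (S3 K ⧸ Q)
  have hzd : ∀ r g : S3 K, g ∉ Q → r * g ∈ Q → ∃ P ∈ associatedPrimes (S3 K) (S3 K ⧸ Q), r ∈ P := by
    intro r g hg hrg
    have : r ∈ {r : S3 K | ∃ x : S3 K ⧸ Q, x ≠ 0 ∧ r • x = 0} := by
      refine ⟨Ideal.Quotient.mk Q g, ?_, ?_⟩
      · rwa [Ne, Ideal.Quotient.eq_zero_iff_mem]
      · change Ideal.Quotient.mk Q (r * g) = 0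
        rw [Ideal.Quotient.eq_zero_iff_mem]
        exact hrg
    rw [← hun] at this
    simp only [Set.mem_iUnion] at this
    obtain ⟨P, hP, hr'⟩ := this
    exact ⟨P, hP, hr'⟩
  have hzd' : ∀ P ∈ associatedPrimes (S3 K) (S3 K ⧸ Q), ∀ r ∈ P,
      ∃ g : S3 K, g ∉ Q ∧ r * g ∈ Q := by
    intro P hP r hrP
    have : r ∈ {r : S3 K | ∃ x : S3 K ⧸ Q, x ≠ 0 ∧ r • x = 0} := by
      rw [← hun]
      simp only [Set.mem_iUnion]
      exact ⟨P, hP, hrP⟩
    obtain ⟨x, hx, hrx⟩ := this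
    obtain ⟨g, rfl⟩ := Ideal.Quotient.mk_surjective x
    refine ⟨g, ?_, ?_⟩
    · rwa [Ne, Ideal.Quotient.eq_zero_iff_mem] at hx
    · change Ideal.Quotient.mk Q (r * g) = 0 at hrx
      rwa [Ideal.Quotient.eq_zero_iff_mem] at hrx
  have hf3 : ∀ g : S3 K, f3 * g ∈ Q → g ∈ Q := by
    intro g hg
    rw [hQ, Ideal.mem_span_pair] at hg ⊢
    obtain ⟨u, v, e⟩ := hg
    obtain ⟨u', v', e'⟩ := hr.reg3 g u v (by rw [← e]; ring)
    exact ⟨u', v', by rw [e']; ring⟩
  let E := ↥(Sd K 1)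
  let VP : Ideal (S3 K) → Subspace K E := fun P => (P.restrictScalars K).comap (Sd K 1).subtype
  let ev : E →ₗ[K] K := (aeval ![(0 : K), 0, 1] : S3 K →ₐ[K] K).toLinearMap.comp (Sd K 1).subtype
  let U : Subspace K E := LinearMap.ker ev
  let s : Finset (Subspace K E) := insert U (hfin.toFinset.image VP)
  have hs : (⊤ : Subspace K E) ∉ s := by
    intro htop
    rcases Finset.mem_insert.mp htop with h | h
    · have hX : (⟨X 2, isHomogeneous_X _ _⟩ : E) ∈ U := by
        rw [← h]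
        trivial
      have := LinearMap.mem_ker.mp hX
      simp [ev] at this
    · obtain ⟨P, hP, hPtop⟩ := Finset.mem_image.mp h
      have hP' := hfin.mem_toFinset.mp hP
      have hX : ∀ t : Fin 3, (X t : S3 K) ∈ P := by
        intro t
        have : (⟨X t, isHomogeneous_X _ _⟩ : E) ∈ VP P := by
          rw [hPtop]
          trivial
        exact this
      have hf3P : f3 ∈ P := by
        obtain ⟨h0, h1, h2, _, _, _, e⟩ := exists_X_decomp h3
        rw [e]
        exact P.add_mem (P.add_mem (P.mul_mem_right _ (hX 0)) (P.mul_mem_right _ (hX 1)))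
          (P.mul_mem_right _ (hX 2))
      obtain ⟨g, hg, hg'⟩ := hzd' P hP' f3 hf3P
      exact hg (hf3 g hg')
  have hne := Subspace.biUnion_ne_univ_of_top_notMem hs
  obtain ⟨v, hv⟩ : ∃ v : E, v ∉ ⋃ p ∈ s, (p : Set E) := by
    by_contra hcon
    push Not at hcon
    exact hne (Set.eq_univ_of_forall hcon)
  simp only [Set.mem_iUnion, not_exists] at hv
  have hvU : v ∉ U := fun h => hv U (Finset.mem_insert_self _ _) h
  have hvP : ∀ P ∈ associatedPrimes (S3 K) (S3 K ⧸ Q), (v : S3 K) ∉ P := by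
    intro P hP hmem
    refine hv (VP P) (Finset.mem_insert_of_mem (Finset.mem_image.mpr ⟨P, ?_, rfl⟩)) hmem
    exact hfin.mem_toFinset.mpr hP
  obtain ⟨c0, c1, c2, hvE⟩ := exists_linear_eq v.2
  have hc2 : c2 ≠ 0 := by
    rintro rfl
    apply hvU
    rw [LinearMap.mem_ker]
    show (aeval ![(0 : K), 0, 1] : S3 K →ₐ[K] K) (v : S3 K) = 0
    rw [hvE]
    simp
  have hz : (v : S3 K) = C c2 * zf (c0 / c2) (c1 / c2) := by
    rw [hvE]
    unfold zf
    have e1 : C c2 * C (c0 / c2) = (C c0 : S3 K) := by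
      rw [← C_mul]
      congr 1
      field_simp
    have e2 : C c2 * C (c1 / c2) = (C c1 : S3 K) := by
      rw [← C_mul]
      congr 1
      field_simp
    linear_combination (-(X 0 : S3 K)) * e1 - (X 1 : S3 K) * e2
  refine ⟨c0 / c2, c1 / c2, hr.ne, hr.reg2, ?_⟩
  intro g u w e
  have hg : g ∈ Q := by
    by_contra hg
    have hgv : (v : S3 K) * g ∈ Q := by
      rw [hz, mul_assoc, e]
      apply Ideal.mul_mem_left
      rw [hQ, Ideal.mem_span_pair]
      exact ⟨u, w, by ring⟩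
    obtain ⟨P, hP, hvmem⟩ := hzd _ g hg hgv
    exact hvP P hP hvmem
  rw [hQ, Ideal.mem_span_pair] at hg
  obtain ⟨u', v', e'⟩ := hg
  exact ⟨u', v', by rw [← e']; ring⟩

end Vale.Agent.P200G
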