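import Mathlib

/-!
Two small linear algebra lemmas over a field: spaces of singular pencils of pairs of vectors,
and vectors parallel to two independent coefficient vectors.
-/

namespace Vale.Agent.P200

variable {K : Type*} [Field K] {M : Type*} [AddCommGroup M] [Module K M]

/-- core case: a normalized configuration with `α i0 = 0`, `β i0 = e ≠ 0`. -/
theorem singular_core {ι : Type*} (α β : ι → M) {i0 j0 : ι} {e : M}
    (hα0 : α i0 = 0) (hβ0 : β i0 = e) (he : e ≠ 0) (hj0 : α j0 ≠ 0)
    (h1 : ∀ i, ∃ s t : K, (s ≠ 0 ∨ t ≠ 0) ∧ s • α i + t • β i = 0)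
    (h2 : ∀ i j, ∃ s t : K, (s ≠ 0 ∨ t ≠ 0) ∧ s • (α i + α j) + t • (β i + β j) = 0) :
    ∀ i, (∃ x : K, α i = x • e) ∧ (∃ y : K, β i = y • e) := by
  -- Claim 1: all `α j` are multiples of `e`.
  have c1 : ∀ j, ∃ x : K, α j = x • e := by
    intro j
    by_contra hne
    push Not at hne
    have hαj : α j ≠ 0 := by
      intro h0
      exact hne 0 (by simp [h0])
    obtain ⟨s, t, hst, hz⟩ := h1 j
    have ht : t ≠ 0 := by
      intro ht
      simp only [ht, zero_smul, add_zero] at hz
      rcases hst with hs | hs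
      · rcases smul_eq_zero.mp hz with h | h
        · exact hs h
        · exact hαj h
      · exact hs ht
    have hβj : β j = (-(s / t)) • α j := by
      have : t • β j = (-s) • α j := by
        rw [neg_smul]; exact eq_neg_of_add_eq_zero_right hz
      calc β j = t⁻¹ • (t • β j) := by rw [smul_smul, inv_mul_cancel₀ ht, one_smul]
        _ = t⁻¹ • ((-s) • α j) := by rw [this]
        _ = (-(s / t)) • α j := by rw [smul_smul]; congr 1; field_simp
    obtain ⟨s', t', hst', hz'⟩ := h2 j i0
    rw [hα0, hβ0, hβj, add_zero] at hz'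
    -- (s' - t' p) α j + t' e = 0
    have hz'' : (s' + t' * (-(s / t))) • α j + t' • e = 0 := by
      rw [← hz', smul_add, add_smul, mul_smul]
      abel
    by_cases ht' : t' = 0
    · simp only [ht', zero_mul, add_zero, zero_smul] at hz''
      rcases smul_eq_zero.mp hz'' with h | h
      · rcases hst' with hs' | hs'
        · exact hs' h
        · exact hs' ht'
      · exact hαj h
    · -- e is a multiple of α j
      have hc : s' + t' * (-(s / t)) ≠ 0 := by
        intro hc
        rw [hc, zero_smul, zero_add] at hz''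
        rcases smul_eq_zero.mp hz'' with h | h
        · exact ht' h
        · exact he h
      apply hne ((-(s' + t' * (-(s / t))))⁻¹ * t')
      have : (s' + t' * (-(s / t))) • α j = (-t') • e := by
        rw [neg_smul]; exact eq_neg_of_add_eq_zero_left hz''
      calc α j = (s' + t' * (-(s / t)))⁻¹ • ((s' + t' * (-(s / t))) • α j) := by
            rw [smul_smul, inv_mul_cancel₀ hc, one_smul]
        _ = (s' + t' * (-(s / t)))⁻¹ • ((-t') • e) := by rw [this]
        _ = _ := by
            rw [smul_smul]; congr 1; rw [inv_neg]; ring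
  -- Claim 2: all `β j` are multiples of `e`.
  have c2 : ∀ j, ∃ y : K, β j = y • e := by
    intro j1
    by_contra hne
    push Not at hne
    obtain ⟨x1, hx1⟩ := c1 j1
    obtain ⟨x0, hx0⟩ := c1 j0
    have hx0ne : x0 ≠ 0 := by
      rintro rfl
      exact hj0 (by simp [hx0])
    -- `α j1 = 0`
    have hα1 : x1 = 0 := by
      obtain ⟨s, t, hst, hz⟩ := h1 j1
      by_cases ht : t = 0
      · simp only [ht, zero_smul, add_zero, hx1, smul_smul] at hz
        rcases smul_eq_zero.mp hz with h | h
        · rcases mul_eq_zero.mp h with h' | h'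
          · rcases hst with hs | hs
            · exact absurd h' hs
            · exact absurd ht hs
          · exact h'
        · exact absurd h he
      · exfalso
        apply hne ((-(t⁻¹)) * (s * x1))
        have : t • β j1 = (-(s * x1)) • e := by
          rw [neg_smul]
          rw [hx1, smul_smul] at hz
          exact eq_neg_of_add_eq_zero_right hz
        calc β j1 = t⁻¹ • (t • β j1) := by rw [smul_smul, inv_mul_cancel₀ ht, one_smul]
          _ = t⁻¹ • ((-(s * x1)) • e) := by rw [this]
          _ = _ := by rw [smul_smul]; congr 1; ring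
    -- `β j0` is a multiple of `e`
    obtain ⟨z, hz⟩ : ∃ z : K, β j0 = z • e := by
      obtain ⟨s, t, hst, hz⟩ := h1 j0
      have ht : t ≠ 0 := by
        rintro rfl
        simp only [zero_smul, add_zero, hx0, smul_smul] at hz
        rcases smul_eq_zero.mp hz with h | h
        · rcases mul_eq_zero.mp h with h' | h'
          · rcases hst with hs | hs
            · exact hs h'
            · exact hs rfl
          · exact hx0ne h'
        · exact he h
      refine ⟨-(t⁻¹) * (s * x0), ?_⟩
      rw [hx0, smul_smul] at hz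
      have : t • β j0 = (-(s * x0)) • e := by
        rw [neg_smul]; exact eq_neg_of_add_eq_zero_right hz
      calc β j0 = t⁻¹ • (t • β j0) := by rw [smul_smul, inv_mul_cancel₀ ht, one_smul]
        _ = t⁻¹ • ((-(s * x0)) • e) := by rw [this]
        _ = _ := by rw [smul_smul]; congr 1; ring
    -- the combination `j0 + j1` is nonsingular
    obtain ⟨s, t, hst, hw⟩ := h2 j0 j1
    rw [hx0, hx1, hα1, hz, zero_smul, add_zero, smul_add, smul_smul, smul_smul, ← add_assoc,
      ← add_smul] at hw
    by_cases ht : t = 0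
    · simp only [ht, zero_mul, add_zero, zero_smul] at hw
      rcases smul_eq_zero.mp hw with h | h
      · rcases mul_eq_zero.mp h with h' | h'
        · rcases hst with hs | hs
          · exact hs h'
          · exact hs ht
        · exact hx0ne h'
      · exact he h
    · apply hne ((-(t⁻¹)) * (s * x0 + t * z))
      have : t • β j1 = (-(s * x0 + t * z)) • e := by
        rw [neg_smul]; exact eq_neg_of_add_eq_zero_right hw
      calc β j1 = t⁻¹ • (t • β j1) := by rw [smul_smul, inv_mul_cancel₀ ht, one_smul]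
        _ = t⁻¹ • ((-(s * x0 + t * z)) • e) := by rw [this]
        _ = _ := by rw [smul_smul]; congr 1; ring
  exact fun i => ⟨c1 i, c2 i⟩

/-- case where the kernel of `i0` has nonzero first coordinate -/
theorem singular_aux {ι : Type*} (α β : ι → M)
    (nokill : ∀ s t : K, (∀ i, s • α i + t • β i = 0) → s = 0 ∧ t = 0)
    {i0 : ι} (hi0 : α i0 ≠ 0) {s0 t0 : K} (hs0 : s0 ≠ 0) (h00 : s0 • α i0 + t0 • β i0 = 0)
    (h1 : ∀ i, ∃ s t : K, (s ≠ 0 ∨ t ≠ 0) ∧ s • α i + t • β i = 0)
    (h2 : ∀ i j, ∃ s t : K, (s ≠ 0 ∨ t ≠ 0) ∧ s • (α i + α j) + t • (β i + β j) = 0) :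
    ∃ e : M, ∀ i, (∃ x : K, α i = x • e) ∧ (∃ y : K, β i = y • e) := by
  set α' : ι → M := fun i => s0 • α i + t0 • β i with hα'
  have hβi0 : β i0 ≠ 0 := by
    intro h
    rw [h, smul_zero, add_zero] at h00
    rcases smul_eq_zero.mp h00 with h' | h'
    · exact hs0 h'
    · exact hi0 h'
  -- nokill at (s0,t0)
  have hj : ∃ j0, α' j0 ≠ 0 := by
    by_contra hall
    push Not at hall
    exact hs0 (nokill s0 t0 hall).1
  obtain ⟨j0, hj0⟩ := hj
  -- change of basis
  have conv : ∀ (a b : M) (s t : K), s • a + t • b = (s / s0) • (s0 • a + t0 • b)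
      + (t - s / s0 * t0) • b := by
    intro a b s t
    rw [smul_add, smul_smul, smul_smul, div_mul_cancel₀ _ hs0, sub_smul, add_assoc, add_sub_cancel]
  have nz : ∀ s t : K, (s ≠ 0 ∨ t ≠ 0) → (s / s0 ≠ 0 ∨ (t - s / s0 * t0) ≠ 0) := by
    intro s t hst
    by_contra h
    push Not at h
    obtain ⟨h1', h2'⟩ := h
    have hs : s = 0 := by
      rcases div_eq_zero_iff.mp h1' with h | h
      · exact h
      · exact absurd h hs0
    have ht : t = 0 := by
      rw [h1', zero_mul, sub_zero] at h2'
      exact h2'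
    rcases hst with h | h
    · exact h hs
    · exact h ht
  have key := singular_core (K := K) α' β (i0 := i0) (j0 := j0) (e := β i0) h00 rfl hβi0 hj0
    (by
      intro i
      obtain ⟨s, t, hst, hz⟩ := h1 i
      exact ⟨_, _, nz s t hst, by rw [← hz, conv (α i) (β i) s t]⟩)
    (by
      intro i j
      obtain ⟨s, t, hst, hz⟩ := h2 i j
      refine ⟨_, _, nz s t hst, ?_⟩
      rw [← hz, conv (α i + α j) (β i + β j) s t]
      simp only [hα', smul_add]
      abel)
  refine ⟨β i0, fun i => ⟨?_, (key i).2⟩⟩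
  obtain ⟨⟨x, hx⟩, ⟨y, hy⟩⟩ := key i
  refine ⟨s0⁻¹ * (x - t0 * y), ?_⟩
  have : s0 • α i = (x - t0 * y) • β i0 := by
    have h3 : s0 • α i + t0 • β i = x • β i0 := hx
    rw [hy, smul_smul] at h3
    rw [sub_smul, ← h3]
    abel
  calc α i = s0⁻¹ • (s0 • α i) := by rw [smul_smul, inv_mul_cancel₀ hs0, one_smul]
    _ = s0⁻¹ • ((x - t0 * y) • β i0) := by rw [this]
    _ = _ := by rw [smul_smul]

/-- A family of singular pairs (closed under sums of two members), without common kernel, has all
its vectors in one line. -/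
theorem singular_pairs {ι : Type*} (α β : ι → M)
    (nokill : ∀ s t : K, (∀ i, s • α i + t • β i = 0) → s = 0 ∧ t = 0)
    (h1 : ∀ i, ∃ s t : K, (s ≠ 0 ∨ t ≠ 0) ∧ s • α i + t • β i = 0)
    (h2 : ∀ i j, ∃ s t : K, (s ≠ 0 ∨ t ≠ 0) ∧ s • (α i + α j) + t • (β i + β j) = 0) :
    ∃ e : M, ∀ i, (∃ x : K, α i = x • e) ∧ (∃ y : K, β i = y • e) := by
  -- some `α i0` is nonzero
  have hi : ∃ i0, α i0 ≠ 0 := by
    by_contra hall
    push Not at hall
    have := nokill 1 0 (by intro i; simp [hall i])
    exact one_ne_zero this.1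
  obtain ⟨i0, hi0⟩ := hi
  obtain ⟨s0, t0, hst0, h00⟩ := h1 i0
  by_cases hs0 : s0 = 0
  · -- then β i0 = 0 : swap the roles
    have ht0 : t0 ≠ 0 := by
      rcases hst0 with h | h
      · exact absurd hs0 h
      · exact h
    -- apply the main argument directly with `α`, `β` swapped, kernel (t0,0)
    rw [hs0, zero_smul, zero_add] at h00
    have hβ : β i0 = 0 := (smul_eq_zero.mp h00).resolve_left ht0
    have hj : ∃ j0, β j0 ≠ 0 := by
      by_contra hall
      push Not at hall
      have := nokill 0 1 (by intro i; simp [hall i])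
      exact one_ne_zero this.2
    obtain ⟨j0, hj0⟩ := hj
    have key := singular_core (K := K) β α (i0 := i0) (j0 := j0) (e := α i0) hβ rfl hi0 hj0
      (by
        intro i
        obtain ⟨s, t, hst, hz⟩ := h1 i
        exact ⟨t, s, hst.symm, by rw [add_comm]; exact hz⟩)
      (by
        intro i j
        obtain ⟨s, t, hst, hz⟩ := h2 i j
        exact ⟨t, s, hst.symm, by rw [add_comm]; exact hz⟩)
    exact ⟨α i0, fun i => ⟨(key i).2, (key i).1⟩⟩
  · exact singular_aux α β nokill hi0 hs0 h00 h1 h2

/-- vectors parallel to two independent coefficient vectors vanish -/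
theorem parallel_zero (ρa ρb : Fin 3 → K) (γ : Fin 3 → M)
    (nk : ∀ s t : K, (∀ i, s * ρa i + t * ρb i = 0) → s = 0 ∧ t = 0)
    (h1 : ∀ i j, ρa i • γ j = ρa j • γ i) (h2 : ∀ i j, ρb i • γ j = ρb j • γ i) (j : Fin 3) :
    γ j = 0 := by
  have hm : ∃ i k, ρa i * ρb k - ρa k * ρb i ≠ 0 := by
    by_contra hall
    push Not at hall
    have hi1 : ∃ i1, ρa i1 ≠ 0 := by
      by_contra hall'
      push Not at hall'
      have := nk 1 0 (by intro i; simp [hall' i])
      exact one_ne_zero this.1
    obtain ⟨i1, hi1⟩ := hi1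
    have := nk (ρb i1) (-ρa i1) (by
      intro j
      have := hall i1 j
      linear_combination -this)
    exact hi1 (neg_eq_zero.mp this.2)
  obtain ⟨i, k, hik⟩ := hm
  have : (ρa i * ρb k - ρa k * ρb i) • γ j = 0 := by
    rw [sub_smul, mul_smul, mul_smul, h2 k j, h2 i j, smul_comm (ρa i), smul_comm (ρa k), h1 i k,
      sub_self]
  exact (smul_eq_zero.mp this).resolve_left hik

end Vale.Agent.P200
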