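import Mathlib
import Vale.Agent.Lib.P200_Low
import Vale.Agent.Lib.P200_LinAlg

/-!
The growth estimates in degrees zero, one and two.
-/

open MvPolynomial Module

namespace Vale.Agent.P200

variable {K : Type*} [Field K]

instance mul_finite (M N : Submodule K (S3 K)) [Module.Finite K M] [Module.Finite K N] :
    Module.Finite K (M * N : Submodule K (S3 K)) :=
  Module.Finite.iff_fg.mpr ((Module.Finite.iff_fg.mp inferInstance).mul (Module.Finite.iff_fg.mp inferInstance))

theorem finrank_sup_singleton {p : Submodule K (S3 K)} [Module.Finite K p] {v : S3 K} (hv : v ∉ p) :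
    finrank K (p ⊔ Submodule.span K {v} : Submodule K (S3 K)) = finrank K p + 1 := by
  have hv0 : v ≠ 0 := by
    rintro rfl
    exact hv (Submodule.zero_mem _)
  have h := Submodule.finrank_sup_add_finrank_inf_eq p (Submodule.span K {v})
  have hinf : p ⊓ Submodule.span K {v} = ⊥ := by
    rw [eq_bot_iff]
    rintro x ⟨hx1, hx2⟩
    obtain ⟨a, rfl⟩ := Submodule.mem_span_singleton.mp hx2
    by_cases ha : a = 0
    · simp [ha]
    · exact absurd ((Submodule.smul_mem_iff _ ha).mp hx1) hv
  rw [hinf, finrank_bot, add_zero, finrank_span_singleton hv0] at h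
  exact h

/-- an element of a larger subspace outside a smaller one -/
theorem exists_not_mem_of_finrank_lt {A W : Submodule K (S3 K)} [Module.Finite K A]
    [Module.Finite K W] (h : finrank K A < finrank K W) : ∃ x ∈ W, x ∉ A := by
  by_contra hall
  push Not at hall
  have : W ≤ A := hall
  have := Submodule.finrank_mono this
  omega

theorem exists_g {F A : Submodule K (S3 K)} [Module.Finite K F] (hA : A ≤ F) {f : S3 K} (hf : f ∈ F)
    (hf0 : f ≠ 0) (hd : finrank K F ≤ finrank K A + 1) :
    ∃ g, g ∈ F ∧ g ≠ 0 ∧ F ≤ A ⊔ Submodule.span K {g} := by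
  have : Module.Finite K A := Submodule.finiteDimensional_of_le hA
  by_cases h : F ≤ A
  · exact ⟨f, hf, hf0, h.trans le_sup_left⟩
  · obtain ⟨x, hx, hxA⟩ := Set.not_subset.mp h
    have hx0 : x ≠ 0 := by
      rintro rfl
      exact hxA (Submodule.zero_mem _)
    refine ⟨x, hx, hx0, ?_⟩
    have hle : A ⊔ Submodule.span K {x} ≤ F :=
      sup_le hA ((Submodule.span_singleton_le_iff_mem _ _).mpr hx)
    have heq : A ⊔ Submodule.span K {x} = F := by
      apply Submodule.eq_of_le_of_finrank_le hle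
      rw [finrank_sup_singleton hxA]
      exact hd
    exact heq.ge

section main
variable {f0 f1 f2 : S3 K} (hf : CubicReg f0 f1 f2)
include hf

theorem f0_mem : f0 ∈ piece (idl f0 f1 f2) 3 := ⟨Ideal.subset_span (by simp), hf.h0⟩

/-- a multiple of a form of small degree contains at most one dimension of cubics of the ideal -/
theorem inf_F3_le_one {a : S3 K} (ha : a ≠ 0) {α k β : ℕ} (hA : a.IsHomogeneous α) (hk : α + k = 4)
    (hβ : α + β = 3) (hnum : finrank K (Sd K (3 + k)) + 15 < 36 + finrank K (Sd K k)) :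
    finrank K (mulS a β ⊓ piece (idl f0 f1 f2) 3 : Submodule K (S3 K)) ≤ 1 := by
  by_contra hlt
  push Not at hlt
  obtain ⟨g, hg, hg0, hle⟩ := exists_g (F := piece (idl f0 f1 f2) 3)
    (A := mulS a β ⊓ piece (idl f0 f1 f2) 3) inf_le_right (f0_mem hf) hf.reg.ne
    (by rw [finrank_piece3 hf]; omega)
  have h7 : Sd K 7 ≤ mulS a (3 + k) ⊔ mulS g 4 := by
    refine (Sd7_le_mul hf).trans ?_
    rw [Submodule.mul_le]
    intro h hh x hx
    obtain ⟨y, hy, z, hz, rfl⟩ := Submodule.mem_sup.mp (hle hx)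
    rw [mul_add]
    obtain ⟨κ, rfl⟩ := Submodule.mem_span_singleton.mp hz
    refine Submodule.add_mem _ (Submodule.mem_sup_left ?_) (Submodule.mem_sup_right ?_)
    · obtain ⟨s, hs, rfl⟩ := mem_mulS.mp hy.1
      rw [show h * (a * s) = a * (h * s) by ring]
      exact mul_mem_mulS (by have := hh.mul hs; rwa [show 4 + β = 3 + k by omega] at this)
    · rw [mul_smul_comm, mul_comm, ← mul_smul_comm, smul_eq_C_mul]
      exact mul_mem_mulS (hh.C_mul κ)
  have h36 := Submodule.finrank_mono h7
  have htwo := twoGen ha hg0 hA hg.2 k (3 + k) 4 rfl (by omega)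
  rw [finrank_Sd7] at h36
  rw [finrank_Sd4] at htwo
  omega

theorem add_two_le {T : Submodule K (S3 K)} [Module.Finite K T] {a : S3 K} {β : ℕ}
    (hT : T ≤ mulS a β)
    (hinf : finrank K (mulS a β ⊓ piece (idl f0 f1 f2) 3 : Submodule K (S3 K)) ≤ 1) :
    finrank K T + 2 ≤ finrank K (T ⊔ piece (idl f0 f1 f2) 3 : Submodule K (S3 K)) := by
  have h := Submodule.finrank_sup_add_finrank_inf_eq T (piece (idl f0 f1 f2) 3)
  rw [finrank_piece3 hf] at h
  have h2 : finrank K (T ⊓ piece (idl f0 f1 f2) 3 : Submodule K (S3 K))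
      ≤ finrank K (mulS a β ⊓ piece (idl f0 f1 f2) 3 : Submodule K (S3 K)) :=
    Submodule.finrank_mono (inf_le_inf_right _ hT)
  omega

end main

theorem mulS_le_mul {W : Submodule K (S3 K)} {q : S3 K} (hq : q ∈ W) (k : ℕ) :
    mulS q k ≤ Sd K k * W := by
  intro x hx
  obtain ⟨s, hs, rfl⟩ := mem_mulS.mp hx
  rw [mul_comm q s]
  exact Submodule.mul_mem_mul hs hq

theorem Qk_le_mul {W : Submodule K (S3 K)} {q q' : S3 K} (hq : q ∈ W) (hq' : q' ∈ W) (k : ℕ) :
    Qk q q' k ≤ Sd K k * W :=
  sup_le (mulS_le_mul hq k) (mulS_le_mul hq' k)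

theorem Sd_mul_mul {i j : ℕ} {V : Submodule K (S3 K)} :
    Sd K i * (Sd K j * V) ≤ Sd K (i + j) * V := by
  rw [← mul_assoc, Submodule.mul_le]
  intro x hx v hv
  exact Submodule.mul_mem_mul (homogeneousSubmodule_mul i j hx) hv

section main2
variable {f0 f1 f2 : S3 K} (hf : CubicReg f0 f1 f2)
include hf

/-- If multiplication by linear forms on `V` persists then the cubics of the ideal are not all
in the degree three part of the ideal generated by `V` and the good pair. -/
theorem F3_not_le {q q' : S3 K} (hG : Good q q') {V : Submodule K (S3 K)} (hV : V ≤ Sd K 2)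
    (hdim : finrank K V ≤ 3) {l : S3 K} (hl : l.IsHomogeneous 1)
    (h : ∀ (i : Fin 3), ∀ v ∈ V, X i * v ∈ V.map (LinearMap.mulLeft K l) ⊔ Qk q q' 1) :
    ¬ piece (idl f0 f1 f2) 3 ≤ Qk q q' 1 ⊔ Sd K 1 * V := by
  intro hle
  have : Module.Finite K V := Submodule.finiteDimensional_of_le hV
  have h7 : Sd K 7 ≤ V.map (LinearMap.mulLeft K (l ^ 5)) ⊔ Qk q q' 5 := by
    refine (Sd7_le_mul hf).trans ?_
    rw [Submodule.mul_le]
    intro h' hh x hx
    obtain ⟨y, hy, z, hz, rfl⟩ := Submodule.mem_sup.mp (hle hx)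
    rw [mul_add]
    have hh' : h'.IsHomogeneous 4 := hh
    have hy' : h' * y ∈ Qk q q' (4 + 1) := Qk_mul (j := 4) (k := 1) hh' hy
    refine Submodule.add_mem _ (Submodule.mem_sup_right hy') ?_
    have h5 : Sd K 4 * (Sd K 1 * V) ≤ Sd K 5 * V := Sd_mul_mul
    exact persist hl h 5 (h5 (Submodule.mul_mem_mul hh hz))
  have h36 := Submodule.finrank_mono h7
  rw [finrank_Sd7] at h36
  have h1 := Submodule.finrank_add_le_finrank_add_finrank
    (V.map (LinearMap.mulLeft K (l ^ 5))) (Qk q q' 5)
  have h2 : finrank K (V.map (LinearMap.mulLeft K (l ^ 5))) ≤ finrank K V :=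
    Submodule.finrank_map_le _ _
  have h3 := hG.finrank_Qk5
  omega

theorem F3_not_le_Qk {q q' : S3 K} (hG : Good q q') :
    ¬ piece (idl f0 f1 f2) 3 ≤ Qk q q' 1 := by
  intro hle
  have := F3_not_le hf hG (V := ⊥) bot_le (by simp) (l := X 0) (isHomogeneous_X _ _)
    (by
      intro i v hv
      rw [Submodule.mem_bot] at hv
      rw [hv, mul_zero]
      exact Submodule.zero_mem _)
  apply this
  exact hle.trans le_sup_left

omit hf in
/-- Strict growth when `F3` is not contained in `T`. -/
theorem succ_le_of_not_le {T : Submodule K (S3 K)} [Module.Finite K T]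
    (hn : ¬ piece (idl f0 f1 f2) 3 ≤ T) :
    finrank K T + 1 ≤ finrank K (T ⊔ piece (idl f0 f1 f2) 3 : Submodule K (S3 K)) := by
  have hlt : T < T ⊔ piece (idl f0 f1 f2) 3 := by
    refine lt_of_le_of_ne le_sup_left ?_
    intro he
    exact hn (he ▸ le_sup_right)
  exact Submodule.finrank_lt_finrank_of_lt hlt

/-- Case of a good pair and one more form. -/
theorem U3 {q q' r : S3 K} (hG : Good q q') (hr : r.IsHomogeneous 2) (hr' : r ∉ Qk q q' 0) :
    8 ≤ finrank K (Qk q q' 1 ⊔ Sd K 1 * Submodule.span K {r} ⊔ piece (idl f0 f1 f2) 3 :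
      Submodule K (S3 K)) := by
  have hexi : ∃ i : Fin 3, X i * r ∉ Qk q q' 1 := by
    by_contra hall
    push Not at hall
    exact hr' (hG.noSocle (k := 0) hr hall)
  obtain ⟨i, hi⟩ := hexi
  set V : Submodule K (S3 K) := Submodule.span K {r} with hV
  have hVle : V ≤ Sd K 2 := (Submodule.span_singleton_le_iff_mem _ _).mpr hr
  have hrV : r ∈ V := Submodule.mem_span_singleton_self r
  have hXV : ∀ j : Fin 3, X j * r ∈ Sd K 1 * V := fun j =>
    Submodule.mul_mem_mul (isHomogeneous_X _ j) hrV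
  set T1 : Submodule K (S3 K) := Qk q q' 1 ⊔ Submodule.span K {X i * r} with hT1
  have hT1f : finrank K T1 = 7 := by
    rw [hT1, finrank_sup_singleton hi, hG.finrank_Qk1]
  have hT1le : T1 ≤ Qk q q' 1 ⊔ Sd K 1 * V :=
    sup_le le_sup_left ((Submodule.span_singleton_le_iff_mem _ _).mpr (Submodule.mem_sup_right (hXV i)))
  by_cases H : ∀ j : Fin 3, X j * r ∈ T1
  · have hper : ∀ (j : Fin 3), ∀ v ∈ V, X j * v ∈ V.map (LinearMap.mulLeft K (X i)) ⊔ Qk q q' 1 := by
      intro j v hv
      obtain ⟨c, rfl⟩ := Submodule.mem_span_singleton.mp hv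
      rw [mul_smul_comm]
      apply Submodule.smul_mem
      have hle : T1 ≤ V.map (LinearMap.mulLeft K (X i)) ⊔ Qk q q' 1 := by
        refine sup_le le_sup_right ?_
        rw [Submodule.span_singleton_le_iff_mem]
        exact Submodule.mem_sup_left ⟨r, hrV, rfl⟩
      exact hle (H j)
    have hV1 : finrank K V ≤ 3 := by
      have hr0 : r ≠ 0 := by
        rintro rfl
        exact hr' (Submodule.zero_mem _)
      rw [hV, finrank_span_singleton hr0]
      omega
    have hn := F3_not_le hf hG hVle hV1 (isHomogeneous_X K i) hper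
    have : Module.Finite K V := Submodule.finiteDimensional_of_le hVle
    have h1 := succ_le_of_not_le hn
    have h2 := Submodule.finrank_mono hT1le
    omega
  · push Not at H
    obtain ⟨j, hj⟩ := H
    have : Module.Finite K T1 := by rw [hT1]; infer_instance
    have h2 := finrank_sup_singleton hj
    have hle : T1 ⊔ Submodule.span K {X j * r} ≤
        Qk q q' 1 ⊔ Sd K 1 * V ⊔ piece (idl f0 f1 f2) 3 :=
      le_sup_of_le_left (sup_le hT1le ((Submodule.span_singleton_le_iff_mem _ _).mpr
        (Submodule.mem_sup_right (hXV j))))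
    have : Module.Finite K V := Submodule.finiteDimensional_of_le hVle
    have h3 := Submodule.finrank_mono hle
    omega

end main2

end Vale.Agent.P200
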