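import Mathlib
import Vale.Agent.Lib.P200_Step2

/-!
The case of a good pair and two more forms.
-/

open MvPolynomial Module

namespace Vale.Agent.P200

variable {K : Type*} [Field K]

section
variable {q q' a b : S3 K}

/-- Some linear form acts injectively on the pair modulo `Q_3`. -/
theorem exists_inj_form (hG : Good q q') (ha : a.IsHomogeneous 2) (hb : b.IsHomogeneous 2)
    (hind : ∀ s t : K, s • a + t • b ∈ Qk q q' 0 → s = 0 ∧ t = 0) :
    ∃ l0 : S3 K, l0.IsHomogeneous 1 ∧ ∀ s t : K, s • (l0 * a) + t • (l0 * b) ∈ Qk q q' 1 →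
      s = 0 ∧ t = 0 := by
  by_contra hno
  push Not at hno
  -- quotient
  set π := (Qk q q' 1).mkQ with hπ
  have hπ0 : ∀ z : S3 K, π z = 0 ↔ z ∈ Qk q q' 1 := fun z => Submodule.Quotient.mk_eq_zero _
  set α : Fin 3 → (S3 K ⧸ Qk q q' 1) := fun i => π (X i * a) with hα
  set β : Fin 3 → (S3 K ⧸ Qk q q' 1) := fun i => π (X i * b) with hβ
  have hcomb : ∀ (s t : K) (l : S3 K), s • π (l * a) + t • π (l * b) = π (s • (l * a) + t • (l * b)) := by
    intro s t l
    rw [map_add, map_smul, map_smul]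
  have nokill : ∀ s t : K, (∀ i, s • α i + t • β i = 0) → s = 0 ∧ t = 0 := by
    intro s t h
    apply hind
    have hh : (s • a + t • b).IsHomogeneous (0 + 2) :=
      (by rw [smul_eq_C_mul]; exact ha.C_mul s : (s • a).IsHomogeneous 2).add
        (by rw [smul_eq_C_mul]; exact hb.C_mul t : (t • b).IsHomogeneous 2)
    apply hG.noSocle (k := 0) hh
    intro i
    have e := h i
    simp only [hα, hβ] at e
    rw [hcomb, hπ0] at e
    convert e using 1
    rw [mul_add, mul_smul_comm, mul_smul_comm]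
  have hsing : ∀ l : S3 K, l.IsHomogeneous 1 →
      ∃ s t : K, (s ≠ 0 ∨ t ≠ 0) ∧ s • π (l * a) + t • π (l * b) = 0 := by
    intro l hl
    obtain ⟨s, t, h1, h2⟩ := hno l hl
    refine ⟨s, t, ?_, ?_⟩
    · by_cases hs : s = 0
      · exact Or.inr (h2 hs)
      · exact Or.inl hs
    · rw [hcomb, hπ0]
      exact h1
  have h1 : ∀ i, ∃ s t : K, (s ≠ 0 ∨ t ≠ 0) ∧ s • α i + t • β i = 0 :=
    fun i => hsing (X i) (isHomogeneous_X _ _)
  have h2 : ∀ i j, ∃ s t : K, (s ≠ 0 ∨ t ≠ 0) ∧ s • (α i + α j) + t • (β i + β j) = 0 := by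
    intro i j
    obtain ⟨s, t, hst, hz⟩ := hsing (X i + X j) ((isHomogeneous_X _ _).add (isHomogeneous_X _ _))
    refine ⟨s, t, hst, ?_⟩
    rw [add_mul, add_mul, map_add, map_add] at hz
    exact hz
  obtain ⟨e, he⟩ := singular_pairs α β nokill h1 h2
  choose ρa hρa using fun i => (he i).1
  choose ρb hρb using fun i => (he i).2
  have nk : ∀ s t : K, (∀ i, s * ρa i + t * ρb i = 0) → s = 0 ∧ t = 0 := by
    intro s t h
    apply nokill
    intro i
    rw [hρa, hρb, smul_smul, smul_smul, ← add_smul, h, zero_smul]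
  have hi1 : ∃ i1, ρa i1 ≠ 0 := by
    by_contra hall
    push Not at hall
    have := nk 1 0 (by intro i; simp [hall i])
    exact one_ne_zero this.1
  obtain ⟨i1, hi1⟩ := hi1
  set c' : S3 K := (ρa i1)⁻¹ • (X i1 * a) with hc'
  have hc'h : c'.IsHomogeneous (1 + 2) := by
    rw [hc', smul_eq_C_mul]
    exact ((isHomogeneous_X _ _).mul ha).C_mul _
  have hπc : π c' = e := by
    rw [hc', map_smul]
    have : π (X i1 * a) = ρa i1 • e := hρa i1
    rw [this, smul_smul, inv_mul_cancel₀ hi1, one_smul]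
  have ha' : ∀ i, X i * a - ρa i • c' ∈ Qk q q' 1 := by
    intro i
    rw [← hπ0, map_sub, map_smul, hπc]
    have : π (X i * a) = ρa i • e := hρa i
    rw [this, sub_self]
  have hb' : ∀ i, X i * b - ρb i • c' ∈ Qk q q' 1 := by
    intro i
    rw [← hπ0, map_sub, map_smul, hπc]
    have : π (X i * b) = ρb i • e := hρb i
    rw [this, sub_self]
  -- second quotient
  set π2 := (Qk q q' 2).mkQ with hπ2
  have hπ20 : ∀ z : S3 K, π2 z = 0 ↔ z ∈ Qk q q' 2 := fun z => Submodule.Quotient.mk_eq_zero _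
  have par : ∀ (ρ : Fin 3 → K) (v : S3 K), (∀ i, X i * v - ρ i • c' ∈ Qk q q' 1) →
      ∀ i j, ρ i • π2 (X j * c') = ρ j • π2 (X i * c') := by
    intro ρ v hv i j
    have m1 : X j * (X i * v - ρ i • c') ∈ Qk q q' 2 :=
      Qk_mul (j := 1) (k := 1) (isHomogeneous_X _ _) (hv i)
    have m2 : X i * (X j * v - ρ j • c') ∈ Qk q q' 2 :=
      Qk_mul (j := 1) (k := 1) (isHomogeneous_X _ _) (hv j)
    have m3 := Submodule.sub_mem _ m2 m1
    have e3 : X i * (X j * v - ρ j • c') - X j * (X i * v - ρ i • c')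
        = ρ i • (X j * c') - ρ j • (X i * c') := by
      simp only [mul_sub, mul_smul_comm]
      ring
    rw [e3, ← hπ20, map_sub, map_smul, map_smul] at m3
    exact sub_eq_zero.mp m3
  have hγ : ∀ j, π2 (X j * c') = 0 :=
    parallel_zero ρa ρb (fun j => π2 (X j * c')) nk (par ρa a ha') (par ρb b hb')
  have hc'Q : c' ∈ Qk q q' 1 := by
    apply hG.noSocle (k := 1) hc'h
    intro i
    exact (hπ20 _).mp (hγ i)
  have he0 : e = 0 := by
    rw [← hπc]
    exact (hπ0 _).mpr hc'Q
  have := nokill 1 0 (by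
    intro i
    rw [hρa, hρb, he0]
    simp)
  exact one_ne_zero this.1

end

section main
variable {f0 f1 f2 : S3 K} (hf : CubicReg f0 f1 f2)
include hf

theorem U4 {q q' a b : S3 K} (hG : Good q q') (ha : a.IsHomogeneous 2) (hb : b.IsHomogeneous 2)
    (hind : ∀ s t : K, s • a + t • b ∈ Qk q q' 0 → s = 0 ∧ t = 0) :
    9 ≤ finrank K (Qk q q' 1 ⊔ Sd K 1 * Submodule.span K {a, b} ⊔ piece (idl f0 f1 f2) 3 :
      Submodule K (S3 K)) := by
  obtain ⟨l0, hl0, hinj⟩ := exists_inj_form hG ha hb hind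
  set V : Submodule K (S3 K) := Submodule.span K {a, b} with hV
  have haV : a ∈ V := Submodule.subset_span (by simp)
  have hbV : b ∈ V := Submodule.subset_span (by simp)
  have hVle : V ≤ Sd K 2 := by
    rw [hV, Submodule.span_le]
    rintro x (rfl | rfl)
    · exact ha
    · exact hb
  have : Module.Finite K V := Submodule.finiteDimensional_of_le hVle
  have hmem : ∀ {l x : S3 K}, l.IsHomogeneous 1 → x ∈ V → l * x ∈ Sd K 1 * V :=
    fun hl hx => Submodule.mul_mem_mul hl hx
  have h1 : l0 * a ∉ Qk q q' 1 := by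
    intro h
    have := hinj 1 0 (by simpa using h)
    exact one_ne_zero this.1
  set T1 : Submodule K (S3 K) := Qk q q' 1 ⊔ Submodule.span K {l0 * a} with hT1
  have h2 : l0 * b ∉ T1 := by
    intro h
    obtain ⟨z, hz, w, hw, e⟩ := Submodule.mem_sup.mp h
    obtain ⟨κ, rfl⟩ := Submodule.mem_span_singleton.mp hw
    have : (-κ) • (l0 * a) + (1 : K) • (l0 * b) ∈ Qk q q' 1 := by
      rw [one_smul, ← e, neg_smul]
      convert hz using 1
      abel
    have := hinj _ _ this
    exact one_ne_zero this.2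
  set T2 : Submodule K (S3 K) := T1 ⊔ Submodule.span K {l0 * b} with hT2
  have : Module.Finite K T1 := by rw [hT1]; infer_instance
  have : Module.Finite K T2 := by rw [hT2]; infer_instance
  have hT2f : finrank K T2 = 8 := by
    rw [hT2, finrank_sup_singleton h2, hT1, finrank_sup_singleton h1, hG.finrank_Qk1]
  have hT2le : T2 ≤ Qk q q' 1 ⊔ Sd K 1 * V := by
    refine sup_le (sup_le le_sup_left ?_) ?_
    · rw [Submodule.span_singleton_le_iff_mem]
      exact Submodule.mem_sup_right (hmem hl0 haV)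
    · rw [Submodule.span_singleton_le_iff_mem]
      exact Submodule.mem_sup_right (hmem hl0 hbV)
  by_cases H : ∀ i : Fin 3, X i * a ∈ T2 ∧ X i * b ∈ T2
  · have hle : T2 ≤ V.map (LinearMap.mulLeft K l0) ⊔ Qk q q' 1 := by
      refine sup_le (sup_le le_sup_right ?_) ?_
      · rw [Submodule.span_singleton_le_iff_mem]
        exact Submodule.mem_sup_left ⟨a, haV, rfl⟩
      · rw [Submodule.span_singleton_le_iff_mem]
        exact Submodule.mem_sup_left ⟨b, hbV, rfl⟩
    have hper : ∀ (j : Fin 3), ∀ v ∈ V, X j * v ∈ V.map (LinearMap.mulLeft K l0) ⊔ Qk q q' 1 := by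
      intro j v hv
      obtain ⟨s, t, rfl⟩ := Submodule.mem_span_pair.mp hv
      rw [mul_add, mul_smul_comm, mul_smul_comm]
      exact Submodule.add_mem _ (Submodule.smul_mem _ _ (hle (H j).1))
        (Submodule.smul_mem _ _ (hle (H j).2))
    have hV2 : finrank K V ≤ 3 := by
      classical
      have h := finrank_span_finset_le_card (R := K) ({a, b} : Finset (S3 K))
      have hc : ({a, b} : Finset (S3 K)).card ≤ 2 := Finset.card_le_two
      rw [Finset.coe_insert, Finset.coe_singleton] at h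
      have e : finrank K V = Set.finrank K ({a, b} : Set (S3 K)) := rfl
      omega
    have hn := F3_not_le hf hG hVle hV2 hl0 hper
    have h3 := succ_le_of_not_le hn
    have h4 := Submodule.finrank_mono hT2le
    omega
  · push Not at H
    obtain ⟨i, hi⟩ := H
    by_cases hia : X i * a ∈ T2
    · have hib := hi hia
      have h3 := finrank_sup_singleton hib
      have hle : T2 ⊔ Submodule.span K {X i * b} ≤
          Qk q q' 1 ⊔ Sd K 1 * V ⊔ piece (idl f0 f1 f2) 3 :=
        le_sup_of_le_left (sup_le hT2le ((Submodule.span_singleton_le_iff_mem _ _).mpr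
          (Submodule.mem_sup_right (hmem (isHomogeneous_X _ _) hbV))))
      have h4 := Submodule.finrank_mono hle
      omega
    · have h3 := finrank_sup_singleton hia
      have hle : T2 ⊔ Submodule.span K {X i * a} ≤
          Qk q q' 1 ⊔ Sd K 1 * V ⊔ piece (idl f0 f1 f2) 3 :=
        le_sup_of_le_left (sup_le hT2le ((Submodule.span_singleton_le_iff_mem _ _).mpr
          (Submodule.mem_sup_right (hmem (isHomogeneous_X _ _) haV))))
      have h4 := Submodule.finrank_mono hle
      omega

end main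

end Vale.Agent.P200
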