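import Mathlib
import Vale.Agent.Lib.P200_StepU4

/-!
The growth estimates in degrees zero, one, two.
-/

open MvPolynomial Module

namespace Vale.Agent.P200

variable {K : Type*} [Field K]

theorem vanish_succ (ζ : S3 K →ₗ[K] K) {d : ℕ} (h : ∀ (i : Fin 3) (g : S3 K), g.IsHomogeneous d → ζ (X i * g) = 0)
    {p : S3 K} (hp : p.IsHomogeneous (d + 1)) : ζ p = 0 := by
  obtain ⟨h0, h1, h2, hh0, hh1, hh2, rfl⟩ := exists_X_decomp hp
  rw [map_add, map_add, h 0 _ hh0, h 1 _ hh1, h 2 _ hh2]
  simp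

theorem vanish_S3 (ζ : S3 K →ₗ[K] K) (h : ∀ i j k : Fin 3, ζ (X i * (X j * X k)) = 0)
    {p : S3 K} (hp : p.IsHomogeneous 3) : ζ p = 0 := by
  apply vanish_succ ζ (d := 2) _ hp
  intro i g hg
  apply vanish_succ (ζ.comp (LinearMap.mulLeft K (X i))) (d := 1) _ hg
  intro j g' hg'
  apply vanish_succ ((ζ.comp (LinearMap.mulLeft K (X i))).comp (LinearMap.mulLeft K (X j))) (d := 0) _ hg'
  intro k c hc
  obtain ⟨κ, rfl⟩ := eq_C_of_homog0 hc
  simp only [LinearMap.comp_apply, LinearMap.mulLeft_apply]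
  have e : (X i : S3 K) * (X j * (X k * C κ)) = κ • (X i * (X j * X k)) := by
    rw [smul_eq_C_mul]; ring
  rw [e, map_smul, h, smul_zero]

section main
variable {f0 f1 f2 : S3 K} (hf : CubicReg f0 f1 f2)
include hf

/-- A subspace of quadrics of codimension at most one generates all cubics modulo `F_3`. -/
theorem U5 {W : Submodule K (S3 K)} (hW : W ≤ Sd K 2) (h5 : 5 ≤ finrank K W) :
    10 ≤ finrank K (Sd K 1 * W ⊔ piece (idl f0 f1 f2) 3 : Submodule K (S3 K)) := by
  classical
  have : Module.Finite K W := Submodule.finiteDimensional_of_le hW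
  by_contra hlt
  push Not at hlt
  set Y : Submodule K (S3 K) := Sd K 1 * W ⊔ piece (idl f0 f1 f2) 3 with hY
  obtain ⟨h, hh, hhY⟩ := exists_not_mem_of_finrank_lt (A := Y) (W := Sd K 3)
    (by rw [finrank_Sd3]; exact hlt)
  obtain ⟨ψ, hψh, hψY⟩ := Submodule.exists_dual_map_eq_bot_of_notMem hhY inferInstance
  have hψ0 : ∀ y ∈ Y, ψ y = 0 := by
    intro y hy
    have : ψ y ∈ Y.map ψ := ⟨y, hy, rfl⟩
    rw [hψY] at this
    exact this
  have hh' : h.IsHomogeneous (2 + 1) := hh
  by_cases hWtop : Sd K 2 ≤ W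
  · apply hhY
    obtain ⟨h0, h1, h2, hh0, hh1, hh2, rfl⟩ := exists_X_decomp hh'
    apply Submodule.mem_sup_left
    exact Submodule.add_mem _ (Submodule.add_mem _
      (Submodule.mul_mem_mul (isHomogeneous_X _ _) (hWtop hh0))
      (Submodule.mul_mem_mul (isHomogeneous_X _ _) (hWtop hh1)))
      (Submodule.mul_mem_mul (isHomogeneous_X _ _) (hWtop hh2))
  · obtain ⟨q0, hq0, hq0W⟩ := Set.not_subset.mp hWtop
    have hq0h : q0.IsHomogeneous 2 := hq0
    obtain ⟨μ0, hμ0, hμW0⟩ := Submodule.exists_dual_map_eq_bot_of_notMem hq0W inferInstance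
    set μ : S3 K →ₗ[K] K := (μ0 q0)⁻¹ • μ0 with hμ
    have hμ1 : μ q0 = 1 := by
      simp only [hμ, LinearMap.smul_apply, smul_eq_mul]
      exact inv_mul_cancel₀ hμ0
    have hμW : ∀ w ∈ W, μ w = 0 := by
      intro w hw
      have : μ0 w ∈ W.map μ0 := ⟨w, hw, rfl⟩
      rw [hμW0] at this
      have h0 : μ0 w = 0 := this
      simp [hμ, h0]
    have hsup : Sd K 2 ≤ W ⊔ Submodule.span K {q0} := by
      have hle : W ⊔ Submodule.span K {q0} ≤ Sd K 2 :=
        sup_le hW ((Submodule.span_singleton_le_iff_mem _ _).mpr hq0)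
      have heq := Submodule.eq_of_le_of_finrank_le hle (by
        rw [finrank_sup_singleton hq0W, finrank_Sd2]
        omega)
      exact heq.ge
    have hdec : ∀ s : S3 K, s.IsHomogeneous 2 → s - μ s • q0 ∈ W := by
      intro s hs
      obtain ⟨w, hw, z, hz, rfl⟩ := Submodule.mem_sup.mp (hsup hs)
      obtain ⟨κ, rfl⟩ := Submodule.mem_span_singleton.mp hz
      have e : μ (w + κ • q0) = κ := by
        rw [map_add, hμW w hw, map_smul, hμ1]
        simp
      rw [e]
      simpa using hw
    have key : ∀ (i : Fin 3) (s : S3 K), s.IsHomogeneous 2 → ψ (X i * s) = μ s * ψ (X i * q0) := by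
      intro i s hs
      have hmem : X i * (s - μ s • q0) ∈ Y :=
        Submodule.mem_sup_left (Submodule.mul_mem_mul (isHomogeneous_X _ _) (hdec s hs))
      have := hψ0 _ hmem
      rw [mul_sub, mul_smul_comm, map_sub, map_smul, smul_eq_mul] at this
      exact sub_eq_zero.mp this
    set p : Fin 3 → K := fun i => ψ (X i * q0) with hp
    have hXX : ∀ j k : Fin 3, ((X j : S3 K) * X k).IsHomogeneous 2 := fun j k =>
      (isHomogeneous_X _ j).mul (isHomogeneous_X _ k)
    have sym : ∀ i j k : Fin 3, μ (X j * X k) * p i = μ (X i * X k) * p j := by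
      intro i j k
      have e1 := key i _ (hXX j k)
      have e2 := key j _ (hXX i k)
      rw [show (X i : S3 K) * (X j * X k) = X j * (X i * X k) by ring] at e1
      rw [e1] at e2
      exact e2
    have hi0 : ∃ i0, p i0 ≠ 0 := by
      by_contra hall
      push Not at hall
      apply hψh
      apply vanish_succ ψ (d := 2) _ hh'
      intro i g hg
      rw [key i g hg]
      have : ψ (X i * q0) = 0 := hall i
      rw [this, mul_zero]
    obtain ⟨i0, hi0⟩ := hi0
    set lam : K := μ (X i0 * X i0) / (p i0) ^ 2 with hlam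
    have hμp : ∀ j k : Fin 3, μ (X j * X k) = lam * (p j * p k) := by
      intro j k
      have s1 := sym i0 j k
      have s2 := sym i0 k i0
      rw [show (X k : S3 K) * X i0 = X i0 * X k by ring] at s2
      rw [hlam]
      field_simp
      linear_combination (p i0) * s1 + (p j) * s2
    have hψ3 : ∀ i j k : Fin 3, ψ (X i * (X j * X k)) = lam * (p i * p j * p k) := by
      intro i j k
      rw [key i _ (hXX j k), hμp]
      show lam * (p j * p k) * p i = _
      ring
    -- evaluation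
    set E : S3 K →ₗ[K] K := (aeval p : S3 K →ₐ[K] K).toLinearMap with hE
    have hEX : ∀ i j k : Fin 3, E (X i * (X j * X k)) = p i * p j * p k := by
      intro i j k
      simp [hE, mul_assoc]
    have hψE : ∀ g : S3 K, g.IsHomogeneous 3 → ψ g = lam * E g := by
      intro g hg
      have := vanish_S3 (ψ - lam • E) (by
        intro i j k
        simp only [LinearMap.sub_apply, LinearMap.smul_apply, smul_eq_mul]
        rw [hψ3, hEX, sub_self]) hg
      simp only [LinearMap.sub_apply, LinearMap.smul_apply, smul_eq_mul] at this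
      exact sub_eq_zero.mp this
    have hlam0 : lam ≠ 0 := by
      intro h0
      apply hψh
      rw [hψE h hh, h0, zero_mul]
    have hfi : ∀ g : S3 K, g ∈ piece (idl f0 f1 f2) 3 → E g = 0 := by
      intro g hg
      have h1 : ψ g = 0 := hψ0 g (Submodule.mem_sup_right hg)
      rw [hψE g hg.2] at h1
      exact (mul_eq_zero.mp h1).resolve_left hlam0
    have h0i : E f0 = 0 := hfi _ ⟨Ideal.subset_span (by simp), hf.h0⟩
    have h1i : E f1 = 0 := hfi _ ⟨Ideal.subset_span (by simp), hf.h1⟩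
    have h2i : E f2 = 0 := hfi _ ⟨Ideal.subset_span (by simp), hf.h2⟩
    have hX7 : (X i0 : S3 K) ^ 7 ∈ Sd K 7 := by
      have := (isHomogeneous_X K i0).pow 7
      simpa using this
    obtain ⟨hI7, _⟩ := Sd7_le_piece hf hX7
    obtain ⟨a, b, c, habc⟩ := mem_span_three.mp hI7
    have hev := congrArg (aeval p : S3 K →ₐ[K] K) habc
    have h0i' : (aeval p : S3 K →ₐ[K] K) f0 = 0 := h0i
    have h1i' : (aeval p : S3 K →ₐ[K] K) f1 = 0 := h1i
    have h2i' : (aeval p : S3 K →ₐ[K] K) f2 = 0 := h2i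
    rw [map_add, map_add, map_mul, map_mul, map_mul, h0i', h1i', h2i', map_pow, aeval_X] at hev
    simp only [mul_zero, add_zero] at hev
    exact hi0 (pow_eq_zero_iff (by norm_num) |>.mp hev)

end main

/-! ### growth from degrees zero and one -/

theorem exists_ne_of_finrank_pos {W : Submodule K (S3 K)} [Module.Finite K W] (h : 1 ≤ finrank K W) :
    ∃ q ∈ W, q ≠ 0 := by
  obtain ⟨x, hx, hx0⟩ := exists_not_mem_of_finrank_lt (A := ⊥) (W := W)
    (by rw [finrank_bot]; omega)
  exact ⟨x, hx, by simpa using hx0⟩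

theorem exists_indep_of_finrank {W : Submodule K (S3 K)} [Module.Finite K W] (h : 2 ≤ finrank K W) :
    ∃ q1 ∈ W, ∃ q2 ∈ W, q1 ≠ 0 ∧ q2 ∉ Submodule.span K {q1} := by
  obtain ⟨q1, h1, h10⟩ := exists_ne_of_finrank_pos (W := W) (by omega)
  obtain ⟨q2, h2, h21⟩ := exists_not_mem_of_finrank_lt (A := Submodule.span K {q1}) (W := W)
    (by rw [finrank_span_singleton h10]; omega)
  exact ⟨q1, h1, q2, h2, h10, h21⟩

theorem Sd_mul_mono {k : ℕ} {V W : Submodule K (S3 K)} (h : V ≤ W) : Sd K k * V ≤ Sd K k * W := by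
  rw [Submodule.mul_le]
  intro x hx v hv
  exact Submodule.mul_mem_mul hx (h hv)

theorem grow_one {k : ℕ} {W : Submodule K (S3 K)} (hW : W ≤ Sd K k) (h : 1 ≤ finrank K W) :
    3 ≤ finrank K (Sd K 1 * W : Submodule K (S3 K)) := by
  have : Module.Finite K W := Submodule.finiteDimensional_of_le hW
  obtain ⟨q, hq, hq0⟩ := exists_ne_of_finrank_pos h
  have h1 := Submodule.finrank_mono (mulS_le_mul hq 1)
  rw [finrank_mulS hq0, finrank_Sd1] at h1
  exact h1

theorem grow1_two {W : Submodule K (S3 K)} (hW : W ≤ Sd K 1) (h : 2 ≤ finrank K W) :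
    5 ≤ finrank K (Sd K 1 * W : Submodule K (S3 K)) := by
  have : Module.Finite K W := Submodule.finiteDimensional_of_le hW
  obtain ⟨l, hl, l', hl', h0, hind⟩ := exists_indep_of_finrank h
  have h0' : l' ≠ 0 := by
    rintro rfl
    exact hind (Submodule.zero_mem _)
  have h5 := finrank_two_linear (hW hl') (hW hl) h0' h0 hind
  have hle : mulS l' 1 ⊔ mulS l 1 ≤ Sd K 1 * W := sup_le (mulS_le_mul hl' 1) (mulS_le_mul hl 1)
  have := Submodule.finrank_mono hle
  omega

theorem grow1_three {W : Submodule K (S3 K)} (hW : W ≤ Sd K 1) (h : 3 ≤ finrank K W) :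
    6 ≤ finrank K (Sd K 1 * W : Submodule K (S3 K)) := by
  have : Module.Finite K W := Submodule.finiteDimensional_of_le hW
  have heq : W = Sd K 1 := Submodule.eq_of_le_of_finrank_le hW (by rw [finrank_Sd1]; exact h)
  have hle : Sd K 2 ≤ Sd K 1 * W := by
    intro x hx
    have hx' : x.IsHomogeneous (1 + 1) := hx
    obtain ⟨h0, h1, h2, hh0, hh1, hh2, rfl⟩ := exists_X_decomp hx'
    rw [heq]
    exact Submodule.add_mem _ (Submodule.add_mem _
      (Submodule.mul_mem_mul (isHomogeneous_X _ _) hh0)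
      (Submodule.mul_mem_mul (isHomogeneous_X _ _) hh1))
      (Submodule.mul_mem_mul (isHomogeneous_X _ _) hh2)
  have := Submodule.finrank_mono hle
  rw [finrank_Sd2] at this
  exact this

/-! ### growth from degree two -/

theorem mulS_mul_right (l c : S3 K) (m : ℕ) :
    mulS (l * c) m = (mulS l m).map (LinearMap.mulLeft K c) := by
  ext x
  constructor
  · intro hx
    obtain ⟨s, hs, rfl⟩ := mem_mulS.mp hx
    exact ⟨l * s, mul_mem_mulS hs, by simp only [LinearMap.mulLeft_apply]; ring⟩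
  · rintro ⟨y, hy, rfl⟩
    obtain ⟨s, hs, rfl⟩ := mem_mulS.mp hy
    rw [LinearMap.mulLeft_apply, show c * (l * s) = (l * c) * s by ring]
    exact mul_mem_mulS hs

theorem finrank_two_quadrics {l l' c : S3 K} (hl : l.IsHomogeneous 1) (hl' : l'.IsHomogeneous 1)
    (h0 : l ≠ 0) (h0' : l' ≠ 0) (hc0 : c ≠ 0) (hind : l ∉ Submodule.span K {l'}) :
    finrank K (mulS (l * c) 1 ⊔ mulS (l' * c) 1 : Submodule K (S3 K)) = 5 := by
  rw [mulS_mul_right, mulS_mul_right, ← Submodule.map_sup]
  have hinj : Function.Injective (LinearMap.mulLeft K c) := by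
    intro x y hxy
    simpa [hc0] using hxy
  rw [← LinearEquiv.finrank_eq (Submodule.equivMapOfInjective _ hinj _)]
  exact finrank_two_linear hl hl' h0 h0' hind

section main
variable {f0 f1 f2 : S3 K} (hf : CubicReg f0 f1 f2)
include hf

theorem grow2_one {W : Submodule K (S3 K)} (hW : W ≤ Sd K 2) (h : 1 ≤ finrank K W) :
    5 ≤ finrank K (Sd K 1 * W ⊔ piece (idl f0 f1 f2) 3 : Submodule K (S3 K)) := by
  have : Module.Finite K W := Submodule.finiteDimensional_of_le hW
  obtain ⟨q, hq, hq0⟩ := exists_ne_of_finrank_pos h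
  have h1 := add_two_le hf (T := mulS q 1) (a := q) (β := 1) le_rfl
    (inf_F3_le_one hf hq0 (α := 2) (k := 2) (β := 1) (hW hq) rfl rfl (by
      rw [show 3 + 2 = 5 from rfl, finrank_Sd5, finrank_Sd2]; norm_num))
  rw [finrank_mulS hq0, finrank_Sd1] at h1
  have h2 := Submodule.finrank_mono (sup_le_sup_right (mulS_le_mul hq 1) (piece (idl f0 f1 f2) 3))
  omega

theorem grow2_two {W : Submodule K (S3 K)} (hW : W ≤ Sd K 2) (h : 2 ≤ finrank K W) :
    7 ≤ finrank K (Sd K 1 * W ⊔ piece (idl f0 f1 f2) 3 : Submodule K (S3 K)) := by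
  have : Module.Finite K W := Submodule.finiteDimensional_of_le hW
  by_cases hgood : ∃ q ∈ W, ∃ q' ∈ W, Good q q'
  · obtain ⟨q, hq, q', hq', hG⟩ := hgood
    have h1 := succ_le_of_not_le (F3_not_le_Qk hf hG)
    rw [hG.finrank_Qk1] at h1
    have h2 := Submodule.finrank_mono (sup_le_sup_right (Qk_le_mul hq hq' 1) (piece (idl f0 f1 f2) 3))
    omega
  · push Not at hgood
    obtain ⟨q1, h1, q2, h2, h10, h21⟩ := exists_indep_of_finrank h
    obtain ⟨l, l', c, hl, hl', hc, hc0, hl0, hl'0, e1, e2, hind⟩ :=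
      not_good_decomp (hW h1) (hW h2) h10 h21 (hgood _ h1 _ h2)
    have h5 := finrank_two_quadrics hl hl' hl0 hl'0 hc0 hind
    rw [← e1, ← e2] at h5
    have hle : mulS q2 1 ⊔ mulS q1 1 ≤ mulS c 2 := by
      refine sup_le ?_ ?_
      · intro x hx
        obtain ⟨s, hs, rfl⟩ := mem_mulS.mp hx
        rw [e2, show l * c * s = c * (l * s) by ring]
        exact mul_mem_mulS (hl.mul hs)
      · intro x hx
        obtain ⟨s, hs, rfl⟩ := mem_mulS.mp hx
        rw [e1, show l' * c * s = c * (l' * s) by ring]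
        exact mul_mem_mulS (hl'.mul hs)
    have h6 := add_two_le hf hle (inf_F3_le_one hf hc0 (α := 1) (k := 3) (β := 2) hc rfl rfl (by
      rw [show 3 + 3 = 6 from rfl, finrank_Sd6, finrank_Sd3]; norm_num))
    have h7 := Submodule.finrank_mono (sup_le_sup_right
      (sup_le (mulS_le_mul h2 1) (mulS_le_mul h1 1)) (piece (idl f0 f1 f2) 3))
    omega

theorem finrank_Qk0_le (q q' : S3 K) : finrank K (Qk q q' 0) ≤ 2 := by
  classical
  have hle : Qk q q' 0 ≤ Submodule.span K {q, q'} := fun z hz => mem_Qk_zero_iff.mp hz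
  have h := finrank_span_finset_le_card (R := K) ({q, q'} : Finset (S3 K))
  have hc : ({q, q'} : Finset (S3 K)).card ≤ 2 := Finset.card_le_two
  rw [Finset.coe_insert, Finset.coe_singleton] at h
  have e : finrank K (Submodule.span K {q, q'} : Submodule K (S3 K))
      = Set.finrank K ({q, q'} : Set (S3 K)) := rfl
  have : Module.Finite K (Submodule.span K {q, q'} : Submodule K (S3 K)) :=
    FiniteDimensional.span_of_finite K (Set.toFinite _)
  have := Submodule.finrank_mono hle
  omega

theorem grow2_three {W : Submodule K (S3 K)} (hW : W ≤ Sd K 2) (h : 3 ≤ finrank K W) :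
    8 ≤ finrank K (Sd K 1 * W ⊔ piece (idl f0 f1 f2) 3 : Submodule K (S3 K)) := by
  have : Module.Finite K W := Submodule.finiteDimensional_of_le hW
  by_cases hgood : ∃ q ∈ W, ∃ q' ∈ W, Good q q'
  · obtain ⟨q, hq, q', hq', hG⟩ := hgood
    obtain ⟨r, hr, hr'⟩ := exists_not_mem_of_finrank_lt (A := Qk q q' 0) (W := W)
      (by have := finrank_Qk0_le (K := K) hf q q'; omega)
    have h1 := U3 hf hG (hW hr) hr'
    have hle : Qk q q' 1 ⊔ Sd K 1 * Submodule.span K {r} ⊔ piece (idl f0 f1 f2) 3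
        ≤ Sd K 1 * W ⊔ piece (idl f0 f1 f2) 3 := by
      refine sup_le_sup_right (sup_le (Qk_le_mul hq hq' 1) (Sd_mul_mono ?_)) _
      exact (Submodule.span_singleton_le_iff_mem _ _).mpr hr
    have h2 := Submodule.finrank_mono hle
    omega
  · push Not at hgood
    obtain ⟨q1, h1, q2, h2, h10, h21⟩ := exists_indep_of_finrank (W := W) (by omega)
    obtain ⟨c, hc, hc0, hWc⟩ := no_good_cover hW hgood h1 h2 h10 h21
    have heq : W = mulS c 1 := Submodule.eq_of_le_of_finrank_le hWc (by
      rw [finrank_mulS hc0, finrank_Sd1]; exact h)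
    have hle : mulS c 2 ≤ Sd K 1 * W := by
      intro x hx
      obtain ⟨s, hs, rfl⟩ := mem_mulS.mp hx
      have hs' : s.IsHomogeneous (1 + 1) := hs
      obtain ⟨h0, h1, h2, hh0, hh1, hh2, rfl⟩ := exists_X_decomp hs'
      rw [heq]
      have e : c * (X 0 * h0 + X 1 * h1 + X 2 * h2)
          = X 0 * (c * h0) + X 1 * (c * h1) + X 2 * (c * h2) := by ring
      rw [e]
      exact Submodule.add_mem _ (Submodule.add_mem _
        (Submodule.mul_mem_mul (isHomogeneous_X _ _) (mul_mem_mulS hh0))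
        (Submodule.mul_mem_mul (isHomogeneous_X _ _) (mul_mem_mulS hh1)))
        (Submodule.mul_mem_mul (isHomogeneous_X _ _) (mul_mem_mulS hh2))
    have h6 := add_two_le hf (T := mulS c 2) (a := c) (β := 2) le_rfl
      (inf_F3_le_one hf hc0 (α := 1) (k := 3) (β := 2) hc rfl rfl (by
        rw [show 3 + 3 = 6 from rfl, finrank_Sd6, finrank_Sd3]; norm_num))
    rw [finrank_mulS hc0, finrank_Sd2] at h6
    have h7 := Submodule.finrank_mono (sup_le_sup_right hle (piece (idl f0 f1 f2) 3))
    omega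

theorem grow2_four {W : Submodule K (S3 K)} (hW : W ≤ Sd K 2) (h : 4 ≤ finrank K W) :
    9 ≤ finrank K (Sd K 1 * W ⊔ piece (idl f0 f1 f2) 3 : Submodule K (S3 K)) := by
  have : Module.Finite K W := Submodule.finiteDimensional_of_le hW
  by_cases hgood : ∃ q ∈ W, ∃ q' ∈ W, Good q q'
  · obtain ⟨q, hq, q', hq', hG⟩ := hgood
    have h0 := finrank_Qk0_le (K := K) hf q q'
    obtain ⟨a, ha, ha'⟩ := exists_not_mem_of_finrank_lt (A := Qk q q' 0) (W := W) (by omega)
    have hA : Module.Finite K (Qk q q' 0 ⊔ Submodule.span K {a} : Submodule K (S3 K)) := inferInstance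
    obtain ⟨b, hb, hb'⟩ := exists_not_mem_of_finrank_lt
      (A := Qk q q' 0 ⊔ Submodule.span K {a}) (W := W) (by
        rw [finrank_sup_singleton ha']; omega)
    have hind : ∀ s t : K, s • a + t • b ∈ Qk q q' 0 → s = 0 ∧ t = 0 := by
      intro s t hst
      have ht : t = 0 := by
        by_contra ht
        apply hb'
        have e : b = t⁻¹ • (s • a + t • b) + (-(t⁻¹ * s)) • a := by
          rw [smul_add, smul_smul, smul_smul, inv_mul_cancel₀ ht, one_smul, neg_smul]
          abel
        rw [e]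
        exact Submodule.add_mem _ (Submodule.mem_sup_left (Submodule.smul_mem _ _ hst))
          (Submodule.mem_sup_right (Submodule.smul_mem _ _ (Submodule.mem_span_singleton_self a)))
      subst ht
      refine ⟨?_, rfl⟩
      by_contra hs
      rw [zero_smul, add_zero] at hst
      exact ha' ((Submodule.smul_mem_iff _ hs).mp hst)
    have h1 := U4 hf hG (hW ha) (hW hb) hind
    have hle : Qk q q' 1 ⊔ Sd K 1 * Submodule.span K {a, b} ⊔ piece (idl f0 f1 f2) 3
        ≤ Sd K 1 * W ⊔ piece (idl f0 f1 f2) 3 := by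
      refine sup_le_sup_right (sup_le (Qk_le_mul hq hq' 1) (Sd_mul_mono ?_)) _
      rw [Submodule.span_le]
      rintro x (rfl | rfl)
      · exact ha
      · exact hb
    have h2 := Submodule.finrank_mono hle
    omega
  · exfalso
    push Not at hgood
    obtain ⟨q1, h1, q2, h2, h10, h21⟩ := exists_indep_of_finrank (W := W) (by omega)
    obtain ⟨c, hc, hc0, hWc⟩ := no_good_cover hW hgood h1 h2 h10 h21
    have := Submodule.finrank_mono hWc
    rw [finrank_mulS hc0, finrank_Sd1] at this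
    omega

end main

end Vale.Agent.P200
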