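import Mathlib
import Vale.Agent.Lib.P200_Grow

/-!
Macaulay duality in the artinian complete intersection: the growth estimates in degrees three,
four and five are dual to the ones in degrees two, one and zero.
-/

open MvPolynomial Module

namespace Vale.Agent.P200

variable {K : Type*} [Field K]

/-- The orthogonal of `Z` inside `B` for the pairing `(a,b) ↦ τ (a * b)`. -/
def perp (τ : S3 K →ₗ[K] K) (B Z : Submodule K (S3 K)) : Submodule K (S3 K) where
  carrier := {b | b ∈ B ∧ ∀ a ∈ Z, τ (a * b) = 0}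
  add_mem' := by
    rintro x y ⟨hx, hx'⟩ ⟨hy, hy'⟩
    refine ⟨B.add_mem hx hy, fun a ha => ?_⟩
    rw [mul_add, map_add, hx' a ha, hy' a ha, add_zero]
  zero_mem' := ⟨B.zero_mem, fun a _ => by simp⟩
  smul_mem' := by
    rintro c x ⟨hx, hx'⟩
    refine ⟨B.smul_mem c hx, fun a ha => ?_⟩
    rw [mul_smul_comm, map_smul, hx' a ha, smul_zero]

theorem mem_perp {τ : S3 K →ₗ[K] K} {B Z : Submodule K (S3 K)} {b : S3 K} :
    b ∈ perp τ B Z ↔ b ∈ B ∧ ∀ a ∈ Z, τ (a * b) = 0 := Iff.rfl

theorem pair_bound (τ : S3 K →ₗ[K] K) {Z B K0 : Submodule K (S3 K)} [Module.Finite K Z]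
    [Module.Finite K B] (hK0 : K0 ≤ Z) (h : ∀ a ∈ K0, ∀ b ∈ B, τ (a * b) = 0) :
    finrank K B + finrank K K0 ≤ finrank K (perp τ B Z) + finrank K Z := by
  let bil : S3 K →ₗ[K] S3 K →ₗ[K] K := (LinearMap.mul K (S3 K)).compr₂ τ
  let Θ : B →ₗ[K] Module.Dual K Z := (LinearMap.lcomp K K Z.subtype).comp (bil.flip.comp B.subtype)
  have hΘ : ∀ (b : B) (a : Z), Θ b a = τ ((a : S3 K) * b) := fun _ _ => rfl
  have hker : finrank K (LinearMap.ker Θ) = finrank K (perp τ B Z) := by
    have hmap : (LinearMap.ker Θ).map B.subtype = perp τ B Z := by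
      ext x
      constructor
      · rintro ⟨b, hb, rfl⟩
        refine ⟨b.2, fun a ha => ?_⟩
        have := LinearMap.congr_fun (LinearMap.mem_ker.mp hb) ⟨a, ha⟩
        rw [hΘ] at this
        exact this
      · rintro ⟨hx, hx'⟩
        refine ⟨⟨x, hx⟩, ?_, rfl⟩
        rw [SetLike.mem_coe, LinearMap.mem_ker]
        ext a
        rw [hΘ]
        exact hx' a a.2
    rw [← hmap]
    exact LinearEquiv.finrank_eq (Submodule.equivMapOfInjective _ B.injective_subtype _)
  let K0' : Subspace K Z := K0.comap Z.subtype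
  have hfK0 : finrank K K0' = finrank K K0 := LinearEquiv.finrank_eq (Submodule.comapSubtypeEquivOfLe hK0)
  have hann := Subspace.finrank_add_finrank_dualAnnihilator_eq K0'
  have hrange : LinearMap.range Θ ≤ K0'.dualAnnihilator := by
    rintro _ ⟨b, rfl⟩
    rw [Submodule.mem_dualAnnihilator]
    intro a ha
    rw [hΘ]
    exact h a ha b b.2
  have h1 := Submodule.finrank_mono hrange
  have h2 := LinearMap.finrank_range_add_finrank_ker Θ
  omega

/-- A dualizing functional for the complete intersection. -/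
structure Tau (f0 f1 f2 : S3 K) (τ : S3 K →ₗ[K] K) : Prop where
  van : ∀ x, x ∈ piece (idl f0 f1 f2) 6 → τ x = 0
  nd : ∀ x : S3 K, x.IsHomogeneous 6 → τ x = 0 → x ∈ idl f0 f1 f2

section main
variable {f0 f1 f2 : S3 K} (hf : CubicReg f0 f1 f2)

include hf in
theorem exists_tau : ∃ τ, Tau f0 f1 f2 τ := by
  obtain ⟨h, hh, hhF⟩ := exists_not_mem_of_finrank_lt (A := piece (idl f0 f1 f2) 6) (W := Sd K 6)
    (by rw [finrank_piece6 hf, finrank_Sd6]; norm_num)
  obtain ⟨τ, hτh, hτF⟩ := Submodule.exists_dual_map_eq_bot_of_notMem hhF inferInstance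
  have hvan : ∀ x, x ∈ piece (idl f0 f1 f2) 6 → τ x = 0 := by
    intro x hx
    have : τ x ∈ (piece (idl f0 f1 f2) 6).map τ := ⟨x, hx, rfl⟩
    rw [hτF] at this
    exact this
  refine ⟨τ, hvan, ?_⟩
  intro x hx hτx
  have hsup : Sd K 6 ≤ piece (idl f0 f1 f2) 6 ⊔ Submodule.span K {h} := by
    have hle : piece (idl f0 f1 f2) 6 ⊔ Submodule.span K {h} ≤ Sd K 6 :=
      sup_le (piece_le _ _) ((Submodule.span_singleton_le_iff_mem _ _).mpr hh)
    have heq := Submodule.eq_of_le_of_finrank_le hle (by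
      rw [finrank_sup_singleton hhF, finrank_piece6 hf, finrank_Sd6])
    exact heq.ge
  obtain ⟨y, hy, z, hz, rfl⟩ := Submodule.mem_sup.mp (hsup hx)
  obtain ⟨κ, rfl⟩ := Submodule.mem_span_singleton.mp hz
  rw [map_add, hvan y hy, zero_add, map_smul, smul_eq_mul] at hτx
  have hκ : κ = 0 := (mul_eq_zero.mp hτx).resolve_right hτh
  rw [hκ, zero_smul, add_zero]
  exact hy.1

variable {τ : S3 K →ₗ[K] K}

include hf in
/-- Nondegeneracy of the pairing. -/
theorem nondeg (hτ : Tau f0 f1 f2 τ) (n : ℕ) : ∀ (e : ℕ) (g : S3 K), e + n = 6 → g.IsHomogeneous e →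
    (∀ a : S3 K, a.IsHomogeneous n → τ (a * g) = 0) → g ∈ idl f0 f1 f2 := by
  induction n with
  | zero =>
    intro e g he hg h
    have e6 : e = 6 := by omega
    subst e6
    apply hτ.nd g hg
    simpa using h 1 (isHomogeneous_one _ _)
  | succ n ih =>
    intro e g he hg h
    apply noSocle hf (d := e) (by omega) hg
    all_goals
      apply ih (e + 1) _ (by omega)
      · rw [add_comm]
        exact (isHomogeneous_X _ _).mul hg
      · intro a ha
        rw [← mul_assoc]
        exact h _ (ha.mul (isHomogeneous_X _ _))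

omit hf in
theorem tau_mul (hτ : Tau f0 f1 f2 τ) {a b : S3 K} {i j : ℕ} (hij : i + j = 6) (ha : a.IsHomogeneous i)
    (hb : b.IsHomogeneous j) (hI : a ∈ idl f0 f1 f2 ∨ b ∈ idl f0 f1 f2) : τ (a * b) = 0 := by
  apply hτ.van
  refine ⟨?_, ?_⟩
  · rcases hI with h | h
    · exact Ideal.mul_mem_right _ _ h
    · exact Ideal.mul_mem_left _ _ h
  · have := ha.mul hb
    rwa [hij] at this

include hf in
theorem dual_step (hτ : Tau f0 f1 f2 τ) {d e : ℕ} (hde : d + e = 5) {W : Submodule K (S3 K)}
    (hW : W ≤ Sd K d) :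
    ∃ R : Submodule K (S3 K), R ≤ Sd K e ∧
      finrank K (Sd K e) + finrank K (piece (idl f0 f1 f2) (d + 1))
        ≤ finrank K R + finrank K (Sd K 1 * W ⊔ piece (idl f0 f1 f2) (d + 1) : Submodule K (S3 K)) ∧
      finrank K (Sd K 1 * R ⊔ piece (idl f0 f1 f2) (e + 1) : Submodule K (S3 K)) + finrank K W
        ≤ finrank K (Sd K (e + 1)) + finrank K (piece (idl f0 f1 f2) d) := by
  have : Module.Finite K W := Submodule.finiteDimensional_of_le hW
  set Y : Submodule K (S3 K) := Sd K 1 * W ⊔ piece (idl f0 f1 f2) (d + 1) with hY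
  have hYS : Y ≤ Sd K (d + 1) := by
    refine sup_le ?_ (piece_le _ _)
    rw [Submodule.mul_le]
    intro x hx w hw
    have : (x * w).IsHomogeneous (1 + d) := (show x.IsHomogeneous 1 from hx).mul (hW hw)
    rwa [add_comm] at this
  have hYf : Module.Finite K Y := by rw [hY]; infer_instance
  set R := perp τ (Sd K e) Y with hR
  have hRS : R ≤ Sd K e := fun x hx => hx.1
  have hRf : Module.Finite K R := Submodule.finiteDimensional_of_le hRS
  refine ⟨R, hRS, ?_, ?_⟩
  · exact pair_bound τ (K0 := piece (idl f0 f1 f2) (d + 1)) le_sup_right (by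
      intro a ha b hb
      exact tau_mul hτ (i := d + 1) (j := e) (by omega) ha.2 hb (Or.inl ha.1))
  · set R2 := perp τ (Sd K (e + 1)) W with hR2
    have hR2S : R2 ≤ Sd K (e + 1) := fun x hx => hx.1
    have hle : Sd K 1 * R ⊔ piece (idl f0 f1 f2) (e + 1) ≤ R2 := by
      refine sup_le ?_ ?_
      · rw [Submodule.mul_le]
        intro l hl b hb
        refine ⟨?_, ?_⟩
        · have : (l * b).IsHomogeneous (1 + e) := (show l.IsHomogeneous 1 from hl).mul (hRS hb)
          rwa [add_comm] at this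
        · intro a ha
          rw [show a * (l * b) = (l * a) * b by ring]
          refine hb.2 _ (Submodule.mem_sup_left ?_)
          exact Submodule.mul_mem_mul hl ha
      · intro f hf'
        refine ⟨hf'.2, fun a ha => ?_⟩
        exact tau_mul hτ (i := d) (j := e + 1) (by omega) (hW ha) hf'.2 (Or.inr hf'.1)
    have hR2f : Module.Finite K R2 := Submodule.finiteDimensional_of_le hR2S
    have hb := pair_bound τ (Z := Sd K (e + 1)) (B := W) (K0 := R2) hR2S (by
      intro a ha b hb
      rw [mul_comm]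
      exact ha.2 b hb)
    have hperp : perp τ W (Sd K (e + 1)) ≤ piece (idl f0 f1 f2) d := by
      intro b hb
      refine ⟨?_, hW hb.1⟩
      exact nondeg hf hτ (e + 1) d b (by omega) (hW hb.1) (fun a ha => hb.2 a ha)
    have h1 := Submodule.finrank_mono hperp
    have h2 := Submodule.finrank_mono hle
    omega

end main

end Vale.Agent.P200
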