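import Mathlib
import Vale.Agent.Lib.P200_Dual

/-!
The growth table and its comparison with the lexicographic segments.
-/

open MvPolynomial Module

namespace Vale.Agent.P200

variable {K : Type*} [Field K]

/-- The least possible growth, in excess dimensions, from degree `d` to degree `d + 1`. -/
def Gtab (d u : ℕ) : ℕ :=
  if u = 0 then 0 else
    match d with
    | 0 => 3
    | 1 => if u = 1 then 3 else if u = 2 then 5 else 6
    | 2 => if u = 1 then 2 else if u = 2 then 4 else if u = 3 then 5 else if u = 4 then 6 else 7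
    | 3 => if u = 1 then 2 else if u = 2 then 3 else if u = 3 then 4 else if u ≤ 5 then 5 else 6
    | 4 => if u = 1 then 1 else if u ≤ 3 then 2 else 3
    | 5 => 1
    | _ => 0

/-- dimensions of the degree pieces of a complete intersection of three cubics -/
def ntab (d : ℕ) : ℕ :=
  match d with
  | 3 => 3
  | 4 => 9
  | 5 => 18
  | 6 => 27
  | _ => 0

theorem Gtab_mono {d u v : ℕ} (h : u ≤ v) : Gtab d u ≤ Gtab d v := by
  unfold Gtab
  rcases d with _ | _ | _ | _ | _ | _ | d <;> simp only <;> split_ifs <;> omega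

theorem finrank_piece_tab {f0 f1 f2 : S3 K} (hf : CubicReg f0 f1 f2) {d : ℕ} (hd : d ≤ 6) :
    finrank K (piece (idl f0 f1 f2) d) = ntab d := by
  interval_cases d
  · exact finrank_piece_small hf (by norm_num)
  · exact finrank_piece_small hf (by norm_num)
  · exact finrank_piece_small hf (by norm_num)
  · exact finrank_piece3 hf
  · exact finrank_piece4 hf
  · exact finrank_piece5 hf
  · exact finrank_piece6 hf

set_option maxRecDepth 100000 in
theorem table0 : ∀ a b c a' : Fin 3, (a' : ℕ) = (a : ℕ) + 1 →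
    lexRank (a', b, c) < Gtab (expDeg (a, b, c)) (lexRank (a, b, c) + 1) := by
  decide

set_option maxRecDepth 100000 in
theorem table1 : ∀ a b c b' : Fin 3, (b' : ℕ) = (b : ℕ) + 1 →
    lexRank (a, b', c) < Gtab (expDeg (a, b, c)) (lexRank (a, b, c) + 1) := by
  decide

set_option maxRecDepth 100000 in
theorem table2 : ∀ a b c c' : Fin 3, (c' : ℕ) = (c : ℕ) + 1 →
    lexRank (a, b, c') < Gtab (expDeg (a, b, c)) (lexRank (a, b, c) + 1) := by
  decide

section main
variable {f0 f1 f2 : S3 K} (hf : CubicReg f0 f1 f2)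
include hf

/-- growth in all degrees -/
theorem growth_all {d : ℕ} (hd : d ≤ 5) {W : Submodule K (S3 K)} (hW : W ≤ Sd K d) :
    Gtab d (finrank K W - ntab d)
      ≤ finrank K (Sd K 1 * W ⊔ piece (idl f0 f1 f2) (d + 1) : Submodule K (S3 K)) - ntab (d + 1) := by
  have hfW : Module.Finite K W := Submodule.finiteDimensional_of_le hW
  obtain ⟨τ, hτ⟩ := exists_tau hf
  interval_cases d
  · -- degree zero
    have h0 : finrank K W ≠ 0 → 3 ≤ finrank K (Sd K 1 * W : Submodule K (S3 K)) :=
      fun h => grow_one hW (by omega)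
    have h1 := Submodule.finrank_mono
      (le_sup_left : Sd K 1 * W ≤ Sd K 1 * W ⊔ piece (idl f0 f1 f2) 1)
    change Gtab 0 (finrank K W - ntab 0) ≤
      finrank K (Sd K 1 * W ⊔ piece (idl f0 f1 f2) 1 : Submodule K (S3 K)) - ntab 1
    simp only [Gtab, ntab]
    split_ifs <;> omega
  · -- degree one
    have h0 : 1 ≤ finrank K W → 3 ≤ finrank K (Sd K 1 * W : Submodule K (S3 K)) :=
      fun h => grow_one hW h
    have h2 : 2 ≤ finrank K W → 5 ≤ finrank K (Sd K 1 * W : Submodule K (S3 K)) :=
      fun h => grow1_two hW h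
    have h3 : 3 ≤ finrank K W → 6 ≤ finrank K (Sd K 1 * W : Submodule K (S3 K)) :=
      fun h => grow1_three hW h
    have h1 := Submodule.finrank_mono
      (le_sup_left : Sd K 1 * W ≤ Sd K 1 * W ⊔ piece (idl f0 f1 f2) 2)
    change Gtab 1 (finrank K W - ntab 1) ≤
      finrank K (Sd K 1 * W ⊔ piece (idl f0 f1 f2) 2 : Submodule K (S3 K)) - ntab 2
    simp only [Gtab, ntab]
    split_ifs <;> omega
  · -- degree two
    have g1 := grow2_one hf hW
    have g2 := grow2_two hf hW
    have g3 := grow2_three hf hW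
    have g4 := grow2_four hf hW
    have g5 := U5 hf hW
    change Gtab 2 (finrank K W - ntab 2) ≤
      finrank K (Sd K 1 * W ⊔ piece (idl f0 f1 f2) 3 : Submodule K (S3 K)) - ntab 3
    simp only [Gtab, ntab]
    split_ifs <;> omega
  · -- degree three
    obtain ⟨R, hR, h1, h2⟩ := dual_step hf hτ (d := 3) (e := 2) (by norm_num) hW
    have g1 := grow2_one hf hR
    have g2 := grow2_two hf hR
    have g3 := grow2_three hf hR
    have g4 := grow2_four hf hR
    have g5 := U5 hf hR
    rw [finrank_Sd2, show 3 + 1 = 4 from rfl, finrank_piece4 hf] at h1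
    rw [show 2 + 1 = 3 from rfl, finrank_piece3 hf, finrank_Sd3] at h2
    change Gtab 3 (finrank K W - ntab 3) ≤
      finrank K (Sd K 1 * W ⊔ piece (idl f0 f1 f2) 4 : Submodule K (S3 K)) - ntab 4
    simp only [Gtab, ntab]
    split_ifs <;> omega
  · -- degree four
    obtain ⟨R, hR, h1, h2⟩ := dual_step hf hτ (d := 4) (e := 1) (by norm_num) hW
    have g1 : 1 ≤ finrank K R → 3 ≤ finrank K (Sd K 1 * R : Submodule K (S3 K)) :=
      fun h => grow_one hR h
    have g2 : 2 ≤ finrank K R → 5 ≤ finrank K (Sd K 1 * R : Submodule K (S3 K)) :=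
      fun h => grow1_two hR h
    have g3 : 3 ≤ finrank K R → 6 ≤ finrank K (Sd K 1 * R : Submodule K (S3 K)) :=
      fun h => grow1_three hR h
    have hfR : Module.Finite K R := Submodule.finiteDimensional_of_le hR
    have g4 := Submodule.finrank_mono
      (le_sup_left : Sd K 1 * R ≤ Sd K 1 * R ⊔ piece (idl f0 f1 f2) 2)
    rw [finrank_Sd1, show 4 + 1 = 5 from rfl, finrank_piece5 hf] at h1
    rw [finrank_piece4 hf, show 1 + 1 = 2 from rfl, finrank_Sd2] at h2
    change Gtab 4 (finrank K W - ntab 4) ≤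
      finrank K (Sd K 1 * W ⊔ piece (idl f0 f1 f2) 5 : Submodule K (S3 K)) - ntab 5
    simp only [Gtab, ntab]
    split_ifs <;> omega
  · -- degree five
    obtain ⟨R, hR, h1, h2⟩ := dual_step hf hτ (d := 5) (e := 0) (by norm_num) hW
    have g1 : 1 ≤ finrank K R → 3 ≤ finrank K (Sd K 1 * R : Submodule K (S3 K)) :=
      fun h => grow_one hR h
    have hfR : Module.Finite K R := Submodule.finiteDimensional_of_le hR
    have g4 := Submodule.finrank_mono
      (le_sup_left : Sd K 1 * R ≤ Sd K 1 * R ⊔ piece (idl f0 f1 f2) 1)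
    rw [finrank_Sd0, show 5 + 1 = 6 from rfl, finrank_piece6 hf] at h1
    rw [finrank_piece5 hf, show 0 + 1 = 1 from rfl, finrank_Sd1] at h2
    change Gtab 5 (finrank K W - ntab 5) ≤
      finrank K (Sd K 1 * W ⊔ piece (idl f0 f1 f2) 6 : Submodule K (S3 K)) - ntab 6
    simp only [Gtab, ntab]
    split_ifs <;> omega

end main

end Vale.Agent.P200
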