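import Mathlib
import Vale.Agent.Lib.P200_Table

/-!
Assembly: the lexicographic segments are closed under multiplication.
-/

open MvPolynomial Module

namespace Vale.Agent.P200

variable {K : Type*} [Field K]

theorem cubicReg_of_reg (f : Fin 3 → S3 K) (hom : ∀ i, (f i).IsHomogeneous 3)
    (hreg : ∀ (i : Fin 3) (g : S3 K), f i * g ∈ Ideal.span (f '' {j | j < i}) →
      g ∈ Ideal.span (f '' {j | j < i})) :
    CubicReg (f 0) (f 1) (f 2) := by
  refine ⟨⟨?_, ?_, ?_⟩, hom 0, hom 1, hom 2⟩
  · intro h0
    have e : ({j | j < (0 : Fin 3)} : Set (Fin 3)) = ∅ := by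
      ext j; simp
    have := hreg 0 1 (by rw [h0, zero_mul]; exact Ideal.zero_mem _)
    rw [e, Set.image_empty, Ideal.span_empty, Ideal.mem_bot] at this
    exact one_ne_zero this
  · intro g u h
    have e : ({j | j < (1 : Fin 3)} : Set (Fin 3)) = {0} := by
      ext j; fin_cases j <;> simp
    have := hreg 1 g (by
      rw [e, Set.image_singleton, Ideal.mem_span_singleton']
      exact ⟨u, by rw [h, mul_comm]⟩)
    rw [e, Set.image_singleton, Ideal.mem_span_singleton'] at this
    obtain ⟨v, hv⟩ := this
    exact ⟨v, by rw [← hv, mul_comm]⟩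
  · intro g u v h
    have e : ({j | j < (2 : Fin 3)} : Set (Fin 3)) = {0, 1} := by
      ext j; fin_cases j <;> simp
    have := hreg 2 g (by
      rw [e, Set.image_pair, Ideal.mem_span_pair]
      exact ⟨u, v, by rw [h]; ring⟩)
    rw [e, Set.image_pair, Ideal.mem_span_pair] at this
    obtain ⟨a, b, hab⟩ := this
    exact ⟨a, b, by rw [← hab]; ring⟩

theorem finrank_power {d : ℕ} (hd : d ≤ 6) : finrank K (piece (powerIdeal K) d) = ntab d :=
  finrank_piece_tab cubicReg_X3 hd

theorem excess_step {f0 f1 f2 : S3 K} (hf : CubicReg f0 f1 f2) {I : Ideal (S3 K)}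
    (hI : idl f0 f1 f2 ≤ I) {d : ℕ} (hd : d ≤ 5) : Gtab d (excess I d) ≤ excess I (d + 1) := by
  have h := growth_all hf hd (piece_le I d)
  have hle : Sd K 1 * piece I d ⊔ piece (idl f0 f1 f2) (d + 1) ≤ piece I (d + 1) := by
    refine sup_le ?_ ?_
    · rw [Submodule.mul_le]
      intro l hl x hx
      refine ⟨Ideal.mul_mem_left _ _ hx.1, ?_⟩
      have : (l * x).IsHomogeneous (1 + d) := (show l.IsHomogeneous 1 from hl).mul hx.2
      rwa [add_comm] at this
    · intro x hx
      exact ⟨hI hx.1, hx.2⟩
  have h2 := Submodule.finrank_mono hle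
  unfold excess
  rw [finrank_power (by omega), finrank_power (by omega)]
  omega

theorem isHomogeneous_monomialOf (m : Exps) : (monomialOf K m).IsHomogeneous (expDeg m) := by
  unfold monomialOf expDeg
  exact ((isHomogeneous_X_pow _ _).mul (isHomogeneous_X_pow _ _)).mul (isHomogeneous_X_pow _ _)

theorem pow_mem_powerIdeal (t : Fin 3) : (X t : S3 K) ^ 3 ∈ powerIdeal K := by
  apply Ideal.subset_span
  fin_cases t <;> simp

section
variable {I : Ideal (S3 K)} (hstep : ∀ d : ℕ, d ≤ 5 → Gtab d (excess I d) ≤ excess I (d + 1))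
include hstep

/-- one more variable applied to a monomial of the segment stays in the next `J_d`. -/
theorem step_aux {m m' : Exps} {d : ℕ} (hm : expDeg m = d) (hr : lexRank m < excess I d)
    (hdeg : expDeg m' = d + 1) (htab : lexRank m' < Gtab (expDeg m) (lexRank m + 1)) :
    monomialOf K m' ∈ lexPart I (d + 1) := by
  have hd : d ≤ 5 := by
    have h1 := m'.1.2
    have h2 := m'.2.1.2
    have h3 := m'.2.2.2
    unfold expDeg at hdeg
    omega
  apply Submodule.mem_sup_right
  apply Submodule.subset_span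
  refine ⟨m', hdeg, ?_, rfl⟩
  have h1 := hstep d hd
  have h2 : Gtab d (lexRank m + 1) ≤ Gtab d (excess I d) := Gtab_mono (by omega)
  rw [hm] at htab
  omega

omit hstep in
theorem top_aux {x y : S3 K} {t : Fin 3} {d : ℕ} (hx : x = X t ^ 3 * y)
    (hh : x.IsHomogeneous (d + 1)) : x ∈ lexPart I (d + 1) := by
  apply Submodule.mem_sup_left
  refine ⟨?_, hh⟩
  rw [hx]
  exact Ideal.mul_mem_right _ _ (pow_mem_powerIdeal t)

theorem X_mul_monomial (t : Fin 3) (m : Exps) {d : ℕ} (hm : expDeg m = d)
    (hr : lexRank m < excess I d) : X t * monomialOf K m ∈ lexPart I (d + 1) := by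
  have hh : (X t * monomialOf K m).IsHomogeneous (d + 1) := by
    have := (isHomogeneous_X K t).mul (isHomogeneous_monomialOf (K := K) m)
    rw [hm, add_comm] at this
    exact this
  obtain ⟨a, b, c⟩ := m
  have ht : t = 0 ∨ t = 1 ∨ t = 2 := by fin_cases t <;> simp
  rcases ht with rfl | rfl | rfl
  · by_cases ha : (a : ℕ) = 2
    · apply top_aux (t := 0) (y := X 1 ^ (b : ℕ) * X 2 ^ (c : ℕ)) _ hh
      simp only [monomialOf, ha]
      ring
    · have ha' : (a : ℕ) + 1 < 3 := by have := a.2; omega
      have e : X 0 * monomialOf K (a, b, c) = monomialOf K (⟨(a : ℕ) + 1, ha'⟩, b, c) := by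
        simp only [monomialOf]
        ring
      rw [e]
      refine step_aux hstep hm hr ?_ (table0 a b c _ rfl)
      rw [← hm]
      simp only [expDeg]
      omega
  · by_cases hb : (b : ℕ) = 2
    · apply top_aux (t := 1) (y := X 0 ^ (a : ℕ) * X 2 ^ (c : ℕ)) _ hh
      simp only [monomialOf, hb]
      ring
    · have hb' : (b : ℕ) + 1 < 3 := by have := b.2; omega
      have e : X 1 * monomialOf K (a, b, c) = monomialOf K (a, ⟨(b : ℕ) + 1, hb'⟩, c) := by
        simp only [monomialOf]
        ring
      rw [e]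
      refine step_aux hstep hm hr ?_ (table1 a b c _ rfl)
      rw [← hm]
      simp only [expDeg]
      omega
  · by_cases hc : (c : ℕ) = 2
    · apply top_aux (t := 2) (y := X 0 ^ (a : ℕ) * X 1 ^ (b : ℕ)) _ hh
      simp only [monomialOf, hc]
      ring
    · have hc' : (c : ℕ) + 1 < 3 := by have := c.2; omega
      have e : X 2 * monomialOf K (a, b, c) = monomialOf K (a, b, ⟨(c : ℕ) + 1, hc'⟩) := by
        simp only [monomialOf]
        ring
      rw [e]
      refine step_aux hstep hm hr ?_ (table2 a b c _ rfl)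
      rw [← hm]
      simp only [expDeg]
      omega

theorem X_mul_lexPart (t : Fin 3) {d : ℕ} {x : S3 K} (hx : x ∈ lexPart I d) :
    X t * x ∈ lexPart I (d + 1) := by
  have hle : lexPart I d ≤ (lexPart I (d + 1)).comap (LinearMap.mulLeft K (X t)) := by
    refine sup_le ?_ ?_
    · intro y hy
      apply Submodule.mem_sup_left
      refine ⟨Ideal.mul_mem_left _ _ hy.1, ?_⟩
      have := (isHomogeneous_X K t).mul hy.2
      rwa [add_comm] at this
    · rw [Submodule.span_le]
      rintro y ⟨m, hm, hr, rfl⟩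
      exact X_mul_monomial hstep t m hm hr
  exact hle hx

theorem X_mul_lexPlusPowers (t : Fin 3) {x : S3 K} (hx : x ∈ lexPlusPowers I) :
    X t * x ∈ lexPlusPowers I := by
  unfold lexPlusPowers at hx ⊢
  induction hx using Submodule.iSup_induction' with
  | mem d y hy =>
    exact Submodule.mem_iSup_of_mem (d + 1) (X_mul_lexPart hstep t hy)
  | zero => simp
  | add y z _ _ hy hz =>
    rw [mul_add]
    exact Submodule.add_mem _ hy hz

theorem mul_lexPlusPowers (r : S3 K) : ∀ x ∈ lexPlusPowers I, r * x ∈ lexPlusPowers I := by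
  induction r using MvPolynomial.induction_on with
  | C a =>
    intro x hx
    rw [← smul_eq_C_mul]
    exact Submodule.smul_mem _ _ hx
  | add p q hp hq =>
    intro x hx
    rw [add_mul]
    exact Submodule.add_mem _ (hp x hx) (hq x hx)
  | mul_X p t hp =>
    intro x hx
    rw [mul_assoc]
    exact hp _ (X_mul_lexPlusPowers hstep t hx)

end

/-- The main theorem of this development. -/
theorem lexPlusPowers_isIdeal (I : Ideal (S3 K)) (f : Fin 3 → S3 K)
    (hom : ∀ i, (f i).IsHomogeneous 3)
    (hreg : ∀ (i : Fin 3) (g : S3 K), f i * g ∈ Ideal.span (f '' {j | j < i}) →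
      g ∈ Ideal.span (f '' {j | j < i}))
    (hI : ∀ i, f i ∈ I) :
    ∃ L : Ideal (S3 K), L.restrictScalars K = lexPlusPowers I := by
  have hf := cubicReg_of_reg f hom hreg
  have hle : idl (f 0) (f 1) (f 2) ≤ I := by
    unfold idl
    rw [Ideal.span_le]
    rintro x (rfl | rfl | rfl)
    · exact hI 0
    · exact hI 1
    · exact hI 2
  have hstep : ∀ d : ℕ, d ≤ 5 → Gtab d (excess I d) ≤ excess I (d + 1) :=
    fun d hd => excess_step hf hle hd
  refine ⟨Ideal.span (lexPlusPowers I : Set (S3 K)), ?_⟩
  apply le_antisymm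
  · intro x hx
    have hx' : x ∈ Ideal.span (lexPlusPowers I : Set (S3 K)) := hx
    induction hx' using Submodule.span_induction with
    | mem y hy => exact hy
    | zero => exact Submodule.zero_mem _
    | add y z _ _ hy hz => exact Submodule.add_mem _ (hy (by assumption)) (hz (by assumption))
    | smul a y _ hy => exact mul_lexPlusPowers hstep a y (hy (by assumption))
  · intro x hx
    exact Ideal.subset_span hx

end Vale.Agent.P200
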