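import Mathlib

/-!
Planar Brunn-Minkowski inequality for convex sets, proved by slicing.
-/

namespace Vale.Agent.P243

open MeasureTheory Set

/-- Interior points of a bounded convex subset of the line. -/
theorem convex_line_point {S : Set ℝ} (hS : Convex ℝ S) (hne : S.Nonempty)
    (hb : BddBelow S) (ha : BddAbove S) {θ : ℝ} (h0 : 0 < θ) (h1 : θ < 1) :
    sInf S + θ * (sSup S - sInf S) ∈ S := by
  obtain ⟨w, hw⟩ := hne
  have hl : sInf S ≤ w := csInf_le hb hw
  have hr : w ≤ sSup S := le_csSup ha hw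
  rcases eq_or_lt_of_le (hl.trans hr) with hlr | hlr
  · have : w = sInf S := le_antisymm (by linarith) hl
    rw [← hlr]; simp only [sub_self, mul_zero, add_zero]; rw [← this]; exact hw
  · set x := sInf S + θ * (sSup S - sInf S) with hx
    have h1x : sInf S < x := by
      have : 0 < θ * (sSup S - sInf S) := mul_pos h0 (sub_pos.2 hlr)
      linarith
    have h2x : x < sSup S := by
      have : θ * (sSup S - sInf S) < 1 * (sSup S - sInf S) :=
        mul_lt_mul_of_pos_right h1 (sub_pos.2 hlr)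
      linarith
    obtain ⟨u, hu, hux⟩ := exists_lt_of_csInf_lt ⟨w, hw⟩ h1x
    obtain ⟨v, hv, hxv⟩ := exists_lt_of_lt_csSup ⟨w, hw⟩ h2x
    exact hS.ordConnected.out hu hv ⟨hux.le, hxv.le⟩

/-- Length additivity for convex combinations of bounded convex subsets of the line. -/
theorem volume_convex_combo_le {S T U : Set ℝ} (hS : Convex ℝ S) (hT : Convex ℝ T)
    (hSne : S.Nonempty) (hTne : T.Nonempty)
    (hSb : BddBelow S) (hSa : BddAbove S) (hTb : BddBelow T) (hTa : BddAbove T)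
    {a b : ℝ} (ha : 0 ≤ a) (hb : 0 ≤ b)
    (hU : ∀ x ∈ S, ∀ y ∈ T, a * x + b * y ∈ U) :
    ENNReal.ofReal a * volume S + ENNReal.ofReal b * volume T ≤ volume U := by
  set lS := sInf S
  set rS := sSup S
  set lT := sInf T
  set rT := sSup T
  have hSsub : S ⊆ Icc lS rS := fun x hx => ⟨csInf_le hSb hx, le_csSup hSa hx⟩
  have hTsub : T ⊆ Icc lT rT := fun x hx => ⟨csInf_le hTb hx, le_csSup hTa hx⟩
  have hlrS : lS ≤ rS := csInf_le_csSup hSne hSb hSa
  have hlrT : lT ≤ rT := csInf_le_csSup hTne hTb hTa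
  have hsub : Ioo (a * lS + b * lT) (a * rS + b * rT) ⊆ U := by
    intro z hz
    have hpq : a * lS + b * lT < a * rS + b * rT := hz.1.trans hz.2
    set θ := (z - (a * lS + b * lT)) / ((a * rS + b * rT) - (a * lS + b * lT)) with hθ
    have hden : 0 < (a * rS + b * rT) - (a * lS + b * lT) := sub_pos.2 hpq
    have h0 : 0 < θ := div_pos (sub_pos.2 hz.1) hden
    have h1 : θ < 1 := by
      rw [hθ, div_lt_one hden]; linarith [hz.2]
    have hx := convex_line_point hS hSne hSb hSa h0 h1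
    have hy := convex_line_point hT hTne hTb hTa h0 h1
    have := hU _ hx _ hy
    convert this using 1
    have hθ' : θ * ((a * rS + b * rT) - (a * lS + b * lT)) = z - (a * lS + b * lT) := by
      rw [hθ]; field_simp
    show z = a * (lS + θ * (rS - lS)) + b * (lT + θ * (rT - lT))
    nlinarith [hθ']
  calc ENNReal.ofReal a * volume S + ENNReal.ofReal b * volume T
      ≤ ENNReal.ofReal a * volume (Icc lS rS) + ENNReal.ofReal b * volume (Icc lT rT) := by
        gcongr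
    _ = ENNReal.ofReal (a * (rS - lS) + b * (rT - lT)) := by
        rw [Real.volume_Icc, Real.volume_Icc, ← ENNReal.ofReal_mul ha, ← ENNReal.ofReal_mul hb,
          ENNReal.ofReal_add (mul_nonneg ha (sub_nonneg.2 hlrS))
            (mul_nonneg hb (sub_nonneg.2 hlrT))]
    _ = volume (Ioo (a * lS + b * lT) (a * rS + b * rT)) := by
        rw [Real.volume_Ioo]; congr 1; ring
    _ ≤ volume U := measure_mono hsub

/-- Normalised one dimensional level set inequality. -/
theorem lintegral_min_combo {f g h : ℝ → ℝ} (hfm : Measurable f) (hgm : Measurable g)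
    (hhm : Measurable h) (f0 : ∀ x, 0 ≤ f x) (g0 : ∀ x, 0 ≤ g x) (h0 : ∀ x, 0 ≤ h x)
    (f1 : ∀ x, f x ≤ 1) (g1 : ∀ x, g x ≤ 1)
    (fsup : ∀ r < 1, ∃ x, r < f x) (gsup : ∀ r < 1, ∃ x, r < g x)
    (fconv : ∀ r > 0, Convex ℝ {x | r ≤ f x}) (gconv : ∀ r > 0, Convex ℝ {x | r ≤ g x})
    (fbdd : ∀ r > 0, Bornology.IsBounded {x | r ≤ f x})
    (gbdd : ∀ r > 0, Bornology.IsBounded {x | r ≤ g x})
    {a b : ℝ} (ha : 0 ≤ a) (hb : 0 ≤ b)
    (hmin : ∀ r > 0, ∀ x y, r ≤ f x → r ≤ g y → r ≤ h (a * x + b * y)) :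
    ENNReal.ofReal a * (∫⁻ x, ENNReal.ofReal (f x)) +
      ENNReal.ofReal b * (∫⁻ x, ENNReal.ofReal (g x)) ≤ ∫⁻ x, ENNReal.ofReal (h x) := by
  have cake : ∀ {k : ℝ → ℝ}, Measurable k → (∀ x, 0 ≤ k x) →
      ∫⁻ x, ENNReal.ofReal (k x) = ∫⁻ t in Ioi (0:ℝ), volume {x | t ≤ k x} := by
    intro k hk k0
    exact lintegral_eq_lintegral_meas_le volume (Filter.Eventually.of_forall k0) hk.aemeasurable
  have cake1 : ∀ {k : ℝ → ℝ}, Measurable k → (∀ x, 0 ≤ k x) → (∀ x, k x ≤ 1) →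
      ∫⁻ x, ENNReal.ofReal (k x) = ∫⁻ t in Ioo (0:ℝ) 1, volume {x | t ≤ k x} := by
    intro k hk k0 k1
    rw [cake hk k0]
    have hIoi : Ioi (0:ℝ) = Ioc 0 1 ∪ Ioi 1 := (Ioc_union_Ioi_eq_Ioi zero_le_one).symm
    rw [hIoi, lintegral_union measurableSet_Ioi
      (disjoint_left.2 fun x hx hx' => absurd hx.2 (not_le.2 hx'))]
    have hzero : ∫⁻ t in Ioi (1:ℝ), volume {x | t ≤ k x} = 0 := by
      apply setLIntegral_eq_zero measurableSet_Ioi
      intro t ht
      have : {x | t ≤ k x} = ∅ := by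
        ext x; simp only [mem_ofPred_eq, mem_empty_iff_false, iff_false, not_le]
        exact lt_of_le_of_lt (k1 x) ht
      show volume {x | t ≤ k x} = 0
      rw [this]; simp
    rw [hzero, add_zero]
    exact setLIntegral_congr Ioo_ae_eq_Ioc.symm
  rw [cake1 hfm f0 f1, cake1 hgm g0 g1, cake hhm h0]
  calc ENNReal.ofReal a * (∫⁻ t in Ioo (0:ℝ) 1, volume {x | t ≤ f x}) +
        ENNReal.ofReal b * (∫⁻ t in Ioo (0:ℝ) 1, volume {x | t ≤ g x})
      = (∫⁻ t in Ioo (0:ℝ) 1, ENNReal.ofReal a * volume {x | t ≤ f x}) +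
        (∫⁻ t in Ioo (0:ℝ) 1, ENNReal.ofReal b * volume {x | t ≤ g x}) := by
        rw [lintegral_const_mul' _ _ ENNReal.ofReal_ne_top,
          lintegral_const_mul' _ _ ENNReal.ofReal_ne_top]
    _ ≤ ∫⁻ t in Ioo (0:ℝ) 1,
        (ENNReal.ofReal a * volume {x | t ≤ f x} + ENNReal.ofReal b * volume {x | t ≤ g x}) :=
        le_lintegral_add _ _
    _ ≤ ∫⁻ t in Ioo (0:ℝ) 1, volume {x | t ≤ h x} := by
        apply setLIntegral_mono' measurableSet_Ioo
        intro t ht
        obtain ⟨x₀, hx₀⟩ := fsup t ht.2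
        obtain ⟨y₀, hy₀⟩ := gsup t ht.2
        have hf := (fbdd t ht.1)
        have hg := (gbdd t ht.1)
        apply volume_convex_combo_le (fconv t ht.1) (gconv t ht.1) ⟨x₀, hx₀.le⟩ ⟨y₀, hy₀.le⟩
          hf.bddBelow hf.bddAbove hg.bddBelow hg.bddAbove ha hb
        intro x hx y hy
        exact hmin t ht.1 x y hx hy
    _ ≤ ∫⁻ t in Ioi (0:ℝ), volume {x | t ≤ h x} :=
        lintegral_mono_set Ioo_subset_Ioi_self


/-- The length of a vertical slice of a planar set. -/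
noncomputable def sliceLen (A : Set (ℝ × ℝ)) (x : ℝ) : ℝ := (volume (Prod.mk x ⁻¹' A)).toReal

theorem bounded_slices {A : Set (ℝ × ℝ)} (hA : Bornology.IsBounded A) :
    ∃ R : ℝ, (∀ x y, (x, y) ∈ A → |y| ≤ R) ∧ (∀ x y, (x, y) ∈ A → |x| ≤ R) := by
  obtain ⟨R, hR⟩ := hA.subset_closedBall 0
  refine ⟨R, fun x y hxy => ?_, fun x y hxy => ?_⟩
  · have := hR hxy
    simp only [Metric.mem_closedBall, dist_zero_right, Prod.norm_def] at this
    exact le_trans (le_max_right _ _) this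
  · have := hR hxy
    simp only [Metric.mem_closedBall, dist_zero_right, Prod.norm_def] at this
    exact le_trans (le_max_left _ _) this

theorem slice_subset_Icc {A : Set (ℝ × ℝ)} {R : ℝ} (hR : ∀ x y, (x, y) ∈ A → |y| ≤ R) (x : ℝ) :
    Prod.mk x ⁻¹' A ⊆ Icc (-R) R := fun y hy => abs_le.1 (hR x y hy)

theorem volume_slice_ne_top {A : Set (ℝ × ℝ)} (hA : Bornology.IsBounded A) (x : ℝ) :
    volume (Prod.mk x ⁻¹' A) ≠ ⊤ := by
  obtain ⟨R, hR, -⟩ := bounded_slices hA
  refine ne_of_lt (lt_of_le_of_lt (measure_mono (slice_subset_Icc hR x)) ?_)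
  rw [Real.volume_Icc]; exact ENNReal.ofReal_lt_top

theorem ofReal_sliceLen {A : Set (ℝ × ℝ)} (hA : Bornology.IsBounded A) (x : ℝ) :
    ENNReal.ofReal (sliceLen A x) = volume (Prod.mk x ⁻¹' A) :=
  ENNReal.ofReal_toReal (volume_slice_ne_top hA x)

theorem sliceLen_nonneg (A : Set (ℝ × ℝ)) (x : ℝ) : 0 ≤ sliceLen A x := ENNReal.toReal_nonneg

theorem sliceLen_measurable {A : Set (ℝ × ℝ)} (hA : MeasurableSet A) :
    Measurable (sliceLen A) :=
  (measurable_measure_prodMk_left hA).ennreal_toReal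

theorem sliceLen_le {A : Set (ℝ × ℝ)} {R : ℝ} (hR : ∀ x y, (x, y) ∈ A → |y| ≤ R) (x : ℝ)
    (hR0 : 0 ≤ R) : sliceLen A x ≤ 2 * R := by
  unfold sliceLen
  have h := measure_mono (μ := volume) (slice_subset_Icc hR x)
  rw [Real.volume_Icc] at h
  have h2 : R - -R = 2 * R := by ring
  rw [h2] at h
  exact ENNReal.toReal_le_of_le_ofReal (by positivity) h

theorem volume_eq_lintegral_sliceLen {A : Set (ℝ × ℝ)} (hAm : MeasurableSet A)
    (hA : Bornology.IsBounded A) :
    volume A = ∫⁻ x, ENNReal.ofReal (sliceLen A x) := by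
  rw [Measure.volume_eq_prod, Measure.prod_apply hAm]
  exact lintegral_congr fun x => (ofReal_sliceLen hA x).symm

theorem convex_slice {A : Set (ℝ × ℝ)} (hA : Convex ℝ A) (x : ℝ) :
    Convex ℝ (Prod.mk x ⁻¹' A) := by
  intro y₁ hy₁ y₂ hy₂ s t hs ht hst
  have := hA hy₁ hy₂ hs ht hst
  simp only [Prod.smul_mk, Prod.mk_add_mk, smul_eq_mul, mem_preimage] at this ⊢
  convert this using 2
  rw [← add_mul, hst, one_mul]

theorem slice_nonempty_of_sliceLen_pos {A : Set (ℝ × ℝ)} {x : ℝ} (h : 0 < sliceLen A x) :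
    (Prod.mk x ⁻¹' A).Nonempty := by
  by_contra hne
  rw [not_nonempty_iff_eq_empty] at hne
  simp [sliceLen, hne] at h

theorem slice_combo {A B C : Set (ℝ × ℝ)} (hA : Convex ℝ A) (hB : Convex ℝ B)
    (hAb : Bornology.IsBounded A) (hBb : Bornology.IsBounded B) (hCb : Bornology.IsBounded C)
    {a b : ℝ} (ha : 0 ≤ a) (hb : 0 ≤ b)
    (hsub : ∀ p ∈ A, ∀ q ∈ B, a • p + b • q ∈ C) {x y : ℝ}
    (hx : (Prod.mk x ⁻¹' A).Nonempty) (hy : (Prod.mk y ⁻¹' B).Nonempty) :
    a * sliceLen A x + b * sliceLen B y ≤ sliceLen C (a * x + b * y) := by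
  obtain ⟨R₁, hR₁, -⟩ := bounded_slices hAb
  obtain ⟨R₂, hR₂, -⟩ := bounded_slices hBb
  have hS1 : BddBelow (Prod.mk x ⁻¹' A) := ⟨-R₁, fun y hy => (slice_subset_Icc hR₁ x hy).1⟩
  have hS2 : BddAbove (Prod.mk x ⁻¹' A) := ⟨R₁, fun y hy => (slice_subset_Icc hR₁ x hy).2⟩
  have hT1 : BddBelow (Prod.mk y ⁻¹' B) := ⟨-R₂, fun y' hy' => (slice_subset_Icc hR₂ y hy').1⟩
  have hT2 : BddAbove (Prod.mk y ⁻¹' B) := ⟨R₂, fun y' hy' => (slice_subset_Icc hR₂ y hy').2⟩
  have key := volume_convex_combo_le (U := Prod.mk (a * x + b * y) ⁻¹' C)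
    (convex_slice hA x) (convex_slice hB y) hx hy hS1 hS2 hT1 hT2 ha hb (by
      intro u hu v hv
      have := hsub _ hu _ hv
      simpa using this)
  rw [← ofReal_sliceLen hAb, ← ofReal_sliceLen hBb, ← ofReal_sliceLen hCb,
    ← ENNReal.ofReal_mul ha, ← ENNReal.ofReal_mul hb,
    ← ENNReal.ofReal_add (mul_nonneg ha (sliceLen_nonneg _ _))
      (mul_nonneg hb (sliceLen_nonneg _ _))] at key
  exact (ENNReal.ofReal_le_ofReal_iff (sliceLen_nonneg _ _)).1 key

/-- Cauchy-Schwarz in the form needed for Brunn-Minkowski. -/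
theorem bm_algebra {a b p q u v : ℝ} (ha : 0 ≤ a) (hb : 0 ≤ b) (hp : 0 < p) (hq : 0 < q) :
    (a * u + b * v) ^ 2 ≤ (a * p + b * q) * (a * (u ^ 2 / p) + b * (v ^ 2 / q)) := by
  have h1 : (a * p + b * q) * (a * (u ^ 2 / p) + b * (v ^ 2 / q)) - (a * u + b * v) ^ 2
      = a * b * (p * v - q * u) ^ 2 / (p * q) := by
    field_simp
    ring
  have h2 : 0 ≤ a * b * (p * v - q * u) ^ 2 / (p * q) := by positivity
  linarith

/-- Planar Brunn-Minkowski when both sets have positive area. -/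
theorem planar_bm_pos {A B C : Set (ℝ × ℝ)} (hA : Convex ℝ A) (hB : Convex ℝ B)
    (hAm : MeasurableSet A) (hBm : MeasurableSet B) (hCm : MeasurableSet C)
    (hAb : Bornology.IsBounded A) (hBb : Bornology.IsBounded B) (hCb : Bornology.IsBounded C)
    (hApos : 0 < volume A) (hBpos : 0 < volume B)
    {a b : ℝ} (ha : 0 ≤ a) (hb : 0 ≤ b) (hab : a + b = 1)
    (hsub : ∀ p ∈ A, ∀ q ∈ B, a • p + b • q ∈ C) :
    a * √(volume A).toReal + b * √(volume B).toReal ≤ √(volume C).toReal := by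
  obtain ⟨R₁, hR₁, hX₁⟩ := bounded_slices hAb
  obtain ⟨R₂, hR₂, hX₂⟩ := bounded_slices hBb
  -- positivity of the maxima
  have posAux : ∀ {E : Set (ℝ × ℝ)}, MeasurableSet E → Bornology.IsBounded E → 0 < volume E →
      ∃ x, 0 < sliceLen E x := by
    intro E hEm hEb hE
    by_contra hcon
    push Not at hcon
    have : ∀ x, ENNReal.ofReal (sliceLen E x) = 0 := fun x =>
      ENNReal.ofReal_of_nonpos (hcon x)
    rw [volume_eq_lintegral_sliceLen hEm hEb] at hE
    simp [this] at hE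
  obtain ⟨x₁, hx₁⟩ := posAux hAm hAb hApos
  obtain ⟨x₂, hx₂⟩ := posAux hBm hBb hBpos
  have hR₁0 : 0 ≤ R₁ := by
    obtain ⟨y, hy⟩ := slice_nonempty_of_sliceLen_pos hx₁
    exact le_trans (abs_nonneg _) (hR₁ _ _ hy)
  have hR₂0 : 0 ≤ R₂ := by
    obtain ⟨y, hy⟩ := slice_nonempty_of_sliceLen_pos hx₂
    exact le_trans (abs_nonneg _) (hR₂ _ _ hy)
  set mA := sSup (range (sliceLen A)) with hmA
  set mB := sSup (range (sliceLen B)) with hmB
  have bddA : BddAbove (range (sliceLen A)) :=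
    ⟨2 * R₁, by rintro _ ⟨x, rfl⟩; exact sliceLen_le hR₁ x hR₁0⟩
  have bddB : BddAbove (range (sliceLen B)) :=
    ⟨2 * R₂, by rintro _ ⟨x, rfl⟩; exact sliceLen_le hR₂ x hR₂0⟩
  have mApos : 0 < mA := lt_of_lt_of_le hx₁ (le_csSup bddA ⟨x₁, rfl⟩)
  have mBpos : 0 < mB := lt_of_lt_of_le hx₂ (le_csSup bddB ⟨x₂, rfl⟩)
  have hm'pos : 0 < a * mA + b * mB := by
    rcases eq_or_lt_of_le ha with h | h
    · have : b = 1 := by linarith
      rw [← h, this]; simpa using mBpos
    · have := mul_pos h mApos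
      have := mul_nonneg hb mBpos.le
      linarith
  set m' := a * mA + b * mB with hm'
  -- level sets
  have levelConv : ∀ {E : Set (ℝ × ℝ)}, Convex ℝ E → Bornology.IsBounded E → ∀ {m : ℝ}, 0 < m →
      ∀ r > 0, Convex ℝ {x | r ≤ sliceLen E x / m} := by
    intro E hE hEb m hm r hr x₀ hx₀ x₁ hx₁ s t hs ht hst
    simp only [mem_ofPred_eq, le_div_iff₀ hm] at hx₀ hx₁ ⊢
    have hp0 : 0 < sliceLen E x₀ := lt_of_lt_of_le (mul_pos hr hm) hx₀
    have hp1 : 0 < sliceLen E x₁ := lt_of_lt_of_le (mul_pos hr hm) hx₁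
    have := slice_combo hE hE hEb hEb hEb hs ht (C := E)
      (fun p hp q hq => hE hp hq hs ht hst)
      (slice_nonempty_of_sliceLen_pos hp0) (slice_nonempty_of_sliceLen_pos hp1)
    have h2 : s • x₀ + t • x₁ = s * x₀ + t * x₁ := by simp
    rw [h2]
    calc r * m = s * (r * m) + t * (r * m) := by rw [← add_mul, hst, one_mul]
      _ ≤ s * sliceLen E x₀ + t * sliceLen E x₁ := by gcongr
      _ ≤ _ := this
  have levelBdd : ∀ {E : Set (ℝ × ℝ)} {R : ℝ}, (∀ x y, (x, y) ∈ E → |x| ≤ R) → ∀ {m : ℝ}, 0 < m →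
      ∀ r > 0, Bornology.IsBounded {x | r ≤ sliceLen E x / m} := by
    intro E R hR m hm r hr
    apply (Metric.isBounded_Icc (-R) R).subset
    intro x hx
    simp only [mem_ofPred_eq, le_div_iff₀ hm] at hx
    have hp0 : 0 < sliceLen E x := lt_of_lt_of_le (mul_pos hr hm) hx
    obtain ⟨y, hy⟩ := slice_nonempty_of_sliceLen_pos hp0
    exact abs_le.1 (hR x y hy)
  have key := lintegral_min_combo (f := fun x => sliceLen A x / mA)
    (g := fun x => sliceLen B x / mB) (h := fun x => sliceLen C x / m')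
    ((sliceLen_measurable hAm).div_const _) ((sliceLen_measurable hBm).div_const _)
    ((sliceLen_measurable hCm).div_const _)
    (fun x => div_nonneg (sliceLen_nonneg _ _) mApos.le)
    (fun x => div_nonneg (sliceLen_nonneg _ _) mBpos.le)
    (fun x => div_nonneg (sliceLen_nonneg _ _) hm'pos.le)
    (fun x => (div_le_one mApos).2 (le_csSup bddA ⟨x, rfl⟩))
    (fun x => (div_le_one mBpos).2 (le_csSup bddB ⟨x, rfl⟩))
    (by
      intro r hr
      have : r * mA < mA := by nlinarith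
      obtain ⟨_, ⟨x, rfl⟩, hx⟩ := exists_lt_of_lt_csSup (range_nonempty _) this
      exact ⟨x, (lt_div_iff₀ mApos).2 hx⟩)
    (by
      intro r hr
      have : r * mB < mB := by nlinarith
      obtain ⟨_, ⟨x, rfl⟩, hx⟩ := exists_lt_of_lt_csSup (range_nonempty _) this
      exact ⟨x, (lt_div_iff₀ mBpos).2 hx⟩)
    (levelConv hA hAb mApos) (levelConv hB hBb mBpos)
    (levelBdd hX₁ mApos) (levelBdd hX₂ mBpos) ha hb
    (by
      intro r hr x y hx hy
      simp only [le_div_iff₀ mApos, le_div_iff₀ mBpos] at hx hy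
      simp only [le_div_iff₀ hm'pos]
      have hp0 : 0 < sliceLen A x := lt_of_lt_of_le (mul_pos hr mApos) hx
      have hp1 : 0 < sliceLen B y := lt_of_lt_of_le (mul_pos hr mBpos) hy
      have := slice_combo hA hB hAb hBb hCb ha hb hsub
        (slice_nonempty_of_sliceLen_pos hp0) (slice_nonempty_of_sliceLen_pos hp1)
      calc r * m' = a * (r * mA) + b * (r * mB) := by rw [hm']; ring
        _ ≤ a * sliceLen A x + b * sliceLen B y := by gcongr
        _ ≤ _ := this)
  -- convert to real numbers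
  have conv : ∀ {E : Set (ℝ × ℝ)}, MeasurableSet E → Bornology.IsBounded E → ∀ {m : ℝ}, 0 < m →
      ∫⁻ x, ENNReal.ofReal (sliceLen E x / m) = ENNReal.ofReal ((volume E).toReal / m) := by
    intro E hEm hEb m hm
    have hfin : volume E ≠ ⊤ := hEb.measure_lt_top.ne
    have h1 : ∀ x, ENNReal.ofReal (sliceLen E x / m)
        = ENNReal.ofReal m⁻¹ * ENNReal.ofReal (sliceLen E x) := by
      intro x
      rw [← ENNReal.ofReal_mul (inv_nonneg.2 hm.le)]
      congr 1; rw [div_eq_inv_mul]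
    simp_rw [h1]
    rw [lintegral_const_mul' _ _ ENNReal.ofReal_ne_top, ← volume_eq_lintegral_sliceLen hEm hEb,
      div_eq_inv_mul, ENNReal.ofReal_mul (inv_nonneg.2 hm.le), ENNReal.ofReal_toReal hfin]
  rw [conv hAm hAb mApos, conv hBm hBb mBpos, conv hCm hCb hm'pos,
    ← ENNReal.ofReal_mul ha, ← ENNReal.ofReal_mul hb,
    ← ENNReal.ofReal_add (by positivity) (by positivity),
    ENNReal.ofReal_le_ofReal_iff (by positivity)] at key
  set F := (volume A).toReal with hF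
  set G := (volume B).toReal with hG
  set H := (volume C).toReal with hH
  have hF0 : 0 ≤ F := ENNReal.toReal_nonneg
  have hG0 : 0 ≤ G := ENNReal.toReal_nonneg
  apply Real.le_sqrt_of_sq_le
  have := bm_algebra (u := √F) (v := √G) ha hb mApos mBpos
  rw [Real.sq_sqrt hF0, Real.sq_sqrt hG0] at this
  refine this.trans ?_
  rw [← hm']
  calc m' * (a * (F / mA) + b * (G / mB)) ≤ m' * (H / m') := by gcongr
    _ = H := by field_simp

/-- Planar Brunn-Minkowski when the second set has zero area. -/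
theorem planar_bm_null {A B C : Set (ℝ × ℝ)}
    (hCb : Bornology.IsBounded C) (hBne : B.Nonempty)
    {a b : ℝ} (hab : a + b = 1)
    (hsub : ∀ p ∈ A, ∀ q ∈ B, a • p + b • q ∈ C) :
    a * √(volume A).toReal ≤ √(volume C).toReal := by
  obtain ⟨q, hq⟩ := hBne
  have hsub2 : AffineMap.homothety q a '' A ⊆ C := by
    rintro _ ⟨p, hp, rfl⟩
    have : AffineMap.homothety q a p = a • p + b • q := by
      have hb : b = 1 - a := by linarith
      simp only [AffineMap.homothety_apply, vsub_eq_sub, vadd_eq_add, hb, smul_sub, sub_smul,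
        one_smul]
      abel
    rw [this]
    exact hsub p hp q hq
  have h1 := measure_mono (μ := volume) hsub2
  rw [Measure.addHaar_image_homothety] at h1
  have hfrk : Module.finrank ℝ (ℝ × ℝ) = 2 := by simp
  rw [hfrk] at h1
  have hC : volume C ≠ ⊤ := hCb.measure_lt_top.ne
  have h2 : ENNReal.ofReal |a ^ 2| * volume A ≠ ⊤ := ne_top_of_le_ne_top hC h1
  have h3 := ENNReal.toReal_mono hC h1
  rw [ENNReal.toReal_mul, ENNReal.toReal_ofReal (abs_nonneg _), abs_of_nonneg (by positivity)] at h3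
  apply Real.le_sqrt_of_sq_le
  rw [mul_pow, Real.sq_sqrt ENNReal.toReal_nonneg]
  exact h3

/-- Planar Brunn-Minkowski inequality for bounded measurable convex sets. -/
theorem planar_bm {A B C : Set (ℝ × ℝ)} (hA : Convex ℝ A) (hB : Convex ℝ B)
    (hAm : MeasurableSet A) (hBm : MeasurableSet B) (hCm : MeasurableSet C)
    (hAb : Bornology.IsBounded A) (hBb : Bornology.IsBounded B) (hCb : Bornology.IsBounded C)
    (hAne : A.Nonempty) (hBne : B.Nonempty)
    {a b : ℝ} (ha : 0 ≤ a) (hb : 0 ≤ b) (hab : a + b = 1)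
    (hsub : ∀ p ∈ A, ∀ q ∈ B, a • p + b • q ∈ C) :
    a * √(volume A).toReal + b * √(volume B).toReal ≤ √(volume C).toReal := by
  rcases eq_or_lt_of_le (show 0 ≤ volume A from zero_le) with hAz | hApos
  · have h0 : √(volume A).toReal = 0 := by rw [← hAz]; simp
    rw [h0, mul_zero, zero_add]
    exact planar_bm_null (a := b) (b := a) hCb hAne (by linarith) (fun p hp q hq => by
      have := hsub q hq p hp
      rwa [add_comm] at this)
  rcases eq_or_lt_of_le (show 0 ≤ volume B from zero_le) with hBz | hBpos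
  · have h0 : √(volume B).toReal = 0 := by rw [← hBz]; simp
    rw [h0, mul_zero, add_zero]
    exact planar_bm_null hCb hBne hab hsub
  exact planar_bm_pos hA hB hAm hBm hCm hAb hBb hCb hApos hBpos ha hb hab hsub

end Vale.Agent.P243
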