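import Vale.Agent.Lib.P243Level

/-!
The volume of the part of a convex body in `(ℝ × ℝ) × ℝ` over a planar set.
-/

namespace Vale.Agent.P243

open MeasureTheory Set

/-- Fibre length of a set in `(ℝ × ℝ) × ℝ` over a planar point. -/
noncomputable def chord (K : Set ((ℝ × ℝ) × ℝ)) (y : ℝ × ℝ) : ℝ :=
  (volume (Prod.mk y ⁻¹' K)).toReal

theorem fiber_bound {K : Set ((ℝ × ℝ) × ℝ)} (hK : Bornology.IsBounded K) :
    ∃ R : ℝ, 0 ≤ R ∧ ∀ y, Prod.mk y ⁻¹' K ⊆ Icc (-R) R := by
  obtain ⟨R, hR⟩ := hK.subset_closedBall 0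
  refine ⟨max R 0, le_max_right _ _, fun y t ht => ?_⟩
  have := hR ht
  simp only [Metric.mem_closedBall, dist_zero_right, Prod.norm_def] at this
  have h2 : |t| ≤ R := le_trans (le_max_right _ _) this
  exact abs_le.1 (h2.trans (le_max_left _ _))

theorem chord_nonneg (K : Set ((ℝ × ℝ) × ℝ)) (y : ℝ × ℝ) : 0 ≤ chord K y := ENNReal.toReal_nonneg

theorem fiber_ne_top {K : Set ((ℝ × ℝ) × ℝ)} (hK : Bornology.IsBounded K) (y : ℝ × ℝ) :
    volume (Prod.mk y ⁻¹' K) ≠ ⊤ := by
  obtain ⟨R, _, hR⟩ := fiber_bound hK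
  refine ne_of_lt (lt_of_le_of_lt (measure_mono (hR y)) ?_)
  rw [Real.volume_Icc]; exact ENNReal.ofReal_lt_top

theorem ofReal_chord {K : Set ((ℝ × ℝ) × ℝ)} (hK : Bornology.IsBounded K) (y : ℝ × ℝ) :
    ENNReal.ofReal (chord K y) = volume (Prod.mk y ⁻¹' K) :=
  ENNReal.ofReal_toReal (fiber_ne_top hK y)

theorem chord_measurable {K : Set ((ℝ × ℝ) × ℝ)} (hK : MeasurableSet K) :
    Measurable (chord K) :=
  (measurable_measure_prodMk_left hK).ennreal_toReal

theorem chord_le {K : Set ((ℝ × ℝ) × ℝ)} {R : ℝ} (hR0 : 0 ≤ R)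
    (hR : ∀ y, Prod.mk y ⁻¹' K ⊆ Icc (-R) R) (y : ℝ × ℝ) : chord K y ≤ 2 * R := by
  unfold chord
  have h := measure_mono (μ := volume) (hR y)
  rw [Real.volume_Icc] at h
  have h2 : R - -R = 2 * R := by ring
  rw [h2] at h
  exact ENNReal.toReal_le_of_le_ofReal (by positivity) h

theorem convex_fiber {K : Set ((ℝ × ℝ) × ℝ)} (hK : Convex ℝ K) (y : ℝ × ℝ) :
    Convex ℝ (Prod.mk y ⁻¹' K) := by
  intro t₁ ht₁ t₂ ht₂ a b ha hb hab
  have := hK ht₁ ht₂ ha hb hab
  simp only [Prod.smul_mk, Prod.mk_add_mk, mem_preimage] at this ⊢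
  convert this using 2
  rw [← add_smul, hab, one_smul]

theorem convex_shadow {K : Set ((ℝ × ℝ) × ℝ)} (hK : Convex ℝ K) :
    Convex ℝ (Prod.fst '' K) :=
  hK.linear_image (LinearMap.fst ℝ (ℝ × ℝ) ℝ)

theorem chord_concave {K : Set ((ℝ × ℝ) × ℝ)} (hK : Convex ℝ K)
    (hKb : Bornology.IsBounded K) : ConcaveOn ℝ (Prod.fst '' K) (chord K) := by
  refine ⟨convex_shadow hK, ?_⟩
  rintro _ ⟨p, hp, rfl⟩ _ ⟨q, hq, rfl⟩ a b ha hb hab
  obtain ⟨R, _, hR⟩ := fiber_bound hKb
  have hne1 : (Prod.mk p.1 ⁻¹' K).Nonempty := ⟨p.2, by simpa using hp⟩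
  have hne2 : (Prod.mk q.1 ⁻¹' K).Nonempty := ⟨q.2, by simpa using hq⟩
  have hS1 : BddBelow (Prod.mk p.1 ⁻¹' K) := ⟨-R, fun t ht => (hR _ ht).1⟩
  have hS2 : BddAbove (Prod.mk p.1 ⁻¹' K) := ⟨R, fun t ht => (hR _ ht).2⟩
  have hT1 : BddBelow (Prod.mk q.1 ⁻¹' K) := ⟨-R, fun t ht => (hR _ ht).1⟩
  have hT2 : BddAbove (Prod.mk q.1 ⁻¹' K) := ⟨R, fun t ht => (hR _ ht).2⟩
  have key := volume_convex_combo_le (U := Prod.mk (a • p.1 + b • q.1) ⁻¹' K)
    (convex_fiber hK p.1) (convex_fiber hK q.1) hne1 hne2 hS1 hS2 hT1 hT2 ha hb (by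
      intro u hu v hv
      have := hK hu hv ha hb hab
      simpa using this)
  rw [← ofReal_chord hKb, ← ofReal_chord hKb, ← ofReal_chord hKb,
    ← ENNReal.ofReal_mul ha, ← ENNReal.ofReal_mul hb,
    ← ENNReal.ofReal_add (mul_nonneg ha (chord_nonneg _ _))
      (mul_nonneg hb (chord_nonneg _ _))] at key
  simpa using (ENNReal.ofReal_le_ofReal_iff (chord_nonneg _ _)).1 key

theorem volume_over {K : Set ((ℝ × ℝ) × ℝ)} (hKm : MeasurableSet K) (hKb : Bornology.IsBounded K)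
    {B : Set (ℝ × ℝ)} (hB : MeasurableSet B) :
    volume (K ∩ Prod.fst ⁻¹' B) = ∫⁻ y in B, ENNReal.ofReal (chord K y) := by
  have hm : MeasurableSet (K ∩ Prod.fst ⁻¹' B) := hKm.inter (measurable_fst hB)
  rw [Measure.volume_eq_prod, Measure.prod_apply hm, ← lintegral_indicator hB]
  apply lintegral_congr
  intro y
  by_cases hy : y ∈ B
  · rw [indicator_of_mem hy, ofReal_chord hKb]
    congr 1
    ext t
    simp [hy]
  · rw [indicator_of_notMem hy]
    have : Prod.mk y ⁻¹' (K ∩ Prod.fst ⁻¹' B) = ∅ := by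
      ext t; simp [hy]
    rw [this]; simp

theorem volume_eq_shadow {K : Set ((ℝ × ℝ) × ℝ)} (hK : IsCompact K) :
    volume K = ∫⁻ y in Prod.fst '' K, ENNReal.ofReal (chord K y) := by
  have hDm : MeasurableSet (Prod.fst '' K) := (hK.image continuous_fst).isClosed.measurableSet
  rw [← volume_over hK.isClosed.measurableSet hK.isBounded hDm]
  congr 1
  ext p
  constructor
  · intro hp; exact ⟨hp, ⟨p, hp, rfl⟩⟩
  · intro hp; exact hp.1

/-- The sharp volume bound for the part of a convex body over an arbitrary planar set. -/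
theorem core_bound {K : Set ((ℝ × ℝ) × ℝ)} (hK : IsCompact K) (hc : Convex ℝ K)
    (hpos : 0 < volume K) (B : Set (ℝ × ℝ)) :
    (volume (K ∩ Prod.fst ⁻¹' B)).toReal
      ≤ (3 * ((volume (B ∩ Prod.fst '' K)).toReal / (volume (Prod.fst '' K)).toReal)
          - 2 * ((volume (B ∩ Prod.fst '' K)).toReal / (volume (Prod.fst '' K)).toReal)
            * √((volume (B ∩ Prod.fst '' K)).toReal / (volume (Prod.fst '' K)).toReal))
        * (volume K).toReal := by
  set D := Prod.fst '' K with hD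
  have hDcomp : IsCompact D := hK.image continuous_fst
  have hDm : MeasurableSet D := hDcomp.isClosed.measurableSet
  have hKm : MeasurableSet K := hK.isClosed.measurableSet
  have hKb := hK.isBounded
  have hVeq := volume_eq_shadow hK
  have hDpos : 0 < volume D := by
    rcases eq_or_lt_of_le (show 0 ≤ volume D from zero_le) with h | h
    · exfalso
      rw [hVeq, setLIntegral_measure_zero _ _ h.symm] at hpos
      exact lt_irrefl _ hpos
    · exact h
  obtain ⟨R, hR0, hR⟩ := fiber_bound hKb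
  -- a measurable hull of `B ∩ D` inside `D`
  set B' := toMeasurable volume (B ∩ D) ∩ D with hB'
  have hB'm : MeasurableSet B' := (measurableSet_toMeasurable _ _).inter hDm
  have hB'D : B' ⊆ D := inter_subset_right
  have hsub : B ∩ D ⊆ B' := subset_inter (subset_toMeasurable _ _) inter_subset_right
  have hvol : volume B' = volume (B ∩ D) := by
    apply le_antisymm
    · calc volume B' ≤ volume (toMeasurable volume (B ∩ D)) := measure_mono inter_subset_left
        _ = volume (B ∩ D) := measure_toMeasurable _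
    · exact measure_mono hsub
  have hmain := concave_part_bound (chord_concave hc hKb) hDm hDcomp.isBounded hDpos
    (chord_measurable hKm) (fun y _ => chord_nonneg K y) (fun y _ => chord_le hR0 hR y) hB'D
  rw [hvol, ← hVeq, ← volume_over hKm hKb hB'm] at hmain
  refine le_trans ?_ hmain
  apply ENNReal.toReal_mono
  · exact ne_top_of_le_ne_top hKb.measure_lt_top.ne (measure_mono inter_subset_left)
  · apply measure_mono
    rintro p ⟨hp, hpB⟩
    exact ⟨hp, hsub ⟨hpB, ⟨p, hp, rfl⟩⟩⟩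

end Vale.Agent.P243
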