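import Mathlib

/-!
Definitions for cylinder coverings in Euclidean three-space.
Areas are measured by Mathlib's `Measure.euclideanHausdorffMeasure 2`,
the two-dimensional Euclidean Hausdorff measure, which agrees with planar Lebesgue measure.
-/

namespace Vale.Agent.P243

/-- Euclidean three-space. -/
abbrev E3 : Type := EuclideanSpace ℝ (Fin 3)

/-- Two-dimensional Euclidean area of a subset of three-space. -/
noncomputable def area (S : Set E3) : ENNReal :=
  MeasureTheory.Measure.euclideanHausdorffMeasure 2 S

/-- The plane through the origin perpendicular to `u`. -/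
def plane (u : E3) : Set E3 := {x | inner ℝ u x = 0}

/-- The orthogonal projection onto the plane perpendicular to the unit vector `u`. -/
noncomputable def proj (u x : E3) : E3 := x - (inner ℝ u x) • u

/-- The orthogonal projection of `K` onto the plane perpendicular to the unit vector `u`. -/
noncomputable def shadow (u : E3) (K : Set E3) : Set E3 := proj u '' K

/-- The cylinder `B + ℝ u`. -/
def cylinder (u : E3) (B : Set E3) : Set E3 := {x | ∃ b ∈ B, ∃ t : ℝ, x = b + t • u}

/-- The relative area `|B ∩ π K| / |π K|` of a base `B`, where `π` is the orthogonal projection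
onto the plane perpendicular to `u`. -/
noncomputable def relArea (K : Set E3) (u : E3) (B : Set E3) : ℝ :=
  (area (B ∩ shadow u K)).toReal / (area (shadow u K)).toReal

/-- A convex body: a compact convex set with nonempty interior. -/
def IsConvexBody (K : Set E3) : Prop := IsCompact K ∧ Convex ℝ K ∧ (interior K).Nonempty

/-- The `u i` are unit vectors, each `B i` lies in the plane perpendicular to `u i`, and the
cylinders `B i + ℝ u i` cover `K`. -/
def CylinderCover {m : ℕ} (K : Set E3) (u : Fin m → E3) (B : Fin m → Set E3) : Prop :=
  (∀ i, ‖u i‖ = 1) ∧ (∀ i, B i ⊆ plane (u i)) ∧ K ⊆ ⋃ i, cylinder (u i) (B i)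

end Vale.Agent.P243
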