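import Vale.Agent.Lib.P243Core
import Vale.Agent.Lib.P243Defs

/-!
Transfer of the coordinate bound to cylinders in Euclidean three-space.
-/

namespace Vale.Agent.P243

open MeasureTheory Set Module

/-- The plane through the origin perpendicular to `u`, as a submodule. -/
noncomputable abbrev perp (u : E3) : Submodule ℝ E3 := (Submodule.span ℝ {u})ᗮ

/-- The orthogonal projection of `K` onto the plane perpendicular to `u`, in that plane. -/
noncomputable def shadowP (u : E3) (K : Set E3) : Set (perp u) :=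
  (perp u).orthogonalProjectionOnto '' K

/-- The cylinder over a base in the plane perpendicular to `u`. -/
def cylinderP (u : E3) (B : Set (perp u)) : Set E3 :=
  {x | ∃ b ∈ B, ∃ t : ℝ, x = (b : E3) + t • u}

/-- A continuous linear equivalence scales the volume by a positive constant. -/
theorem image_volume {E F : Type*} [NormedAddCommGroup E] [NormedSpace ℝ E]
    [NormedAddCommGroup F] [NormedSpace ℝ F] [MeasureSpace E] [MeasureSpace F]
    [BorelSpace E] [BorelSpace F] [FiniteDimensional ℝ E] [FiniteDimensional ℝ F]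
    [(volume : Measure E).IsAddHaarMeasure] [(volume : Measure F).IsAddHaarMeasure]
    (e : E ≃L[ℝ] F) :
    ∃ c : ℝ, 0 < c ∧ ∀ S : Set E, (volume (e '' S)).toReal = c * (volume S).toReal := by
  have : ProperSpace E := FiniteDimensional.proper_real E
  have : SecondCountableTopology E := secondCountable_of_proper
  set μ' : Measure E := Measure.map e.symm (volume : Measure F) with hμ'
  have : μ'.IsAddHaarMeasure := e.symm.isAddHaarMeasure_map _
  have hsm := Measure.isAddLeftInvariant_eq_smul μ' (volume : Measure E)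
  set c := Measure.addHaarScalarFactor μ' (volume : Measure E) with hc
  have hcpos : 0 < c := Measure.addHaarScalarFactor_pos_of_isAddHaarMeasure μ' _
  refine ⟨(c : ℝ), by exact_mod_cast hcpos, fun S => ?_⟩
  have h1 : volume (e '' S) = μ' S := by
    rw [hμ']
    have h2 : (e.symm : F → E) = e.symm.toHomeomorph.toMeasurableEquiv := rfl
    rw [h2, MeasurableEquiv.map_apply]
    congr 1
    ext y
    simp [mem_preimage, mem_image]
    constructor
    · rintro ⟨x, hx, rfl⟩; simpa using hx
    · intro h; exact ⟨e.symm y, h, by simp⟩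
  rw [h1, hsm]
  simp [ENNReal.toReal_mul]

section perpendicular

variable {u : E3}

instance : Fact (finrank ℝ E3 = 2 + 1) := ⟨by simp⟩

theorem finrank_perp (hu : ‖u‖ = 1) : finrank ℝ (perp u) = 2 := by
  have hu0 : u ≠ 0 := by
    intro h; rw [h] at hu; simp at hu
  exact Submodule.finrank_orthogonal_span_singleton (n := 2) hu0

/-- A linear identification of the plane perpendicular to `u` with `ℝ × ℝ`. -/
noncomputable def perpEquiv (hu : ‖u‖ = 1) : perp u ≃L[ℝ] (ℝ × ℝ) :=
  (LinearEquiv.ofFinrankEq (perp u) (ℝ × ℝ) (by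
    rw [finrank_perp hu]; simp)).toContinuousLinearEquiv

theorem proj_decomp (hu : ‖u‖ = 1) (x : E3) :
    x = ((perp u).orthogonalProjectionOnto x : E3) + (inner ℝ u x) • u := by
  have h1 := Submodule.starProjection_add_starProjection_orthogonal (K := Submodule.span ℝ {u}) x
  rw [Submodule.starProjection_unit_singleton ℝ hu] at h1
  rw [Submodule.starProjection_apply] at h1
  rw [add_comm] at h1
  exact h1.symm

theorem proj_mem (w : perp u) : (perp u).orthogonalProjectionOnto (w : E3) = w :=
  Submodule.orthogonalProjectionOnto_mem_subspace_eq_self w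

theorem proj_u : (perp u).orthogonalProjectionOnto u = 0 :=
  Submodule.orthogonalProjectionOnto_orthogonalComplement_singleton_eq_zero u

theorem inner_perp (w : perp u) : inner ℝ u (w : E3) = 0 := by
  have := w.2
  rw [Submodule.mem_orthogonal_singleton_iff_inner_right] at this
  exact this

theorem mem_cylinder_iff (hu : ‖u‖ = 1) (B : Set (perp u)) (x : E3) :
    x ∈ cylinderP u B ↔ (perp u).orthogonalProjectionOnto x ∈ B := by
  constructor
  · rintro ⟨b, hb, t, rfl⟩
    simp only [map_add, map_smul, proj_mem, proj_u, smul_zero, add_zero]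
    exact hb
  · intro h
    exact ⟨_, h, _, proj_decomp hu x⟩

/-- The linear coordinates `x ↦ (ψ (π x), ⟪u, x⟫)` on three-space. -/
noncomputable def coordEquiv (hu : ‖u‖ = 1) : E3 ≃L[ℝ] ((ℝ × ℝ) × ℝ) :=
  (LinearEquiv.ofLinearMap
    (((perpEquiv hu : perp u →L[ℝ] (ℝ × ℝ)).comp
        (perp u).orthogonalProjectionOnto).toLinearMap.prod (innerSL ℝ u).toLinearMap)
    ((((perp u).subtypeL.toLinearMap).comp
        ((perpEquiv hu).symm : (ℝ × ℝ) →L[ℝ] perp u).toLinearMap).coprod
      (LinearMap.toSpanSingleton ℝ E3 u))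
    (by
      apply LinearMap.ext
      rintro ⟨p, t⟩
      simp [LinearMap.toSpanSingleton_apply, inner_add_right, inner_smul_right, inner_perp, proj_u,
        hu])
    (by
      apply LinearMap.ext
      intro x
      simpa [LinearMap.toSpanSingleton_apply] using (proj_decomp hu x).symm)).toContinuousLinearEquiv

theorem coordEquiv_fst (hu : ‖u‖ = 1) (x : E3) :
    (coordEquiv hu x).1 = perpEquiv hu ((perp u).orthogonalProjectionOnto x) := rfl

end perpendicular

/-- The sharp volume bound for the part of a convex body in a cylinder. -/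
theorem cylinder_bound {K : Set E3} (hK : IsCompact K) (hc : Convex ℝ K) (hpos : 0 < volume K)
    {u : E3} (hu : ‖u‖ = 1) (B : Set (perp u)) :
    (volume (K ∩ cylinderP u B)).toReal
      ≤ (3 * ((volume (B ∩ shadowP u K)).toReal / (volume (shadowP u K)).toReal)
          - 2 * ((volume (B ∩ shadowP u K)).toReal / (volume (shadowP u K)).toReal)
            * √((volume (B ∩ shadowP u K)).toReal / (volume (shadowP u K)).toReal))
        * (volume K).toReal := by
  have : (volume : Measure ((ℝ × ℝ) × ℝ)).IsAddHaarMeasure := Measure.prod.instIsAddHaarMeasure _ _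
  obtain ⟨c₁, hc₁, hΨ⟩ := image_volume (coordEquiv hu)
  obtain ⟨c₂, hc₂, hψ⟩ := image_volume (perpEquiv hu)
  set Ψ := coordEquiv hu with hΨdef
  set ψ := perpEquiv hu with hψdef
  set K' := (Ψ : E3 → (ℝ × ℝ) × ℝ) '' K with hK'
  have hK'comp : IsCompact K' := hK.image Ψ.continuous
  have hK'conv : Convex ℝ K' := hc.linear_image (Ψ : E3 →ₗ[ℝ] (ℝ × ℝ) × ℝ)
  have hVfin : volume K ≠ ⊤ := hK.isBounded.measure_lt_top.ne
  have hVpos : 0 < (volume K).toReal := ENNReal.toReal_pos hpos.ne' hVfin
  have hK'pos : 0 < volume K' := by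
    have h1 : 0 < (volume K').toReal := by
      rw [hK', hΨ]; positivity
    exact ENNReal.toReal_pos_iff.1 h1 |>.1
  have hshadow : Prod.fst '' K' = (ψ : perp u → ℝ × ℝ) '' shadowP u K := by
    ext p
    constructor
    · rintro ⟨_, ⟨x, hx, rfl⟩, rfl⟩
      exact ⟨_, ⟨x, hx, rfl⟩, (coordEquiv_fst hu x).symm⟩
    · rintro ⟨_, ⟨x, hx, rfl⟩, rfl⟩
      exact ⟨_, ⟨x, hx, rfl⟩, coordEquiv_fst hu x⟩
  have hinter : (ψ : perp u → ℝ × ℝ) '' B ∩ Prod.fst '' K'
      = (ψ : perp u → ℝ × ℝ) '' (B ∩ shadowP u K) := by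
    rw [hshadow, image_inter ψ.injective]
  have hcyl : K' ∩ Prod.fst ⁻¹' ((ψ : perp u → ℝ × ℝ) '' B)
      = (Ψ : E3 → (ℝ × ℝ) × ℝ) '' (K ∩ cylinderP u B) := by
    ext p
    constructor
    · rintro ⟨⟨x, hx, rfl⟩, hB⟩
      refine ⟨x, ⟨hx, ?_⟩, rfl⟩
      rw [mem_cylinder_iff hu]
      obtain ⟨b, hb, hbe⟩ := hB
      have h1 : ψ b = ψ ((perp u).orthogonalProjectionOnto x) := hbe
      rw [← ψ.injective h1]
      exact hb
    · rintro ⟨x, ⟨hx, hxB⟩, rfl⟩
      refine ⟨⟨x, hx, rfl⟩, ?_⟩
      rw [mem_cylinder_iff hu] at hxB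
      exact ⟨_, hxB, (coordEquiv_fst hu x).symm⟩
  have hcore := core_bound hK'comp hK'conv hK'pos ((ψ : perp u → ℝ × ℝ) '' B)
  rw [hinter, hshadow, hcyl, hΨ, hψ, hψ, hK', hΨ, mul_div_mul_left _ _ hc₂.ne'] at hcore
  set g := 3 * ((volume (B ∩ shadowP u K)).toReal / (volume (shadowP u K)).toReal)
          - 2 * ((volume (B ∩ shadowP u K)).toReal / (volume (shadowP u K)).toReal)
            * √((volume (B ∩ shadowP u K)).toReal / (volume (shadowP u K)).toReal)
  have h3 : c₁ * (volume (K ∩ cylinderP u B)).toReal ≤ c₁ * (g * (volume K).toReal) := by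
    calc c₁ * (volume (K ∩ cylinderP u B)).toReal ≤ g * (c₁ * (volume K).toReal) := hcore
      _ = c₁ * (g * (volume K).toReal) := by ring
  exact le_of_mul_le_mul_left h3 hc₁

end Vale.Agent.P243
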