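import Vale.Agent.Lib.P243BM

/-!
The sharp bound for integrals of a concave function over a subset of a planar convex set,
via level sets and the planar Brunn-Minkowski inequality.
-/

namespace Vale.Agent.P243

open MeasureTheory Set

/-- Level sets of a function on a planar set. -/
def lvl (D : Set (ℝ × ℝ)) (f : ℝ × ℝ → ℝ) (t : ℝ) : Set (ℝ × ℝ) := {y | y ∈ D ∧ t ≤ f y}

theorem lvl_measurable {D : Set (ℝ × ℝ)} {f : ℝ × ℝ → ℝ} (hDm : MeasurableSet D)
    (hfm : Measurable f) (t : ℝ) : MeasurableSet (lvl D f t) :=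
  hDm.inter (measurableSet_le measurable_const hfm)

theorem lvl_subset (D : Set (ℝ × ℝ)) (f : ℝ × ℝ → ℝ) (t : ℝ) : lvl D f t ⊆ D := fun _ h => h.1

theorem lvl_bounded {D : Set (ℝ × ℝ)} (f : ℝ × ℝ → ℝ) (hDb : Bornology.IsBounded D) (t : ℝ) :
    Bornology.IsBounded (lvl D f t) := hDb.subset (lvl_subset D f t)

theorem lvl_convex {D : Set (ℝ × ℝ)} {f : ℝ × ℝ → ℝ} (hfc : ConcaveOn ℝ D f) (t : ℝ) :
    Convex ℝ (lvl D f t) := hfc.convex_ge t

theorem lvl_bm {D : Set (ℝ × ℝ)} {f : ℝ × ℝ → ℝ} (hDm : MeasurableSet D)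
    (hDb : Bornology.IsBounded D) (hDne : D.Nonempty) (hfm : Measurable f)
    (hf0 : ∀ y ∈ D, 0 ≤ f y) (hfc : ConcaveOn ℝ D f) {t₁ t₂ : ℝ} (h1 : 0 ≤ t₁) (h12 : t₁ ≤ t₂)
    (h2 : 0 < t₂) (hne : (lvl D f t₂).Nonempty) :
    (1 - t₁ / t₂) * √(volume D).toReal + (t₁ / t₂) * √(volume (lvl D f t₂)).toReal
      ≤ √(volume (lvl D f t₁)).toReal := by
  have hb0 : 0 ≤ t₁ / t₂ := div_nonneg h1 h2.le
  have ha0 : 0 ≤ 1 - t₁ / t₂ := by rw [sub_nonneg, div_le_one h2]; exact h12
  apply planar_bm hfc.1 (lvl_convex hfc t₂) hDm (lvl_measurable hDm hfm _)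
    (lvl_measurable hDm hfm _) hDb (lvl_bounded f hDb _) (lvl_bounded f hDb _) hDne hne
    ha0 hb0 (by ring)
  intro p hp q hq
  refine ⟨hfc.1 hp hq.1 ha0 hb0 (by ring), ?_⟩
  have := hfc.2 hp hq.1 ha0 hb0 (by ring)
  refine le_trans ?_ this
  simp only [smul_eq_mul]
  have h3 : t₁ / t₂ * t₂ = t₁ := by field_simp
  have h4 : t₁ / t₂ * f q ≥ t₁ / t₂ * t₂ := by
    apply mul_le_mul_of_nonneg_left hq.2 hb0
  have h5 : 0 ≤ (1 - t₁ / t₂) * f p := mul_nonneg ha0 (hf0 p hp)
  linarith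

/-- Layer cake for a function on `D`. -/
theorem V_eq {D : Set (ℝ × ℝ)} {f : ℝ × ℝ → ℝ} (hDm : MeasurableSet D) (hfm : Measurable f)
    (hf0 : ∀ y ∈ D, 0 ≤ f y) :
    ∫⁻ y in D, ENNReal.ofReal (f y) = ∫⁻ t in Ioi (0:ℝ), volume (lvl D f t) := by
  rw [lintegral_eq_lintegral_meas_le (volume.restrict D)
    ((ae_restrict_iff' hDm).2 (Filter.Eventually.of_forall fun y hy => hf0 y hy))
    hfm.aemeasurable]
  apply setLIntegral_congr_fun measurableSet_Ioi
  intro t _
  show (volume.restrict D) {a | t ≤ f a} = volume (lvl D f t)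
  rw [Measure.restrict_apply (measurableSet_le measurable_const hfm)]
  congr 1
  ext y
  constructor
  · rintro ⟨h1, h2⟩; exact ⟨h2, h1⟩
  · rintro ⟨h1, h2⟩; exact ⟨h2, h1⟩

theorem lvl_antitone_measure (D : Set (ℝ × ℝ)) (f : ℝ × ℝ → ℝ) :
    Antitone fun t => volume (lvl D f t) := by
  intro s t hst
  apply measure_mono
  intro y hy
  exact ⟨hy.1, hst.trans hy.2⟩

/-- Layer cake for the positive part above level `c`. -/
theorem I_eq {D : Set (ℝ × ℝ)} {f : ℝ × ℝ → ℝ} (hfm : Measurable f)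
    (c : ℝ) :
    ∫⁻ y in D, ENNReal.ofReal (f y - c) = ∫⁻ t in Ioi c, volume (lvl D f t) := by
  have hk : Measurable fun y => max (f y - c) 0 := (hfm.sub_const c).max measurable_const
  have h1 : ∫⁻ y in D, ENNReal.ofReal (f y - c)
      = ∫⁻ y in D, ENNReal.ofReal (max (f y - c) 0) := by
    apply lintegral_congr
    intro y
    rcases le_total (f y - c) 0 with h | h
    · rw [max_eq_right h, ENNReal.ofReal_of_nonpos h]; simp
    · rw [max_eq_left h]
  rw [h1, lintegral_eq_lintegral_meas_le (f := fun y => max (f y - c) 0) (volume.restrict D)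
    (Filter.Eventually.of_forall fun y => le_max_right _ _) hk.aemeasurable]
  have h2 : ∫⁻ t in Ioi (0:ℝ), (volume.restrict D) {a | t ≤ max (f a - c) 0}
      = ∫⁻ t in Ioi (0:ℝ), volume (lvl D f (t + c)) := by
    apply setLIntegral_congr_fun measurableSet_Ioi
    intro t ht
    show (volume.restrict D) {a | t ≤ max (f a - c) 0} = volume (lvl D f (t + c))
    rw [Measure.restrict_apply (measurableSet_le measurable_const hk)]
    congr 1
    ext y
    have ht' : (0:ℝ) < t := ht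
    constructor
    · rintro ⟨h3, h4⟩
      refine ⟨h4, ?_⟩
      have h5 : t ≤ max (f y - c) 0 := h3
      rcases le_total (f y - c) 0 with h | h
      · rw [max_eq_right h] at h5; linarith
      · rw [max_eq_left h] at h5; linarith
    · rintro ⟨h3, h4⟩
      refine ⟨?_, h3⟩
      show t ≤ max (f y - c) 0
      exact le_max_of_le_left (by linarith)
  rw [h2]
  have hφ : Measurable fun t => volume (lvl D f t) := (lvl_antitone_measure D f).measurable
  have h3 := (measurePreserving_add_right (volume : Measure ℝ) c).setLIntegral_comp_preimage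
    (measurableSet_Ioi (a := c)) hφ
  rw [← h3]
  have h4 : (fun x => x + c) ⁻¹' Ioi c = Ioi (0:ℝ) := by
    ext x; simp
  rw [h4]

/-- Integral of the square of an affine function, in the needed form. -/
theorem lintegral_square {d κ p q : ℝ} (hd : 0 ≤ d) (hpq : p ≤ q) :
    ∫⁻ t in Ioc p q, ENNReal.ofReal (d * (1 - κ * t) ^ 2)
      = ENNReal.ofReal (d * ((q - κ * q ^ 2 + κ ^ 2 * q ^ 3 / 3)
          - (p - κ * p ^ 2 + κ ^ 2 * p ^ 3 / 3))) := by
  have hderiv : ∀ t ∈ uIcc p q, HasDerivAt (fun t => d * (t - κ * t ^ 2 + κ ^ 2 * t ^ 3 / 3))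
      (d * (1 - κ * t) ^ 2) t := by
    intro t _
    have h1 : HasDerivAt (fun t : ℝ => t - κ * t ^ 2 + κ ^ 2 * t ^ 3 / 3)
        (1 - κ * (2 * t) + κ ^ 2 * (3 * t ^ 2) / 3) t := by
      have ht2 : HasDerivAt (fun t : ℝ => t ^ 2) (2 * t) t := by
        simpa using hasDerivAt_pow 2 t
      have ht3 : HasDerivAt (fun t : ℝ => t ^ 3) (3 * t ^ 2) t := by
        simpa using hasDerivAt_pow 3 t
      exact ((hasDerivAt_id t).sub (ht2.const_mul κ)).add
        ((ht3.const_mul (κ ^ 2)).div_const 3)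
    have h2 := h1.const_mul d
    have h3 : d * (1 - κ * (2 * t) + κ ^ 2 * (3 * t ^ 2) / 3) = d * (1 - κ * t) ^ 2 := by ring
    rw [h3] at h2
    exact h2
  have hcont : Continuous fun t : ℝ => d * (1 - κ * t) ^ 2 := by fun_prop
  have hint := intervalIntegral.integral_eq_sub_of_hasDerivAt hderiv
    (hcont.intervalIntegrable p q)
  rw [intervalIntegral.integral_of_le hpq] at hint
  rw [← ofReal_integral_eq_lintegral_ofReal (hcont.integrableOn_Ioc)
    (Filter.Eventually.of_forall fun t => by positivity), hint]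
  rw [mul_sub]


theorem tail_algebra {d V I c x σ : ℝ} (hd : 0 < d) (hV : 0 ≤ V)
    (hx0 : 0 ≤ x) (hσ0 : 0 ≤ σ) (hσ1 : σ < 1)
    (hc : c = 3 * (V / d) * (1 - σ)) (hL : d * (c * (1 + x + x ^ 2) / 3) + I ≤ V)
    (hU : x < 1 → I * (3 * (1 - x)) ≤ d * c * x ^ 3) : I ≤ V * σ ^ 3 := by
  have hdc : d * c = 3 * V * (1 - σ) := by rw [hc]; field_simp
  rcases le_or_gt σ x with h | h
  · have h1 : d * (c * (1 + x + x ^ 2) / 3) = V * ((1 - σ) * (1 + x + x ^ 2)) := by
      have : d * (c * (1 + x + x ^ 2) / 3) = (d * c) * (1 + x + x ^ 2) / 3 := by ring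
      rw [this, hdc]; ring
    rw [h1] at hL
    have h2 : (1 - σ) * (1 + σ + σ ^ 2) ≤ (1 - σ) * (1 + x + x ^ 2) := by
      apply mul_le_mul_of_nonneg_left _ (by linarith)
      nlinarith
    have h3 : V * ((1 - σ) * (1 + σ + σ ^ 2)) ≤ V * ((1 - σ) * (1 + x + x ^ 2)) :=
      mul_le_mul_of_nonneg_left h2 hV
    nlinarith
  · have hx : x < 1 := by linarith
    have h1 := hU hx
    rw [hdc] at h1
    have h2 : (1 - σ) * x ^ 3 ≤ (1 - x) * σ ^ 3 := by
      have h3 : x ^ 3 ≤ σ ^ 3 := pow_le_pow_left₀ hx0 h.le 3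
      have h4 : 1 - σ ≤ 1 - x := by linarith
      exact mul_le_mul h4 h3 (by positivity) (by linarith)
    have h5 : 3 * V * (1 - σ) * x ^ 3 ≤ 3 * V * ((1 - x) * σ ^ 3) := by
      have := mul_le_mul_of_nonneg_left h2 (mul_nonneg (by norm_num : (0:ℝ) ≤ 3) hV)
      nlinarith
    have h6 : 0 < 3 * (1 - x) := by linarith
    have h7 : I * (3 * (1 - x)) ≤ (V * σ ^ 3) * (3 * (1 - x)) := by nlinarith
    exact le_of_mul_le_mul_right h7 h6

section main

variable {D : Set (ℝ × ℝ)} {f : ℝ × ℝ → ℝ}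

theorem lvl_ne_top (hDb : Bornology.IsBounded D) (t : ℝ) : volume (lvl D f t) ≠ ⊤ :=
  (lvl_bounded f hDb t).measure_lt_top.ne

theorem V_ne_top (hDb : Bornology.IsBounded D) (hDm : MeasurableSet D) {M : ℝ}
    (hfb : ∀ y ∈ D, f y ≤ M) :
    ∫⁻ y in D, ENNReal.ofReal (f y) ≠ ⊤ := by
  have h1 : ∫⁻ y in D, ENNReal.ofReal (f y) ≤ ∫⁻ _ in D, ENNReal.ofReal M := by
    apply setLIntegral_mono' hDm
    intro y hy
    exact ENNReal.ofReal_le_ofReal (hfb y hy)
  rw [setLIntegral_const] at h1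
  exact ne_top_of_le_ne_top (ENNReal.mul_ne_top ENNReal.ofReal_ne_top hDb.measure_lt_top.ne) h1

/-- The main tail estimate. -/
theorem tail_bound (hDc : ConcaveOn ℝ D f) (hDm : MeasurableSet D)
    (hDb : Bornology.IsBounded D) (hDpos : 0 < volume D) (hfm : Measurable f)
    (hf0 : ∀ y ∈ D, 0 ≤ f y) {M : ℝ} (hfb : ∀ y ∈ D, f y ≤ M) {σ : ℝ} (hσ0 : 0 ≤ σ) (hσ1 : σ < 1)
    {c : ℝ} (hc : c = 3 * ((∫⁻ y in D, ENNReal.ofReal (f y)).toReal / (volume D).toReal) * (1 - σ)) :
    (∫⁻ y in D, ENNReal.ofReal (f y - c)).toReal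
      ≤ (∫⁻ y in D, ENNReal.ofReal (f y)).toReal * σ ^ 3 := by
  set V := ∫⁻ y in D, ENNReal.ofReal (f y) with hVdef
  set I := ∫⁻ y in D, ENNReal.ofReal (f y - c) with hIdef
  have hVne : V ≠ ⊤ := V_ne_top hDb hDm hfb
  set d := (volume D).toReal with hd
  have hdpos : 0 < d := ENNReal.toReal_pos hDpos.ne' hDb.measure_lt_top.ne
  have hDne : D.Nonempty := nonempty_of_measure_ne_zero hDpos.ne'
  have hV0 : 0 ≤ V.toReal := ENNReal.toReal_nonneg
  have hc0 : 0 ≤ c := by rw [hc]; have : 0 < 1 - σ := by linarith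
                         positivity
  have hVdec : V = (∫⁻ t in Ioc (0:ℝ) c, volume (lvl D f t)) + ∫⁻ t in Ioi c, volume (lvl D f t) := by
    rw [hVdef, V_eq hDm hfm hf0, ← Ioc_union_Ioi_eq_Ioi hc0,
      lintegral_union measurableSet_Ioi
        (disjoint_left.2 fun x hx hx' => absurd hx.2 (not_le.2 hx'))]
  have hIeq : I = ∫⁻ t in Ioi c, volume (lvl D f t) := I_eq hfm c
  have hIleV : I ≤ V := by
    rw [hVdec, hIeq]; exact le_add_self
  have hIne : I ≠ ⊤ := ne_top_of_le_ne_top hVne hIleV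
  rcases eq_or_lt_of_le hc0 with hc00 | hcpos
  · -- then V = 0
    have hV00 : V.toReal = 0 := by
      have h1 : 0 < 1 - σ := by linarith
      have h2 : V.toReal / d = 0 := by
        rw [hc] at hc00
        have : 3 * (V.toReal / d) * (1 - σ) = 0 := hc00.symm
        have h3 : 3 * (V.toReal / d) = 0 := by
          rcases mul_eq_zero.1 this with h | h
          · exact h
          · exact absurd h h1.ne'
        linarith
      rcases div_eq_zero_iff.1 h2 with h | h
      · exact h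
      · exact absurd h hdpos.ne'
    have : I.toReal ≤ V.toReal := ENNReal.toReal_mono hVne hIleV
    rw [hV00] at this ⊢
    simpa using this
  by_cases hEne : (lvl D f c).Nonempty
  swap
  · -- no points above level c
    have hI0 : I = 0 := by
      rw [hIeq]
      apply setLIntegral_eq_zero measurableSet_Ioi
      intro t ht
      show volume (lvl D f t) = 0
      have : lvl D f t = ∅ := by
        by_contra hne
        apply hEne
        obtain ⟨y, hy⟩ := nonempty_iff_ne_empty.2 hne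
        exact ⟨y, hy.1, le_trans (le_of_lt ht) hy.2⟩
      rw [this]; simp
    rw [hI0]
    simp only [ENNReal.toReal_zero]
    positivity
  -- the main case
  set A := fun t => (volume (lvl D f t)).toReal with hA
  have hofReal : ∀ t, ENNReal.ofReal (A t) = volume (lvl D f t) := fun t =>
    ENNReal.ofReal_toReal (lvl_ne_top hDb t)
  have hA0 : ∀ t, 0 ≤ A t := fun t => ENNReal.toReal_nonneg
  have hAled : A c ≤ d := ENNReal.toReal_mono hDb.measure_lt_top.ne
    (measure_mono (lvl_subset D f c))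
  set sd := √d with hsd
  have hsdpos : 0 < sd := Real.sqrt_pos.2 hdpos
  have hsdsq : sd ^ 2 = d := Real.sq_sqrt hdpos.le
  set x := √(A c) / sd with hx
  have hx0 : 0 ≤ x := by positivity
  have hx1 : x ≤ 1 := by
    rw [hx, div_le_one hsdpos]
    exact Real.sqrt_le_sqrt hAled
  have hxsd : √(A c) = x * sd := by rw [hx]; field_simp
  set κ := (1 - x) / c with hκ
  have hκc : κ * c = 1 - x := by rw [hκ]; field_simp
  have hκ0 : 0 ≤ κ := div_nonneg (by linarith) hcpos.le
  -- lower estimate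
  have hlow : ∀ t ∈ Ioc (0:ℝ) c, ENNReal.ofReal (d * (1 - κ * t) ^ 2) ≤ volume (lvl D f t) := by
    intro t ht
    rw [← hofReal t]
    apply ENNReal.ofReal_le_ofReal
    have hbm := lvl_bm hDm hDb hDne hfm hf0 hDc ht.1.le ht.2 hcpos hEne
    change (1 - t / c) * sd + (t / c) * √(A c) ≤ √(A t) at hbm
    rw [hxsd] at hbm
    have h1 : (1 - t / c) * sd + t / c * (x * sd) = sd * (1 - κ * t) := by
      rw [hκ]; field_simp; ring
    rw [h1] at hbm
    have h2 : 0 ≤ 1 - κ * t := by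
      have : κ * t ≤ κ * c := mul_le_mul_of_nonneg_left ht.2 hκ0
      rw [hκc] at this; linarith
    have h3 : (sd * (1 - κ * t)) ^ 2 ≤ A t := by
      have h4 := Real.sq_sqrt (hA0 t)
      rw [← h4]
      exact pow_le_pow_left₀ (by positivity) hbm 2
    rw [mul_pow, hsdsq] at h3
    exact h3
  have hL1 : ENNReal.ofReal (d * ((c - κ * c ^ 2 + κ ^ 2 * c ^ 3 / 3)
        - ((0:ℝ) - κ * (0:ℝ) ^ 2 + κ ^ 2 * (0:ℝ) ^ 3 / 3))) + I ≤ V := by
    rw [← lintegral_square hdpos.le hc0, hVdec, hIeq]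
    gcongr ?_ + _
    exact setLIntegral_mono' measurableSet_Ioc hlow
  have hQ1 : d * ((c - κ * c ^ 2 + κ ^ 2 * c ^ 3 / 3)
        - ((0:ℝ) - κ * (0:ℝ) ^ 2 + κ ^ 2 * (0:ℝ) ^ 3 / 3)) = d * (c * (1 + x + x ^ 2) / 3) := by
    have h1 : κ * c ^ 2 = (1 - x) * c := by rw [← hκc]; ring
    have h2 : κ ^ 2 * c ^ 3 = (1 - x) ^ 2 * c := by rw [← hκc]; ring
    rw [h1, h2]; ring
  rw [hQ1] at hL1
  have hL : d * (c * (1 + x + x ^ 2) / 3) + I.toReal ≤ V.toReal := by
    have hpos : 0 ≤ d * (c * (1 + x + x ^ 2) / 3) := by positivity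
    have := ENNReal.toReal_mono hVne hL1
    rwa [ENNReal.toReal_add ENNReal.ofReal_ne_top hIne, ENNReal.toReal_ofReal hpos] at this
  -- upper estimate
  have hU : x < 1 → I.toReal * (3 * (1 - x)) ≤ d * c * x ^ 3 := by
    intro hx1'
    have h1x : 0 < 1 - x := by linarith
    have hκpos : 0 < κ := div_pos h1x hcpos
    set t₀ := c / (1 - x) with ht₀
    have hκt₀ : κ * t₀ = 1 := by rw [hκ, ht₀]; field_simp
    have hct₀ : c ≤ t₀ := by
      rw [ht₀, le_div_iff₀ h1x]
      nlinarith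
    have hup : ∀ τ, c < τ → (lvl D f τ).Nonempty →
        0 ≤ 1 - κ * τ ∧ A τ ≤ d * (1 - κ * τ) ^ 2 := by
      intro τ hτ hne
      have hτpos : 0 < τ := hcpos.trans hτ
      have hbm := lvl_bm hDm hDb hDne hfm hf0 hDc hc0 hτ.le hτpos hne
      change (1 - c / τ) * sd + (c / τ) * √(A τ) ≤ √(A c) at hbm
      rw [hxsd] at hbm
      have hcτ : 0 < c / τ := div_pos hcpos hτpos
      have h2 : √(A τ) ≤ sd * (1 - κ * τ) := by
        have h3 : (c / τ) * √(A τ) ≤ (c / τ) * (sd * (1 - κ * τ)) := by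
          have h4 : (c / τ) * (sd * (1 - κ * τ)) = x * sd - (1 - c / τ) * sd := by
            rw [hκ]; field_simp; ring
          rw [h4]; linarith
        exact le_of_mul_le_mul_left h3 hcτ
      have h5 : 0 ≤ 1 - κ * τ := by
        have h6 : 0 ≤ sd * (1 - κ * τ) := le_trans (Real.sqrt_nonneg _) h2
        exact nonneg_of_mul_nonneg_right h6 hsdpos
      refine ⟨h5, ?_⟩
      have h7 := pow_le_pow_left₀ (Real.sqrt_nonneg _) h2 2
      rw [Real.sq_sqrt (hA0 τ), mul_pow, hsdsq] at h7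
      exact h7
    have hIle : I ≤ ENNReal.ofReal (d * ((t₀ - κ * t₀ ^ 2 + κ ^ 2 * t₀ ^ 3 / 3)
        - (c - κ * c ^ 2 + κ ^ 2 * c ^ 3 / 3))) := by
      rw [← lintegral_square hdpos.le hct₀, hIeq, ← Ioc_union_Ioi_eq_Ioi hct₀,
        lintegral_union measurableSet_Ioi
          (disjoint_left.2 fun x hx hx' => absurd hx.2 (not_le.2 hx'))]
      have hzero : ∫⁻ t in Ioi t₀, volume (lvl D f t) = 0 := by
        apply setLIntegral_eq_zero measurableSet_Ioi
        intro t ht
        show volume (lvl D f t) = 0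
        have hne : ¬ (lvl D f t).Nonempty := by
          intro hne
          have h1 := (hup t (lt_of_le_of_lt hct₀ ht) hne).1
          have h2 : κ * t₀ < κ * t := mul_lt_mul_of_pos_left ht hκpos
          rw [hκt₀] at h2
          linarith
        rw [not_nonempty_iff_eq_empty.1 hne]; simp
      rw [hzero, add_zero]
      apply setLIntegral_mono' measurableSet_Ioc
      intro τ hτ
      by_cases hne : (lvl D f τ).Nonempty
      · rw [← hofReal τ]
        exact ENNReal.ofReal_le_ofReal (hup τ hτ.1 hne).2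
      · rw [not_nonempty_iff_eq_empty.1 hne]; simp
    have hQ2 : d * ((t₀ - κ * t₀ ^ 2 + κ ^ 2 * t₀ ^ 3 / 3)
        - (c - κ * c ^ 2 + κ ^ 2 * c ^ 3 / 3)) = d * (c * x ^ 3 / (3 * (1 - x))) := by
      have h1 : κ * t₀ ^ 2 = t₀ := by rw [pow_two, ← mul_assoc, hκt₀, one_mul]
      have h2 : κ ^ 2 * t₀ ^ 3 = t₀ := by
        have : κ ^ 2 * t₀ ^ 3 = (κ * t₀) ^ 2 * t₀ := by ring
        rw [this, hκt₀]; ring
      have h3 : κ * c ^ 2 = (1 - x) * c := by rw [← hκc]; ring
      have h4 : κ ^ 2 * c ^ 3 = (1 - x) ^ 2 * c := by rw [← hκc]; ring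
      rw [h1, h2, h3, h4, ht₀]
      field_simp
      ring
    rw [hQ2] at hIle
    have hpos : 0 ≤ d * (c * x ^ 3 / (3 * (1 - x))) := by positivity
    have h5 := ENNReal.toReal_mono ENNReal.ofReal_ne_top hIle
    rw [ENNReal.toReal_ofReal hpos] at h5
    have h6 : 0 < 3 * (1 - x) := by linarith
    calc I.toReal * (3 * (1 - x)) ≤ d * (c * x ^ 3 / (3 * (1 - x))) * (3 * (1 - x)) :=
          mul_le_mul_of_nonneg_right h5 h6.le
      _ = d * c * x ^ 3 := by field_simp
  exact tail_algebra hdpos hV0 hx0 hσ0 hσ1 hc hL hU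

/-- The sharp bound for the integral of a concave function over a part of its domain. -/
theorem concave_part_bound (hDc : ConcaveOn ℝ D f) (hDm : MeasurableSet D)
    (hDb : Bornology.IsBounded D) (hDpos : 0 < volume D) (hfm : Measurable f)
    (hf0 : ∀ y ∈ D, 0 ≤ f y) {M : ℝ} (hfb : ∀ y ∈ D, f y ≤ M)
    {B : Set (ℝ × ℝ)} (hBD : B ⊆ D) :
    (∫⁻ y in B, ENNReal.ofReal (f y)).toReal
      ≤ (3 * ((volume B).toReal / (volume D).toReal)
          - 2 * ((volume B).toReal / (volume D).toReal) * √((volume B).toReal / (volume D).toReal))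
        * (∫⁻ y in D, ENNReal.ofReal (f y)).toReal := by
  set V := ∫⁻ y in D, ENNReal.ofReal (f y) with hVdef
  have hVne : V ≠ ⊤ := V_ne_top hDb hDm hfb
  have hVB : ∫⁻ y in B, ENNReal.ofReal (f y) ≤ V := lintegral_mono_set hBD
  have hVBne : ∫⁻ y in B, ENNReal.ofReal (f y) ≠ ⊤ := ne_top_of_le_ne_top hVne hVB
  set d := (volume D).toReal with hd
  have hdpos : 0 < d := ENNReal.toReal_pos hDpos.ne' hDb.measure_lt_top.ne
  set b := (volume B).toReal with hb
  have hb0 : 0 ≤ b := ENNReal.toReal_nonneg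
  have hbd : b ≤ d := ENNReal.toReal_mono hDb.measure_lt_top.ne (measure_mono hBD)
  set s := b / d with hs
  have hs0 : 0 ≤ s := by positivity
  have hs1 : s ≤ 1 := (div_le_one hdpos).2 hbd
  set σ := √s with hσ
  have hσ0 : 0 ≤ σ := Real.sqrt_nonneg _
  have hσ1 : σ ≤ 1 := by rw [hσ]; exact Real.sqrt_le_one.2 hs1
  have hσs : σ ^ 2 = s := Real.sq_sqrt hs0
  rcases eq_or_lt_of_le hσ1 with h1 | h1
  · have hs1' : s = 1 := by rw [← hσs, h1]; norm_num
    have h2 : (3 * s - 2 * s * σ) = 1 := by rw [hs1', h1]; norm_num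
    rw [h2, one_mul]
    exact ENNReal.toReal_mono hVne hVB
  · set c := 3 * (V.toReal / d) * (1 - σ) with hc
    have hc0 : 0 ≤ c := by
      have : 0 < 1 - σ := by linarith
      have hV0 : 0 ≤ V.toReal := ENNReal.toReal_nonneg
      positivity
    have htail := tail_bound hDc hDm hDb hDpos hfm hf0 hfb hσ0 h1 (c := c) hc
    set I := ∫⁻ y in D, ENNReal.ofReal (f y - c) with hI
    have hIne : I ≠ ⊤ := by
      refine ne_top_of_le_ne_top hVne ?_
      apply lintegral_mono
      intro y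
      exact ENNReal.ofReal_le_ofReal (by linarith)
    have hmain : ∫⁻ y in B, ENNReal.ofReal (f y) ≤ I + ENNReal.ofReal c * volume B := by
      calc ∫⁻ y in B, ENNReal.ofReal (f y)
          ≤ ∫⁻ y in B, (ENNReal.ofReal (f y - c) + ENNReal.ofReal c) := by
            apply lintegral_mono
            intro y
            have : f y = (f y - c) + c := by ring
            calc ENNReal.ofReal (f y) = ENNReal.ofReal ((f y - c) + c) := by rw [← this]
              _ ≤ _ := ENNReal.ofReal_add_le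
        _ = (∫⁻ y in B, ENNReal.ofReal (f y - c)) + ENNReal.ofReal c * volume B := by
            rw [lintegral_add_right _ measurable_const, setLIntegral_const]
        _ ≤ _ := by
            gcongr
            exact lintegral_mono_set hBD
    have hreal := ENNReal.toReal_mono
      (ENNReal.add_ne_top.2 ⟨hIne, ENNReal.mul_ne_top ENNReal.ofReal_ne_top
        (ne_top_of_le_ne_top hDb.measure_lt_top.ne (measure_mono hBD))⟩) hmain
    rw [ENNReal.toReal_add hIne (ENNReal.mul_ne_top ENNReal.ofReal_ne_top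
        (ne_top_of_le_ne_top hDb.measure_lt_top.ne (measure_mono hBD))),
      ENNReal.toReal_mul, ENNReal.toReal_ofReal hc0] at hreal
    refine hreal.trans ?_
    have hbs : b = s * d := by rw [hs]; field_simp
    have hcb : c * b = 3 * V.toReal * (1 - σ) * s := by
      rw [hc, hbs]; field_simp
    rw [hcb]
    rw [← hσs] at hcb ⊢
    calc I.toReal + 3 * V.toReal * (1 - σ) * σ ^ 2
        ≤ V.toReal * σ ^ 3 + 3 * V.toReal * (1 - σ) * σ ^ 2 := by gcongr
      _ = _ := by ring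

end main

end Vale.Agent.P243
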