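import Vale.Agent.Lib.P243Cyl

/-!
The refined volume inequality for finite cylinder coverings.
-/

namespace Vale.Agent.P243

open MeasureTheory Set Module

theorem relArea_nonneg (K : Set E3) (u : E3) (B : Set E3) : 0 ≤ relArea K u B := by
  unfold relArea; positivity

theorem tangent_ineq {s w : ℝ} (hs : 0 ≤ s) (hw : 0 ≤ w) :
    3 * s - 2 * s * √s ≤ 3 * (1 - w) * s + w ^ 3 := by
  set r := √s with hr
  have hr0 : 0 ≤ r := Real.sqrt_nonneg _
  have hrs : r ^ 2 = s := Real.sq_sqrt hs
  rw [← hrs]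
  have : 0 ≤ (r - w) ^ 2 * (2 * r + w) := by positivity
  nlinarith [this]

theorem area_subtype {u : E3} (hu : ‖u‖ = 1) (t : Set (perp u)) :
    area (Subtype.val '' t) = volume t := by
  unfold area
  have h1 : Isometry (Subtype.val : perp u → E3) := isometry_subtype_coe
  rw [h1.euclideanHausdorffMeasure_image t]
  have h2 := finrank_perp hu
  have h3 := InnerProductSpace.euclideanHausdorffMeasure_eq_volume (V := perp u)
  rw [h2] at h3
  rw [h3]

theorem coe_proj {u : E3} (hu : ‖u‖ = 1) (x : E3) :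
    ((perp u).orthogonalProjectionOnto x : E3) = proj u x := by
  have := proj_decomp hu x
  unfold proj
  exact eq_sub_of_add_eq this.symm

theorem shadow_eq {u : E3} (hu : ‖u‖ = 1) (K : Set E3) :
    shadow u K = Subtype.val '' shadowP u K := by
  ext y
  constructor
  · rintro ⟨x, hx, rfl⟩
    exact ⟨_, ⟨x, hx, rfl⟩, coe_proj hu x⟩
  · rintro ⟨_, ⟨x, hx, rfl⟩, rfl⟩
    exact ⟨x, hx, (coe_proj hu x).symm⟩

theorem mem_perp_of_plane {u b : E3} (hb : b ∈ plane u) : b ∈ perp u := by
  rw [Submodule.mem_orthogonal_singleton_iff_inner_right]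
  exact hb

theorem inter_shadow_eq {u : E3} (hu : ‖u‖ = 1) (K B : Set E3) :
    B ∩ shadow u K = Subtype.val '' ((Subtype.val ⁻¹' B : Set (perp u)) ∩ shadowP u K) := by
  rw [shadow_eq hu, image_inter Subtype.val_injective, image_preimage_eq_inter_range]
  rw [inter_assoc]
  congr 1
  have : Subtype.val '' shadowP u K ⊆ range (Subtype.val : perp u → E3) := image_subset_range _ _
  rw [inter_eq_self_of_subset_right this]

theorem relArea_eq {u : E3} (hu : ‖u‖ = 1) (K B : Set E3) :
    relArea K u B = (volume ((Subtype.val ⁻¹' B : Set (perp u)) ∩ shadowP u K)).toReal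
      / (volume (shadowP u K)).toReal := by
  unfold relArea
  rw [inter_shadow_eq hu, shadow_eq hu, area_subtype hu, area_subtype hu]

theorem cylinder_eq {u : E3} {B : Set E3} (hB : B ⊆ plane u) :
    cylinder u B = cylinderP u (Subtype.val ⁻¹' B) := by
  ext x
  constructor
  · rintro ⟨b, hb, t, rfl⟩
    exact ⟨⟨b, mem_perp_of_plane (hB hb)⟩, hb, t, rfl⟩
  · rintro ⟨b, hb, t, rfl⟩
    exact ⟨b, hb, t, rfl⟩

theorem cylinder_bound' {K : Set E3} (hK : IsCompact K) (hc : Convex ℝ K) (hpos : 0 < volume K)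
    {u : E3} (hu : ‖u‖ = 1) {B : Set E3} (hB : B ⊆ plane u) :
    (volume (K ∩ cylinder u B)).toReal
      ≤ (3 * relArea K u B - 2 * relArea K u B * √(relArea K u B)) * (volume K).toReal := by
  rw [relArea_eq hu, cylinder_eq hB]
  exact cylinder_bound hK hc hpos hu _

/-- Main inequality for a finite covering. -/
theorem sum_bound {K : Set E3} (hK : IsConvexBody K)
    {m : ℕ} {u : Fin m → E3} {B : Fin m → Set E3} (hcov : CylinderCover K u B) :
    1 ≤ ∑ i, (3 * relArea K (u i) (B i) - 2 * relArea K (u i) (B i) * √(relArea K (u i) (B i))) := by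
  obtain ⟨hKc, hc, hint⟩ := hK
  obtain ⟨hu, hB, hcov⟩ := hcov
  have hpos : 0 < volume K :=
    lt_of_lt_of_le (isOpen_interior.measure_pos volume hint) (measure_mono interior_subset)
  have hfin : volume K ≠ ⊤ := hKc.isBounded.measure_lt_top.ne
  have hVpos : 0 < (volume K).toReal := ENNReal.toReal_pos hpos.ne' hfin
  have h1 : volume K ≤ ∑ i, volume (K ∩ cylinder (u i) (B i)) := by
    have h2 : K ⊆ ⋃ i, K ∩ cylinder (u i) (B i) := by
      intro x hx
      obtain ⟨i, hi⟩ := mem_iUnion.1 (hcov hx)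
      exact mem_iUnion.2 ⟨i, hx, hi⟩
    exact (measure_mono h2).trans (measure_iUnion_fintype_le _ _)
  have hne : ∀ i, volume (K ∩ cylinder (u i) (B i)) ≠ ⊤ := fun i =>
    ne_top_of_le_ne_top hfin (measure_mono inter_subset_left)
  have h3 : (volume K).toReal ≤ ∑ i, (volume (K ∩ cylinder (u i) (B i))).toReal := by
    have := ENNReal.toReal_mono (ENNReal.sum_ne_top.2 fun i _ => hne i) h1
    rwa [ENNReal.toReal_sum fun i _ => hne i] at this
  have h4 : ∀ i, (volume (K ∩ cylinder (u i) (B i))).toReal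
      ≤ (3 * relArea K (u i) (B i) - 2 * relArea K (u i) (B i) * √(relArea K (u i) (B i)))
        * (volume K).toReal := fun i => cylinder_bound' hKc hc hpos (hu i) (hB i)
  have h5 := h3.trans (Finset.sum_le_sum fun i _ => h4 i)
  rw [← Finset.sum_mul] at h5
  rw [← one_mul (volume K).toReal] at h5
  exact le_of_mul_le_mul_right (by simpa using h5) hVpos

theorem tangent_bound {K : Set E3} (hK : IsConvexBody K)
    {m : ℕ} {u : Fin m → E3} {B : Fin m → Set E3} (hcov : CylinderCover K u B)
    {w : ℝ} (hw : 0 ≤ w) :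
    1 ≤ 3 * (1 - w) * (∑ i, relArea K (u i) (B i)) + m * w ^ 3 := by
  refine (sum_bound hK hcov).trans ?_
  calc ∑ i, (3 * relArea K (u i) (B i) - 2 * relArea K (u i) (B i) * √(relArea K (u i) (B i)))
      ≤ ∑ i, (3 * (1 - w) * relArea K (u i) (B i) + w ^ 3) :=
        Finset.sum_le_sum fun i _ => tangent_ineq (relArea_nonneg _ _ _) hw
    _ = _ := by
        rw [Finset.sum_add_distrib, ← Finset.mul_sum]
        simp

theorem half_bound {K : Set E3} (hK : IsConvexBody K)
    {m : ℕ} (hm : m ≤ 2) {u : Fin m → E3} {B : Fin m → Set E3} (hcov : CylinderCover K u B) :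
    1 / 2 ≤ ∑ i, relArea K (u i) (B i) := by
  have h := tangent_bound hK hcov (w := 1 / 2) (by norm_num)
  have hm' : (m : ℝ) ≤ 2 := by exact_mod_cast hm
  nlinarith

theorem area_shadow_ne_top {K : Set E3} (hK : IsCompact K) {u : E3} (hu : ‖u‖ = 1) :
    area (shadow u K) ≠ ⊤ := by
  rw [shadow_eq hu, area_subtype hu]
  have : IsCompact (shadowP u K) :=
    hK.image (Submodule.orthogonalProjectionOnto (perp u)).continuous
  exact this.measure_lt_top.ne

theorem area_mono {S T : Set E3} (h : S ⊆ T) : area S ≤ area T := measure_mono h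

/-- Bang's inequality for coverings by at most two cylinders. -/
theorem half_area {K : Set E3} (hK : IsConvexBody K)
    {m : ℕ} (hm : m ≤ 2) {u : Fin m → E3} {B : Fin m → Set E3} (hcov : CylinderCover K u B)
    {a : ENNReal} (ha : ∀ v : E3, ‖v‖ = 1 → a ≤ area (shadow v K)) :
    a / 2 ≤ ∑ i, area (B i) := by
  have hs := half_bound hK hm hcov
  rcases eq_or_lt_of_le (show (0 : ENNReal) ≤ a from zero_le) with ha0 | ha0
  · rw [← ha0]; simp
  have hne : Nonempty (Fin m) := by
    obtain ⟨x, hx⟩ := hK.2.2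
    obtain ⟨i, _⟩ := mem_iUnion.1 (hcov.2.2 (interior_subset hx))
    exact ⟨i⟩
  obtain ⟨i₀⟩ := hne
  have hfin : ∀ i, area (shadow (u i) K) ≠ ⊤ := fun i => area_shadow_ne_top hK.1 (hcov.1 i)
  have hafin : a ≠ ⊤ := ne_top_of_le_ne_top (hfin i₀) (ha _ (hcov.1 i₀))
  have hareal : 0 < a.toReal := ENNReal.toReal_pos ha0.ne' hafin
  by_cases htop : ∑ i, area (B i) = ⊤
  · rw [htop]; exact le_top
  have hBne : ∀ i, area (B i) ≠ ⊤ := by
    intro i h
    apply htop
    exact ENNReal.sum_eq_top.2 ⟨i, Finset.mem_univ _, h⟩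
  have hle : ∀ i, relArea K (u i) (B i) * a.toReal ≤ (area (B i)).toReal := by
    intro i
    unfold relArea
    have h1 : a.toReal ≤ (area (shadow (u i) K)).toReal :=
      ENNReal.toReal_mono (hfin _) (ha _ (hcov.1 i))
    have h2 : 0 < (area (shadow (u i) K)).toReal := lt_of_lt_of_le hareal h1
    have h3 : (area (B i ∩ shadow (u i) K)).toReal ≤ (area (B i)).toReal :=
      ENNReal.toReal_mono (hBne i) (area_mono inter_subset_left)
    have h4 : (area (B i ∩ shadow (u i) K)).toReal / (area (shadow (u i) K)).toReal * a.toReal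
        ≤ (area (B i ∩ shadow (u i) K)).toReal := by
      rw [div_mul_eq_mul_div, div_le_iff₀ h2]
      exact mul_le_mul_of_nonneg_left h1 ENNReal.toReal_nonneg
    exact h4.trans h3
  have hsum : 1 / 2 * a.toReal ≤ ∑ i, (area (B i)).toReal := by
    calc 1 / 2 * a.toReal ≤ (∑ i, relArea K (u i) (B i)) * a.toReal :=
          mul_le_mul_of_nonneg_right hs hareal.le
      _ = ∑ i, relArea K (u i) (B i) * a.toReal := Finset.sum_mul _ _ _
      _ ≤ _ := Finset.sum_le_sum fun i _ => hle i
  rw [← ENNReal.toReal_sum fun i _ => hBne i] at hsum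
  rw [← ENNReal.ofReal_toReal htop, ← ENNReal.ofReal_toReal hafin]
  rw [ENNReal.div_le_iff (by norm_num) (by norm_num)]
  have h2 : ENNReal.ofReal (∑ i, area (B i)).toReal * 2
      = ENNReal.ofReal ((∑ i, area (B i)).toReal * 2) := by
    rw [ENNReal.ofReal_mul ENNReal.toReal_nonneg]; simp
  rw [h2]
  apply ENNReal.ofReal_le_ofReal
  linarith

end Vale.Agent.P243
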